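import Crest.Agent.R181.ANoeth

/-! # Row 181 A: proof of `assemble_blocks` -/

set_option autoImplicit false

namespace Crest.Agent.R181

open MvPolynomial

/-- A left-linear evaluation of `D[p,q]`, multiplicative for right factors whose coefficients commute
with the evaluation points. -/
theorem asm_ev {D R : Type} [Ring D] [Ring R] (φ : D →+* R) (z : Fin 2 → R)
    (hz : Commute (z 0) (z 1)) :
    ∃ ev : DP D (Fin 2) →+ R, (∀ d, ev (AddMonoidAlgebra.single 0 d) = φ d) ∧
      ∀ (F : DP D (Fin 2)) (u : Fin 2 → D), (∀ i j, Commute (φ (u i)) (z j)) →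
        ev (F * lin u) = ev F * ∑ i, φ (u i) * z i := by
  refine ⟨AddMonoidAlgebra.liftNC (φ : D →+ R)
    (fun μ : Multiplicative (Fin 2 →₀ ℕ) => z 0 ^ (μ.toAdd 0) * z 1 ^ (μ.toAdd 1)), fun d => ?_, ?_⟩
  · simp
  · intro F u hu
    induction F using AddMonoidAlgebra.induction_linear with
    | zero => simp
    | add F G hF hG => rw [add_mul, map_add, hF, hG, map_add, add_mul]
    | single μ e =>
      have h0 : ∀ i, z 0 ^ μ 0 * z 1 ^ μ 1 * φ (u i) = φ (u i) * (z 0 ^ μ 0 * z 1 ^ μ 1) := fun i =>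
        (((hu i 0).pow_right _).mul_right ((hu i 1).pow_right _)).symm
      have h1 : z 0 ^ (μ 0 + 1) * z 1 ^ μ 1 = z 0 ^ μ 0 * z 1 ^ μ 1 * z 0 := by
        rw [pow_succ, mul_assoc, mul_assoc, (hz.pow_right _).eq]
      have h2 : z 0 ^ μ 0 * z 1 ^ (μ 1 + 1) = z 0 ^ μ 0 * z 1 ^ μ 1 * z 1 := by
        rw [pow_succ, mul_assoc]
      simp only [lin, Fin.sum_univ_two, mul_add, AddMonoidAlgebra.single_mul_single, map_add,
        AddMonoidAlgebra.liftNC_single, toAdd_ofAdd, Finsupp.add_apply, Finsupp.single_eq_same,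
        AddMonoidHom.coe_coe, map_mul]
      rw [Finsupp.single_eq_of_ne (by decide), Finsupp.single_eq_of_ne (by decide), add_zero,
        add_zero, h1, h2]
      congr 1
      · rw [mul_assoc (φ e), mul_assoc (φ e), ← mul_assoc (z 0 ^ μ 0 * z 1 ^ μ 1) (φ (u 0)), h0,
          mul_assoc (φ (u 0))]
      · rw [mul_assoc (φ e), mul_assoc (φ e), ← mul_assoc (z 0 ^ μ 0 * z 1 ^ μ 1) (φ (u 1)), h0,
          mul_assoc (φ (u 1))]

theorem asm_lin_single {D : Type} [Ring D] {n : ℕ} (i : Fin n) :
    lin (Pi.single i (1 : D)) = AddMonoidAlgebra.single (Finsupp.single i 1) 1 := by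
  rw [lin, Finset.sum_eq_single i]
  · rw [Pi.single_eq_same]
  · intro j _ hj
    rw [Pi.single_eq_of_ne hj, AddMonoidAlgebra.single_zero]
  · simp

theorem asm_lin_sum {D W : Type} [Ring D] {n : ℕ} (s : Finset W) (d : W → D) (y : W → Fin n → D) :
    lin (fun l => ∑ w ∈ s, d w * y w l) =
      ∑ w ∈ s, AddMonoidAlgebra.single 0 (d w) * lin (y w) := by
  simp only [lin, Finset.mul_sum, AddMonoidAlgebra.single_mul_single, zero_add]
  rw [Finset.sum_comm]
  refine Finset.sum_congr rfl fun l _ => ?_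
  exact map_sum (AddMonoidAlgebra.singleAddHom (Finsupp.single l 1)) _ _

theorem asm_comm_x {D : Type} [Ring D] {n : ℕ} (i : Fin n) (F : DP D (Fin n)) :
    Commute F (lin (Pi.single i (1 : D))) := by
  rw [asm_lin_single]
  induction F using AddMonoidAlgebra.induction_linear with
  | zero => exact Commute.zero_left _
  | add F G hF hG => exact hF.add_left hG
  | single μ e =>
    change _ * _ = _ * _
    rw [AddMonoidAlgebra.single_mul_single, AddMonoidAlgebra.single_mul_single, add_comm, mul_one,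
      one_mul]

theorem asm_comm_K {K D : Type} [Field K] [Ring D] [Algebra K D] {n : ℕ} (k : K) (y : Fin n → D) :
    Commute (AddMonoidAlgebra.single 0 (algebraMap K D k) : DP D (Fin n)) (lin y) := by
  refine Commute.sum_right _ _ _ fun l _ => ?_
  change _ * _ = _ * _
  rw [AddMonoidAlgebra.single_mul_single, AddMonoidAlgebra.single_mul_single, add_comm,
    Algebra.commutes]

/-- rank of a variable -/
def asmRk {n A : ℕ} (c : Config n A) : AV n c.B → ℕ
  | Sum.inl _ => 0
  | Sum.inr x => c.rk x.1 + 1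

theorem asm_rk_lt {n A : ℕ} (c : Config n A) {b : c.B} {i : Fin 2} {w : AV n c.B}
    (h : c.P b i w ≠ 0) : asmRk c w < c.rk b + 1 := by
  rcases w with w | ⟨b', j⟩
  · exact Nat.succ_pos _
  · exact Nat.succ_lt_succ (c.dep b i b' j h).1

theorem asm_exists_Y {n A : ℕ} (c : Config n A) {D : Type} [Ring D]
    (uv : c.B → Fin n → Fin 2 → D) :
    ∃ Y : AV n c.B → Fin n → D, (∀ i, Y (Sum.inl i) = Pi.single i 1) ∧
      ∀ b m, Y (Sum.inr (b, m)) = fun l => ∑ i, uv b m i * ∑ w, (c.P b i w : D) * Y w l := by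
  let F : ∀ w : AV n c.B, (∀ w', asmRk c w' < asmRk c w → Fin n → D) → Fin n → D := fun w =>
    match w with
    | Sum.inl i => fun _ => Pi.single i 1
    | Sum.inr x => fun IH l => ∑ i, uv x.1 x.2 i *
        ∑ w', if h : asmRk c w' < asmRk c (Sum.inr x) then (c.P x.1 i w' : D) * IH w' h l else 0
  have wf : WellFounded (fun w' w : AV n c.B => asmRk c w' < asmRk c w) :=
    InvImage.wf (asmRk c) wellFounded_lt
  refine ⟨wf.fix F, fun i => wf.fix_eq F _, fun b m => ?_⟩
  rw [wf.fix_eq]
  funext l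
  refine Finset.sum_congr rfl fun i _ => ?_
  congr 1
  refine Finset.sum_congr rfl fun w _ => ?_
  split_ifs with h
  · rfl
  · have : c.P b i w = 0 := by
      by_contra h'
      exact h (asm_rk_lt c h')
    rw [this, Nat.cast_zero, zero_mul]

theorem asm_blocks {n A : ℕ} (c : Config n A) {K D : Type} [Field K] [Algebra ℂ K]
    [DivisionRing D] [Algebra K D] (blk : c.B → Blk K n) (uv : c.B → Fin n → Fin 2 → D)
    (hc : ∀ b b', b ≠ b' → ∀ m i m' i', Commute (uv b m i) (uv b' m' i'))
    (hU : ∀ b, Ulrich (blk b) (uv b)) :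
    ∃ (Y : AV n c.B → Fin n → D) (Χ : MvPolynomial (AV n c.B) K →+* DP D (Fin n)),
      (∀ k, Χ (C k) = AddMonoidAlgebra.single 0 (algebraMap K D k)) ∧
      (∀ w, Χ (X w) = lin (Y w)) ∧ (∀ i, Y (Sum.inl i) = Pi.single i 1) ∧
      ∀ b m, Χ (aeval (fun v => map (algebraMap ℂ K) (c.sub b v)) ((blk b).E m)) = 0 := by
  obtain ⟨Y, hY0, hY1⟩ := asm_exists_Y c uv
  obtain ⟨φ, hφ⟩ : ∃ φ : D →+* DP D (Fin n), ∀ d, φ d = AddMonoidAlgebra.single 0 d :=
    ⟨AddMonoidAlgebra.singleZeroRingHom, fun _ => rfl⟩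
  obtain ⟨Q, hQ⟩ : ∃ Q : c.B → Fin 2 → DP D (Fin n),
    ∀ b i, Q b i = ∑ w, (c.P b i w : DP D (Fin n)) * lin (Y w) := ⟨_, fun _ _ => rfl⟩
  have hL : ∀ b m, lin (Y (Sum.inr (b, m))) = ∑ i, φ (uv b m i) * Q b i := by
    intro b m
    rw [hY1, asm_lin_sum]
    refine Finset.sum_congr rfl fun i _ => ?_
    rw [asm_lin_sum, hQ, hφ]
    simp only [← hφ, map_natCast]
  -- commuting with a pencil
  have hQc : ∀ (x : DP D (Fin n)) b i, (∀ w, asmRk c w < c.rk b + 1 → Commute x (lin (Y w))) →
      Commute x (Q b i) := by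
    intro x b i h
    rw [hQ]
    refine Commute.sum_right _ _ _ fun w _ => ?_
    by_cases h0 : c.P b i w = 0
    · rw [h0, Nat.cast_zero, zero_mul]; exact Commute.zero_right _
    · exact (Nat.commute_cast _ _).mul_right (h w (asm_rk_lt c h0))
  have h1 : ∀ b m i N w, asmRk c w < N → asmRk c w ≤ c.rk b + 1 → (∀ j, w ≠ Sum.inr (b, j)) →
      Commute (φ (uv b m i)) (lin (Y w)) := by
    intro b m i N
    induction N with
    | zero => intro w h; omega
    | succ N ih =>
      rintro (w | ⟨b', j⟩) hN hb hne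
      · rw [hY0]; exact asm_comm_x _ _
      · have hbb : b ≠ b' := fun h => hne j (by rw [h])
        change c.rk b' + 1 < N + 1 at hN
        change c.rk b' + 1 ≤ c.rk b + 1 at hb
        rw [hL]
        refine Commute.sum_right _ _ _ fun i' _ => ((hc b b' hbb m i j i').map φ).mul_right ?_
        refine hQc _ _ _ fun w hw => ih w (by omega) (by omega) ?_
        rintro j' rfl
        change c.rk b + 1 < c.rk b' + 1 at hw
        omega
  have h2 : ∀ b m i j, Commute (φ (uv b m i)) (Q b j) := by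
    intro b m i j
    refine hQc _ _ _ fun w hw => h1 b m i _ w hw hw.le ?_
    rintro j' rfl
    exact lt_irrefl _ hw
  have h3 : ∀ N w w', asmRk c w + asmRk c w' < N → Commute (lin (Y w)) (lin (Y w')) := by
    intro N
    induction N with
    | zero => intro w w' h; omega
    | succ N ih =>
      have key : ∀ w w', asmRk c w + asmRk c w' < N + 1 → asmRk c w ≤ asmRk c w' →
          Commute (lin (Y w)) (lin (Y w')) := by
        rintro w (w' | ⟨b, m⟩) hN hle
        · rw [hY0]; exact asm_comm_x _ _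
        change asmRk c w + (c.rk b + 1) < N + 1 at hN
        change asmRk c w ≤ c.rk b + 1 at hle
        by_cases hw : ∀ j, w ≠ Sum.inr (b, j)
        · rw [hL]
          exact Commute.sum_right _ _ _ fun i _ => (h1 b m i _ w (Nat.lt_succ_self _) hle hw).symm.mul_right
            (hQc _ _ _ fun w' hw' => ih w w' (by omega))
        · push Not at hw
          obtain ⟨j, rfl⟩ := hw
          change c.rk b + 1 + (c.rk b + 1) < N + 1 at hN
          obtain ⟨ev, e0, e1⟩ := asm_ev φ (Q b) (hQc _ _ _ fun w hw =>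
            (hQc _ _ _ fun w' hw' => ih w w' (by omega)).symm)
          obtain ⟨χ, -, -, hχ, -⟩ := hU b
          have e2 : ∀ m, ev (lin (uv b m)) = lin (Y (Sum.inr (b, m))) := fun m => by
            have := e1 1 (uv b m) (h2 b m)
            rwa [one_mul, AddMonoidAlgebra.one_def, e0, map_one, one_mul, ← hL] at this
          have e3 : ∀ m m', ev (χ (X (Sum.inl m) * X (Sum.inl m'))) =
              lin (Y (Sum.inr (b, m))) * lin (Y (Sum.inr (b, m'))) := fun m m' => by
            rw [map_mul, hχ, hχ, e1 _ _ (h2 b m'), e2, ← hL]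
          change _ * _ = _ * _
          rw [← e3, ← e3, mul_comm]
      intro w w' h
      rcases le_total (asmRk c w) (asmRk c w') with hle | hle
      · exact key w w' h hle
      · exact (key w' w (by omega) hle).symm
  have h4 : ∀ w w', Commute (lin (Y w)) (lin (Y w')) := fun w w' => h3 _ w w' (Nat.lt_succ_self _)
  obtain ⟨Χ, hΧ0, hΧ1⟩ := exists_eval (φ.comp (algebraMap K D)) (fun w => lin (Y w)) h4
    (fun k w => by rw [RingHom.comp_apply, hφ]; exact asm_comm_K k _)
  refine ⟨Y, Χ, fun k => by rw [hΧ0, RingHom.comp_apply, hφ], hΧ1, hY0, fun b m => ?_⟩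
  obtain ⟨ev, e0, e1⟩ := asm_ev φ (Q b) (hQc _ _ _ fun w _ => (hQc _ _ _ fun w' _ => h4 w w').symm)
  obtain ⟨χ, c0, c1, c2, c3⟩ := hU b
  have key : ∀ F : MvPolynomial (BV n) K,
      Χ (aeval (fun v => map (algebraMap ℂ K) (c.sub b v)) F) = ev (χ F) := by
    intro F
    induction F using MvPolynomial.induction_on with
    | C k => rw [aeval_C, algebraMap_eq, hΧ0, c0, e0, RingHom.comp_apply]
    | add F G hF hG => simp only [map_add, hF, hG]
    | mul_X F v hF =>
      rw [map_mul, map_mul, map_mul, hF, aeval_X]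
      rcases v with j | i
      · rw [c2, e1 _ _ (h2 b j), ← hL, Config.sub, map_X, hΧ1]
      · rw [c1, ← asm_lin_single, e1]
        · congr 1
          rw [Finset.sum_eq_single i, Pi.single_eq_same, map_one, one_mul, hQ, Config.sub, lf]
          · simp only [map_sum, map_mul, map_natCast, map_X, hΧ1]
          · intro j _ hj
            rw [Pi.single_eq_of_ne hj, map_zero, zero_mul]
          · simp
        · intro i' j
          by_cases h : i' = i
          · rw [h, Pi.single_eq_same, map_one]; exact Commute.one_left _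
          · rw [Pi.single_eq_of_ne h, map_zero]; exact Commute.zero_left _
  rw [key, c3, map_zero]

end Crest.Agent.R181
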