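import Crest.Agent.R181.PartB

/-! # Row 181 A: commuting linear forms whose left ideal contains the powers `x_i^s` span.
If `α_{j₀}` is a left combination of the others, the forms of degree `k - 1` lie in the span of the
`x^ν α^β` with `ν i < s`, `β j₀ = 0`, `β j ≤ k`; compare with the monomials in a box. -/

set_option autoImplicit false

namespace Crest.Agent.R181

variable {D : Type*} [DivisionRing D] {n : ℕ}

theorem sp_mR_monF (v : Fin n → D) {k : ℤ} {x : PX D n} (hx : x ∈ monF D Set.univ k) :
    mR (lin v) x ∈ monF D Set.univ (k + 1) := by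
  rw [mR_lin, LinearMap.sum_apply]
  exact Submodule.sum_mem _ fun i _ => sh_monF i (cR_monF _ hx)

theorem sp_cmp_mR (v : Fin n → D) (k : ℤ) (x : PX D n) :
    cmp D n k (mR (lin v) x) = mR (lin v) (cmp D n (k - 1) x) := by
  have : cmp D n k ∘ₗ mR (lin v) = mR (lin v) ∘ₗ cmp D n (k - 1) := pb_end_ext fun μ c => by
    rw [LinearMap.comp_apply, LinearMap.comp_apply, cmp_of_mem (single_mem_monF μ c),
      cmp_of_mem (sp_mR_monF v (single_mem_monF μ c))]
    by_cases h : (μ.degree : ℤ) = k - 1
    · rw [if_pos h, if_pos (by omega)]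
    · rw [if_neg h, if_neg (by omega), map_zero]
  exact LinearMap.congr_fun this x

theorem sp_lin_mem {S : Set (Fin n → D)} {v : Fin n → D} (hv : v ∈ Submodule.span D S) :
    lin v ∈ Ideal.span (lin '' S) := by
  induction hv using Submodule.span_induction with
  | mem x hx => exact Ideal.subset_span ⟨x, hx, rfl⟩
  | zero => simp [lin]
  | add x y _ _ hx hy =>
    have : lin (x + y) = lin x + lin y := by
      simp [lin, Finset.sum_add_distrib, AddMonoidAlgebra.single_add]
    rw [this]
    exact Ideal.add_mem _ hx hy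
  | smul c x _ hx =>
    have : lin (c • x) = AddMonoidAlgebra.single 0 c * lin x := by
      simp [lin, Finset.mul_sum, AddMonoidAlgebra.single_mul_single]
    rw [this]
    exact Ideal.mul_mem_left _ _ hx

theorem sp_not_mem (d : Fin n → Fin n → D) (hc : ∀ j l, Commute (lin (d j)) (lin (d l))) (s : ℕ)
    (j₀ : Fin n) (h : ∀ i, (AddMonoidAlgebra.single (Finsupp.single i 1) 1 : DP D (Fin n)) ^ s ∈
      Ideal.span (lin '' (d '' (Set.univ \ {j₀})))) : False := by
  classical
  obtain ⟨P, hP0, hP⟩ := pb_exists_P (fun j => lin (d j)) hc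
  let S : ℕ → Finset ((Fin n → ℕ) × (Fin n → ℕ)) := fun K =>
    Fintype.piFinset (fun _ => Finset.range s) ×ˢ
      Fintype.piFinset (fun j => if j = j₀ then {0} else Finset.range (K + 1))
  let F : (Fin n → ℕ) × (Fin n → ℕ) → PX D n := fun p => pbE D n
    (AddMonoidAlgebra.single (Finsupp.equivFunOnFinite.symm p.1) 1 *
      P (Finsupp.equivFunOnFinite.symm p.2))
  let T : ℕ → Submodule D (PX D n) := fun K => Submodule.span D ((S K).image F : Set (PX D n))
  have hS : ∀ K p, p ∈ S K ↔ (∀ i, p.1 i < s) ∧ p.2 j₀ = 0 ∧ ∀ j, p.2 j ≤ K := by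
    intro K p
    simp only [S, Finset.mem_product, Fintype.mem_piFinset, Finset.mem_range]
    refine and_congr_right fun _ => ⟨fun h => ⟨by simpa using h j₀, fun j => ?_⟩, fun h j => ?_⟩
    · have := h j
      split_ifs at this <;> simp at this <;> omega
    · split_ifs with hj
      · simp [hj, h.1]
      · simp [h.2 j]
  have hTm : ∀ {K K'}, K ≤ K' → T K ≤ T K' := fun {K K'} hK =>
    Submodule.span_mono (Finset.coe_subset.2 (Finset.image_subset_image fun p hp => by
      rw [hS] at hp ⊢
      exact ⟨hp.1, hp.2.1, fun j => (hp.2.2 j).trans hK⟩))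
  have hTz : ∀ K j, j ≠ j₀ → ∀ x ∈ T K, mR (lin (d j)) x ∈ T (K + 1) := by
    intro K j hj
    change T K ≤ (T (K + 1)).comap (mR (lin (d j)))
    refine Submodule.span_le.2 fun x hx => ?_
    obtain ⟨p, hp, rfl⟩ := Finset.mem_image.1 (Finset.mem_coe.1 hx)
    rw [hS] at hp
    refine Submodule.subset_span (Finset.mem_coe.2 (Finset.mem_image.2
      ⟨(p.1, p.2 + Pi.single j 1), (hS _ _).2 ⟨hp.1, ?_, fun l => ?_⟩, ?_⟩))
    · simp [hp.2.1, Pi.single_eq_of_ne hj.symm]
    · have := hp.2.2 l
      simp only [Pi.add_apply, Pi.single_apply]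
      split_ifs <;> omega
    · have e : Finsupp.equivFunOnFinite.symm (p.2 + Pi.single j 1) =
          Finsupp.equivFunOnFinite.symm p.2 + Finsupp.single j 1 := by
        ext l
        simp [Finsupp.single_eq_pi_single]
      simp only [F, mR_E, e, hP, mul_assoc]
  have hU : ∀ k : ℕ, monF D Set.univ ((k : ℤ) - 1) ≤ T k := by
    intro k
    induction k with
    | zero => rw [monF_neg _ (by norm_num)]; exact bot_le
    | succ k ih =>
      have hJ : ∀ y ∈ Ideal.span (lin '' (d '' (Set.univ \ {j₀}))), ∀ g : DP D (Fin n),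
          cmp D n k (pbE D n (g * y)) ∈ T (k + 1) := by
        intro y hy
        induction hy using Submodule.span_induction with
        | mem y hy =>
          obtain ⟨_, ⟨j, hj, rfl⟩, rfl⟩ := hy
          intro g
          rw [← mR_E, sp_cmp_mR]
          exact hTz k j hj.2 _ (ih (cmp_mem _ _))
        | zero => intro g; simp
        | add x y _ _ hx hy =>
          intro g
          rw [mul_add, map_add, map_add]
          exact Submodule.add_mem _ (hx g) (hy g)
        | smul c x _ hx =>
          intro g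
          rw [smul_eq_mul, ← mul_assoc]
          exact hx _
      rw [monF, Finsupp.supported_eq_span_single, Submodule.span_le]
      rintro _ ⟨μ, ⟨-, hμ⟩, rfl⟩
      have hμ' : (μ.degree : ℤ) = k := by push_cast at hμ; omega
      by_cases hs : ∀ i, μ i < s
      · refine Submodule.subset_span (Finset.mem_coe.2 (Finset.mem_image.2
          ⟨(μ, 0), (hS _ _).2 ⟨hs, rfl, fun _ => Nat.zero_le _⟩, ?_⟩))
        have e : Finsupp.equivFunOnFinite.symm (0 : Fin n → ℕ) = 0 := by ext; simp
        simp only [F, e, hP0, mul_one, Finsupp.equivFunOnFinite_symm_coe, pbE_single]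
      · push Not at hs
        obtain ⟨i, hi⟩ := hs
        have h1 := hJ _ (h i) (AddMonoidAlgebra.single (μ - Finsupp.single i s) 1)
        have e : μ - Finsupp.single i s + s • Finsupp.single i 1 = μ := by
          rw [Finsupp.smul_single, smul_eq_mul, mul_one]
          exact tsub_add_cancel_of_le (Finsupp.single_le_iff.2 hi)
        rw [AddMonoidAlgebra.single_pow, AddMonoidAlgebra.single_mul_single, e, one_pow, mul_one,
          pbE_single, cmp_of_mem (single_mem_monF μ 1), if_pos hμ'] at h1
        exact h1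
  obtain ⟨m, rfl⟩ : ∃ m, n = m + 1 := ⟨n - 1, by have := j₀.pos; omega⟩
  set N := s ^ (m + 1) * (m + 2) ^ m with hN
  let b : (Fin (m + 1) → Fin (N + 1)) → (Fin (m + 1) →₀ ℕ) := fun ν =>
    Finsupp.equivFunOnFinite.symm fun i => (ν i : ℕ)
  have hb : Function.Injective b := fun ν ν' h => funext fun i =>
    Fin.ext (congrFun (Finsupp.equivFunOnFinite.symm.injective h) i)
  have hli := (Finsupp.basisSingleOne (R := D)).linearIndependent.comp b hb
  have hcard := linearIndependent_le_span_aux' _ hli
    ((S ((m + 1) * N + 1)).image F : Set (PX D (m + 1))) (by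
      rintro _ ⟨ν, rfl⟩
      have hd : (b ν).degree ≤ (m + 1) * N := by
        rw [Finsupp.degree_eq_sum]
        refine (Finset.sum_le_sum (g := fun _ => N) fun i _ => ?_).trans (by simp)
        exact Nat.lt_succ_iff.1 (ν i).2
      refine hTm (Nat.succ_le_succ hd) (hU _ ?_)
      have := single_mem_monF (D := D) (b ν) 1
      simpa using this)
  have hc2 : (S ((m + 1) * N + 1)).card = s ^ (m + 1) * ((m + 1) * N + 2) ^ m := by
    simp only [S, Finset.card_product, Fintype.card_piFinset, Finset.card_range, Finset.prod_const,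
      Finset.card_univ, Fintype.card_fin]
    congr 1
    rw [Fin.prod_univ_succAbove _ j₀]
    simp
  simp only [Fintype.card_pi, Fintype.card_fin, Finset.prod_const, Finset.card_univ,
    Finset.coe_sort_coe, Fintype.card_coe] at hcard
  have h1 := hcard.trans (Finset.card_image_le.trans hc2.le)
  have h2 : ((m + 1) * N + 2) ^ m ≤ ((m + 2) * (N + 1)) ^ m :=
    Nat.pow_le_pow_left (by nlinarith) m
  have h3 : (N + 1) * (N + 1) ^ m ≤ N * (N + 1) ^ m := by
    calc (N + 1) * (N + 1) ^ m = (N + 1) ^ (m + 1) := by ring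
      _ ≤ s ^ (m + 1) * ((m + 2) * (N + 1)) ^ m := h1.trans (Nat.mul_le_mul_left _ h2)
      _ = N * (N + 1) ^ m := by rw [mul_pow, ← mul_assoc]
  have h4 := Nat.le_of_mul_le_mul_right h3 (by positivity)
  omega

theorem sp_span_of_pow (d : Fin n → Fin n → D) (hc : ∀ j l, Commute (lin (d j)) (lin (d l)))
    (s : ℕ) (h : ∀ i, (AddMonoidAlgebra.single (Finsupp.single i 1) 1 : DP D (Fin n)) ^ s ∈
      Ideal.span (Set.range fun j => lin (d j))) :
    ∃ e : Fin n → Fin n → D, ∀ i l, ∑ j, e i j * d j l = if i = l then 1 else 0 := by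
  have hli : LinearIndependent D d := by
    rw [linearIndependent_iff_notMem_span]
    intro j₀ hj
    refine sp_not_mem d hc s j₀ fun i => Ideal.span_le.2 ?_ (h i)
    rintro _ ⟨j, rfl⟩
    by_cases hjj : j = j₀
    · subst hjj
      exact sp_lin_mem hj
    · exact Ideal.subset_span ⟨_, ⟨j, ⟨trivial, hjj⟩, rfl⟩, rfl⟩
  have htop := hli.span_eq_top_of_card_eq_finrank' (by simp)
  have : ∀ i, ∃ c : Fin n → D, ∑ j, c j • d j = Pi.single i 1 := fun i =>
    (Submodule.mem_span_range_iff_exists_fun D).1 (htop ▸ Submodule.mem_top)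
  choose e he using this
  refine ⟨e, fun i l => ?_⟩
  have := congrFun (he i) l
  simpa [Pi.single_apply, eq_comm] using this

end Crest.Agent.R181
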