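import Crest.Agent.R181.ADefs

/-! # Row 181 A: existence of the configuration (pure combinatorics).
Build it level by level, from `m = n - 1` down to `0`.  Stage `r` (levels `≥ n - r` done): a finite type `B`
with `lv` (all `≥ n - r`), `rk`, `P`, a partial `α`, and the properties for those levels.  New level `m`:
`B' = B ⊕ Leaf ⊕ Fin L`, where `Leaf = Fin 2 → AV n B → Fin (A + 1)` (pencil `P` := the given vector with the
coordinates outside `Act lv m` set to `0`, and `0` on new variables; rank above all old ranks),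
`L = card (B ⊕ Leaf) ≥ 1`, `enum : Fin L ≃ B ⊕ Leaf`; node `k` has level `m`, rank above all leaves and
increasing in `k`, `P k 0 = 0` if `k = 0`, else `single (node (k-1), m)`, `P k 1 = single (enum k, m)`;
`α m` = last node.  Old pencils are extended by zero; `Act lv' m' (inr (new block, j))` is false for
`m' ≥ m`, so `grid` persists.  (It may be simpler to carry in the induction a version of `Config` with an
extra bound `lo` and `α : Fin n → Option B` or a predicate `top : B → Prop`.) -/

set_option autoImplicit false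

namespace Crest.Agent.R181

/-- partial configuration: the levels `≥ lo` are done -/
structure CfgP (n A lo : ℕ) where
  B : Type
  [fin : Fintype B]
  [dec : DecidableEq B]
  lv : B → Fin n
  rk : B → ℕ
  P : B → Fin 2 → AV n B → ℕ
  α : Fin n → Option B
  lo_le : ∀ b, lo ≤ (lv b).val
  lv_α : ∀ m : Fin n, lo ≤ m.val → ∃ b, α m = some b ∧ lv b = m
  dep : ∀ b i b' j, P b i (Sum.inr (b', j)) ≠ 0 → rk b' < rk b ∧ lv b ≤ lv b' ∧ lv b ≤ j
  kind : ∀ b, (∀ i w, P b i w ≠ 0 → Act lv (lv b) w) ∨
    ∀ i, P b i = 0 ∨ ∃ b', some b' ≠ α (lv b) ∧ P b i = Pi.single (Sum.inr (b', lv b)) 1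
  grid : ∀ m : Fin n, lo ≤ m.val → ∀ g : Fin 2 → AV n B → ℕ, (∀ i w, g i w ≤ A) →
    (∀ i w, g i w ≠ 0 → Act lv m w) → ∃ b, lv b = m ∧ P b = g
  used : ∀ m : Fin n, lo ≤ m.val → ∀ b, m ≤ lv b → some b ≠ α m →
    ∃ b' i, lv b' = m ∧ P b' i = Pi.single (Sum.inr (b, m)) 1

attribute [instance] CfgP.fin CfgP.dec

section ext
variable {n : ℕ} {B B' : Type}

/-- the map on variables induced by a map of blocks -/
def cfgEmb (ι : B → B') : AV n B → AV n B' := Sum.map id (Prod.map ι id)

theorem cfgEmb_inj {ι : B → B'} (h : Function.Injective ι) :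
    Function.Injective (cfgEmb (n := n) ι) :=
  Function.injective_id.sumMap (h.prodMap Function.injective_id)

/-- extension by zero -/
noncomputable def cfgExt (ι : B → B') (g : AV n B → ℕ) : AV n B' → ℕ :=
  Function.extend (cfgEmb ι) g 0

theorem cfgExt_emb {ι : B → B'} (h : Function.Injective ι) (g : AV n B → ℕ) (w : AV n B) :
    cfgExt ι g (cfgEmb ι w) = g w := (cfgEmb_inj h).extend_apply _ _ _

theorem cfgExt_ne {ι : B → B'} (h : Function.Injective ι) {g : AV n B → ℕ} {w : AV n B'}
    (hw : cfgExt ι g w ≠ 0) : ∃ w₀, cfgEmb ι w₀ = w ∧ g w₀ ≠ 0 := by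
  by_cases h1 : ∃ w₀, cfgEmb ι w₀ = w
  · obtain ⟨w₀, rfl⟩ := h1
    exact ⟨w₀, rfl, by rwa [cfgExt_emb h] at hw⟩
  · exact absurd (Function.extend_apply' _ _ _ h1) hw

theorem cfgExt_ne' {ι : B → B'} (h : Function.Injective ι) {g : AV n B → ℕ} {b' : B'} {j : Fin n}
    (hw : cfgExt ι g (Sum.inr (b', j)) ≠ 0) : ∃ b, ι b = b' ∧ g (Sum.inr (b, j)) ≠ 0 := by
  obtain ⟨w₀, h1, h2⟩ := cfgExt_ne h hw
  rcases w₀ with x | ⟨b, j'⟩
  · exact absurd h1 Sum.inl_ne_inr
  · obtain ⟨h3, h4⟩ := Prod.mk.inj (Sum.inr.inj h1)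
    obtain rfl : j' = j := h4
    exact ⟨b, h3, h2⟩

theorem cfgExt_eq {ι : B → B'} (h : Function.Injective ι) {g : AV n B → ℕ} {g' : AV n B' → ℕ}
    (h1 : ∀ w, g' (cfgEmb ι w) = g w) (h2 : ∀ w, g' w ≠ 0 → ∃ w₀, cfgEmb ι w₀ = w) :
    cfgExt ι g = g' := by
  funext w
  by_cases h3 : ∃ w₀, cfgEmb ι w₀ = w
  · obtain ⟨w₀, rfl⟩ := h3
    rw [cfgExt_emb h, h1]
  · rw [show g' w = 0 from not_not.1 fun h4 => h3 (h2 w h4)]
    exact Function.extend_apply' _ _ _ h3

theorem cfgExt_zero {ι : B → B'} (h : Function.Injective ι) :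
    cfgExt ι (0 : AV n B → ℕ) = 0 :=
  cfgExt_eq h (fun _ => rfl) fun _ hw => absurd rfl hw

theorem cfgExt_single [DecidableEq B] [DecidableEq B'] {ι : B → B'} (h : Function.Injective ι)
    (b : B) (j : Fin n) : cfgExt ι (Pi.single (Sum.inr (b, j)) 1 : AV n B → ℕ) =
      Pi.single (Sum.inr (ι b, j)) 1 := by
  refine cfgExt_eq h (fun w => ?_) fun w hw => ⟨Sum.inr (b, j), ?_⟩
  · change (Pi.single (cfgEmb ι (Sum.inr (b, j))) 1 : AV n B' → ℕ) _ = _
    simp only [Pi.single_apply, (cfgEmb_inj h).eq_iff]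
  · by_contra h1
    exact hw (Pi.single_eq_of_ne' h1 _)

theorem cfgAct_emb {ι : B → B'} {lv : B → Fin n} {lv' : B' → Fin n} (h : ∀ b, lv' (ι b) = lv b)
    (m : Fin n) (w : AV n B) : Act lv' m (cfgEmb ι w) ↔ Act lv m w := by
  rcases w with x | ⟨b, j⟩
  · exact Iff.rfl
  · change m < lv' (ι b) ∧ m < j ↔ m < lv b ∧ m < j
    rw [h]

theorem cfgAct_range {ι : B → B'} {lv' : B' → Fin n} {m : Fin n}
    (h : ∀ b', m < lv' b' → ∃ b, ι b = b') {w : AV n B'} (hw : Act lv' m w) :
    ∃ w₀, cfgEmb ι w₀ = w := by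
  rcases w with x | ⟨b', j⟩
  · exact ⟨Sum.inl x, rfl⟩
  · obtain ⟨b, rfl⟩ := h b' hw.1
    exact ⟨Sum.inr (b, j), rfl⟩

end ext

namespace CfgP
variable {n A lo : ℕ} (c : CfgP n A (lo + 1)) (m : Fin n)

/-- old blocks and leaves -/
abbrev C1 : Type := c.B ⊕ (Fin 2 → AV n c.B → Fin (A + 1))

/-- old blocks, leaves and nodes -/
abbrev B1 : Type := c.C1 ⊕ Fin (Fintype.card c.C1 + 1)

noncomputable instance decB1 : DecidableEq c.B1 := Classical.decEq _

def ι (b : c.B) : c.B1 := Sum.inl (Sum.inl b)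

theorem ι_inj : Function.Injective c.ι := Sum.inl_injective.comp Sum.inl_injective

def lv1 : c.B1 → Fin n
  | Sum.inl (Sum.inl b) => c.lv b
  | Sum.inl (Sum.inr _) => m
  | Sum.inr _ => m

def rk1 : c.B1 → ℕ
  | Sum.inl (Sum.inl b) => c.rk b
  | Sum.inl (Sum.inr _) => Finset.univ.sup c.rk + 1
  | Sum.inr k => Finset.univ.sup c.rk + 2 + k

noncomputable instance decAct {B : Type} (lv : B → Fin n) (w : AV n B) : Decidable (Act lv m w) :=
  Classical.propDecidable _

noncomputable def P1 : c.B1 → Fin 2 → AV n c.B1 → ℕ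
  | Sum.inl (Sum.inl b) => fun i => cfgExt c.ι (c.P b i)
  | Sum.inl (Sum.inr g) => fun i => cfgExt c.ι fun w => if Act c.lv m w then g i w else 0
  | Sum.inr k => Fin.cases 0 (fun k => ![Pi.single (Sum.inr (Sum.inr k.castSucc, m)) 1,
      Pi.single (Sum.inr (Sum.inl ((Fintype.equivFin c.C1).symm k), m)) 1]) k

def α1 (m' : Fin n) : Option c.B1 :=
  if m' = m then some (Sum.inr (Fin.last _)) else (c.α m').map c.ι

theorem lv_lt (hm : m.val = lo) (b : c.B) : m < c.lv b := by
  have := c.lo_le b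
  rw [Fin.lt_def]
  omega

theorem le_lv1 (hm : m.val = lo) (b : c.B1) : m ≤ c.lv1 m b := by
  rcases b with (b | g) | k
  · exact (c.lv_lt m hm b).le
  · exact le_rfl
  · exact le_rfl

theorem old_of_lt {m' : Fin n} (h : m ≤ m') (b' : c.B1) (hb : m' < c.lv1 m b') :
    ∃ b, c.ι b = b' := by
  rcases b' with (b | g) | k
  · exact ⟨b, rfl⟩
  · exact absurd hb (not_lt.2 h)
  · exact absurd hb (not_lt.2 h)

theorem rk_le (b : c.B) : c.rk b ≤ Finset.univ.sup c.rk := Finset.le_sup (Finset.mem_univ b)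

theorem α1_self : c.α1 m m = some (Sum.inr (Fin.last _)) := if_pos rfl

theorem α1_ne {m' : Fin n} (h : m' ≠ m) : c.α1 m m' = (c.α m').map c.ι := if_neg h

theorem P1_zero : c.P1 m (Sum.inr 0) = 0 := rfl

theorem P1_succ0 (k : Fin (Fintype.card c.C1)) :
    c.P1 m (Sum.inr k.succ) 0 = Pi.single (Sum.inr (Sum.inr k.castSucc, m)) 1 := by
  simp only [P1, Fin.cases_succ, Matrix.cons_val_zero]

theorem P1_succ1 (k : Fin (Fintype.card c.C1)) :
    c.P1 m (Sum.inr k.succ) 1 =
      Pi.single (Sum.inr (Sum.inl ((Fintype.equivFin c.C1).symm k), m)) 1 := by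
  simp only [P1, Fin.cases_succ, Matrix.cons_val_one, Matrix.cons_val_zero]

theorem single_ne {W : Type} [DecidableEq W] {w w' : W} (h : (Pi.single w 1 : W → ℕ) w' ≠ 0) :
    w' = w := by
  by_contra h1
  exact h (Pi.single_eq_of_ne h1 _)

/-- one more level -/
noncomputable def step (hm : m.val = lo) : CfgP n A lo where
  B := c.B1
  lv := c.lv1 m
  rk := c.rk1
  P := c.P1 m
  α := c.α1 m
  lo_le b := hm ▸ c.le_lv1 m hm b
  lv_α m' hm' := by
    by_cases h : m' = m
    · subst h
      exact ⟨_, c.α1_self m', rfl⟩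
    · obtain ⟨b, h1, h2⟩ := c.lv_α m' (by have := Fin.val_ne_of_ne h; omega)
      exact ⟨c.ι b, by rw [c.α1_ne m h, h1]; rfl, h2⟩
  dep b i b' j h := by
    rcases b with (b | g) | k
    · obtain ⟨b'', rfl, h1⟩ := cfgExt_ne' c.ι_inj h
      exact c.dep b i b'' j h1
    · obtain ⟨b'', rfl, h1⟩ := cfgExt_ne' c.ι_inj h
      have h2 : Act c.lv m (Sum.inr (b'', j)) := by
        by_contra h3
        exact h1 (if_neg h3)
      exact ⟨Nat.lt_succ_of_le (c.rk_le b''), h2.1.le, h2.2.le⟩
    · induction k using Fin.cases with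
      | zero => exact absurd rfl h
      | succ k =>
        fin_cases i
        · have h' : c.P1 m (Sum.inr k.succ) 0 (Sum.inr (b', j)) ≠ 0 := h
          rw [P1_succ0] at h'
          obtain ⟨rfl, rfl⟩ := Prod.mk.inj (Sum.inr.inj (single_ne h'))
          refine ⟨?_, le_rfl, le_rfl⟩
          simp [rk1]
        · have h' : c.P1 m (Sum.inr k.succ) 1 (Sum.inr (b', j)) ≠ 0 := h
          rw [P1_succ1] at h'
          obtain ⟨rfl, rfl⟩ := Prod.mk.inj (Sum.inr.inj (single_ne h'))
          refine ⟨?_, c.le_lv1 j hm _, le_rfl⟩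
          rcases (Fintype.equivFin c.C1).symm k with b | g
          · have := c.rk_le b
            simp only [rk1]
            omega
          · simp only [rk1]
            omega
  kind b := by
    rcases b with (b | g) | k
    · rcases c.kind b with h | h
      · refine Or.inl fun i w hw => ?_
        obtain ⟨w₀, rfl, h1⟩ := cfgExt_ne c.ι_inj hw
        exact (cfgAct_emb (fun _ => rfl) _ _).2 (h i w₀ h1)
      · refine Or.inr fun i => ?_
        rcases h i with h | ⟨b', h1, h2⟩
        · left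
          change cfgExt c.ι (c.P b i) = 0
          rw [h, cfgExt_zero c.ι_inj]
        · refine Or.inr ⟨c.ι b', ?_, ?_⟩
          · change _ ≠ c.α1 m (c.lv b)
            rw [c.α1_ne m (c.lv_lt m hm b).ne']
            exact fun h3 => h1 (Option.map_injective c.ι_inj h3)
          · change cfgExt c.ι (c.P b i) = _
            rw [h2, cfgExt_single c.ι_inj]
            rfl
    · refine Or.inl fun i w hw => ?_
      obtain ⟨w₀, rfl, h1⟩ := cfgExt_ne c.ι_inj hw
      refine (cfgAct_emb (ι := c.ι) (lv := c.lv) (lv' := c.lv1 m) (fun _ => rfl) m _).2 ?_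
      by_contra h3
      exact h1 (if_neg h3)
    · refine Or.inr fun i => ?_
      induction k using Fin.cases with
      | zero => exact Or.inl rfl
      | succ k =>
        right
        fin_cases i
        · refine ⟨Sum.inr k.castSucc, ?_, c.P1_succ0 m k⟩
          change _ ≠ c.α1 m m
          rw [α1_self]
          exact fun h => (Fin.castSucc_lt_last k).ne (Sum.inr.inj (Option.some.inj h))
        · refine ⟨Sum.inl _, ?_, c.P1_succ1 m k⟩
          change _ ≠ c.α1 m m
          rw [α1_self]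
          exact fun h => Sum.inl_ne_inr (Option.some.inj h)
  grid m' hm' g hg hA := by
    have hle : m ≤ m' := by rw [Fin.le_def]; omega
    have hr : ∀ i w, g i w ≠ 0 → ∃ w₀, cfgEmb c.ι w₀ = w := fun i w hw =>
      cfgAct_range (c.old_of_lt m hle) (hA i w hw)
    have hA' : ∀ i w, g i (cfgEmb c.ι w) ≠ 0 → Act c.lv m' w := fun i w hw =>
      (cfgAct_emb (lv' := c.lv1 m) (fun _ => rfl) _ _).1 (hA i _ hw)
    by_cases h : m' = m
    · subst h
      refine ⟨Sum.inl (Sum.inr fun i w => ⟨g i (cfgEmb c.ι w), Nat.lt_succ_of_le (hg _ _)⟩), rfl,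
        funext fun i => cfgExt_eq c.ι_inj (fun w => ?_) (hr i)⟩
      split_ifs with h1
      · rfl
      · exact not_not.1 fun h2 => h1 (hA' i w h2)
    · obtain ⟨b, h1, h2⟩ := c.grid m' (by have := Fin.val_ne_of_ne h; omega)
        (fun i w => g i (cfgEmb c.ι w)) (fun i w => hg _ _) hA'
      exact ⟨c.ι b, h1, funext fun i => cfgExt_eq c.ι_inj (fun w => by rw [h2]) (hr i)⟩
  used m' hm' b hb hα := by
    by_cases h : m' = m
    · subst h
      rcases b with b | k
      · refine ⟨Sum.inr (Fintype.equivFin c.C1 b).succ, 1, rfl, ?_⟩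
        rw [P1_succ1, Equiv.symm_apply_apply]
      · rw [α1_self] at hα
        induction k using Fin.lastCases with
        | last => exact absurd rfl hα
        | cast k => exact ⟨Sum.inr k.succ, 0, rfl, c.P1_succ0 m' k⟩
    · have hlt : m < m' := by
        have := Fin.val_ne_of_ne h
        rw [Fin.lt_def]
        omega
      obtain ⟨b, rfl⟩ := c.old_of_lt m le_rfl b (hlt.trans_le hb)
      rw [c.α1_ne m h] at hα
      obtain ⟨b', i, h1, h2⟩ := c.used m' (by rw [Fin.lt_def] at hlt; omega) b hb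
        fun h3 => hα (by rw [← h3]; rfl)
      refine ⟨c.ι b', i, h1, ?_⟩
      change cfgExt c.ι (c.P b' i) = _
      rw [h2, cfgExt_single c.ι_inj]

end CfgP

theorem cfg_exists (n A r : ℕ) : ∀ lo, lo + r = n → Nonempty (CfgP n A lo) := by
  induction r with
  | zero =>
    intro lo h
    exact ⟨{ B := Empty
             lv := Empty.elim
             rk := Empty.elim
             P := Empty.elim
             α := fun _ => none
             lo_le := fun b => b.elim
             lv_α := fun m hm => absurd m.2 (by omega)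
             dep := fun b => b.elim
             kind := fun b => b.elim
             grid := fun m hm => absurd m.2 (by omega)
             used := fun m hm => absurd m.2 (by omega) }⟩
  | succ r ih =>
    intro lo h
    obtain ⟨c⟩ := ih (lo + 1) (by omega)
    exact ⟨c.step ⟨lo, by omega⟩ rfl⟩

theorem exists_config (n A : ℕ) : Nonempty (Config n A) := by
  obtain ⟨c⟩ := cfg_exists n A n 0 (zero_add n)
  choose α h1 h2 using fun m => c.lv_α m (Nat.zero_le _)
  exact ⟨{ B := c.B
           lv := c.lv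
           rk := c.rk
           P := c.P
           α := α
           lv_α := h2
           dep := c.dep
           kind := fun b => (c.kind b).imp_right fun h i => (h i).imp_right
             fun ⟨b', h3, h4⟩ => ⟨b', fun h5 => h3 (by rw [h1, h5]), h4⟩
           grid := fun m => c.grid m (Nat.zero_le _)
           used := fun m b hb hα => c.used m (Nat.zero_le _) b hb
             fun h3 => hα (Option.some.inj (h3.trans (h1 m))) }⟩

end Crest.Agent.R181
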