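import Crest.Agent.R181.AGrid

/-! # Row 181 A: generic lemmas for `Config.ind_core` -/

set_option autoImplicit false

namespace Crest.Agent.R181

open MvPolynomial

section FormIn
variable {W : Type} {act : W → Prop}

theorem ic_formIn_iff {a : ℕ} {F : MvPolynomial W ℂ} :
    FormIn act a F ↔ F.IsHomogeneous a ∧ F ∈ supported ℂ {w | act w} := by
  rw [FormIn, mem_supported]
  refine and_congr_right fun _ => ⟨fun h w hw => ?_, fun h μ hμ w hw => ?_⟩
  · obtain ⟨d, hd, hw⟩ := (mem_vars_iff_mem_support w).1 hw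
    exact h d hd w (Finsupp.mem_support_iff.1 hw)
  · exact h ((mem_vars_iff_mem_support w).2 ⟨μ, hμ, Finsupp.mem_support_iff.2 hw⟩)

theorem FormIn.ic_mul {a b : ℕ} {F G : MvPolynomial W ℂ} (hF : FormIn act a F)
    (hG : FormIn act b G) : FormIn act (a + b) (F * G) := by
  rw [ic_formIn_iff] at *
  exact ⟨hF.1.mul hG.1, mul_mem hF.2 hG.2⟩

theorem FormIn.ic_pow {F : MvPolynomial W ℂ} (hF : FormIn act 1 F) (k : ℕ) :
    FormIn act k (F ^ k) := by
  rw [ic_formIn_iff] at *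
  exact ⟨by simpa using hF.1.pow k, pow_mem hF.2 k⟩

theorem ic_formIn_X {w : W} (h : act w) : FormIn act 1 (X w) :=
  ic_formIn_iff.2 ⟨isHomogeneous_X _ _, X_mem_supported.2 h⟩

theorem ic_formIn_lf [Fintype W] {g : W → ℕ} (h : ∀ w, g w ≠ 0 → act w) :
    FormIn act 1 (lf g) := by
  refine ic_formIn_iff.2 ⟨IsHomogeneous.sum _ _ _ fun w _ => ?_, sum_mem fun w _ => ?_⟩
  · exact (isHomogeneous_X ℂ w).C_mul (g w : ℂ)
  · by_cases hw : g w = 0
    · rw [hw, Nat.cast_zero, zero_mul]; exact zero_mem _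
    · exact mul_mem (natCast_mem _ _) (X_mem_supported.2 (h w hw))

theorem ic_formIn_rename {V : Type} {k : V → W} (hk : ∀ v, act (k v)) {a : ℕ}
    {F : MvPolynomial V ℂ} (hF : F.IsHomogeneous a) : FormIn act a (rename k F) := by
  classical
  refine ic_formIn_iff.2 ⟨hF.rename_isHomogeneous, mem_supported.2 fun w hw => ?_⟩
  obtain ⟨v, -, rfl⟩ := mem_vars_rename k F hw
  exact hk v

theorem ic_lf_single [Fintype W] [DecidableEq W] (w : W) : lf (Pi.single w 1) = X w := by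
  rw [lf, Finset.sum_eq_single w]
  · simp
  · intro v _ hv; simp [hv]
  · simp

theorem ic_aeval_lf [Fintype W] {κ : Type} [Field κ] [Algebra ℂ κ] {ν : W → κ} {g : W → ℕ}
    (h : ∀ w, g w ≠ 0 → ν w = 0) : aeval ν (lf g) = 0 := by
  rw [lf, map_sum]
  refine Finset.sum_eq_zero fun w _ => ?_
  by_cases hw : g w = 0
  · simp [hw]
  · simp [h w hw]

end FormIn

section Eval
variable {κ : Type} [Field κ] [Algebra ℂ κ] {n : ℕ}

theorem ic_aeval_smul {W : Type} {E : MvPolynomial W ℂ} {d : ℕ} (hE : E.IsHomogeneous d)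
    {ζ ξ : W → κ} {l : κ} (h : ∀ μ ∈ E.support, ∀ v, μ v ≠ 0 → ζ v = l * ξ v) :
    aeval ζ E = l ^ d * aeval ξ E := by
  rw [aeval_def, aeval_def, eval₂_eq, eval₂_eq, Finset.mul_sum]
  refine Finset.sum_congr rfl fun μ hμ => ?_
  rw [Finset.prod_congr rfl fun v hv => by
    rw [h μ hμ v (Finsupp.mem_support_iff.1 hv), mul_pow], Finset.prod_mul_distrib,
    Finset.prod_pow_eq_pow_sum, ← hE.degree_eq_sum_deg_support hμ]
  ring

theorem ic_aeval_tri {j : Fin n} {d : ℕ} (hd : 1 ≤ d) {E : MvPolynomial (BV n) ℂ} (hE : Tri j d E)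
    {ζ : BV n → κ} (h1 : ∀ i, ζ (Sum.inr i) = 0) (h2 : ∀ j', j < j' → ζ (Sum.inl j') = 0) :
    aeval ζ E = algebraMap ℂ κ (E.coeff (Finsupp.single (Sum.inl j) d)) * ζ (Sum.inl j) ^ d := by
  rw [aeval_def, eval₂_eq, Finset.sum_eq_single (Finsupp.single (Sum.inl j) d)]
  · rw [Finsupp.support_single _ (by omega), Finset.prod_singleton, Finsupp.single_eq_same]
  · intro μ hμ hne
    have hs : μ.support.Nonempty := by
      rw [Finset.nonempty_iff_ne_empty]
      intro he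
      have := hE.1.degree_eq_sum_deg_support hμ
      rw [he, Finset.sum_empty] at this
      omega
    obtain ⟨v, hv⟩ := hs
    have hv' := Finsupp.mem_support_iff.1 hv
    have hz : ζ v = 0 := by
      rcases v with j' | i
      · refine h2 j' (lt_of_not_ge fun hle => hv' ?_)
        exact ((hE.2 μ hμ).resolve_left hne) j' hle
      · exact h1 i
    rw [Finset.prod_eq_zero hv (by rw [hz, zero_pow hv']), mul_zero]
  · intro h
    rw [notMem_support_iff.1 h, map_zero, zero_mul]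

theorem ic_li {T : Type} [Fintype T] {τ : T → κ}
    (hτ : Function.Injective (aeval τ : MvPolynomial T ℂ →ₐ[ℂ] κ)) (c : T → ℂ)
    (h : ∑ t, τ t * algebraMap ℂ κ (c t) = 0) (t : T) : c t = 0 := by
  classical
  have h1 : (∑ t, C (c t) * X t : MvPolynomial T ℂ) = 0 := by
    apply hτ
    rw [map_zero, map_sum, ← h]
    refine Finset.sum_congr rfl fun t _ => ?_
    rw [map_mul, aeval_C, aeval_X, mul_comm]
  have h2 := congrArg (coeff (Finsupp.single t 1)) h1
  rw [coeff_sum, Finset.sum_eq_single t] at h2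
  · simpa using h2
  · intro s _ hs
    rw [coeff_C_mul, coeff_X, if_neg, mul_zero]
    exact fun e => hs (Finsupp.single_left_injective one_ne_zero e)
  · simp

theorem ic_span {T V : Type} [Fintype T] [AddCommGroup V] [Module ℂ V] {τ : T → κ}
    (hτ : Function.Injective (aeval τ : MvPolynomial T ℂ →ₐ[ℂ] κ)) (lam : T → V) (p : T → Prop)
    [DecidablePred p] (L : V →ₗ[ℂ] ℂ) {l : V} (hl : l ∈ Submodule.span ℂ (lam '' {t | p t}))
    (hL : L l ≠ 0) : ∑ t, τ t * algebraMap ℂ κ (if p t then L (lam t) else 0) ≠ 0 := by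
  intro h
  refine hL (LinearMap.mem_ker.1 (Submodule.span_le.2 ?_ hl))
  rintro _ ⟨t, ht, rfl⟩
  have := ic_li hτ _ h t
  rwa [if_pos (show p t from ht)] at this

end Eval

/-- the variables `p, q, y_j (j > m)` -/
def icUp {n : ℕ} (m : Fin n) (v : BV n) : Prop := ∀ j ≤ m, v ≠ Sum.inl j

theorem icUp_inr {n : ℕ} (m : Fin n) (i : Fin 2) : icUp m (Sum.inr i) := fun _ _ => Sum.inr_ne_inl

theorem icUp_inl {n : ℕ} {m j : Fin n} (h : m < j) : icUp m (Sum.inl j) := fun _ hj e =>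
  absurd h (not_lt.2 (Sum.inl_injective e ▸ hj))

theorem ic_tri_of_up {n : ℕ} {m : Fin n} {d : ℕ} {E : MvPolynomial (BV n) ℂ}
    (h : FormIn (icUp m) d E) : Tri m d E :=
  ⟨h.1, fun μ hμ => Or.inr fun j hj => by
    by_contra hne
    exact h.2 μ hμ _ hne j hj rfl⟩

theorem ic_coeff_of_up {n : ℕ} {m : Fin n} {d : ℕ} (hd : 1 ≤ d) {E : MvPolynomial (BV n) ℂ}
    (h : FormIn (icUp m) d E) : E.coeff (Finsupp.single (Sum.inl m) d) = 0 := by
  by_contra hne
  exact h.2 _ (mem_support_iff.2 hne) (Sum.inl m) (by rw [Finsupp.single_eq_same]; omega) m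
    le_rfl rfl

theorem ic_tri_zero {n : ℕ} (m : Fin n) (d : ℕ) : Tri m d (0 : MvPolynomial (BV n) ℂ) :=
  ⟨isHomogeneous_zero _ _ _, fun μ hμ => by simp at hμ⟩

theorem ic_tri_X_pow {n : ℕ} (m : Fin n) (d : ℕ) :
    Tri m d (X (Sum.inl m) ^ d : MvPolynomial (BV n) ℂ) :=
  ⟨isHomogeneous_X_pow _ _, fun μ hμ => Or.inl (by
    classical
    rw [X_pow_eq_monomial] at hμ
    simpa using support_monomial_subset hμ)⟩

theorem ic_up_of_tri {n : ℕ} {m j : Fin n} (hmj : m < j) {d : ℕ} {E : MvPolynomial (BV n) ℂ}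
    (h : Tri j d E) : ∀ μ ∈ E.support, ∀ v, μ v ≠ 0 → icUp m v := by
  intro μ hμ v hv j' hj' e
  subst e
  rcases h.2 μ hμ with h1 | h1
  · rw [h1, Finsupp.single_apply, if_neg] at hv
    · exact hv rfl
    · exact fun e => absurd hmj (not_lt.2 (Sum.inl_injective e ▸ hj'))
  · exact hv (h1 j' (hj'.trans hmj.le))

end Crest.Agent.R181
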