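import Crest.Agent.R181.AGrid
import Crest.Agent.R181.ASysInd

/-! # Row 181 A: the linear systems `Λ_m` -/

set_option autoImplicit false

namespace Crest.Agent.R181

open MvPolynomial

namespace Config

variable {n A : ℕ} (c : Config n A) (a : Fin n → ℕ) (f : Fin n → MvPolynomial (Fin n) ℂ)

/-- degree of the level-`m` equation of the block `b` -/
def dl (b : c.B) (m : Fin n) : ℕ := if m ≤ c.lv b then a m else 1

/-- parameters: the equations `E_b`, the coefficient of `f m`, the `g i`, the `γ j` -/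
abbrev Par := (c.B → MvPolynomial (BV n) ℂ) × ℂ × (Fin n → MvPolynomial (AV n c.B) ℂ) ×
  (Fin n → MvPolynomial (AV n c.B) ℂ)

/-- admissible parameters at level `m` -/
def Adm (m : Fin n) (l : c.Par) : Prop :=
  (∀ b, Tri m (c.dl a b m) (l.1 b)) ∧ (∀ i, (l.2.2.1 i).IsHomogeneous (a m - a i)) ∧
    ∀ j, (l.2.2.2 j).IsHomogeneous (a m - 1)

/-- the identity to be satisfied at level `m` is `sig m l = 0` -/
noncomputable def sig (m : Fin n) (l : c.Par) : MvPolynomial (AV n c.B) ℂ :=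
  ∑ b ∈ Finset.univ.filter (fun b => m ≤ c.lv b), aeval (c.sub b) (l.1 b)
    - C ((l.1 (c.α m)).coeff (Finsupp.single (Sum.inl m) (a m))) * X (Sum.inr (c.α m, m)) ^ a m
    + C l.2.1 * rename Sum.inl (f m)
    + ∑ i ∈ Finset.univ.filter (· < m), l.2.2.1 i * rename Sum.inl (f i)
    + ∑ j ∈ Finset.univ.filter (m < ·), l.2.2.2 j * X (Sum.inr (c.α j, j))

theorem s1_tri_zero (m : Fin n) (δ : ℕ) : Tri m δ (0 : MvPolynomial (BV n) ℂ) :=
  ⟨isHomogeneous_zero _ _ _, by simp⟩

theorem s1_tri_add {m : Fin n} {δ : ℕ} {F G : MvPolynomial (BV n) ℂ} (hF : Tri m δ F)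
    (hG : Tri m δ G) : Tri m δ (F + G) := by
  classical
  refine ⟨hF.1.add hG.1, fun ν hν => ?_⟩
  rcases Finset.mem_union.1 (support_add hν) with h | h
  · exact hF.2 ν h
  · exact hG.2 ν h

theorem s1_tri_smul {m : Fin n} {δ : ℕ} (r : ℂ) {F : MvPolynomial (BV n) ℂ} (hF : Tri m δ F) :
    Tri m δ (r • F) :=
  ⟨(homogeneousSubmodule _ ℂ δ).smul_mem r hF.1, fun ν hν => hF.2 ν (support_smul hν)⟩

theorem s1_tri_y (m : Fin n) (δ : ℕ) : Tri m δ (X (Sum.inl m) ^ δ : MvPolynomial (BV n) ℂ) := by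
  refine ⟨isHomogeneous_X_pow _ _, fun ν hν => ?_⟩
  rw [support_X_pow, Finset.mem_singleton] at hν
  exact Or.inl hν

theorem s1_tri_p (m : Fin n) (δ : ℕ) (i : Fin 2) :
    Tri m δ (X (Sum.inr i) ^ δ : MvPolynomial (BV n) ℂ) := by
  refine ⟨isHomogeneous_X_pow _ _, fun ν hν => ?_⟩
  rw [support_X_pow, Finset.mem_singleton] at hν
  refine Or.inr fun j _ => ?_
  rw [hν, Finsupp.single_eq_of_ne (by simp)]

theorem s1_coeff_p (m : Fin n) {δ : ℕ} (hδ : 1 ≤ δ) (i : Fin 2) :
    (X (Sum.inr i) ^ δ : MvPolynomial (BV n) ℂ).coeff (Finsupp.single (Sum.inl m) δ) = 0 := by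
  classical
  rw [coeff_X_pow, if_neg]
  intro h
  have := DFunLike.congr_fun h (Sum.inl m)
  rw [Finsupp.single_eq_of_ne (by simp), Finsupp.single_eq_same] at this
  omega

theorem s1_coeff_y (m : Fin n) (δ : ℕ) :
    (X (Sum.inl m) ^ δ : MvPolynomial (BV n) ℂ).coeff (Finsupp.single (Sum.inl m) δ) = 1 := by
  classical
  rw [coeff_X_pow, if_pos rfl]

/-- `Adm m` as a subspace -/
def s1_AdmS (m : Fin n) : Submodule ℂ c.Par where
  carrier := {l | c.Adm a m l}
  add_mem' := fun {x y} hx hy => ⟨fun b => s1_tri_add (hx.1 b) (hy.1 b),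
    fun i => (hx.2.1 i).add (hy.2.1 i), fun j => (hx.2.2 j).add (hy.2.2 j)⟩
  zero_mem' := ⟨fun _ => s1_tri_zero _ _, fun _ => isHomogeneous_zero _ _ _,
    fun _ => isHomogeneous_zero _ _ _⟩
  smul_mem' := fun r {x} hx => ⟨fun b => s1_tri_smul r (hx.1 b),
    fun i => (homogeneousSubmodule _ ℂ _).smul_mem r (hx.2.1 i),
    fun j => (homogeneousSubmodule _ ℂ _).smul_mem r (hx.2.2 j)⟩

/-- `sig m` as a linear map -/
noncomputable def s1_sigL (m : Fin n) : c.Par →ₗ[ℂ] MvPolynomial (AV n c.B) ℂ where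
  toFun := c.sig a f m
  map_add' x y := by
    simp only [sig, Prod.fst_add, Prod.snd_add, Pi.add_apply, map_add, coeff_add, add_mul,
      Finset.sum_add_distrib]
    ring
  map_smul' r x := by
    simp only [sig, Prod.smul_fst, Prod.smul_snd, Pi.smul_apply, map_smul, coeff_smul,
      RingHom.id_apply, smul_add, smul_sub, Finset.smul_sum, smul_eq_mul, map_mul,
      smul_eq_C_mul, mul_assoc, Finset.mul_sum, mul_add, mul_sub, aeval_C, algebraMap_eq,
      coeff_C_mul]

theorem s1_sigL_apply (m : Fin n) (l : c.Par) : c.s1_sigL a f m l = c.sig a f m l := rfl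

theorem s1_AdmS_fg (m : Fin n) : (c.s1_AdmS a m).FG := by
  have h := (Submodule.fg_pi (fun b : c.B => homogeneousSubmodule_fg (BV n) ℂ (c.dl a b m))).prod
    ((Module.Finite.fg_top (R := ℂ) (M := ℂ)).prod
      ((Submodule.fg_pi (fun i : Fin n => homogeneousSubmodule_fg (AV n c.B) ℂ (a m - a i))).prod
        (Submodule.fg_pi (fun _ : Fin n => homogeneousSubmodule_fg (AV n c.B) ℂ (a m - 1)))))
  refine h.of_le fun l hl => ⟨fun b _ => (hl.1 b).1, trivial, fun i _ => hl.2.1 i,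
    fun j _ => hl.2.2 j⟩

/-- the parameter with only one equation -/
noncomputable def s1_E (b : c.B) (F : MvPolynomial (BV n) ℂ) : c.Par := (Pi.single b F, 0, 0, 0)

theorem s1_adm_E {m : Fin n} {b : c.B} {F : MvPolynomial (BV n) ℂ} (h : Tri m (c.dl a b m) F) :
    c.Adm a m (c.s1_E b F) := by
  refine ⟨fun b' => ?_, fun _ => isHomogeneous_zero _ _ _, fun _ => isHomogeneous_zero _ _ _⟩
  change Tri m _ ((Pi.single b F : c.B → MvPolynomial (BV n) ℂ) b')
  by_cases hb : b' = b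
  · subst hb
    rwa [Pi.single_eq_same]
  · rw [Pi.single_eq_of_ne hb]
    exact s1_tri_zero _ _

theorem s1_sig_E (m : Fin n) (b : c.B) (F : MvPolynomial (BV n) ℂ) :
    c.sig a f m (c.s1_E b F) = (if m ≤ c.lv b then aeval (c.sub b) F else 0) -
      (if c.α m = b then C (F.coeff (Finsupp.single (Sum.inl m) (a m))) *
        X (Sum.inr (c.α m, m)) ^ a m else 0) := by
  have h1 : ∑ b' ∈ Finset.univ.filter (fun b' => m ≤ c.lv b'),
      aeval (c.sub b') ((Pi.single b F : c.B → MvPolynomial (BV n) ℂ) b') =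
      if m ≤ c.lv b then aeval (c.sub b) F else 0 := by
    split_ifs with hb
    · rw [Finset.sum_eq_single b]
      · rw [Pi.single_eq_same]
      · intro b' _ hb'
        rw [Pi.single_eq_of_ne hb', map_zero]
      · intro h
        exact absurd (by simpa using hb) h
    · refine Finset.sum_eq_zero fun b' hb' => ?_
      have : b' ≠ b := by
        rintro rfl
        exact hb (by simpa using hb')
      rw [Pi.single_eq_of_ne this, map_zero]
  simp only [sig, s1_E, h1, map_zero, zero_mul, Pi.zero_apply, Finset.sum_const_zero, add_zero]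
  congr 1
  split_ifs with hb
  · subst hb
    rw [Pi.single_eq_same]
  · rw [Pi.single_eq_of_ne hb, coeff_zero, map_zero, zero_mul]

theorem s1_lf_single {W : Type} [Fintype W] [DecidableEq W] (w : W) :
    lf (Pi.single w 1) = X w := by
  rw [lf, Finset.sum_eq_single w]
  · simp
  · intro w' _ h
    simp [Pi.single_eq_of_ne h]
  · simp

/-- `Adm m` is a finite dimensional subspace and `sig m` is linear, so `Λ_m` has a finite spanning
family. -/
theorem exists_span (m : Fin n) : ∃ s : Finset c.Par,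
    (∀ l ∈ s, c.Adm a m l ∧ c.sig a f m l = 0) ∧
    ∀ l, c.Adm a m l → c.sig a f m l = 0 → l ∈ Submodule.span ℂ (s : Set c.Par) := by
  have h : (c.s1_AdmS a m ⊓ LinearMap.ker (c.s1_sigL a f m)).FG :=
    (c.s1_AdmS_fg a m).of_le inf_le_left
  obtain ⟨s, hs⟩ := h
  refine ⟨s, fun l hl => ?_, fun l h1 h2 => ?_⟩
  · have : l ∈ c.s1_AdmS a m ⊓ LinearMap.ker (c.s1_sigL a f m) := by
      rw [← hs]
      exact Submodule.subset_span hl
    exact ⟨this.1, this.2⟩
  · rw [hs]
    exact ⟨h1, h2⟩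

/-- a linear functional on the parameters vanishing on `Λ_m` factors through `sig m` on `Adm m`
(`LinearMap.exists_extend`-type argument over the field `ℂ`). -/
theorem exists_Ω (m : Fin n) {κ : Type} [AddCommGroup κ] [Module ℂ κ] (ψ : c.Par →ₗ[ℂ] κ)
    (h : ∀ l, c.Adm a m l → c.sig a f m l = 0 → ψ l = 0) :
    ∃ Ω : MvPolynomial (AV n c.B) ℂ →ₗ[ℂ] κ, ∀ l, c.Adm a m l → ψ l = Ω (c.sig a f m l) := by
  set σ := (c.s1_sigL a f m).domRestrict (c.s1_AdmS a m) with hσ
  set ψ' := ψ.domRestrict (c.s1_AdmS a m) with hψ'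
  have hk : LinearMap.ker σ ≤ LinearMap.ker ψ' := fun l hl => h l.1 l.2 hl
  obtain ⟨Ω, hΩ⟩ := LinearMap.exists_extend
    (((LinearMap.ker σ).liftQ ψ' hk).comp σ.quotKerEquivRange.symm.toLinearMap)
  refine ⟨Ω, fun l hl => ?_⟩
  have h1 := LinearMap.congr_fun hΩ ⟨σ ⟨l, hl⟩, LinearMap.mem_range_self _ _⟩
  simp only [LinearMap.comp_apply, Submodule.subtype_apply, LinearEquiv.coe_coe] at h1
  rw [LinearMap.quotKerEquivRange_symm_apply_image, Submodule.mkQ_apply,
    Submodule.liftQ_apply] at h1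
  exact h1.symm

/-- `lv b < m`: `E_b = y_m`.  `b = α m`: `E_b = y_m^a`.  Otherwise `used` gives `b', i` (`b' ≠ b` by `dep`):
`E_b = y_m^a`, `E_{b'} = -(inr i)^a`. -/
theorem exists_lc (ha : ∀ i, 1 ≤ a i) (b : c.B) (m : Fin n) : ∃ l, c.Adm a m l ∧
    c.sig a f m l = 0 ∧ (l.1 b).coeff (Finsupp.single (Sum.inl m) (c.dl a b m)) ≠ 0 := by
  have hE : ∀ F, (c.s1_E b F).1 b = F := fun F => Pi.single_eq_same _ _
  by_cases hm : m ≤ c.lv b
  · have hd : c.dl a b m = a m := if_pos hm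
    by_cases hb : c.α m = b
    · refine ⟨c.s1_E b (X (Sum.inl m) ^ c.dl a b m), c.s1_adm_E a (s1_tri_y _ _), ?_, ?_⟩
      · rw [s1_sig_E, if_pos hm, if_pos hb, hd, s1_coeff_y, map_pow, aeval_X, hb]
        simp [Config.sub]
      · rw [hE, s1_coeff_y]
        exact one_ne_zero
    · obtain ⟨b', i, hb', hP⟩ := c.used m b hm (Ne.symm hb)
      have hne : b ≠ b' := by
        have := (c.dep b' i b m (by rw [hP]; simp)).1
        rintro rfl
        exact lt_irrefl _ this
      have hd' : c.dl a b' m = a m := if_pos hb'.ge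
      refine ⟨c.s1_E b (X (Sum.inl m) ^ c.dl a b m) - c.s1_E b' (X (Sum.inr i) ^ c.dl a b' m),
        (c.s1_AdmS a m).sub_mem (c.s1_adm_E a (s1_tri_y _ _)) (c.s1_adm_E a (s1_tri_p _ _ _)),
        ?_, ?_⟩
      · rw [← s1_sigL_apply, map_sub, s1_sigL_apply, s1_sigL_apply, s1_sig_E, s1_sig_E,
          if_pos hm, if_neg hb, if_pos hb'.ge, hd, hd', s1_coeff_p _ (ha m), map_pow, map_pow,
          aeval_X, aeval_X]
        simp [Config.sub, hP, s1_lf_single]
      · have h2 : (c.s1_E b' (X (Sum.inr i) ^ c.dl a b' m)).1 b = 0 := Pi.single_eq_of_ne hne _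
        rw [Prod.fst_sub, Pi.sub_apply, hE, h2, sub_zero, s1_coeff_y]
        exact one_ne_zero
  · have hb : c.α m ≠ b := by
      rintro rfl
      exact hm (c.lv_α m).ge
    refine ⟨c.s1_E b (X (Sum.inl m) ^ c.dl a b m), c.s1_adm_E a (s1_tri_y _ _), ?_, ?_⟩
    · rw [s1_sig_E, if_neg hm, if_neg hb, sub_zero]
    · rw [hE, s1_coeff_y]
      exact one_ne_zero

/-- otherwise `exists_Ω` for `ψ l = l.2.1`: `Ω (ℓ^a) = 0` for grid forms (`grid`, `E_b = p^a`), so
`Ω (f m) = 0` by `grid_vanish`, but `ψ (0, 1, 0, 0) = 1`. -/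
theorem exists_cf (ha : ∀ i, 1 ≤ a i) (hA : ∀ i, a i ≤ A) (hf : ∀ i, (f i).IsHomogeneous (a i))
    (m : Fin n) : ∃ l, c.Adm a m l ∧ c.sig a f m l = 0 ∧ l.2.1 ≠ 0 := by
  classical
  by_contra hcon
  push Not at hcon
  obtain ⟨Ω, hΩ⟩ := c.exists_Ω a f m
    ((LinearMap.fst ℂ _ _).comp (LinearMap.snd ℂ _ _) : c.Par →ₗ[ℂ] ℂ) hcon
  have h1 : ∀ g : AV n c.B → ℕ, (∀ w, g w ≤ A) → (∀ w, g w ≠ 0 → Act c.lv m w) →
      Ω (lf g ^ a m) = 0 := by
    intro g hg1 hg2
    obtain ⟨b, hb, hP⟩ := c.grid m (fun _ => g) (fun _ => hg1) (fun _ => hg2)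
    have hd : c.dl a b m = a m := if_pos hb.ge
    have h2 := hΩ _ (c.s1_adm_E a (b := b) (s1_tri_p m _ 0))
    rw [s1_sig_E, if_pos hb.ge, hd, s1_coeff_p _ (ha m), map_pow, aeval_X] at h2
    simpa [Config.sub, hP, s1_E] using h2.symm
  have h2 := grid_vanish (Act c.lv m) (hA m) Ω h1 (rename Sum.inl (f m))
    ⟨(hf m).rename_isHomogeneous, fun μ hμ w hw => by
      rw [support_rename_of_injective Sum.inl_injective, Finset.mem_image] at hμ
      obtain ⟨ν, -, rfl⟩ := hμ
      rcases w with w | w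
      · trivial
      · exact absurd (Finsupp.mapDomain_of_notMem_range _ _ (by simp)) hw⟩
  have h3 := hΩ (0, 1, 0, 0) ⟨fun _ => s1_tri_zero _ _, fun _ => isHomogeneous_zero _ _ _,
    fun _ => isHomogeneous_zero _ _ _⟩
  simp [sig, h2] at h3

theorem ic_adm_E {m : Fin n} {b : c.B} {E : MvPolynomial (BV n) ℂ} (hE : Tri m (c.dl a b m) E) :
    c.Adm a m (Pi.single b E, 0, 0, 0) := by
  refine ⟨fun b' => ?_, fun _ => isHomogeneous_zero _ _ _, fun _ => isHomogeneous_zero _ _ _⟩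
  by_cases h : b' = b
  · subst h; simpa using hE
  · simpa [h] using ic_tri_zero m _

theorem ic_sig_E {m : Fin n} {b : c.B} {E : MvPolynomial (BV n) ℂ}
    (h : b = c.α m → E.coeff (Finsupp.single (Sum.inl m) (a m)) = 0) :
    c.sig a f m (Pi.single b E, 0, 0, 0) = if m ≤ c.lv b then aeval (c.sub b) E else 0 := by
  have h1 : ((Pi.single b E : c.B → MvPolynomial (BV n) ℂ) (c.α m)).coeff
      (Finsupp.single (Sum.inl m) (a m)) = 0 := by
    by_cases hb : b = c.α m
    · rw [← hb, Pi.single_eq_same, h hb]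
    · rw [Pi.single_eq_of_ne' hb, coeff_zero]
  have h2 : ∑ b' ∈ Finset.univ.filter (fun b => m ≤ c.lv b),
      aeval (c.sub b') ((Pi.single b E : c.B → MvPolynomial (BV n) ℂ) b') =
      if m ≤ c.lv b then aeval (c.sub b) E else 0 := by
    rw [Finset.sum_filter, Finset.sum_eq_single b]
    · rw [Pi.single_eq_same]
    · intro b' _ hb'
      rw [Pi.single_eq_of_ne hb', map_zero, ite_self]
    · simp
  simp only [sig, h1, h2]
  simp

theorem ic_act_P {m : Fin n} {b : c.B} (h : m < c.lv b) (i : Fin 2) (w : AV n c.B)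
    (hw : c.P b i w ≠ 0) : Act c.lv m w := by
  rcases w with k | ⟨b', j⟩
  · trivial
  · obtain ⟨-, h1, h2⟩ := c.dep b i b' j hw
    exact ⟨h.trans_le h1, h.trans_le h2⟩

theorem ic_formIn_sub {m : Fin n} {b : c.B} (h : m < c.lv b) {v : BV n} (hv : icUp m v) :
    FormIn (Act c.lv m) 1 (c.sub b v) := by
  rcases v with j | i
  · exact ic_formIn_X ⟨h, lt_of_not_ge fun hj => hv j hj rfl⟩
  · exact ic_formIn_lf (c.ic_act_P h i)

/-- first case of the grid lemma -/
theorem ic_case1 {κ : Type} [Field κ] [Algebra ℂ κ] (m : Fin n)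
    (Ω : MvPolynomial (AV n c.B) ℂ →ₗ[ℂ] κ) (ξ : c.B → BV n → κ) (φ : c.B → κ)
    (h1 : ∀ b, φ b ≠ 0 → ∃ i, ξ b (Sum.inr i) ≠ 0)
    (h2 : ∀ b i, m ≤ c.lv b → Ω (lf (c.P b i) ^ a m) = φ b * ξ b (Sum.inr i) ^ a m)
    (h3 : ∀ b, m ≤ c.lv b → b ≠ c.α m →
      Ω (X (Sum.inr (b, m)) ^ a m) = φ b * ξ b (Sum.inl m) ^ a m)
    (h4 : ∀ F, FormIn (Act c.lv m) (a m) F → Ω F = 0) (b : c.B) (hb : m ≤ c.lv b) : φ b = 0 := by
  induction hr : c.rk b using Nat.strong_induction_on generalizing b with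
  | _ r ih =>
  by_contra hφ
  obtain ⟨i, hi⟩ := h1 b hφ
  refine mul_ne_zero hφ (pow_ne_zero (a m) hi) ?_
  rw [← h2 b i hb]
  have hact : (∀ w, c.P b i w ≠ 0 → Act c.lv m w) → Ω (lf (c.P b i) ^ a m) = 0 := fun h =>
    h4 _ ((ic_formIn_lf h).ic_pow _)
  rcases hb.lt_or_eq with hlt | heq
  · exact hact (c.ic_act_P hlt i)
  · rcases c.kind b with hk | hk
    · exact hact (heq ▸ hk i)
    · rcases hk i with h0 | ⟨b', hb', hP⟩
      · exact hact fun w hw => absurd (congrFun h0 w) hw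
      · obtain ⟨e1, e2, -⟩ := c.dep b i b' (c.lv b) (by rw [hP]; simp)
        rw [hP, ic_lf_single, ← heq, h3 b' (heq ▸ e2) (heq ▸ hb'), ih _ (hr ▸ e1) b' (heq ▸ e2) rfl,
          zero_mul]

/-- evaluation of the level-`j` identity at a point -/
theorem ic_eval_sig {κ : Type} [Field κ] [Algebra ℂ κ] (ha : ∀ i, 1 ≤ a i) (j : Fin n) (l : c.Par)
    (ν : AV n c.B → κ) (h1 : ∀ j', j ≤ j' → ν (Sum.inr (c.α j', j')) = 0)
    (h2 : ∀ i, i < j → aeval ν (rename Sum.inl (f i) : MvPolynomial (AV n c.B) ℂ) = 0) :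
    aeval ν (c.sig a f j l) = ∑ b ∈ Finset.univ.filter (fun b => j ≤ c.lv b),
      aeval (fun v => aeval ν (c.sub b v)) (l.1 b) +
      algebraMap ℂ κ l.2.1 * aeval ν (rename Sum.inl (f j) : MvPolynomial (AV n c.B) ℂ) := by
  have e1 : ∑ i ∈ Finset.univ.filter (· < j),
      aeval ν (l.2.2.1 i * rename Sum.inl (f i)) = 0 :=
    Finset.sum_eq_zero fun i hi => by rw [map_mul, h2 i (Finset.mem_filter.1 hi).2, mul_zero]
  have e2 : ∑ i ∈ Finset.univ.filter (j < ·),
      aeval ν (l.2.2.2 i * X (Sum.inr (c.α i, i))) = 0 :=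
    Finset.sum_eq_zero fun i hi => by
      rw [map_mul, aeval_X, h1 i (Finset.mem_filter.1 hi).2.le, mul_zero]
  rw [sig, map_add, map_add, map_add, map_sub, map_sum, map_sum, map_sum, e1, e2, map_mul, map_pow,
    aeval_X, h1 j le_rfl, zero_pow (by have := ha j; omega), map_mul, aeval_C]
  simp only [comp_aeval_apply, mul_zero, sub_zero, add_zero, map_mul, aeval_C]

/-- the end of the second case: a common zero of all the generic equations vanishes -/
theorem ic_case2 {κ : Type} [Field κ] [Algebra ℂ κ] (ha : ∀ i, 1 ≤ a i) (hA : ∀ i, a i ≤ A)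
    (hf : ∀ i, (f i).IsHomogeneous (a i))
    (hpow : ∃ s : ℕ, 1 ≤ s ∧ ∀ i, X i ^ s ∈ Ideal.span (Set.range f))
    {T : Type} [Fintype T] (lvT : T → Fin n) (lam : T → c.Par)
    (hmem : ∀ t, c.Adm a (lvT t) (lam t) ∧ c.sig a f (lvT t) (lam t) = 0)
    (hspan : ∀ m l, c.Adm a m l → c.sig a f m l = 0 →
      l ∈ Submodule.span ℂ (lam '' {t | lvT t = m}))
    {τ : T → κ} (hτ : Function.Injective (aeval τ : MvPolynomial T ℂ →ₐ[ℂ] κ))
    (m : Fin n) (ν : AV n c.B → κ) (h1 : ∀ j, m < j → ν (Sum.inr (c.α j, j)) = 0)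
    (h2 : ∀ i, i ≤ m → aeval ν (rename Sum.inl (f i) : MvPolynomial (AV n c.B) ℂ) = 0)
    (h3 : ∀ b, m < c.lv b → ∀ j, m < j → ∑ t, τ t * aeval (fun v => aeval ν (c.sub b v))
      (if lvT t = j then (lam t).1 b else 0) = 0) :
    ∀ w, Act c.lv m w → ν w = 0 := by
  have hf0 : ∀ j, aeval ν (rename Sum.inl (f j) : MvPolynomial (AV n c.B) ℂ) = 0 := by
    intro j
    induction j using WellFoundedLT.induction with
    | _ j ih =>
    rcases le_or_gt j m with hj | hj
    · exact h2 j hj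
    obtain ⟨l, hl1, hl2, hl3⟩ := c.exists_cf a f ha hA hf j
    have hne := ic_span hτ lam (fun t => lvT t = j)
      ((LinearMap.fst ℂ _ _).comp (LinearMap.snd ℂ _ _)) (hspan j l hl1 hl2) hl3
    refine (mul_eq_zero.1 ?_).resolve_left hne
    have e1 : ∑ b ∈ Finset.univ.filter (fun b => j ≤ c.lv b), ∑ t, τ t *
        aeval (fun v => aeval ν (c.sub b v)) (if lvT t = j then (lam t).1 b else 0) = 0 :=
      Finset.sum_eq_zero fun b hb => h3 b (hj.trans_le (Finset.mem_filter.1 hb).2) j hj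
    refine (zero_add _).symm.trans ((congrArg (· + _) e1).symm.trans ?_)
    rw [Finset.sum_comm, Finset.sum_mul, ← Finset.sum_add_distrib]
    refine Finset.sum_eq_zero fun t _ => ?_
    by_cases ht : lvT t = j
    · have e2 := c.ic_eval_sig a f ha j (lam t) ν (fun j' hj' => h1 j' (hj.trans_le hj')) ih
      rw [← ht, (hmem t).2, map_zero, ht] at e2
      simp only [if_pos ht]
      rw [← Finset.mul_sum, mul_assoc, ← mul_add]
      exact mul_eq_zero_of_right _ e2.symm
    · simp [if_neg ht]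
  have hx : ∀ i, ν (Sum.inl i) = 0 := by
    intro i
    obtain ⟨s, hs, h⟩ := hpow
    have : Ideal.span (Set.range f) ≤ RingHom.ker (aeval (ν ∘ Sum.inl) :
        MvPolynomial (Fin n) ℂ →ₐ[ℂ] κ) := by
      rw [Ideal.span_le]
      rintro _ ⟨j, rfl⟩
      have := hf0 j
      rwa [aeval_rename] at this
    have h' := RingHom.mem_ker.1 (this (h i))
    rw [map_pow, aeval_X] at h'
    exact pow_eq_zero_iff (by omega) |>.1 h'
  have hy : ∀ b, m < c.lv b → ∀ j, m < j → ν (Sum.inr (b, j)) = 0 := by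
    intro b
    induction hr : c.rk b using Nat.strong_induction_on generalizing b with
    | _ r ih =>
    intro hb j
    have hp : ∀ i, aeval ν (c.sub b (Sum.inr i)) = 0 := fun i => ic_aeval_lf fun w hw => by
      rcases w with k | ⟨b', j'⟩
      · exact hx k
      · obtain ⟨e1, e2, e3⟩ := c.dep b i b' j' hw
        exact ih _ (hr ▸ e1) b' rfl (hb.trans_le e2) j' (hb.trans_le e3)
    induction j using WellFoundedGT.induction with
    | _ j ihj =>
    intro hj
    have hd : 1 ≤ c.dl a b j := by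
      unfold dl; split_ifs
      · exact ha j
      · exact le_rfl
    obtain ⟨l, hl1, hl2, hl3⟩ := c.exists_lc a f ha b j
    have hne := ic_span hτ lam (fun t => lvT t = j)
      ((lcoeff ℂ (Finsupp.single (Sum.inl j) (c.dl a b j))).comp
        ((LinearMap.proj b).comp (LinearMap.fst ℂ _ _))) (hspan j l hl1 hl2) hl3
    refine (pow_eq_zero_iff (n := c.dl a b j) (by omega)).1 ((mul_eq_zero.1 ?_).resolve_left hne)
    rw [← h3 b hb j hj, Finset.sum_mul]
    refine Finset.sum_congr rfl fun t _ => ?_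
    by_cases ht : lvT t = j
    · simp only [if_pos ht]
      rw [ic_aeval_tri hd (ht ▸ (hmem t).1.1 b) hp
        (fun j' hj' => (aeval_X _ _).trans (ihj j' hj' (hj.trans hj'))), mul_assoc]
      simp [sub]
    · simp [if_neg ht]
  rintro (i | ⟨b, j⟩) hw
  · exact hx i
  · exact hy b hw.1 j hw.2

/-- **Independence.**  Fix `κ, τ, ξ, φ` and a level `m`; `ψ l = ∑ b, φ b m * aeval (ξ b) (l.1 b)` vanishes on
`Λ_m`, so `ψ = Ω ∘ sig m` on `Adm m`.  For `lv b < m`: `E_b = p, q` have `sig = 0`, so `φ b m = 0`.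
For `m ≤ lv b` and a monomial `x^μ` of degree `a m` in `p, q, y_j (j > m)`:
`Ω (aeval (sub b) x^μ) = φ b m * ξ_b^μ`; for `b ≠ α m` also `Ω ((b,m)^a) = φ b m * ξ_b(y_m)^a`.
`grid` + `grid_lemma` (`act = Act lv m`) give two cases.
(1) `Ω = 0` on active forms: induction on `rk b` shows `φ b m = 0` (`Ω (P b i ^ a) = φ b m * ξ b (inr i)^a`
is `0` if `P b` is active [`m < lv b` by `dep`, or first case of `kind`], or by the second case of `kind`
and induction).
(2) `Ω = φ₀ • aeval ν`, `ν w₀ ≠ 0`, `w₀` active: contradiction.  `γ j = w₀^(a-1)` gives `ν (α j, j) = 0`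
(`j > m`), `g i = w₀^(a m - a i)` and `l.2.1 = 1` give `f i (ν) = 0` (`i ≤ m`).  For `m < lv b`,
`ζ_b = aeval ν ∘ sub b` is proportional to `ξ_b` on `p, q, y_j (j > m)` (it is `0` if `φ b m = 0`), so
`E_{b,j}(τ, ζ_b) = 0` for `j > m` (homogeneous of degree `≥ 1` in these variables).  The level-`j`
identities (`sig j (lam t) = 0`, summed against `τ`, evaluated at `ν`) and `∑ τ t * (lam t).2.1 ≠ 0`
(`exists_cf`, `τ` is `ℂ`-linearly independent) give `f j (ν) = 0` for `j > m` by induction; `hpow` gives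
`ν (x_i) = 0`; induction on `rk b` and descending induction on `j` (`exists_lc`) give `ν (b, j) = 0` for
all active variables. -/
theorem ind_core (ha : ∀ i, 1 ≤ a i) (hmono : Monotone a) (hA : ∀ i, a i ≤ A)
    (hf : ∀ i, (f i).IsHomogeneous (a i))
    (hpow : ∃ s : ℕ, 1 ≤ s ∧ ∀ i, X i ^ s ∈ Ideal.span (Set.range f))
    (T : Type) [Fintype T] (lvT : T → Fin n) (lam : T → c.Par)
    (hmem : ∀ t, c.Adm a (lvT t) (lam t) ∧ c.sig a f (lvT t) (lam t) = 0)
    (hspan : ∀ m l, c.Adm a m l → c.sig a f m l = 0 →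
      l ∈ Submodule.span ℂ (lam '' {t | lvT t = m})) :
    Ind fun b m t => if lvT t = m then (lam t).1 b else 0 := by
  intro κ _ _ τ hτ ξ φ H1 H2 b₀ m
  let ψ : c.Par →ₗ[ℂ] κ :=
    { toFun := fun l => ∑ b, φ b m * aeval (ξ b) (l.1 b)
      map_add' := fun l l' => by simp [mul_add, Finset.sum_add_distrib]
      map_smul' := fun r l => by simp [Finset.smul_sum] }
  have hψ : ∀ l, c.Adm a m l → c.sig a f m l = 0 → ψ l = 0 := by
    intro l h1 h2
    refine LinearMap.mem_ker.1 (Submodule.span_le.2 ?_ (hspan m l h1 h2))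
    rintro _ ⟨t, ht, rfl⟩
    have ht' : lvT t = m := ht
    refine Eq.trans (Finset.sum_congr rfl fun b _ => ?_) (H2 t)
    rw [Finset.sum_eq_single m]
    · simp only [if_pos ht']
    · intro m' _ hm'
      simp only [if_neg (ht' ▸ hm'.symm), map_zero, mul_zero]
    · simp
  obtain ⟨Ω, hΩ⟩ := c.exists_Ω a f m ψ hψ
  have H1' : ∀ b, φ b m ≠ 0 → ∃ i, ξ b (Sum.inr i) ≠ 0 := fun b hb =>
    (H1 b m hb).1.elim (fun h => ⟨0, h⟩) fun h => ⟨1, h⟩
  have hE : ∀ (b : c.B) (E : MvPolynomial (BV n) ℂ), Tri m (c.dl a b m) E →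
      (b = c.α m → E.coeff (Finsupp.single (Sum.inl m) (a m)) = 0) →
      Ω (if m ≤ c.lv b then aeval (c.sub b) E else 0) = φ b m * aeval (ξ b) E := by
    intro b E h1 h2
    rw [← c.ic_sig_E a f h2, ← hΩ _ (c.ic_adm_E a h1)]
    show ∑ b', φ b' m * aeval (ξ b') ((Pi.single b E : c.B → MvPolynomial (BV n) ℂ) b') = _
    rw [Finset.sum_eq_single b]
    · rw [Pi.single_eq_same]
    · intro b' _ hb'
      rw [Pi.single_eq_of_ne hb', map_zero, mul_zero]
    · simp
  rcases lt_or_ge (c.lv b₀) m with hb₀ | hb₀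
  · by_contra hφ
    obtain ⟨i, hi⟩ := H1' b₀ hφ
    have := hE b₀ (X (Sum.inr i)) (by
      rw [dl, if_neg (not_le.2 hb₀)]
      exact ic_tri_of_up (ic_formIn_X (icUp_inr m i)))
      (fun e => absurd (e ▸ hb₀) (by rw [c.lv_α]; exact lt_irrefl _))
    rw [if_neg (not_le.2 hb₀), map_zero, aeval_X] at this
    exact mul_ne_zero hφ hi this.symm
  have hU : ∀ (b : c.B), m ≤ c.lv b → ∀ E : MvPolynomial (BV n) ℂ, FormIn (icUp m) (a m) E →
      Ω (aeval (c.sub b) E) = φ b m * aeval (ξ b) E := by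
    intro b hb E h
    have := hE b E (by rw [dl, if_pos hb]; exact ic_tri_of_up h) fun _ => ic_coeff_of_up (ha m) h
    rwa [if_pos hb] at this
  have hU2 : ∀ (b : c.B), m ≤ c.lv b → ∀ v w, icUp m v → icUp m w → ∀ i ≤ a m,
      Ω (c.sub b v ^ (a m - i) * c.sub b w ^ i) = φ b m * ξ b v ^ (a m - i) * ξ b w ^ i := by
    intro b hb v w hv hw i hi
    have h := ((ic_formIn_X hv).ic_pow (a m - i)).ic_mul ((ic_formIn_X hw).ic_pow i)
    rw [Nat.sub_add_cancel hi] at h
    have := hU b hb _ h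
    simpa only [map_mul, map_pow, aeval_X, mul_assoc] using this
  rcases grid_lemma (Act c.lv m) (ha m) (hA m) Ω (fun g hg1 hg2 => by
    obtain ⟨b, hb, hP⟩ := c.grid m g hg1 hg2
    refine ⟨φ b m, ξ b (Sum.inr 0), ξ b (Sum.inr 1), fun i hi => ?_⟩
    rw [← hP]
    exact hU2 b hb.ge (Sum.inr 0) (Sum.inr 1) (icUp_inr m 0) (icUp_inr m 1) i hi) with
    h4 | ⟨φ₀, ν, hφ₀, ⟨w₀, hw₀, hν⟩, h4⟩
  · refine c.ic_case1 a m Ω ξ (fun b => φ b m) H1' (fun b i hb => ?_) (fun b hb hb' => ?_) h4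
      b₀ hb₀
    · simpa [sub] using hU2 b hb (Sum.inr i) (Sum.inr i) (icUp_inr m i) (icUp_inr m i) 0
        (Nat.zero_le _)
    · have := hE b (X (Sum.inl m) ^ a m) (by rw [dl, if_pos hb]; exact ic_tri_X_pow m _)
        fun e => absurd e hb'
      simpa [if_pos hb, sub] using this
  exfalso
  refine hν (c.ic_case2 a f ha hA hf hpow lvT lam hmem hspan hτ m ν (fun j hj => ?_)
    (fun i hi => ?_) (fun b hb j hj => ?_) w₀ hw₀)
  · have h5 := hΩ (0, 0, 0, Pi.single j (X w₀ ^ (a m - 1))) ⟨fun _ => ic_tri_zero _ _,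
      fun _ => isHomogeneous_zero _ _ _, fun j' => by
        by_cases h : j' = j
        · subst h; simpa using isHomogeneous_X_pow w₀ _
        · simpa [h] using isHomogeneous_zero _ _ _⟩
    have e : c.sig a f m (0, 0, 0, Pi.single j (X w₀ ^ (a m - 1))) =
        X w₀ ^ (a m - 1) * X (Sum.inr (c.α j, j)) := by
      simp only [sig]
      rw [Finset.sum_eq_single_of_mem (s := Finset.univ.filter (m < ·)) j (by simpa using hj)
        fun j' _ h => by simp [h]]
      simp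
    have h6 := ((ic_formIn_X hw₀).ic_pow (a m - 1)).ic_mul
      (ic_formIn_X (act := Act c.lv m) (w := Sum.inr (c.α j, j)) ⟨by rwa [c.lv_α], hj⟩)
    rw [Nat.sub_add_cancel (ha m)] at h6
    rw [e, h4 _ h6] at h5
    simpa [ψ, hφ₀, hν] using h5
  · rcases hi.lt_or_eq with hi | hi
    · have h5 := hΩ (0, 0, Pi.single i (X w₀ ^ (a m - a i)), 0) ⟨fun _ => ic_tri_zero _ _,
        fun i' => by
          by_cases h : i' = i
          · subst h; simpa using isHomogeneous_X_pow w₀ _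
          · simpa [h] using isHomogeneous_zero _ _ _, fun _ => isHomogeneous_zero _ _ _⟩
      have e : c.sig a f m (0, 0, Pi.single i (X w₀ ^ (a m - a i)), 0) =
          X w₀ ^ (a m - a i) * rename Sum.inl (f i) := by
        simp only [sig]
        rw [Finset.sum_eq_single_of_mem i (by simpa using hi) fun j' _ h => by simp [h]]
        simp
      have h6 := ((ic_formIn_X hw₀).ic_pow (a m - a i)).ic_mul
        (ic_formIn_rename (act := Act c.lv m) (k := Sum.inl) (fun _ => trivial) (hf i))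
      rw [Nat.sub_add_cancel (hmono hi.le)] at h6
      rw [e, h4 _ h6] at h5
      simpa [ψ, hφ₀, hν] using h5
    · subst hi
      have h5 := hΩ (0, 1, 0, 0) ⟨fun _ => ic_tri_zero _ _,
        fun _ => isHomogeneous_zero _ _ _, fun _ => isHomogeneous_zero _ _ _⟩
      have e : c.sig a f i (0, 1, 0, 0) = rename Sum.inl (f i) := by simp [sig]
      rw [e, h4 _ (ic_formIn_rename (act := Act c.lv i) (k := Sum.inl) (fun _ => trivial) (hf i))]
        at h5
      simpa [ψ, hφ₀] using h5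
  · have key : ∀ v w, icUp m v → icUp m w →
        φ₀ * aeval ν (c.sub b v) ^ (a m - 1) * aeval ν (c.sub b w) =
          φ b m * ξ b v ^ (a m - 1) * ξ b w := by
      intro v w hv hw
      have h5 := hU2 b hb.le v w hv hw 1 (ha m)
      have h6 := ((c.ic_formIn_sub hb hv).ic_pow (a m - 1)).ic_mul
        ((c.ic_formIn_sub hb hw).ic_pow 1)
      rw [Nat.sub_add_cancel (ha m)] at h6
      rw [h4 _ h6] at h5
      simpa only [map_mul, map_pow, pow_one, mul_assoc] using h5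
    obtain ⟨l, hl1, hl2⟩ : ∃ l : κ, (∀ v, icUp m v → aeval ν (c.sub b v) = l * ξ b v) ∧
        (φ b m = 0 → l = 0) := by
      by_cases hφ : φ b m = 0
      · refine ⟨0, fun v hv => ?_, fun _ => rfl⟩
        have := key v v hv hv
        rw [hφ, zero_mul, zero_mul, mul_assoc, ← pow_succ] at this
        rw [zero_mul]
        exact pow_eq_zero_iff (Nat.succ_ne_zero _) |>.1 ((mul_eq_zero.1 this).resolve_left hφ₀)
      · obtain ⟨i, hi⟩ := H1' b hφ
        have hne : φ₀ * aeval ν (c.sub b (Sum.inr i)) ^ (a m - 1) ≠ 0 := by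
          intro h0
          have := key _ _ (icUp_inr m i) (icUp_inr m i)
          rw [h0, zero_mul] at this
          exact mul_ne_zero (mul_ne_zero hφ (pow_ne_zero _ hi)) hi this.symm
        refine ⟨φ b m * ξ b (Sum.inr i) ^ (a m - 1) /
          (φ₀ * aeval ν (c.sub b (Sum.inr i)) ^ (a m - 1)), fun v hv => ?_, fun h => absurd h hφ⟩
        rw [div_mul_eq_mul_div, eq_div_iff hne, ← key _ _ (icUp_inr m i) hv, mul_comm]
    have hd : 1 ≤ c.dl a b j := by
      unfold dl; split_ifs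
      · exact ha j
      · exact le_rfl
    have e : ∑ t, τ t * aeval (fun v => aeval ν (c.sub b v))
        (if lvT t = j then (lam t).1 b else 0) =
        l ^ c.dl a b j * ∑ t, τ t * aeval (ξ b) (if lvT t = j then (lam t).1 b else 0) := by
      rw [Finset.mul_sum]
      refine Finset.sum_congr rfl fun t _ => ?_
      by_cases ht : lvT t = j
      · have htri : Tri j (c.dl a b j) ((lam t).1 b) := ht ▸ (hmem t).1.1 b
        rw [if_pos ht, ic_aeval_smul htri.1 (ξ := ξ b) (l := l)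
          fun μ hμ v hv => hl1 v (ic_up_of_tri hj htri μ hμ v hv), mul_left_comm]
      · simp [if_neg ht]
    rw [e]
    by_cases hφ : φ b m = 0
    · rw [hl2 hφ, zero_pow (by omega), zero_mul]
    · rw [(H1 b m hφ).2 j, mul_zero]

/-- `T := Σ m, ↥(s m)` with `s m` from `exists_span`. -/
theorem exists_sys (ha : ∀ i, 1 ≤ a i) (hmono : Monotone a) (hA : ∀ i, a i ≤ A)
    (hf : ∀ i, (f i).IsHomogeneous (a i))
    (hpow : ∃ s : ℕ, 1 ≤ s ∧ ∀ i, X i ^ s ∈ Ideal.span (Set.range f)) :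
    Nonempty (Sys c a f) := by
  classical
  choose s hs1 hs2 using c.exists_span a f
  let T : Type := Σ m : Fin n, ↥(s m)
  let lam : T → c.Par := fun t => t.2.1
  have hex : ∀ m (ψ : c.Par →ₗ[ℂ] ℂ), (∃ l, c.Adm a m l ∧ c.sig a f m l = 0 ∧ ψ l ≠ 0) →
      ∃ l : ↥(s m), ψ l.1 ≠ 0 := by
    rintro m ψ ⟨l, h1, h2, h3⟩
    by_contra hcon
    push Not at hcon
    have : Submodule.span ℂ (s m : Set c.Par) ≤ LinearMap.ker ψ :=
      Submodule.span_le.2 fun x hx => hcon ⟨x, hx⟩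
    exact h3 (this (hs2 m l h1 h2))
  have hlc : ∀ b m, ∃ l : ↥(s m),
      (l.1.1 b).coeff (Finsupp.single (Sum.inl m) (c.dl a b m)) ≠ 0 := fun b m =>
    hex m ((lcoeff ℂ (Finsupp.single (Sum.inl m) (c.dl a b m))).comp
      ((LinearMap.proj b).comp (LinearMap.fst ℂ _ _))) (c.exists_lc a f ha b m)
  have hcf : ∀ m, ∃ l : ↥(s m), l.1.2.1 ≠ 0 := fun m =>
    hex m ((LinearMap.fst ℂ _ _).comp (LinearMap.snd ℂ _ _)) (c.exists_cf a f ha hA hf m)
  refine ⟨{
    T := T
    δ := c.dl a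
    e := fun b m t => if t.1 = m then (lam t).1 b else 0
    pos := fun b m => ?_
    tri := fun b m t => ?_
    lc := fun b m => ?_
    ind := c.ind_core a f ha hmono hA hf hpow T (fun t => t.1) lam (fun t => hs1 t.1 t.2.1 t.2.2)
      fun m l h1 h2 => Submodule.span_mono ?_ (hs2 m l h1 h2)
    iden := fun m => ?_ }⟩
  · unfold dl
    split_ifs
    · exact ha m
    · exact le_rfl
  · split_ifs with h
    · subst h
      exact (hs1 t.1 t.2.1 t.2.2).1.1 b
    · exact s1_tri_zero _ _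
  · obtain ⟨l, hl⟩ := hlc b m
    exact ⟨⟨m, l⟩, by rw [if_pos rfl]; exact hl⟩
  · intro x hx
    exact ⟨⟨m, ⟨x, hx⟩⟩, rfl, rfl⟩
  · refine ⟨fun t => if t.1 = m then
        ((lam t).1 (c.α m)).coeff (Finsupp.single (Sum.inl m) (a m)) else 0,
      fun t => if t.1 = m then (lam t).2.1 else 0,
      fun i t => if t.1 = m then (lam t).2.2.1 i else 0,
      fun j t => if t.1 = m then (lam t).2.2.2 j else 0, ?_, ?_, fun t => ?_⟩
    · obtain ⟨l, hl⟩ := hlc (c.α m) m
      have hd : c.dl a (c.α m) m = a m := if_pos (c.lv_α m).ge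
      rw [hd] at hl
      intro h
      have := congr_fun h ⟨m, l⟩
      rw [if_pos rfl] at this
      exact hl this
    · obtain ⟨l, hl⟩ := hcf m
      intro h
      have := congr_fun h ⟨m, l⟩
      rw [if_pos rfl] at this
      exact hl this
    · by_cases h : t.1 = m
      · simp only [if_pos h]
        have h1 : c.sig a f m (lam t) = 0 := h ▸ (hs1 t.1 t.2.1 t.2.2).2
        unfold sig at h1
        linear_combination h1
      · simp [if_neg h]

end Config

end Crest.Agent.R181
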