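import Crest.Agent.R181.Kos

/-! # Row 181: basic lemmas of the Koszul framework -/

set_option autoImplicit false

namespace Crest.Agent.R181

variable {D : Type*} [DivisionRing D] {X : Type*} [AddCommGroup X] [Module D X] {n : ℕ}

theorem kd_apply (z : Fin n → X →ₗ[D] X) (c : Finset (Fin n) → X) (U : Finset (Fin n)) :
    kd z c U = ∑ t ∈ Uᶜ, ((-1 : ℤ) ^ (U.filter (· < t)).card) • z t (c (insert t U)) := by
  simp [kd, LinearMap.sum_apply]

theorem mem_Ch {S : Finset (Fin n)} {U : ℤ → Submodule D X} {p : ℕ} {j : ℤ}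
    {c : Finset (Fin n) → X} :
    c ∈ Ch S U p j ↔ (∀ T, T ⊆ S → T.card = p → c T ∈ U (j - p)) ∧
      ∀ T, ¬ (T ⊆ S ∧ T.card = p) → c T = 0 := by
  simp only [Ch, Submodule.mem_pi, Set.mem_univ, true_imp_iff]
  constructor
  · intro h
    refine ⟨fun T h1 h2 => ?_, fun T h1 => ?_⟩
    · simpa [h1, h2] using h T
    · have := h T
      rw [if_neg h1] at this
      simpa using this
  · rintro ⟨h1, h2⟩ T
    split_ifs with h
    · exact h1 T h.1 h.2
    · simp [h2 T h]

/-- `d ∘ d = 0` (pair the terms `(s,t)` and `(t,s)`; signs are opposite). -/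
theorem kd_kd {z : Fin n → X →ₗ[D] X} (hz : Comm z) (c : Finset (Fin n) → X) :
    kd z (kd z c) = 0 := by
  classical
  funext U
  rw [kd_apply]
  simp only [kd_apply, map_sum, map_zsmul, Finset.smul_sum, smul_smul, Pi.zero_apply]
  rw [Finset.sum_sigma']
  refine Finset.sum_involution (fun x _ => ⟨x.2, x.1⟩) ?_ ?_ ?_ ?_
  · rintro ⟨s, t⟩ hx
    simp only [Finset.mem_sigma, Finset.mem_compl, Finset.mem_insert, not_or] at hx
    obtain ⟨hs, hts, ht⟩ := hx
    dsimp only
    rw [Finset.insert_comm s t U, hz t s, ← add_smul]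
    have key : (-1 : ℤ) ^ (U.filter (· < s)).card * (-1) ^ ((insert s U).filter (· < t)).card +
        (-1 : ℤ) ^ (U.filter (· < t)).card * (-1) ^ ((insert t U).filter (· < s)).card = 0 := by
      rw [Finset.filter_insert, Finset.filter_insert]
      rcases lt_or_gt_of_ne hts with h | h
      · rw [if_neg (not_lt.2 h.le), if_pos h,
          Finset.card_insert_of_notMem (fun hh => ht (Finset.mem_filter.1 hh).1)]
        ring
      · rw [if_pos h, if_neg (not_lt.2 h.le),
          Finset.card_insert_of_notMem (fun hh => hs (Finset.mem_filter.1 hh).1)]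
        ring
    rw [key, zero_smul]
  · rintro ⟨s, t⟩ hx _ h
    simp only [Finset.mem_sigma, Finset.mem_compl, Finset.mem_insert, not_or] at hx
    simp only [Sigma.mk.injEq, heq_eq_eq] at h
    exact hx.2.1 h.1
  · rintro ⟨s, t⟩ hx
    simp only [Finset.mem_sigma, Finset.mem_compl, Finset.mem_insert, not_or] at hx ⊢
    exact ⟨hx.2.2, fun h => hx.2.1 h.symm, hx.1⟩
  · rintro ⟨s, t⟩ _
    rfl

theorem kd_mem_Ch {z : Fin n → X →ₗ[D] X} {S : Finset (Fin n)} {U : ℤ → Submodule D X}
    (hU : Stable z S U) {p : ℕ} {j : ℤ} {c : Finset (Fin n) → X} (hc : c ∈ Ch S U (p + 1) j) :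
    kd z c ∈ Ch S U p j := by
  classical
  rw [mem_Ch] at hc ⊢
  obtain ⟨h1, h2⟩ := hc
  constructor
  · intro T hT hp
    rw [kd_apply]
    refine Submodule.sum_mem _ fun t ht => ?_
    refine zsmul_mem ?_ _
    have htT : t ∉ T := Finset.mem_compl.1 ht
    by_cases hts : t ∈ S
    · have := hU t hts _ _ (h1 (insert t T) (Finset.insert_subset hts hT)
        (by rw [Finset.card_insert_of_notMem htT, hp]))
      have e : j - ((p + 1 : ℕ) : ℤ) + 1 = j - p := by push_cast; ring
      rwa [e] at this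
    · rw [h2 (insert t T) (fun h => hts (h.1 (Finset.mem_insert_self _ _))), map_zero]
      exact Submodule.zero_mem _
  · intro T hT
    rw [kd_apply]
    refine Finset.sum_eq_zero fun t ht => ?_
    have htT : t ∉ T := Finset.mem_compl.1 ht
    rw [h2 (insert t T), map_zero, smul_zero]
    rintro ⟨h3, h4⟩
    rw [Finset.card_insert_of_notMem htT] at h4
    exact hT ⟨(Finset.subset_insert _ _).trans h3, by omega⟩

theorem kd_eq_zero_of_mem_Ch_zero (z : Fin n → X →ₗ[D] X) {S : Finset (Fin n)}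
    {U : ℤ → Submodule D X} {j : ℤ} {c : Finset (Fin n) → X} (hc : c ∈ Ch S U 0 j) :
    kd z c = 0 := by
  classical
  rw [mem_Ch] at hc
  funext T
  rw [kd_apply]
  refine Finset.sum_eq_zero fun t ht => ?_
  have htT : t ∉ T := Finset.mem_compl.1 ht
  rw [hc.2 (insert t T), map_zero, smul_zero]
  rintro ⟨-, h4⟩
  rw [Finset.card_insert_of_notMem htT] at h4
  omega

theorem Ch_mono {S : Finset (Fin n)} {U L : ℤ → Submodule D X} {p : ℕ} {j : ℤ}
    (h : L (j - p) ≤ U (j - p)) : Ch S L p j ≤ Ch S U p j := by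
  intro c hc
  rw [mem_Ch] at hc ⊢
  exact ⟨fun T h1 h2 => h (hc.1 T h1 h2), hc.2⟩

/-- chains are functions on the `p`-subsets of `S`. -/
noncomputable def kb1_ChEquiv (S : Finset (Fin n)) (U : ℤ → Submodule D X) (p : ℕ) (j : ℤ) :
    Ch S U p j ≃ₗ[D] (S.powersetCard p → U (j - p)) where
  toFun c T := ⟨c.1 T.1, (mem_Ch.1 c.2).1 T.1 (Finset.mem_powersetCard.1 T.2).1
    (Finset.mem_powersetCard.1 T.2).2⟩
  map_add' _ _ := rfl
  map_smul' _ _ := rfl
  invFun g := ⟨fun T => if h : T ∈ S.powersetCard p then (g ⟨T, h⟩ : X) else 0, by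
    rw [mem_Ch]
    constructor
    · intro T h1 h2
      rw [dif_pos (Finset.mem_powersetCard.2 ⟨h1, h2⟩)]
      exact (g _).2
    · intro T h
      rw [dif_neg (fun hh => h (Finset.mem_powersetCard.1 hh))]⟩
  left_inv c := by
    ext T
    by_cases h : T ∈ S.powersetCard p
    · simp [h]
    · simp only [h, dif_neg, not_false_eq_true]
      exact ((mem_Ch.1 c.2).2 T (fun hh => h (Finset.mem_powersetCard.2 hh))).symm
  right_inv g := by
    funext T
    ext
    simp [T.2]

theorem Ch_finite {S : Finset (Fin n)} {U : ℤ → Submodule D X} (hU : FD U) (p : ℕ) (j : ℤ) :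
    Module.Finite D (Ch S U p j) := by
  have := hU (j - p)
  exact Module.Finite.equiv (kb1_ChEquiv S U p j).symm

theorem finrank_Ch {S : Finset (Fin n)} {U : ℤ → Submodule D X} (hU : FD U) (p : ℕ) (j : ℤ) :
    Module.finrank D (Ch S U p j) = S.card.choose p * Module.finrank D (U (j - p)) := by
  have := hU (j - p)
  rw [(kb1_ChEquiv S U p j).finrank_eq, Module.finrank_pi_fintype, Finset.sum_const,
    Finset.card_univ, Fintype.card_coe, Finset.card_powersetCard, smul_eq_mul]

theorem FD.mono {U L : ℤ → Submodule D X} (hU : FD U) (h : ∀ k, L k ≤ U k) : FD L := by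
  intro k
  have := hU k
  exact Submodule.finiteDimensional_of_le (h k)

theorem Bd_le_Zc {z : Fin n → X →ₗ[D] X} (hz : Comm z) {S : Finset (Fin n)}
    {U L : ℤ → Submodule D X} (hU : Stable z S U) (hL : Stable z S L) (hLU : ∀ k, L k ≤ U k)
    (p : ℕ) (j : ℤ) : Bd z S U L p j ≤ Zc z S U L p j := by
  refine sup_le ?_ ?_
  · rintro _ ⟨c, hc, rfl⟩
    refine ⟨kd_mem_Ch hU hc, ?_⟩
    show kd z (kd z c) ∈ Ch S L (p - 1) j
    rw [kd_kd hz]
    exact Submodule.zero_mem _
  · intro c hc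
    refine ⟨Ch_mono (hLU _) hc, ?_⟩
    show kd z c ∈ Ch S L (p - 1) j
    cases p with
    | zero =>
      rw [kd_eq_zero_of_mem_Ch_zero z hc]
      exact Submodule.zero_mem _
    | succ p => exact kd_mem_Ch hL hc

theorem beta_nonneg {z : Fin n → X →ₗ[D] X} (hz : Comm z) {S : Finset (Fin n)}
    {U L : ℤ → Submodule D X} (hU : Stable z S U) (hL : Stable z S L) (hLU : ∀ k, L k ≤ U k)
    (hfd : FD U) (p : ℕ) (j : ℤ) : 0 ≤ beta z S U L p j := by
  have := Ch_finite (S := S) hfd p j
  have : Module.Finite D (Zc z S U L p j) :=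
    Submodule.finiteDimensional_of_le (S₂ := Ch S U p j) inf_le_left
  have := Submodule.finrank_mono (Bd_le_Zc hz hU hL hLU p j)
  unfold beta
  omega

theorem kb1_rank_aux {V W : Type*} [AddCommGroup V] [Module D V] [AddCommGroup W] [Module D W]
    (g : V →ₗ[D] W) (A : Submodule D V) [Module.Finite D A] :
    Module.finrank D (A.map g) + Module.finrank D ↥(A ⊓ LinearMap.ker g) = Module.finrank D A := by
  have h := LinearMap.finrank_range_add_finrank_ker (g.domRestrict A)
  rw [LinearMap.range_domRestrict, LinearMap.ker_domRestrict] at h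
  rw [← h, ← Submodule.finrank_map_subtype_eq A ((LinearMap.ker g).comap A.subtype),
    Submodule.map_comap_subtype]

theorem kb1_rank {V W : Type*} [AddCommGroup V] [Module D V] [AddCommGroup W] [Module D W]
    (f : V →ₗ[D] W) (A : Submodule D V) (B : Submodule D W) [Module.Finite D A]
    [Module.Finite D B] :
    Module.finrank D ↥(A.map f ⊔ B) + Module.finrank D ↥(A ⊓ B.comap f) =
      Module.finrank D A + Module.finrank D B := by
  have h1 := kb1_rank_aux (B.mkQ ∘ₗ f) A
  have h2 := kb1_rank_aux B.mkQ (A.map f ⊔ B)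
  rw [LinearMap.ker_comp, Submodule.ker_mkQ] at h1
  rw [Submodule.ker_mkQ, inf_eq_right.2 le_sup_right, Submodule.map_sup,
    Submodule.mkQ_map_self, sup_bot_eq, ← Submodule.map_comp] at h2
  omega

/-- rank-nullity for `Ch U (p+1) → (functions) / Ch L p`, whose kernel is `Zc (p+1)` and whose
image is `Bd p / Ch L p`. -/
theorem beta_formula {z : Fin n → X →ₗ[D] X} {S : Finset (Fin n)}
    {U L : ℤ → Submodule D X} (hLU : ∀ k, L k ≤ U k) (hfd : FD U) (p : ℕ) (j : ℤ) :
    beta z S U L p j = (Module.finrank D (Zc z S U L p j) : ℤ)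
      + Module.finrank D (Zc z S U L (p + 1) j)
      - Module.finrank D (Ch S L p j) - Module.finrank D (Ch S U (p + 1) j) := by
  have := Ch_finite (S := S) hfd (p + 1) j
  have := Ch_finite (S := S) (hfd.mono hLU) p j
  have h := kb1_rank (kd z) (Ch S U (p + 1) j) (Ch S L p j)
  have e : Zc z S U L (p + 1) j = Ch S U (p + 1) j ⊓ (Ch S L p j).comap (kd z) := rfl
  unfold beta Bd
  rw [e]
  omega

/-- `Ch L ≤ Bd` and `Zc ≤ Ch U`. -/
theorem beta_le_choose {z : Fin n → X →ₗ[D] X} {S : Finset (Fin n)}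
    {U L : ℤ → Submodule D X} (hLU : ∀ k, L k ≤ U k) (hfd : FD U) (p : ℕ) (j : ℤ) :
    beta z S U L p j ≤ (S.card.choose p : ℤ) *
      ((Module.finrank D (U (j - p)) : ℤ) - Module.finrank D (L (j - p))) := by
  have := Ch_finite (S := S) hfd (p + 1) j
  have := Ch_finite (S := S) hfd p j
  have := Ch_finite (S := S) (hfd.mono hLU) p j
  have : Module.Finite D (Bd z S U L p j) := by
    unfold Bd
    infer_instance
  have h1 : Module.finrank D (Zc z S U L p j) ≤ Module.finrank D (Ch S U p j) :=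
    Submodule.finrank_mono inf_le_left
  have h2 : Module.finrank D (Ch S L p j) ≤ Module.finrank D (Bd z S U L p j) :=
    Submodule.finrank_mono le_sup_right
  rw [finrank_Ch hfd] at h1
  rw [finrank_Ch (hfd.mono hLU)] at h2
  unfold beta
  have h1' : (Module.finrank D (Zc z S U L p j) : ℤ) ≤
      (S.card.choose p : ℤ) * Module.finrank D (U (j - p)) := by exact_mod_cast h1
  have h2' : (S.card.choose p : ℤ) * Module.finrank D (L (j - p)) ≤
      (Module.finrank D (Bd z S U L p j) : ℤ) := by exact_mod_cast h2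
  rw [mul_sub]
  omega

theorem kb2_finrank_map {X' : Type*} [AddCommGroup X'] [Module D X'] (e : X →ₗ[D] X')
    (he : Function.Injective e) (V : Submodule D X) :
    Module.finrank D (V.map e) = Module.finrank D V :=
  (Submodule.equivMapOfInjective e he V).finrank_eq.symm

theorem kb2_Ch_zero (S : Finset (Fin n)) (U : ℤ → Submodule D X) (j : ℤ) :
    Ch S U 0 j = (U j).map (LinearMap.single D (fun _ : Finset (Fin n) => X) ∅) := by
  ext c
  rw [mem_Ch, Submodule.mem_map]
  constructor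
  · rintro ⟨h1, h2⟩
    refine ⟨c ∅, by simpa using h1 ∅ (Finset.empty_subset _) rfl, ?_⟩
    funext T
    by_cases hT : T = ∅
    · subst hT; simp
    · rw [h2 T (fun h => hT (Finset.card_eq_zero.1 h.2))]
      simp [hT]
  · rintro ⟨x, hx, rfl⟩
    refine ⟨fun T _ h2 => ?_, fun T h => ?_⟩
    · rw [Finset.card_eq_zero.1 h2]; simpa using hx
    · have hT : T ≠ ∅ := by
        rintro rfl
        exact h ⟨Finset.empty_subset _, rfl⟩
      simp [hT]

theorem kb2_kd_one (z : Fin n → X →ₗ[D] X) {S : Finset (Fin n)} {U : ℤ → Submodule D X} {j : ℤ}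
    {c : Finset (Fin n) → X} (hc : c ∈ Ch S U 1 j) :
    kd z c = LinearMap.single D (fun _ : Finset (Fin n) => X) ∅ (∑ t, z t (c {t})) := by
  funext T
  rw [kd_apply]
  by_cases hT : T = ∅
  · subst hT; simp
  · rw [Finset.sum_eq_zero]
    · simp [hT]
    · intro t ht
      rw [(mem_Ch.1 hc).2 (insert t T), map_zero, smul_zero]
      rintro ⟨-, h⟩
      rw [Finset.card_insert_of_notMem (Finset.mem_compl.1 ht)] at h
      exact hT (Finset.card_eq_zero.1 (by omega))

theorem kb2_map_kd_one (z : Fin n → X →ₗ[D] X) (S : Finset (Fin n)) (U : ℤ → Submodule D X)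
    (j : ℤ) : (Ch S U 1 j).map (kd z) =
      (⨆ t ∈ S, (U (j - 1)).map (z t)).map (LinearMap.single D (fun _ : Finset (Fin n) => X) ∅) := by
  apply le_antisymm
  · rintro _ ⟨c, hc, rfl⟩
    rw [kb2_kd_one z hc]
    refine Submodule.mem_map_of_mem (Submodule.sum_mem _ fun t _ => ?_)
    by_cases ht : t ∈ S
    · refine Submodule.mem_iSup_of_mem t (Submodule.mem_iSup_of_mem ht
        (Submodule.mem_map_of_mem ?_))
      simpa using (mem_Ch.1 hc).1 {t} (by simpa using ht) (Finset.card_singleton t)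
    · rw [(mem_Ch.1 hc).2 {t} (by simp [ht]), map_zero]
      exact Submodule.zero_mem _
  · rw [Submodule.map_le_iff_le_comap]
    refine iSup₂_le fun t ht => ?_
    rintro _ ⟨x, hx, rfl⟩
    have hc : (Pi.single {t} x : Finset (Fin n) → X) ∈ Ch S U 1 j := by
      rw [mem_Ch]
      refine ⟨fun T _ _ => ?_, fun T h => ?_⟩
      · by_cases hT : T = {t}
        · subst hT; simpa using hx
        · simp [hT]
      · have hT : T ≠ {t} := by
          rintro rfl
          exact h ⟨by simpa using ht, Finset.card_singleton t⟩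
        simp [hT]
    refine ⟨_, hc, ?_⟩
    rw [kb2_kd_one z hc, Finset.sum_eq_single t]
    · simp
    · intro s _ hs
      simp [hs]
    · simp

theorem kb2_Ch_map {X' : Type*} [AddCommGroup X'] [Module D X'] (e : X →ₗ[D] X')
    (S : Finset (Fin n)) (U : ℤ → Submodule D X) (p : ℕ) (j : ℤ) :
    Ch S (fun k => (U k).map e) p j = (Ch S U p j).map (e.compLeft (Finset (Fin n))) := by
  ext c
  rw [mem_Ch, Submodule.mem_map]
  constructor
  · rintro ⟨h1, h2⟩
    have : ∀ T : Finset (Fin n), ∃ x : X, (T ⊆ S → T.card = p → x ∈ U (j - p)) ∧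
        (¬ (T ⊆ S ∧ T.card = p) → x = 0) ∧ e x = c T := by
      intro T
      by_cases hT : T ⊆ S ∧ T.card = p
      · obtain ⟨x, hx, hx'⟩ := h1 T hT.1 hT.2
        exact ⟨x, fun _ _ => hx, fun h => absurd hT h, hx'⟩
      · exact ⟨0, fun _ _ => Submodule.zero_mem _, fun _ => rfl, by rw [h2 T hT, map_zero]⟩
    choose x hx using this
    exact ⟨x, mem_Ch.2 ⟨fun T => (hx T).1, fun T => (hx T).2.1⟩, funext fun T => (hx T).2.2⟩
  · rintro ⟨x, hx, rfl⟩
    obtain ⟨h1, h2⟩ := mem_Ch.1 hx
    refine ⟨fun T a b => Submodule.mem_map_of_mem (h1 T a b), fun T h => ?_⟩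
    show e (x T) = 0
    rw [h2 T h, map_zero]

theorem kb2_kd_map {X' : Type*} [AddCommGroup X'] [Module D X'] (e : X →ₗ[D] X')
    {z : Fin n → X →ₗ[D] X} {z' : Fin n → X' →ₗ[D] X'}
    {S : Finset (Fin n)} (h : ∀ t ∈ S, ∀ x, e (z t x) = z' t (e x))
    {U : ℤ → Submodule D X} {p : ℕ} {j : ℤ} {c : Finset (Fin n) → X} (hc : c ∈ Ch S U p j) :
    kd z' (e.compLeft (Finset (Fin n)) c) = e.compLeft (Finset (Fin n)) (kd z c) := by
  funext T
  show kd z' _ T = e (kd z c T)
  rw [kd_apply, kd_apply, map_sum]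
  refine Finset.sum_congr rfl fun t _ => ?_
  rw [map_zsmul]
  congr 1
  show z' t (e (c (insert t T))) = _
  by_cases ht : t ∈ S
  · rw [h t ht]
  · rw [(mem_Ch.1 hc).2 (insert t T) (fun hh => ht (hh.1 (Finset.mem_insert_self _ _)))]
    simp

theorem kb2_beta_map {X' : Type*} [AddCommGroup X'] [Module D X'] (e : X →ₗ[D] X')
    (he : Function.Injective e) {z : Fin n → X →ₗ[D] X} {z' : Fin n → X' →ₗ[D] X'}
    {S : Finset (Fin n)} (h : ∀ t ∈ S, ∀ x, e (z t x) = z' t (e x))
    (U L : ℤ → Submodule D X) (p : ℕ) (j : ℤ) :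
    beta z' S (fun k => (U k).map e) (fun k => (L k).map e) p j = beta z S U L p j := by
  have hE : Function.Injective (e.compLeft (Finset (Fin n))) := fun a b hab =>
    funext fun T => he (congrFun hab T)
  have h1 : Zc z' S (fun k => (U k).map e) (fun k => (L k).map e) p j =
      (Zc z S U L p j).map (e.compLeft (Finset (Fin n))) := by
    unfold Zc
    rw [kb2_Ch_map, kb2_Ch_map]
    ext x
    constructor
    · rintro ⟨⟨c, hc, rfl⟩, hx⟩
      refine ⟨c, ⟨hc, ?_⟩, rfl⟩
      obtain ⟨y, hy, hy'⟩ := hx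
      rw [kb2_kd_map e h hc] at hy'
      rw [hE hy'] at hy
      exact hy
    · rintro ⟨c, ⟨hc, hc'⟩, rfl⟩
      exact ⟨⟨c, hc, rfl⟩, ⟨kd z c, hc', (kb2_kd_map e h hc).symm⟩⟩
  have h2 : Bd z' S (fun k => (U k).map e) (fun k => (L k).map e) p j =
      (Bd z S U L p j).map (e.compLeft (Finset (Fin n))) := by
    unfold Bd
    rw [kb2_Ch_map, kb2_Ch_map, Submodule.map_sup]
    congr 1
    ext x
    constructor
    · rintro ⟨_, ⟨c, hc, rfl⟩, rfl⟩
      exact ⟨kd z c, ⟨c, hc, rfl⟩, (kb2_kd_map e h hc).symm⟩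
    · rintro ⟨_, ⟨c, hc, rfl⟩, rfl⟩
      exact ⟨_, ⟨c, hc, rfl⟩, kb2_kd_map e h hc⟩
  unfold beta
  rw [h1, h2, kb2_finrank_map _ hE, kb2_finrank_map _ hE]

/-- `β_0(U/L)_j = dim U_j - dim (L_j + ∑ z_t U_{j-1})`. -/
theorem beta_zero (z : Fin n → X →ₗ[D] X) (S : Finset (Fin n))
    (U L : ℤ → Submodule D X) (j : ℤ) :
    beta z S U L 0 j = (Module.finrank D (U j) : ℤ) -
      Module.finrank D ↥(L j ⊔ ⨆ t ∈ S, (U (j - 1)).map (z t)) := by
  have hs : Function.Injective (LinearMap.single D (fun _ : Finset (Fin n) => X) ∅) :=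
    fun a b hab => by simpa using congrFun hab ∅
  have h1 : Zc z S U L 0 j = Ch S U 0 j := by
    unfold Zc
    refine inf_eq_left.2 fun c hc => ?_
    rw [Submodule.mem_comap, kd_eq_zero_of_mem_Ch_zero z hc]
    exact Submodule.zero_mem _
  have h2 : Bd z S U L 0 j = (L j ⊔ ⨆ t ∈ S, (U (j - 1)).map (z t)).map
      (LinearMap.single D (fun _ : Finset (Fin n) => X) ∅) := by
    unfold Bd
    rw [Submodule.map_sup, sup_comm, kb2_Ch_zero, zero_add, kb2_map_kd_one]
  unfold beta
  rw [h1, h2, kb2_Ch_zero, kb2_finrank_map _ hs, kb2_finrank_map _ hs]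

/-- only the operators in `S` matter -/
theorem beta_congr_ops {z z' : Fin n → X →ₗ[D] X} {S : Finset (Fin n)}
    (h : ∀ t ∈ S, z t = z' t) (U L : ℤ → Submodule D X) (p : ℕ) (j : ℤ) :
    beta z S U L p j = beta z' S U L p j := by
  have := kb2_beta_map (LinearMap.id : X →ₗ[D] X) Function.injective_id (z := z) (z' := z')
    (S := S) (fun t ht x => by simp [h t ht]) U L p j
  simpa using this.symm

/-- transport along an injective linear map intertwining the operators -/
theorem beta_map {X' : Type*} [AddCommGroup X'] [Module D X'] (e : X →ₗ[D] X')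
    (he : Function.Injective e) {z : Fin n → X →ₗ[D] X} {z' : Fin n → X' →ₗ[D] X'}
    {S : Finset (Fin n)} (h : ∀ t ∈ S, ∀ x, e (z t x) = z' t (e x))
    (U L : ℤ → Submodule D X) (p : ℕ) (j : ℤ) :
    beta z' S (fun k => (U k).map e) (fun k => (L k).map e) p j = beta z S U L p j := by
  exact kb2_beta_map e he h U L p j

/-- degree shift -/
theorem beta_shift (z : Fin n → X →ₗ[D] X) (S : Finset (Fin n)) (U L : ℤ → Submodule D X)
    (s : ℤ) (p : ℕ) (j : ℤ) :
    beta z S (fun k => U (k + s)) (fun k => L (k + s)) p j = beta z S U L p (j + s) := by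
  have h : ∀ (V : ℤ → Submodule D X) (q : ℕ), Ch S (fun k => V (k + s)) q j = Ch S V q (j + s) := by
    intro V q
    unfold Ch
    rw [show j + s - q = j - q + s by ring]
  unfold beta Zc Bd
  rw [h, h, h, h]

/-! polynomial ambient -/

theorem sh_comm : Comm (sh D n) := by
  intro s t x
  simp only [sh, Finsupp.lmapDomain_apply, ← Finsupp.mapDomain_comp]
  congr 1
  funext μ
  simp only [Function.comp]
  exact add_right_comm _ _ _

theorem sh_single (t : Fin n) (μ : Fin n →₀ ℕ) (c : D) :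
    sh D n t (Finsupp.single μ c) = Finsupp.single (μ + Finsupp.single t 1) c := by
  simp [sh]

theorem kb2_finite (M : Set (Fin n →₀ ℕ)) (k : ℤ) :
    {μ | μ ∈ M ∧ (μ.degree : ℤ) = k}.Finite :=
  (Finsupp.finite_of_degree_le k.toNat).subset fun μ hμ => by
    have := hμ.2
    simp only [Set.mem_ofPred_eq]
    omega

theorem monF_fd (M : Set (Fin n →₀ ℕ)) : FD (monF D M) := by
  intro k
  have := (kb2_finite M k).to_subtype
  exact Module.Finite.equiv (Finsupp.supportedEquivFinsupp _).symm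

theorem monF_mono {M M' : Set (Fin n →₀ ℕ)} (h : M ⊆ M') (k : ℤ) : monF D M k ≤ monF D M' k := by
  exact Finsupp.supported_mono fun μ hμ => ⟨h hμ.1, hμ.2⟩

theorem monF_stable {M : Set (Fin n →₀ ℕ)} {S : Finset (Fin n)}
    (h : ∀ μ ∈ M, ∀ t ∈ S, μ + Finsupp.single t 1 ∈ M) : Stable (sh D n) S (monF D M) := by
  classical
  intro t ht k x hx
  rw [monF, Finsupp.mem_supported] at hx ⊢
  intro ν hν
  have := Finsupp.mapDomain_support hν
  obtain ⟨μ, hμ, rfl⟩ := Finset.mem_image.1 this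
  obtain ⟨h1, h2⟩ := hx hμ
  refine ⟨h μ h1 t ht, ?_⟩
  rw [map_add, Finsupp.degree_single, ← h2]
  push_cast
  rfl

theorem finrank_monF (M : Set (Fin n →₀ ℕ)) (d : ℕ) :
    Module.finrank D (monF D M (d : ℤ)) = hf M d := by
  have := (kb2_finite M d).fintype
  rw [monF, (Finsupp.supportedEquivFinsupp _).finrank_eq, Module.finrank_finsupp_self, hf,
    ← Nat.card_eq_fintype_card, Nat.card_coe_set_eq]
  simp only [Nat.cast_inj]

theorem monF_neg (M : Set (Fin n →₀ ℕ)) {k : ℤ} (hk : k < 0) : monF D M k = ⊥ := by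
  have : {μ : Fin n →₀ ℕ | μ ∈ M ∧ (μ.degree : ℤ) = k} = ∅ := by
    ext μ
    simp only [Set.mem_ofPred_eq, Set.mem_empty_iff_false, iff_false, not_and]
    intro _ h
    omega
  rw [monF, this, Finsupp.supported_empty]

end Crest.Agent.R181
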