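import Crest.Agent.R181.ADefs
import Crest.Agent.R181.KosBasic

/-! # Row 181 A: abstract part of `P1_of_gen` (graded algebra with a dehomogenisation map) -/

set_option autoImplicit false

namespace Crest.Agent.R181

section Abs

variable {K R G : Type} [Field K] [CommRing R] [Algebra K R] [AddCommGroup G] [DecidableEq G]
  (𝒜 : G → Submodule K R) [GradedAlgebra 𝒜]

/-- codimension function of an ideal -/
noncomputable def acCd (I : Ideal R) (k : G) : ℤ :=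
  (Module.finrank K (𝒜 k) : ℤ) - Module.finrank K ↥(𝒜 k ⊓ I.restrictScalars K)

/-- homogeneous core -/
noncomputable def acCore (I : Ideal R) : Ideal R := (I.homogeneousCore 𝒜).toIdeal

variable {𝒜}

theorem acCore_hom (I : Ideal R) : (acCore 𝒜 I).IsHomogeneous 𝒜 :=
  (I.homogeneousCore 𝒜).isHomogeneous

theorem acCore_le (I : Ideal R) : acCore 𝒜 I ≤ I := Ideal.toIdeal_homogeneousCore_le 𝒜 I

theorem mem_acCore {I : Ideal R} {x : R} {d : G} (hx : x ∈ 𝒜 d) : x ∈ acCore 𝒜 I ↔ x ∈ I :=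
  ⟨fun h => acCore_le I h, fun h => Ideal.mem_homogeneousCore_of_homogeneous_of_mem ⟨d, hx⟩ h⟩

theorem ac_le_of_hom {I J : Ideal R} (hI : I.IsHomogeneous 𝒜)
    (h : ∀ d, ∀ x ∈ 𝒜 d, x ∈ I → x ∈ J) : I ≤ J := by
  classical
  intro x hx
  rw [← DirectSum.sum_support_decompose 𝒜 x]
  exact J.sum_mem fun d _ => h d _ (DirectSum.decompose 𝒜 x d).2 (hI d hx)

theorem le_acCore {I J : Ideal R} (hI : I.IsHomogeneous 𝒜) (h : I ≤ J) : I ≤ acCore 𝒜 J :=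
  ac_le_of_hom hI fun _ _ hx hxI => (mem_acCore hx).2 (h hxI)

omit [AddCommGroup G] [DecidableEq G] [GradedAlgebra 𝒜] in
theorem acCd_congr {I J : Ideal R} {k : G} (h : ∀ x ∈ 𝒜 k, x ∈ I ↔ x ∈ J) :
    acCd 𝒜 I k = acCd 𝒜 J k := by
  have : 𝒜 k ⊓ I.restrictScalars K = 𝒜 k ⊓ J.restrictScalars K := by
    ext x
    simp only [Submodule.mem_inf, Submodule.restrictScalars_mem]
    exact and_congr_right (h x)
  unfold acCd
  rw [this]

theorem acCd_core (I : Ideal R) : acCd 𝒜 (acCore 𝒜 I) = acCd 𝒜 I :=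
  funext fun _ => acCd_congr fun _ hx => mem_acCore hx

omit [AddCommGroup G] [DecidableEq G] [GradedAlgebra 𝒜] in
theorem acCd_eq_zero {I : Ideal R} {k : G} (h : ∀ x ∈ 𝒜 k, x ∈ I) : acCd 𝒜 I k = 0 := by
  have : 𝒜 k ⊓ I.restrictScalars K = 𝒜 k := inf_eq_left.2 fun x hx => h x hx
  unfold acCd
  rw [this, sub_self]

theorem ac_hom_colon {I : Ideal R} (hI : I.IsHomogeneous 𝒜) {F : R} {d : G} (hF : F ∈ 𝒜 d) :
    (I.colon {F}).IsHomogeneous 𝒜 := by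
  intro i r hr
  rw [Submodule.mem_colon_singleton, smul_eq_mul] at hr ⊢
  have := hI (i + d) hr
  rwa [DirectSum.coe_decompose_mul_add_of_right_mem 𝒜 hF] at this

theorem ac_hom_sup {I : Ideal R} (hI : I.IsHomogeneous 𝒜) {F : R} {d : G} (hF : F ∈ 𝒜 d) :
    (I ⊔ Ideal.span {F}).IsHomogeneous 𝒜 :=
  hI.sup (Ideal.homogeneous_span 𝒜 _ fun x hx => by
    rw [Set.mem_singleton_iff.1 hx]; exact ⟨d, hF⟩)

theorem ac_le_colon (I : Ideal R) (F : R) : I ≤ I.colon {F} := fun x hx => by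
  rw [Submodule.mem_colon_singleton, smul_eq_mul]
  exact I.mul_mem_right _ hx

/-- the exact sequence `0 → R/(I:F)(-d) → R/I → R/(I,F) → 0` -/
theorem acCd_exact (hfin : ∀ k, Module.Finite K (𝒜 k)) {I : Ideal R} (hI : I.IsHomogeneous 𝒜)
    {F : R} {d : G} (hF : F ∈ 𝒜 d) (k : G) :
    acCd 𝒜 I k = acCd 𝒜 (I ⊔ Ideal.span {F}) k + acCd 𝒜 (I.colon {F}) (k - d) := by
  have := hfin k
  have := hfin (k - d)
  have : Module.Finite K ↥(𝒜 k ⊓ I.restrictScalars K) :=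
    Submodule.finiteDimensional_of_le (S₂ := 𝒜 k) inf_le_left
  have h := kb1_rank (LinearMap.mulRight K F) (𝒜 (k - d)) (𝒜 k ⊓ I.restrictScalars K)
  have e1 : (𝒜 (k - d)).map (LinearMap.mulRight K F) ⊔ (𝒜 k ⊓ I.restrictScalars K) =
      𝒜 k ⊓ (I ⊔ Ideal.span {F}).restrictScalars K := by
    apply le_antisymm
    · refine sup_le ?_ (inf_le_inf_left _ fun x hx => Ideal.mem_sup_left hx)
      rintro _ ⟨x, hx, rfl⟩
      refine ⟨?_, Ideal.mem_sup_right (Ideal.mem_span_singleton'.2 ⟨x, rfl⟩)⟩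
      have := SetLike.mul_mem_graded hx hF
      rwa [sub_add_cancel] at this
    · rintro x ⟨hx, hx'⟩
      obtain ⟨a, ha, b, hb, rfl⟩ := Submodule.mem_sup.1 hx'
      obtain ⟨c, rfl⟩ := Ideal.mem_span_singleton'.1 hb
      have e : a + c * F = (DirectSum.decompose 𝒜 c (k - d) : R) * F +
          (DirectSum.decompose 𝒜 a k : R) := by
        rw [← DirectSum.coe_decompose_mul_add_of_right_mem 𝒜 hF, sub_add_cancel]
        conv_lhs => rw [← DirectSum.decompose_of_mem_same 𝒜 hx]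
        rw [DirectSum.decompose_add, DirectSum.add_apply, Submodule.coe_add, add_comm]
      rw [e]
      exact Submodule.add_mem_sup ⟨_, (DirectSum.decompose 𝒜 c (k - d)).2, rfl⟩
        ⟨(DirectSum.decompose 𝒜 a k).2, hI k ha⟩
  have e2 : 𝒜 (k - d) ⊓ (𝒜 k ⊓ I.restrictScalars K).comap (LinearMap.mulRight K F) =
      𝒜 (k - d) ⊓ (I.colon {F}).restrictScalars K := by
    ext x
    simp only [Submodule.mem_inf, Submodule.mem_comap, LinearMap.mulRight_apply,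
      Submodule.restrictScalars_mem, Submodule.mem_colon_singleton, smul_eq_mul]
    refine and_congr_right fun hx => and_iff_right ?_
    have := SetLike.mul_mem_graded hx hF
    rwa [sub_add_cancel] at this
  rw [e1, e2] at h
  unfold acCd
  omega

variable {S : Type} [CommRing S]

/-- `t` is a homogeneous element of degree `e` with `ψ t = 1` which kills the classes -/
def AcP (𝒜 : G → Submodule K R) [GradedAlgebra 𝒜] (H : AddSubgroup (G → ℤ)) (ψ : R →+* S)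
    (I₁ : Ideal R) (t : R) (e : G) : Prop :=
  t ∈ 𝒜 e ∧ ψ t = 1 ∧ ∀ I : Ideal R, I.IsHomogeneous 𝒜 → I₁ ≤ I → t ∈ I → acCd 𝒜 I ∈ H

variable {H : AddSubgroup (G → ℤ)} {ψ : R →+* S} {I₁ : Ideal R}

theorem AcP.one : AcP 𝒜 H ψ I₁ 1 0 := by
  refine ⟨SetLike.one_mem_graded 𝒜, map_one ψ, fun I _ _ h => ?_⟩
  have : acCd 𝒜 I = 0 := funext fun k => acCd_eq_zero fun x _ => by
    simpa using I.mul_mem_left x h
  rw [this]
  exact H.zero_mem

theorem AcP.mul (hfin : ∀ k, Module.Finite K (𝒜 k))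
    (hH : ∀ φ ∈ H, ∀ d, (fun k => φ (k - d)) ∈ H) {t t' : R} {e e' : G}
    (h : AcP 𝒜 H ψ I₁ t e) (h' : AcP 𝒜 H ψ I₁ t' e') : AcP 𝒜 H ψ I₁ (t * t') (e + e') := by
  refine ⟨SetLike.mul_mem_graded h.1 h'.1, by rw [map_mul, h.2.1, h'.2.1, one_mul],
    fun I hI h1 ht => ?_⟩
  have e1 : acCd 𝒜 I = acCd 𝒜 (I ⊔ Ideal.span {t}) + fun k => acCd 𝒜 (I.colon {t}) (k - e) :=
    funext fun k => acCd_exact hfin hI h.1 k
  rw [e1]
  refine H.add_mem (h.2.2 _ (ac_hom_sup hI h.1) (h1.trans le_sup_left)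
    (Ideal.mem_sup_right (Ideal.mem_span_singleton_self t))) (hH _ ?_ e)
  refine h'.2.2 _ (ac_hom_colon hI h.1) (h1.trans (ac_le_colon I t)) ?_
  rwa [Submodule.mem_colon_singleton, smul_eq_mul, mul_comm]

theorem AcP.pow (hfin : ∀ k, Module.Finite K (𝒜 k))
    (hH : ∀ φ ∈ H, ∀ d, (fun k => φ (k - d)) ∈ H) {t : R} {e : G}
    (h : AcP 𝒜 H ψ I₁ t e) (m : ℕ) : AcP 𝒜 H ψ I₁ (t ^ m) (m • e) := by
  induction m with
  | zero => simpa using AcP.one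
  | succ m ih => rw [pow_succ, succ_nsmul]; exact ih.mul hfin hH h

theorem AcP.colon (hfin : ∀ k, Module.Finite K (𝒜 k)) {t : R} {e : G} (h : AcP 𝒜 H ψ I₁ t e)
    {I : Ideal R} (hI : I.IsHomogeneous 𝒜) (h1 : I₁ ≤ I) :
    (acCd 𝒜 I - fun k => acCd 𝒜 (I.colon {t}) (k - e)) ∈ H := by
  have e1 : (acCd 𝒜 I - fun k => acCd 𝒜 (I.colon {t}) (k - e)) = acCd 𝒜 (I ⊔ Ideal.span {t}) :=
    funext fun k => by
      rw [Pi.sub_apply, acCd_exact hfin hI h.1 k, add_sub_cancel_right]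
  rw [e1]
  exact h.2.2 _ (ac_hom_sup hI h.1) (h1.trans le_sup_left)
    (Ideal.mem_sup_right (Ideal.mem_span_singleton_self t))

/-- every element of the image of a homogeneous ideal is the image of a homogeneous element -/
theorem ac_homogenize
    (hgen : ∀ d : G, ∃ t e t' e', AcP 𝒜 H ψ I₁ t e ∧ AcP 𝒜 H ψ I₁ t' e' ∧ d + e' = e)
    {I : Ideal R} (hI : I.IsHomogeneous 𝒜) {x : R} (hx : x ∈ I) :
    ∃ d, ∃ y ∈ 𝒜 d, y ∈ I ∧ ψ y = ψ x := by
  classical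
  rw [← DirectSum.sum_support_decompose 𝒜 x]
  refine Finset.sum_induction _ (fun z => ∃ d, ∃ y ∈ 𝒜 d, y ∈ I ∧ ψ y = ψ z) ?_
    ⟨0, 0, zero_mem _, zero_mem _, rfl⟩
    fun d _ => ⟨d, _, (DirectSum.decompose 𝒜 x d).2, hI d hx, rfl⟩
  rintro a b ⟨d₁, y₁, h1, h1', e1⟩ ⟨d₂, y₂, h2, h2', e2⟩
  obtain ⟨t, e, t', e', ht, ht', he⟩ := hgen (d₁ - d₂)
  refine ⟨d₁ + e', y₁ * t' + y₂ * t, add_mem (SetLike.mul_mem_graded h1 ht'.1) ?_,
    add_mem (I.mul_mem_right _ h1') (I.mul_mem_right _ h2'), ?_⟩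
  · have := SetLike.mul_mem_graded h2 ht.1
    rwa [← he, show d₂ + (d₁ - d₂ + e') = d₁ + e' by abel] at this
  · rw [map_add, map_mul, map_mul, ht.2.1, ht'.2.1, mul_one, mul_one, e1, e2, map_add]

theorem ac_core_colon {𝔞 : Ideal S} {F : R} {d : G} (hF : F ∈ 𝒜 d) :
    acCore 𝒜 ((𝔞.colon {ψ F}).comap ψ) = (acCore 𝒜 (𝔞.comap ψ)).colon {F} := by
  have key : ∀ d', ∀ x ∈ 𝒜 d', x ∈ acCore 𝒜 ((𝔞.colon {ψ F}).comap ψ) ↔
      x ∈ (acCore 𝒜 (𝔞.comap ψ)).colon {F} := fun d' x hx => by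
    rw [mem_acCore hx, Ideal.mem_comap, Submodule.mem_colon_singleton,
      Submodule.mem_colon_singleton, smul_eq_mul, smul_eq_mul,
      mem_acCore (SetLike.mul_mem_graded hx hF), Ideal.mem_comap, map_mul]
  exact le_antisymm (ac_le_of_hom (acCore_hom _) fun d' x hx => (key d' x hx).1)
    (ac_le_of_hom (ac_hom_colon (acCore_hom _) hF) fun d' x hx => (key d' x hx).2)

/-- shift invariance for saturated ideals -/
theorem ac_shift_sat (hfin : ∀ k, Module.Finite K (𝒜 k))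
    (hH : ∀ φ ∈ H, ∀ d, (fun k => φ (k - d)) ∈ H) (h₁ : I₁.IsHomogeneous 𝒜)
    (hgen : ∀ d : G, ∃ t e t' e', AcP 𝒜 H ψ I₁ t e ∧ AcP 𝒜 H ψ I₁ t' e' ∧ d + e' = e)
    {𝔞 : Ideal S} (h𝔞 : I₁.map ψ ≤ 𝔞) (d : G) :
    (acCd 𝒜 (acCore 𝒜 (𝔞.comap ψ)) - fun k => acCd 𝒜 (acCore 𝒜 (𝔞.comap ψ)) (k - d)) ∈ H := by
  have h1 : I₁ ≤ acCore 𝒜 (𝔞.comap ψ) := le_acCore h₁ (Ideal.map_le_iff_le_comap.1 h𝔞)
  have key : ∀ t e, AcP 𝒜 H ψ I₁ t e →
      (acCd 𝒜 (acCore 𝒜 (𝔞.comap ψ)) - fun k => acCd 𝒜 (acCore 𝒜 (𝔞.comap ψ)) (k - e)) ∈ H := by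
    intro t e ht
    have := ht.colon hfin (acCore_hom _) h1
    rwa [← ac_core_colon ht.1, ht.2.1, show 𝔞.colon {1} = 𝔞 by ext; simp] at this
  obtain ⟨t, e, t', e', ht, ht', he⟩ := hgen d
  have := H.sub_mem (key t e ht) (hH _ (key t' e' ht') d)
  convert this using 1
  funext k
  simp only [Pi.sub_apply]
  rw [show k - d - e' = k - e by rw [← he]; abel]
  ring

/-- saturation does not change the class -/
theorem ac_sat [IsNoetherianRing R] (hfin : ∀ k, Module.Finite K (𝒜 k))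
    (hH : ∀ φ ∈ H, ∀ d, (fun k => φ (k - d)) ∈ H) (hψ : Function.Surjective ψ)
    (h₁ : I₁.IsHomogeneous 𝒜) (hker : ∀ d, ∀ F ∈ 𝒜 d, ψ F = 0 → F ∈ I₁)
    (hgen : ∀ d : G, ∃ t e t' e', AcP 𝒜 H ψ I₁ t e ∧ AcP 𝒜 H ψ I₁ t' e' ∧ d + e' = e)
    {I : Ideal R} (hI : I.IsHomogeneous 𝒜) (h1 : I₁ ≤ I) :
    acCd 𝒜 I - acCd 𝒜 (acCore 𝒜 ((I.map ψ).comap ψ)) ∈ H := by
  obtain ⟨_, ⟨t₀, e₀, ht₀, rfl⟩, hmax⟩ := set_has_maximal_iff_noetherian.mpr
    (inferInstance : IsNoetherian R R) {q : Ideal R | ∃ t e, AcP 𝒜 H ψ I₁ t e ∧ q = I.colon {t}}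
    ⟨_, 1, 0, AcP.one, rfl⟩
  have hle : ∀ t e, AcP 𝒜 H ψ I₁ t e → I.colon {t} ≤ I.colon {t₀} := by
    intro t e ht
    have h2 : I.colon {t₀} ≤ I.colon {t * t₀} := fun x hx => by
      rw [Submodule.mem_colon_singleton, smul_eq_mul] at hx ⊢
      rw [mul_left_comm]
      exact I.mul_mem_left _ hx
    have h3 : I.colon {t * t₀} = I.colon {t₀} :=
      (eq_of_le_of_not_lt h2 (hmax _ ⟨_, _, ht.mul hfin hH ht₀, rfl⟩)).symm
    rw [← h3]
    intro x hx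
    rw [Submodule.mem_colon_singleton, smul_eq_mul] at hx ⊢
    rw [← mul_assoc]
    exact I.mul_mem_right _ hx
  have heq : acCore 𝒜 ((I.map ψ).comap ψ) = I.colon {t₀} := by
    apply le_antisymm
    · refine ac_le_of_hom (acCore_hom _) fun d x hx hx' => ?_
      rw [mem_acCore hx, Ideal.mem_comap, Ideal.mem_map_iff_of_surjective ψ hψ] at hx'
      obtain ⟨z, hz, hzx⟩ := hx'
      obtain ⟨d', y, hy, hyI, hyz⟩ := ac_homogenize hgen hI hz
      obtain ⟨t, e, t', e', ht, ht', he⟩ := hgen (d - d')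
      refine hle t' e' ht' ?_
      rw [Submodule.mem_colon_singleton, smul_eq_mul]
      have h2 : x * t' - y * t ∈ 𝒜 (d + e') := by
        refine sub_mem (SetLike.mul_mem_graded hx ht'.1) ?_
        have := SetLike.mul_mem_graded hy ht.1
        rwa [← he, show d' + (d - d' + e') = d + e' by abel] at this
      have h3 := h1 (hker _ _ h2 (by
        rw [map_sub, map_mul, map_mul, ht.2.1, ht'.2.1, mul_one, mul_one, hyz, hzx, sub_self]))
      simpa using I.add_mem h3 (I.mul_mem_right t hyI)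
    · refine le_acCore (ac_hom_colon hI ht₀.1) fun x hx => ?_
      rw [Submodule.mem_colon_singleton, smul_eq_mul] at hx
      have := Ideal.mem_map_of_mem ψ hx
      rwa [map_mul, ht₀.2.1, mul_one] at this
  have h2 := ht₀.colon hfin hI h1
  have h3 := ac_shift_sat hfin hH h₁ hgen (Ideal.map_mono h1) e₀
  rw [heq] at h3 ⊢
  convert H.sub_mem h2 h3 using 1
  abel

/-- the abstract cell step -/
theorem ac_cell [IsNoetherianRing R] (hfin : ∀ k, Module.Finite K (𝒜 k))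
    (hH : ∀ φ ∈ H, ∀ d, (fun k => φ (k - d)) ∈ H) (hψ : Function.Surjective ψ)
    (h₁ : I₁.IsHomogeneous 𝒜) (hker : ∀ d, ∀ F ∈ 𝒜 d, ψ F = 0 → F ∈ I₁)
    (hgen : ∀ d : G, ∃ t e t' e', AcP 𝒜 H ψ I₁ t e ∧ AcP 𝒜 H ψ I₁ t' e' ∧ d + e' = e)
    (h0 : acCd 𝒜 I₁ ∈ H) (hG : GenR S (I₁.map ψ))
    {I : Ideal R} (hI : I.IsHomogeneous 𝒜) (h1 : I₁ ≤ I) : acCd 𝒜 I ∈ H := by
  let μ : Ideal S → (G → ℤ) ⧸ H := fun 𝔞 =>
    QuotientAddGroup.mk (acCd 𝒜 (acCore 𝒜 (𝔞.comap ψ)))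
  have hμ0 : ∀ 𝔞, μ 𝔞 = 0 ↔ acCd 𝒜 (acCore 𝒜 (𝔞.comap ψ)) ∈ H := fun 𝔞 =>
    QuotientAddGroup.eq_zero_iff _
  have hadd : IdAdd (I₁.map ψ) μ := by
    constructor
    · rw [hμ0, acCd_core]
      have : acCd 𝒜 ((⊤ : Ideal S).comap ψ) = 0 := funext fun k => acCd_eq_zero fun x _ => by
        simp
      rw [this]
      exact H.zero_mem
    · intro 𝔞 h𝔞 f
      obtain ⟨x, rfl⟩ := hψ f
      obtain ⟨d, F, hF, -, hFx⟩ := ac_homogenize hgen (Ideal.IsHomogeneous.top 𝒜)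
        (Submodule.mem_top (x := x))
      rw [← hFx]
      have hc := acCore_hom (𝒜 := 𝒜) (𝔞.comap ψ)
      have h1' : I₁ ≤ acCore 𝒜 (𝔞.comap ψ) := le_acCore h₁ (Ideal.map_le_iff_le_comap.1 h𝔞)
      have e1 : (acCore 𝒜 (𝔞.comap ψ)).map ψ = 𝔞 := by
        apply le_antisymm (Ideal.map_le_iff_le_comap.2 (acCore_le _))
        intro s hs
        obtain ⟨z, rfl⟩ := hψ s
        obtain ⟨d', y, hy, -, hyz⟩ := ac_homogenize hgen (Ideal.IsHomogeneous.top 𝒜)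
          (Submodule.mem_top (x := z))
        rw [← hyz] at hs ⊢
        exact Ideal.mem_map_of_mem ψ ((mem_acCore hy).2 hs)
      have h2 := ac_sat hfin hH hψ h₁ hker hgen (ac_hom_sup hc hF) (h1'.trans le_sup_left)
      rw [Ideal.map_sup, e1, Ideal.map_span, Set.image_singleton] at h2
      have h3 := ac_shift_sat hfin hH h₁ hgen (h𝔞.trans (ac_le_colon 𝔞 (ψ F))) d
      simp only [μ]
      rw [← QuotientAddGroup.mk_add, QuotientAddGroup.eq_iff_sub_mem]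
      convert H.sub_mem h2 h3 using 1
      funext k
      simp only [Pi.sub_apply, Pi.add_apply]
      rw [acCd_exact hfin hc hF k, ac_core_colon hF]
      ring
  have hz : μ (I₁.map ψ) = 0 := by
    rw [hμ0]
    simpa using H.sub_mem h0 (ac_sat hfin hH hψ h₁ hker hgen h₁ le_rfl)
  have := (hμ0 _).1 (hG _ μ hadd hz (I.map ψ) (Ideal.map_mono h1))
  simpa using H.add_mem (ac_sat hfin hH hψ h₁ hker hgen hI h1) this

end Abs

end Crest.Agent.R181
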