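import Crest.Agent.R181.ABlk
import Crest.Agent.R181.ACellAux

/-! # Row 181 A: from the cells to `P1` over the field `K`.
Work in `R = K[B × BV n]` with the multigrading `bw`.  Let `Q := ((B → ℤ) → ℤ) ⧸ H'`,
`H' = {φ | EvIn φ (Hsp δ)}` (a subgroup, stable under shifts `φ (· - d)` because
`bh δ (k - j) = bh δ k - j * bN δ`), `λ I :=` class of `codim bw I`; shifts act on `Q`.
`codim` only depends on the homogeneous core of `I`.  For homogeneous `I` and homogeneous `F` of
multidegree `d`: `codim I k = codim (I ⊔ (F)) k + codim (I : F) (k - d)` (`I : F`, `I ⊔ (F)` homogeneous).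
Claim `C(J)`: `λ I = 0` for every homogeneous `I ∋ E, p_b (b ∈ J)`; DOWNWARD induction on `J`
(`C(∅)` is `P1`).  Let `ℓ_b = p_b` (`b ∉ J`), `q_b` (`b ∈ J`).  For `I ∋ E, p_J`: `λ (I ⊔ (ℓ_b)) = 0`
(`b ∉ J`: `C(insert b J)`; `b ∈ J`: `I ⊔ (q_b) ∋ p_b, q_b, E_b` contains every monomial of large `b`-degree,
descending induction on `m` with `Tri`/`lc`, or `blk_nil`), so `λ I = shift_b (λ (I : ℓ_b))`.
For an ideal `𝔞` of the cell ring `K[cellVar n J]` let `𝔞^h` be the span of the homogeneous `F` with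
`aeval (dh K n J) F ∈ 𝔞`; `𝔞^h : ℓ_b = 𝔞^h`, so `λ 𝔞^h` is shift invariant.  For homogeneous `I ∋ p_J`:
`(I.map dh)^h = I : ℓ^s` for one monomial `ℓ^s` (homogeneous `F` with `dh F ∈ I.map dh` has
`ℓ^s F ∈ I`: a homogeneous element of `ker dh` lies in `(p_J)`; noetherian), hence
`λ I = λ ((I.map dh)^h)`.  Every element of the cell ring is `dh F` with `F` homogeneous and
`(𝔞 : dh F)^h = 𝔞^h : F`, `(𝔞^h ⊔ (F)).map dh = 𝔞 ⊔ (dh F)`, so `μ 𝔞 := λ 𝔞^h` is `IdAdd` above
`(dh E)`, `μ ⊤ = 0`, and `μ (dh E) = λ (E, p_J) = 0` by `codim_cell`.  `GenR` gives `C(J)`. -/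

set_option autoImplicit false

namespace Crest.Agent.R181

open MvPolynomial

section AcAux

variable {K : Type} [Field K] {n : ℕ} {B : Type} [Fintype B] [DecidableEq B]

/-- functions eventually in `H` -/
def acEv (H : AddSubgroup ((B → ℤ) → ℤ)) : AddSubgroup ((B → ℤ) → ℤ) where
  carrier := {φ | EvIn φ H}
  zero_mem' := ⟨0, H.zero_mem, 0, fun _ _ => rfl⟩
  add_mem' := by
    rintro φ φ' ⟨ψ, hψ, k₀, h⟩ ⟨ψ', hψ', k₀', h'⟩
    exact ⟨ψ + ψ', H.add_mem hψ hψ', k₀ ⊔ k₀', fun k hk => by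
      rw [Pi.add_apply, Pi.add_apply, h k (le_sup_left.trans hk), h' k (le_sup_right.trans hk)]⟩
  neg_mem' := by
    rintro φ ⟨ψ, hψ, k₀, h⟩
    exact ⟨-ψ, H.neg_mem hψ, k₀, fun k hk => by rw [Pi.neg_apply, Pi.neg_apply, h k hk]⟩

theorem ac_hsp_shift (δ : B → Fin n → ℕ) (d : B → ℤ) :
    ∀ φ ∈ Hsp δ, (fun k => φ (k - d)) ∈ Hsp δ := by
  refine Pi.single_induction (fun d : B → ℤ => ∀ φ ∈ Hsp δ, (fun k => φ (k - d)) ∈ Hsp δ) d
    (fun φ h => by simpa using h) (fun d d' h h' φ hφ => ?_) (fun b j φ hφ => ?_)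
  · have := h _ (h' φ hφ)
    simpa only [sub_sub] using this
  · induction hφ using AddSubgroup.closure_induction with
    | mem φ hφ =>
      obtain ⟨J, rfl⟩ := hφ
      by_cases hb : b ∈ J
      · refine AddSubgroup.subset_closure ⟨J, funext fun k => Finset.prod_congr rfl fun b' _ => ?_⟩
        split_ifs with h
        · rfl
        · have : b' ≠ b := fun e => h (e ▸ hb)
          simp [Pi.single_eq_of_ne this]
      · have h1 : (fun k : B → ℤ => ∏ b', if b' ∈ J then bN (δ b') else bh (δ b') (k b')) ∈ Hsp δ :=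
          AddSubgroup.subset_closure ⟨J, rfl⟩
        have h2 : (fun k : B → ℤ => ∏ b', if b' ∈ insert b J then bN (δ b')
            else bh (δ b') (k b')) ∈ Hsp δ := AddSubgroup.subset_closure ⟨insert b J, rfl⟩
        convert (Hsp δ).sub_mem h1 ((Hsp δ).zsmul_mem h2 j) using 1
        funext k
        simp only [Pi.sub_apply, Pi.smul_apply, smul_eq_mul]
        rw [← Finset.mul_prod_erase _ _ (Finset.mem_univ b),
          ← Finset.mul_prod_erase _ _ (Finset.mem_univ b),
          ← Finset.mul_prod_erase _ _ (Finset.mem_univ b)]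
        have e1 : ∏ b' ∈ Finset.univ.erase b, (if b' ∈ J then bN (δ b')
            else bh (δ b') (k b' - (Pi.single b j : B → ℤ) b')) =
            ∏ b' ∈ Finset.univ.erase b, (if b' ∈ J then bN (δ b') else bh (δ b') (k b')) :=
          Finset.prod_congr rfl fun b' hb' => by
            simp [Pi.single_eq_of_ne (Finset.ne_of_mem_erase hb')]
        have e2 : ∏ b' ∈ Finset.univ.erase b, (if b' ∈ insert b J then bN (δ b')
            else bh (δ b') (k b')) =
            ∏ b' ∈ Finset.univ.erase b, (if b' ∈ J then bN (δ b') else bh (δ b') (k b')) :=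
          Finset.prod_congr rfl fun b' hb' => by
            simp [Finset.ne_of_mem_erase hb']
        rw [e1, e2, if_neg hb, if_neg hb, if_pos (Finset.mem_insert_self b J), Pi.single_eq_same,
          bh_eq (δ b) (k b - j), bh_eq (δ b) (k b)]
        ring
    | zero => exact (Hsp δ).zero_mem
    | add φ φ' _ _ h h' => exact (Hsp δ).add_mem h h'
    | neg φ _ h => exact (Hsp δ).neg_mem h

theorem acEv_shift (δ : B → Fin n → ℕ) :
    ∀ φ ∈ acEv (Hsp δ), ∀ d, (fun k => φ (k - d)) ∈ acEv (Hsp δ) := by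
  rintro φ ⟨ψ, hψ, k₀, h⟩ d
  exact ⟨fun k => ψ (k - d), ac_hsp_shift δ d ψ hψ, k₀ + d, fun k hk =>
    h _ (le_sub_iff_add_le.2 hk)⟩

theorem ac_weight (μ : B × BV n →₀ ℕ) (b : B) :
    Finsupp.weight (bw B n) μ b = ∑ x : BV n, (μ (b, x) : ℤ) := by
  rw [Finsupp.weight_apply, Finsupp.sum_fintype _ _ (by simp), Finset.sum_apply,
    Fintype.sum_prod_type, Finset.sum_eq_single b]
  · simp [bw]
  · intro b' _ hb'
    simp [bw, Pi.single_eq_of_ne hb'.symm]
  · simp

omit [Fintype B] in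
theorem ac_weight_mapDomain (b : B) (ν : BV n →₀ ℕ) :
    Finsupp.weight (bw B n) (ν.mapDomain (Prod.mk b)) = Pi.single b (ν.degree : ℤ) := by
  induction ν using Finsupp.induction_linear with
  | zero => simp
  | add f g hf hg => rw [Finsupp.mapDomain_add, map_add, hf, hg, map_add, Nat.cast_add, Pi.single_add]
  | single x m =>
    rw [Finsupp.mapDomain_single, Finsupp.weight_single, Finsupp.degree_single, bw,
      ← Pi.single_smul']
    simp

omit [Fintype B] in
theorem ac_hom_rename (b : B) {F : MvPolynomial (BV n) K} {δ : ℕ} (hF : F.IsHomogeneous δ) :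
    rename (Prod.mk b) F ∈ weightedHomogeneousSubmodule K (bw B n) (Pi.single b (δ : ℤ)) := by
  intro μ hμ
  obtain ⟨ν, rfl, hν⟩ := coeff_rename_ne_zero _ _ _ hμ
  have h1 : ν.degree = δ := by
    rw [Finsupp.degree_eq_weight_one]
    exact hF hν
  rw [ac_weight_mapDomain, h1]

omit [Fintype B] in
theorem ac_dh_surj (J : Finset B) :
    Function.Surjective (aeval (dh K n J) : MvPolynomial (B × BV n) K →ₐ[K] _) := by
  intro f
  induction f using MvPolynomial.induction_on with
  | C a => exact ⟨C a, by simp⟩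
  | add p q hp hq =>
    obtain ⟨p, rfl⟩ := hp
    obtain ⟨q, rfl⟩ := hq
    exact ⟨p + q, map_add _ _ _⟩
  | mul_X p v hp =>
    obtain ⟨p, rfl⟩ := hp
    refine ⟨p * X v.1, ?_⟩
    rw [map_mul, aeval_X, dh, dif_pos v.2]
    rfl

theorem ac_dh_monomial (J : Finset B) (μ : B × BV n →₀ ℕ) (c : K)
    (hμ : ∀ b ∈ J, μ (b, Sum.inr 0) = 0) :
    aeval (dh K n J) (monomial μ c) = monomial (σ := cellVar n J) (μ.subtypeDomain _) c := by
  classical
  let P : B × BV n → Prop := fun w => w.2 ≠ Sum.inr 0 ∧ (w.2 = Sum.inr 1 → w.1 ∉ J)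
  let : Fintype (cellVar n J) := inferInstanceAs (Fintype {w // P w})
  rw [aeval_monomial, monomial_eq, Finsupp.prod_fintype _ _ (fun _ => pow_zero _),
    Finsupp.prod_fintype _ _ (fun _ => pow_zero _), ← Fintype.prod_subtype_mul_prod_subtype P]
  have e2 : ∏ w : {w // ¬ P w}, dh K n J w.1 ^ μ w.1 = 1 := by
    refine Finset.prod_eq_one fun w _ => ?_
    rw [dh, dif_neg w.2]
    split_ifs with h
    · have : μ w.1 = 0 := by
        have := hμ w.1.1 h.2
        rwa [← h.1] at this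
      rw [this, pow_zero]
    · exact one_pow _
  rw [e2, mul_one]
  congr 1
  refine Finset.prod_congr rfl fun w _ => ?_
  rw [dh, dif_pos w.2]
  rfl

omit [Fintype B] in
theorem ac_dh_monomial_zero (J : Finset B) (μ : B × BV n →₀ ℕ) (c : K) {b : B} (hb : b ∈ J)
    (hμ : μ (b, Sum.inr 0) ≠ 0) : aeval (dh K n J) (monomial μ c) = 0 := by
  rw [aeval_monomial, Finsupp.prod,
    Finset.prod_eq_zero (Finsupp.mem_support_iff.2 hμ), mul_zero]
  rw [dh, dif_neg (fun h => h.1 rfl), if_pos ⟨rfl, hb⟩, zero_pow hμ]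

theorem ac_cell_inj (J : Finset B) {μ ν : B × BV n →₀ ℕ}
    (hw : Finsupp.weight (bw B n) μ = Finsupp.weight (bw B n) ν)
    (hμ : ∀ b ∈ J, μ (b, Sum.inr 0) = 0) (hν : ∀ b ∈ J, ν (b, Sum.inr 0) = 0)
    (h : ∀ w : B × BV n, w.2 ≠ Sum.inr 0 → (w.2 = Sum.inr 1 → w.1 ∉ J) → μ w = ν w) : μ = ν := by
  ext ⟨b, x⟩
  have h1 := congrFun hw b
  rw [ac_weight, ac_weight, Fintype.sum_sum_type, Fintype.sum_sum_type, Fin.sum_univ_two,
    Fin.sum_univ_two] at h1
  have h2 : ∑ m : Fin n, (μ (b, Sum.inl m) : ℤ) = ∑ m : Fin n, (ν (b, Sum.inl m) : ℤ) :=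
    Finset.sum_congr rfl fun m _ => by rw [h (b, Sum.inl m) (by simp) (by simp)]
  have h3 : μ (b, Sum.inr 0) = ν (b, Sum.inr 0) ∧ μ (b, Sum.inr 1) = ν (b, Sum.inr 1) := by
    by_cases hb : b ∈ J
    · have := hμ b hb
      have := hν b hb
      omega
    · have := h (b, Sum.inr 1) (by simp) (fun _ => hb)
      omega
  rcases x with m | i
  · exact h (b, Sum.inl m) (by simp) (by simp)
  · fin_cases i
    · exact h3.1
    · exact h3.2

/-- homogeneous elements of the kernel of the dehomogenisation lie in `(p_b, b ∈ J)` -/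
theorem ac_dh_ker (J : Finset B) {d : B → ℤ} {F : MvPolynomial (B × BV n) K}
    (hF : F ∈ weightedHomogeneousSubmodule K (bw B n) d) (h0 : aeval (dh K n J) F = 0) :
    F ∈ Ideal.span ((fun b => (X (b, Sum.inr 0) : MvPolynomial (B × BV n) K)) '' (J : Set B)) := by
  classical
  have e : (fun b => (X (b, Sum.inr 0) : MvPolynomial (B × BV n) K)) '' (J : Set B) =
      X '' ((fun b => (b, Sum.inr 0)) '' (J : Set B)) := by rw [Set.image_image]
  rw [e, mem_ideal_span_X_image]
  intro μ hμ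
  by_contra hn
  have hμ0 : ∀ b ∈ J, μ (b, Sum.inr 0) = 0 := fun b hb => by
    by_contra h
    exact hn ⟨(b, Sum.inr 0), ⟨b, hb, rfl⟩, h⟩
  have h1 := congrArg (coeff (σ := cellVar n J) (μ.subtypeDomain _)) h0
  rw [F.as_sum, map_sum, coeff_sum, Finset.sum_eq_single μ, ac_dh_monomial J μ _ hμ0,
    coeff_monomial, if_pos rfl, coeff_zero] at h1
  · exact mem_support_iff.1 hμ h1
  · intro ν hν hne
    by_cases hν0 : ∀ b ∈ J, ν (b, Sum.inr 0) = 0
    · rw [ac_dh_monomial J ν _ hν0, coeff_monomial, if_neg]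
      intro he
      refine hne (ac_cell_inj J ((hF (mem_support_iff.1 hν)).trans
        (hF (mem_support_iff.1 hμ)).symm) hν0 hμ0 fun w h1 h2 => ?_)
      exact DFunLike.congr_fun he ⟨w, h1, h2⟩
    · push Not at hν0
      obtain ⟨b, hb, hν0⟩ := hν0
      rw [ac_dh_monomial_zero J ν _ hb hν0, coeff_zero]
  · intro h
    exact absurd hμ h

omit [Fintype B] [DecidableEq B] in
theorem ac_inc {σ : Type} (F : MvPolynomial σ K) : inc K K σ F = F := by
  ext μ
  simp [inc, MvPolynomial.coeff]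

/-- an ideal containing `E_b, p_b, q_b` contains everything of large `b`-degree -/
theorem ac_nil (blk : Blk K n) (b : B) : ∃ s : ℤ, ∀ I : Ideal (MvPolynomial (B × BV n) K),
    (∀ m, rename (Prod.mk b) (blk.E m) ∈ I) → X (b, Sum.inr 0) ∈ I → X (b, Sum.inr 1) ∈ I →
    ∀ k : B → ℤ, s ≤ k b → ∀ F ∈ weightedHomogeneousSubmodule K (bw B n) k, F ∈ I := by
  classical
  obtain ⟨s, hs⟩ := blk_nil K blk
  refine ⟨s, fun I hE hp hq k hk F hF => ?_⟩
  rw [F.as_sum]
  refine I.sum_mem fun μ hμ => ?_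
  have hw := congrFun (hF (mem_support_iff.1 hμ)) b
  rw [ac_weight] at hw
  let ν : BV n →₀ ℕ := Finsupp.equivFunOnFinite.symm fun x => μ (b, x)
  have hle : ν.mapDomain (Prod.mk b) ≤ μ := by
    rintro ⟨b', x⟩
    by_cases hb : b' = b
    · subst hb
      rw [Finsupp.mapDomain_apply (Prod.mk_right_injective b')]
      simp [ν]
    · rw [Finsupp.mapDomain_of_notMem_range]
      · exact Nat.zero_le _
      · rintro ⟨y, hy⟩
        exact hb (congrArg Prod.fst hy).symm
  have e : monomial μ (coeff μ F) = rename (Prod.mk b) (monomial ν (1 : K)) *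
      monomial (μ - ν.mapDomain (Prod.mk b)) (coeff μ F) := by
    rw [rename_monomial, monomial_mul, one_mul, add_tsub_cancel_of_le hle]
  rw [e]
  refine I.mul_mem_right _ ?_
  have hν : (monomial ν (1 : K) : MvPolynomial (BV n) K) ∈ homW K (fun _ : BV n => (1 : ℤ)) (k b) := by
    rw [homW, ← weightedHomogeneousSubmodule_eq_finsupp_supported]
    refine isWeightedHomogeneous_monomial _ _ _ ?_
    rw [← hw, Finsupp.weight_apply, Finsupp.sum_fintype _ _ (by simp)]
    simp [ν]
  obtain ⟨A, C', h⟩ := hs (k b) hk _ hν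
  have hmap : Ideal.span (Set.range (blk.ED K)) ≤
      I.comap (rename (Prod.mk b) : MvPolynomial (BV n) K →ₐ[K] MvPolynomial (B × BV n) K) := by
    rw [Ideal.span_le]
    rintro _ ⟨m, rfl⟩
    simpa [Blk.ED, ac_inc] using hE m
  have h1 := hmap h
  rw [Ideal.mem_comap, map_sub, map_add, map_mul, map_mul] at h1
  have e0 : ∀ i : Fin 2, rename (Prod.mk b) (xD K (Sum.inr i : BV n)) =
      (X (b, Sum.inr i) : MvPolynomial (B × BV n) K) := fun i => rename_X _ _
  rw [e0, e0] at h1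
  exact (I.sub_mem_iff_left (I.add_mem (I.mul_mem_left _ hp) (I.mul_mem_left _ hq))).1 h1

theorem ac_fin (k : B → ℤ) : Module.Finite K (weightedHomogeneousSubmodule K (bw B n) k) := by
  rw [weightedHomogeneousSubmodule_eq_finsupp_supported]
  have := (bw_finite (n := n) B k).to_subtype
  exact Module.Finite.equiv (AddMonoidAlgebra.supportedEquivFinsupp _).symm

omit [Fintype B] in
theorem ac_codim (I : Ideal (MvPolynomial (B × BV n) K)) :
    codim (D := K) (bw B n) I = acCd (weightedHomogeneousSubmodule K (bw B n)) I := by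
  funext k
  rw [codim, acCd, homW, weightedHomogeneousSubmodule_eq_finsupp_supported]

/-- the ideal `(E, p_b (b ∈ J))` -/
noncomputable def acI (blk : B → Blk K n) (J : Finset B) : Ideal (MvPolynomial (B × BV n) K) :=
  Ideal.span (Set.range (fun bm : B × Fin n => rename (Prod.mk bm.1) ((blk bm.1).E bm.2)) ∪
    (fun b => X (b, Sum.inr 0)) '' (J : Set B))

attribute [local instance] MvPolynomial.weightedGradedAlgebra

theorem acI_hom (blk : B → Blk K n) (J : Finset B) :
    (acI blk J).IsHomogeneous (weightedHomogeneousSubmodule K (bw B n)) := by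
  refine Ideal.homogeneous_span _ _ ?_
  rintro _ (⟨bm, rfl⟩ | ⟨b, -, rfl⟩)
  · exact ⟨_, ac_hom_rename bm.1 ((blk bm.1).tri bm.2).1⟩
  · exact ⟨_, isWeightedHomogeneous_X K (bw B n) (b, Sum.inr 0)⟩

theorem ac_main (blk : B → Blk K n)
    (h : ∀ J : Finset B, GenR (MvPolynomial (cellVar n J) K) (Ideal.span (Set.range
      fun bm : B × Fin n => aeval (dh K n J) (rename (Prod.mk bm.1) ((blk bm.1).E bm.2)))))
    (J : Finset B) : ∀ I : Ideal (MvPolynomial (B × BV n) K),
      I.IsHomogeneous (weightedHomogeneousSubmodule K (bw B n)) → acI blk J ≤ I →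
      acCd (weightedHomogeneousSubmodule K (bw B n)) I ∈ acEv (Hsp fun b => (blk b).δ) := by
  induction J using WellFoundedGT.induction with
  | ind J ih =>
  intro I hI hJ
  set ψ : MvPolynomial (B × BV n) K →+* MvPolynomial (cellVar n J) K :=
    (aeval (dh K n J) : MvPolynomial (B × BV n) K →ₐ[K] _).toRingHom with hψ
  have hH := acEv_shift (fun b => (blk b).δ)
  have hE : ∀ b m, rename (Prod.mk b) ((blk b).E m) ∈ acI blk J := fun b m =>
    Ideal.subset_span (Or.inl ⟨(b, m), rfl⟩)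
  have hl : ∀ b, ∃ t, AcP (weightedHomogeneousSubmodule K (bw B n))
      (acEv (Hsp fun b => (blk b).δ)) ψ (acI blk J) t (Pi.single b 1) := by
    intro b
    by_cases hb : b ∈ J
    · refine ⟨X (b, Sum.inr 1), isWeightedHomogeneous_X K (bw B n) (b, Sum.inr 1), ?_,
        fun I _ h1 hq => ?_⟩
      · simp [hψ, dh, hb]
      · obtain ⟨s, hs⟩ := ac_nil (blk b) b
        refine ⟨0, AddSubgroup.zero_mem _, fun _ => s, fun k hk => ?_⟩
        exact acCd_eq_zero (hs I (fun m => h1 (hE b m))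
          (h1 (Ideal.subset_span (Or.inr ⟨b, hb, rfl⟩))) hq k (hk b))
    · refine ⟨X (b, Sum.inr 0), isWeightedHomogeneous_X K (bw B n) (b, Sum.inr 0), ?_,
        fun I hI h1 hp => ih (insert b J) (Finset.ssubset_insert hb) I hI ?_⟩
      · simp [hψ, dh, hb]
      · rw [acI, Ideal.span_le]
        rintro _ (⟨bm, rfl⟩ | ⟨b', hb', rfl⟩)
        · exact h1 (hE bm.1 bm.2)
        · rcases Finset.mem_insert.1 hb' with rfl | hb'
          · exact hp
          · exact h1 (Ideal.subset_span (Or.inr ⟨b', hb', rfl⟩))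
  refine ac_cell (ψ := ψ) (I₁ := acI blk J) ac_fin hH (ac_dh_surj J) (acI_hom blk J)
    (fun d F hF h0 => Ideal.span_mono Set.subset_union_right (ac_dh_ker J hF h0)) (fun d => ?_) ?_ ?_
    hI hJ
  · refine Pi.single_induction (fun d : B → ℤ => ∃ t e t' e',
      AcP (weightedHomogeneousSubmodule K (bw B n)) (acEv (Hsp fun b => (blk b).δ)) ψ
        (acI blk J) t e ∧ AcP (weightedHomogeneousSubmodule K (bw B n))
        (acEv (Hsp fun b => (blk b).δ)) ψ (acI blk J) t' e' ∧ d + e' = e) d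
      ⟨1, 0, 1, 0, AcP.one, AcP.one, add_zero _⟩ ?_ ?_
    · rintro d₁ d₂ ⟨t₁, e₁, t₁', e₁', h1, h1', he1⟩ ⟨t₂, e₂, t₂', e₂', h2, h2', he2⟩
      exact ⟨_, _, _, _, h1.mul ac_fin hH h2, h1'.mul ac_fin hH h2', by rw [← he1, ← he2]; abel⟩
    · intro b j
      obtain ⟨t, ht⟩ := hl b
      refine ⟨_, _, _, _, ht.pow ac_fin hH j.toNat, ht.pow ac_fin hH (-j).toNat, ?_⟩
      rw [← Pi.single_smul', ← Pi.single_smul', ← Pi.single_add]
      congr 1
      simp only [nsmul_eq_mul, mul_one]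
      omega
  · have := codim_cell blk J
    rwa [ac_codim] at this
  · have e : (acI blk J).map ψ = Ideal.span (Set.range
        fun bm : B × Fin n => aeval (dh K n J) (rename (Prod.mk bm.1) ((blk bm.1).E bm.2))) := by
      apply le_antisymm
      · rw [Ideal.map_le_iff_le_comap, acI, Ideal.span_le]
        rintro _ (⟨bm, rfl⟩ | ⟨b, hb, rfl⟩)
        · exact Ideal.subset_span ⟨bm, rfl⟩
        · have : ψ (X (b, Sum.inr 0)) = 0 := by
            have hb' : b ∈ J := hb
            simp [hψ, dh, hb']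
          rw [SetLike.mem_coe, Ideal.mem_comap, this]
          exact zero_mem _
      · rw [Ideal.span_le]
        rintro _ ⟨bm, rfl⟩
        exact Ideal.mem_map_of_mem ψ (hE bm.1 bm.2)
    rw [e]
    exact h J

end AcAux

theorem P1_of_gen {K : Type} [Field K] {n : ℕ} {B : Type} [Fintype B] [DecidableEq B]
    (blk : B → Blk K n)
    (h : ∀ J : Finset B, GenR (MvPolynomial (cellVar n J) K) (Ideal.span (Set.range
      fun bm : B × Fin n => aeval (dh K n J) (rename (Prod.mk bm.1) ((blk bm.1).E bm.2))))) :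
    P1 K B blk := by
  intro N hN
  let := MvPolynomial.weightedGradedAlgebra K (bw B n)
  have h1 : acI blk ∅ ≤ N := by
    rw [acI, Ideal.span_le]
    rintro _ (⟨bm, rfl⟩ | ⟨b, hb, rfl⟩)
    · have := hN bm.1 bm.2
      rwa [ac_inc] at this
    · exact absurd hb (by simp)
  have := ac_main blk h ∅ (acCore _ N) (acCore_hom N) (le_acCore (acI_hom blk ∅) h1)
  rwa [acCd_core, ← ac_codim] at this

end Crest.Agent.R181
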