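import Crest.Agent.R181.AGen2

/-! # Row 181 A: the generic fibre of a linear system without bad points -/

set_option autoImplicit false

namespace Crest.Agent.R181

open MvPolynomial

/-- independence of the linear forms at all points of the generic fibre -/
def IndPt {σ T ι : Type} [Fintype T] (e : ι → T → MvPolynomial σ ℂ) : Prop :=
  ∀ (κ : Type) [Field κ] [Algebra ℂ κ] (τ : T → κ) (ξ : σ → κ),
    Function.Injective (aeval τ : MvPolynomial T ℂ →ₐ[ℂ] κ) →
    (∀ i, ∑ t, τ t * aeval ξ (e i t) = 0) → LinearIndependent κ fun i t => aeval ξ (e i t)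

/-- independent rows: some maximal minor is non-zero -/
theorem ag3_minor {T ι κ : Type} [Fintype T] [Fintype ι] [DecidableEq ι] [Field κ]
    (v : ι → T → κ) (hv : LinearIndependent κ v) :
    ∃ c : ι → T, (Matrix.of fun i j => v i (c j)).det ≠ 0 := by
  classical
  obtain ⟨g, hg⟩ := LinearMap.exists_leftInverse_of_injective (Fintype.linearCombination κ v)
    (LinearMap.ker_eq_bot.2 hv.fintypeLinearCombination_injective)
  have hgv : ∀ j, g (v j) = Pi.single j 1 := by
    intro j
    have := LinearMap.congr_fun hg (Pi.single j 1)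
    simpa using this
  by_contra hc
  push Not at hc
  let F : MultilinearMap κ (fun _ : ι => T → κ) κ :=
    (Matrix.detRowAlternating : (ι → κ) [⋀^ι]→ₗ[κ] κ).toMultilinearMap.compLinearMap
      fun _ => (Matrix.of v).mulVecLin
  have hF : ∀ r : ι → T → κ, F r = (Matrix.of fun i j => ∑ t, v j t * r i t).det := fun r => rfl
  have h0 : F = 0 := by
    refine Module.Basis.ext_multilinear (fun _ => Pi.basisFun κ T) fun c => ?_
    rw [hF, zero_apply, ← hc c, ← Matrix.det_transpose]
    congr 1
    ext i j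
    simp [Pi.single_apply]
  have h1 : F (fun i t => g (Pi.single t 1) i) = 1 := by
    rw [hF]
    have : (Matrix.of fun i j => ∑ t, v j t * g (Pi.single t 1) i) = (1 : Matrix ι ι κ) := by
      ext i j
      have e : v j = ∑ t, v j t • (Pi.single t 1 : T → κ) := by
        ext t; simp [Pi.single_apply]
      have := congrFun (hgv j) i
      rw [e, map_sum] at this
      simp only [map_smul, Finset.sum_apply, Pi.smul_apply, smul_eq_mul] at this
      rw [Matrix.of_apply, this, Matrix.one_apply, Pi.single_apply]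
    rw [this, Matrix.det_one]
  rw [h0] at h1
  simp at h1

theorem ag3_adj {A T ι κ : Type} [CommRing A] [Fintype T] [Fintype ι] [DecidableEq ι] [Field κ]
    (ξ : A →+* κ) (e : ι → T → A) (hv : LinearIndependent κ fun i t => ξ (e i t)) :
    ∃ (M : T → ι → A) (δ : A), ξ δ ≠ 0 ∧ ∀ j i, ∑ t, e j t * M t i = if j = i then δ else 0 := by
  classical
  obtain ⟨c, hc⟩ := ag3_minor _ hv
  let N : Matrix ι ι A := Matrix.of fun i j => e i (c j)
  refine ⟨fun t i => ∑ j, if c j = t then N.adjugate j i else 0, N.det, ?_, fun j i => ?_⟩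
  · rw [RingHom.map_det]
    exact hc
  · have := congrFun (congrFun (Matrix.mul_adjugate N) j) i
    rw [Matrix.mul_apply, Matrix.smul_apply, Matrix.one_apply] at this
    simp only [Finset.mul_sum, mul_ite, mul_zero]
    rw [Finset.sum_comm]
    simp only [Finset.sum_ite_eq, Finset.mem_univ, if_true]
    refine this.trans ?_
    split_ifs <;> simp

/-- the colon property after inverting `δ` -/
theorem ag3_colon {A T ι : Type} [CommRing A] [Fintype T] [Fintype ι] [DecidableEq ι]
    (e : ι → T → A) (M : T → ι → A) (δ : A)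
    (hM : ∀ j i, ∑ t, e j t * M t i = if j = i then δ else 0) (I : Ideal A) (f : A)
    (g : MvPolynomial T A)
    (hg : C f * g ∈ I.map (C : A →+* MvPolynomial T A) ⊔
      Ideal.span (Set.range fun i => ∑ t, C (e i t) * X t)) :
    ∃ r : ℕ, C δ ^ r * g ∈ (I.colon {f}).map (C : A →+* MvPolynomial T A) ⊔
      Ideal.span (Set.range fun i => ∑ t, C (e i t) * X t) := by
  classical
  set E : ι → MvPolynomial T A := fun i => ∑ t, C (e i t) * X t with hE
  set J : Ideal (MvPolynomial T A) := (I.colon {f}).map (C : A →+* MvPolynomial T A) ⊔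
    Ideal.span (Set.range E) with hJ
  let Ψ : MvPolynomial T A →+* Polynomial (MvPolynomial T A) :=
    eval₂Hom (Polynomial.C.comp C) fun t =>
      Polynomial.C (C δ * X t - ∑ i, C (M t i) * E i) * Polynomial.X
  have hΨC : ∀ a, Ψ (C a) = Polynomial.C (C a) := fun a => eval₂Hom_C _ _ a
  have hΨX : ∀ t, Ψ (X t) = Polynomial.C (C δ * X t - ∑ i, C (M t i) * E i) * Polynomial.X :=
    fun t => eval₂Hom_X' _ _ t
  have hΨE : ∀ j, Ψ (E j) = 0 := by
    intro j
    have h1 : ∑ t, C (e j t) * (C δ * X t - ∑ i, C (M t i) * E i) = 0 := by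
      simp only [mul_sub, Finset.sum_sub_distrib, Finset.mul_sum]
      rw [Finset.sum_comm]
      have : ∀ i, ∑ t, C (e j t) * (C (M t i) * E i) = if j = i then C δ * E i else 0 := by
        intro i
        have : ∑ t, C (e j t) * (C (M t i) * E i) = C (∑ t, e j t * M t i) * E i := by
          rw [map_sum, Finset.sum_mul]
          exact Finset.sum_congr rfl fun t _ => by rw [map_mul, mul_assoc]
        rw [this, hM]
        split_ifs <;> simp
      simp only [this, Finset.sum_ite_eq, Finset.mem_univ, if_true]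
      rw [hE, Finset.mul_sum, sub_eq_zero]
      exact Finset.sum_congr rfl fun t _ => by ring
    have h2 : Ψ (E j) = Polynomial.C (∑ t, C (e j t) * (C δ * X t - ∑ i, C (M t i) * E i)) *
        Polynomial.X := by
      rw [map_sum Polynomial.C, Finset.sum_mul]
      conv_lhs => rw [hE]
      rw [map_sum]
      exact Finset.sum_congr rfl fun t _ => by rw [map_mul, hΨC, hΨX, map_mul, mul_assoc]
    rw [h2, h1, map_zero, zero_mul]
  have hK : I.map (C : A →+* MvPolynomial T A) ⊔ Ideal.span (Set.range E) ≤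
      ((I.map (C : A →+* MvPolynomial T A)).map Polynomial.C).comap Ψ := by
    refine sup_le (Ideal.map_le_iff_le_comap.2 fun a ha => ?_) (Ideal.span_le.2 ?_)
    · rw [Ideal.mem_comap, Ideal.mem_comap, hΨC]
      exact Ideal.mem_map_of_mem _ (Ideal.mem_map_of_mem _ ha)
    · rintro _ ⟨j, rfl⟩
      rw [SetLike.mem_coe, Ideal.mem_comap, hΨE]
      exact Ideal.zero_mem _
  have h1 : ∀ d, (Ψ g).coeff d ∈ J := by
    intro d
    have := hK hg
    rw [Ideal.mem_comap, map_mul, hΨC, Ideal.mem_map_C_iff] at this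
    have h2 := this d
    rw [Polynomial.coeff_C_mul, mem_map_C_iff] at h2
    refine Ideal.mem_sup_left (mem_map_C_iff.2 fun m => ?_)
    have h3 := h2 m
    rw [coeff_C_mul] at h3
    rw [Submodule.mem_colon_singleton, smul_eq_mul, mul_comm]
    exact h3
  let π := Ideal.Quotient.mk J
  let θ : MvPolynomial T A →+* Polynomial (MvPolynomial T A ⧸ J) :=
    eval₂Hom (Polynomial.C.comp (π.comp C)) fun t => Polynomial.C (π (X t)) * Polynomial.X
  have hθC : ∀ a, θ (C a) = Polynomial.C (π (C a)) := fun a => eval₂Hom_C _ _ a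
  have hθX : ∀ t, θ (X t) = Polynomial.C (π (X t)) * Polynomial.X := fun t => eval₂Hom_X' _ _ t
  have hπE : ∀ i, π (E i) = 0 := fun i =>
    Ideal.Quotient.eq_zero_iff_mem.2 (Ideal.mem_sup_right (Ideal.subset_span ⟨i, rfl⟩))
  have h2 : (Polynomial.mapRingHom π).comp Ψ =
      (Polynomial.compRingHom (Polynomial.C (π (C δ)) * Polynomial.X)).comp θ := by
    refine ringHom_ext (fun a => ?_) (fun t => ?_)
    · simp [hΨC, hθC]
    · simp only [RingHom.comp_apply, hΨX, hθX, map_mul, Polynomial.coe_mapRingHom,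
        Polynomial.map_C, Polynomial.map_X, Polynomial.map_mul, Polynomial.coe_compRingHom_apply,
        Polynomial.mul_comp, Polynomial.C_comp, Polynomial.X_comp, map_sub, map_sum, hπE, mul_zero,
        Polynomial.map_sub, Polynomial.map_sum, map_zero, Finset.sum_const_zero, sub_zero]
      ring
  have h3 : (Polynomial.evalRingHom 1).comp θ = π := by
    refine ringHom_ext (fun a => ?_) (fun t => ?_)
    · simp [hθC]
    · simp [hθX]
  have h4 : ∀ d, (θ g).coeff d * π (C δ) ^ d = 0 := by
    intro d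
    have := congrArg (fun p => Polynomial.coeff p d) (RingHom.congr_fun h2 g)
    simp only [RingHom.comp_apply, Polynomial.coe_mapRingHom, Polynomial.coeff_map,
      Polynomial.coe_compRingHom_apply, Polynomial.comp_C_mul_X_coeff] at this
    rw [← this]
    exact Ideal.Quotient.eq_zero_iff_mem.2 (h1 d)
  refine ⟨(θ g).natDegree, Ideal.Quotient.eq_zero_iff_mem.1 ?_⟩
  have h5 : π g = ∑ d ∈ Finset.range ((θ g).natDegree + 1), (θ g).coeff d := by
    rw [← h3, RingHom.comp_apply, Polynomial.coe_evalRingHom, Polynomial.eval_eq_sum_range]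
    simp
  change π _ = 0
  rw [map_mul, map_pow, h5, Finset.mul_sum]
  refine Finset.sum_eq_zero fun d hd => ?_
  obtain ⟨k, hk⟩ := Nat.exists_eq_add_of_le (Nat.lt_succ_iff.1 (Finset.mem_range.1 hd))
  rw [hk, pow_add]
  linear_combination π (C δ) ^ k * h4 d

theorem ag3_omega_C (T σ : Type) (a : MvPolynomial σ ℂ) :
    omega T σ (C a) = map (algebraMap ℂ (Kf T)) a := eval₂Hom_C _ _ a

theorem ag3_omega_E {σ T : Type} [Fintype T] (e : T → MvPolynomial σ ℂ) :
    omega T σ (∑ t, C (e t) * X t) = genE e := by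
  rw [map_sum, genE]
  refine Finset.sum_congr rfl fun t _ => ?_
  rw [map_mul, ag3_omega_C, mul_comm]
  congr 1
  exact eval₂Hom_X' _ _ t

theorem ag3_map_span {σ T ι : Type} [Fintype T] (e : ι → T → MvPolynomial σ ℂ) :
    (Ideal.span (Set.range fun i => ∑ t, C (e i t) * X t)).map (omega T σ) =
      Ideal.span (Set.range fun i => genE (e i)) := by
  rw [Ideal.map_span, ← Set.range_comp]
  congr 2
  funext i
  exact ag3_omega_E (e i)

theorem ag3_map_sup {σ T ι : Type} [Fintype T] (e : ι → T → MvPolynomial σ ℂ)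
    (I : Ideal (MvPolynomial σ ℂ)) :
    (I.map C ⊔ Ideal.span (Set.range fun i => ∑ t, C (e i t) * X t)).map (omega T σ) =
      I.map (map (algebraMap ℂ (Kf T))) ⊔ Ideal.span (Set.range fun i => genE (e i)) := by
  rw [Ideal.map_sup, ag3_map_span, Ideal.map_map]
  congr 2
  exact RingHom.ext fun a => ag3_omega_C T σ a

theorem ag3_unit (T σ : Type) {s : MvPolynomial T ℂ} (hs : s ≠ 0) :
    IsUnit (C (algebraMap (MvPolynomial T ℂ) (Kf T) s) : MvPolynomial σ (Kf T)) := by
  refine IsUnit.map C (Ne.isUnit ?_)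
  exact (map_ne_zero_iff _ (IsFractionRing.injective _ _)).2 hs

theorem ag3_map_colon (T σ : Type) (I : Ideal (MvPolynomial T (MvPolynomial σ ℂ)))
    (f : MvPolynomial T (MvPolynomial σ ℂ)) :
    (I.colon {f}).map (omega T σ) = (I.map (omega T σ)).colon {omega T σ f} := by
  refine le_antisymm (Ideal.map_le_iff_le_comap.2 fun a ha => ?_) fun b hb => ?_
  · rw [Submodule.mem_colon_singleton, smul_eq_mul] at ha
    rw [Ideal.mem_comap, Submodule.mem_colon_singleton, smul_eq_mul, ← map_mul]
    exact Ideal.mem_map_of_mem _ ha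
  · rw [Submodule.mem_colon_singleton, smul_eq_mul] at hb
    obtain ⟨s, hs, b₁, hb₁⟩ := omega_surj T σ b
    have h1 : omega T σ (b₁ * f) ∈ I.map (omega T σ) := by
      rw [map_mul, hb₁, mul_assoc]
      exact Ideal.mul_mem_left _ _ hb
    obtain ⟨s', hs', h2⟩ := (omega_mem_map T σ I _).1 h1
    have h3 : map C s' * b₁ ∈ I.colon {f} := by
      rw [Submodule.mem_colon_singleton, smul_eq_mul, mul_assoc]
      exact h2
    have h4 := Ideal.mem_map_of_mem (omega T σ) h3
    rw [map_mul, omega_map_C, hb₁, Ideal.unit_mul_mem_iff_mem _ (ag3_unit T σ hs'),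
      Ideal.unit_mul_mem_iff_mem _ (ag3_unit T σ hs)] at h4
    exact h4

theorem ag3_map_comap (T σ : Type) (I : Ideal (MvPolynomial σ (Kf T))) :
    (I.comap (omega T σ)).map (omega T σ) = I := by
  refine le_antisymm Ideal.map_comap_le fun b hb => ?_
  obtain ⟨s, hs, b₁, hb₁⟩ := omega_surj T σ b
  have h1 : b₁ ∈ I.comap (omega T σ) := by
    rw [Ideal.mem_comap, hb₁]
    exact Ideal.mul_mem_left _ _ hb
  have h2 := Ideal.mem_map_of_mem (omega T σ) h1
  rwa [hb₁, Ideal.unit_mul_mem_iff_mem _ (ag3_unit T σ hs)] at h2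

/-- Colon property ("flatness of the generic fibre over the base").  `⊇` is formal.  For `⊆` let
`b` be in the left side, `𝔠 := (right side) : b`; if `𝔠 ≠ ⊤` take a maximal `𝔪 ≥ 𝔠` (`𝔪 ≥ b₀`),
`κ := B ⧸ 𝔪`, `τ, ξ` the images (`aeval τ` is injective since it factors through the field `Kf T`).
By `IndPt` the matrix `M = (e i t)` over `A₀ = ℂ[σ]` has independent rows at `ξ`, so there are `M'`
over `A₀` and `δ ∈ A₀`, `ξ δ ≠ 0`, `M M' = δ • 1` (adjugate of a maximal minor).  Over
`A' = Localization.Away δ` the `A'`-algebra endomorphism `ψ : X t ↦ X t - δ⁻¹ ∑ i, M' t i * E i` of `A'[T]`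
kills `E i = ∑ t, e i t * X t` and is the identity modulo `(E)`.  Clear denominators (`omega_surj`,
`omega_mem_map`): `s f b₁ ∈ I A₀[T] + (E)`; apply `ψ`: `f ψ(s b₁) ∈ I A'[T]`, so all coefficients of
`ψ (s b₁)` lie in `(I : f) A'`; hence `δ^r s b₁ ∈ (I : f) A₀[T] + (E)`, so `δ^r ∈ 𝔠 ≤ 𝔪`: contradiction. -/
theorem colon_generic {σ T ι : Type} [Finite σ] [Fintype T] [Finite ι]
    (e : ι → T → MvPolynomial σ ℂ) (h : IndPt e) (I : Ideal (MvPolynomial σ ℂ))
    (f : MvPolynomial σ ℂ) :
    (I.map (map (algebraMap ℂ (Kf T))) ⊔ Ideal.span (Set.range fun i => genE (e i))).colon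
        {map (algebraMap ℂ (Kf T)) f} =
      Ideal.map (map (algebraMap ℂ (Kf T))) (I.colon {f}) ⊔
        Ideal.span (Set.range fun i => genE (e i)) := by
  classical
  have := Fintype.ofFinite ι
  refine le_antisymm (fun b hb => ?_) (sup_le (Ideal.map_le_iff_le_comap.2 fun a ha => ?_)
    fun b hb => ?_)
  · rw [Submodule.mem_colon_singleton, smul_eq_mul] at hb
    by_contra hbJ
    set J := Ideal.map (map (algebraMap ℂ (Kf T))) (I.colon {f}) ⊔
        Ideal.span (Set.range fun i => genE (e i)) with hJ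
    have hne : J.colon {b} ≠ ⊤ := by
      rw [Ne, Submodule.colon_eq_top_iff_subset, Set.singleton_subset_iff]
      exact hbJ
    obtain ⟨𝔪, h𝔪, hle⟩ := Ideal.exists_le_maximal _ hne
    have hJ𝔪 : J ≤ 𝔪 := fun x hx => hle (by
      rw [Submodule.mem_colon_singleton, smul_eq_mul]
      exact Ideal.mul_mem_right _ _ hx)
    let _ : Field (MvPolynomial σ (Kf T) ⧸ 𝔪) := Ideal.Quotient.field 𝔪
    let π : MvPolynomial σ (Kf T) →ₐ[ℂ] MvPolynomial σ (Kf T) ⧸ 𝔪 := Ideal.Quotient.mkₐ ℂ 𝔪
    have hπ : ∀ x, π x = 0 ↔ x ∈ 𝔪 := fun x => Ideal.Quotient.eq_zero_iff_mem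
    have hξ : ∀ a : MvPolynomial σ ℂ, aeval (fun s => π (X s)) a =
        π (map (algebraMap ℂ (Kf T)) a) := by
      intro a
      induction a using MvPolynomial.induction_on with
      | C c =>
        rw [aeval_C, map_C, ← π.commutes]
        rfl
      | add p q hp hq => simp only [map_add, hp, hq]
      | mul_X p s hp => simp only [map_mul, hp, aeval_X, map_X]
    have hτ : ∀ s : MvPolynomial T ℂ,
        aeval (fun t => π (C (algebraMap (MvPolynomial T ℂ) (Kf T) (X t)))) s =
        π (C (algebraMap (MvPolynomial T ℂ) (Kf T) s)) := by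
      intro s
      induction s using MvPolynomial.induction_on with
      | C c =>
        rw [aeval_C, ← π.commutes]
        rfl
      | add p q hp hq => simp only [map_add, hp, hq]
      | mul_X p s hp => simp only [map_mul, hp, aeval_X]
    have hli := h (MvPolynomial σ (Kf T) ⧸ 𝔪)
      (fun t => π (C (algebraMap (MvPolynomial T ℂ) (Kf T) (X t)))) (fun s => π (X s))
      ((injective_iff_map_eq_zero _).2 fun s hs => by
        by_contra hs0
        rw [hτ] at hs
        exact ((ag3_unit T σ hs0).map π).ne_zero hs)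
      (fun i => by
        have : π (genE (e i)) = 0 :=
          (hπ _).2 (hJ𝔪 (Ideal.mem_sup_right (Ideal.subset_span ⟨i, rfl⟩)))
        rw [← this, genE, map_sum]
        exact Finset.sum_congr rfl fun t _ => by rw [map_mul, hξ])
    obtain ⟨M, δ, hδ, hM⟩ := ag3_adj
      (aeval (R := ℂ) (fun s => π (X s))).toRingHom e hli
    obtain ⟨s, hs, b₁, hb₁⟩ := omega_surj T σ b
    have h1 : omega T σ (C f * b₁) ∈ (I.map C ⊔
        Ideal.span (Set.range fun i => ∑ t, C (e i t) * X t)).map (omega T σ) := by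
      rw [ag3_map_sup, map_mul, ag3_omega_C, hb₁, mul_left_comm, mul_comm _ b]
      exact Ideal.mul_mem_left _ _ hb
    obtain ⟨s', hs', h2⟩ := (omega_mem_map T σ _ _).1 h1
    rw [mul_left_comm] at h2
    obtain ⟨r, h3⟩ := ag3_colon e M δ hM I f _ h2
    have h4 := Ideal.mem_map_of_mem (omega T σ) h3
    rw [ag3_map_sup, map_mul, map_mul, map_pow, ag3_omega_C, omega_map_C, hb₁, mul_left_comm,
      Ideal.unit_mul_mem_iff_mem _ (ag3_unit T σ hs'), mul_left_comm,
      Ideal.unit_mul_mem_iff_mem _ (ag3_unit T σ hs)] at h4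
    have h5 : map (algebraMap ℂ (Kf T)) δ ^ r ∈ 𝔪 := hle (by
      rw [Submodule.mem_colon_singleton, smul_eq_mul]
      exact h4)
    refine hδ ?_
    change aeval (fun s => π (X s)) δ = 0
    rw [hξ, hπ]
    exact h𝔪.isPrime.mem_of_pow_mem r h5
  · rw [Submodule.mem_colon_singleton, smul_eq_mul] at ha
    rw [Ideal.mem_comap, Submodule.mem_colon_singleton, smul_eq_mul, ← map_mul]
    exact Ideal.mem_sup_left (Ideal.mem_map_of_mem _ ha)
  · rw [Submodule.mem_colon_singleton, smul_eq_mul]
    exact Ideal.mul_mem_right _ _ (Ideal.mem_sup_right hb)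

/-- `pullback_zero` (with `colon_generic`, `genR_mvpoly`) gives `μ (I B + b₀) = 0`.  Put
`μ₁ 𝔟 := μ (𝔟.map omega)` on `A₀[T]`, additive above `b₁ = span (∑ t, C (e i t) * X t)` (by
`omega_mem_map`, `omega_surj`), apply `fibre_lemma` with `genR_linear`; every ideal of `B` is extended. -/
theorem gen_generic {σ T ι : Type} [Finite σ] [Fintype T] [Finite ι]
    (e : ι → T → MvPolynomial σ ℂ) (h : IndPt e) :
    GenR (MvPolynomial σ (Kf T)) (Ideal.span (Set.range fun i => genE (e i))) := by
  intro Q _ μ hμ h0 I hI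
  have h1 := pullback_zero (map (algebraMap ℂ (Kf T))) _ (colon_generic e h) (genR_mvpoly σ ℂ)
    μ hμ h0
  have h2 : IdAdd (Ideal.span (Set.range fun i => ∑ t, C (e i t) * X t))
      fun 𝔟 : Ideal (MvPolynomial T (MvPolynomial σ ℂ)) => μ (𝔟.map (omega T σ)) := by
    refine ⟨by simpa only [Ideal.map_top] using hμ.1, fun 𝔟 h𝔟 g => ?_⟩
    have := hμ.2 (𝔟.map (omega T σ)) (by rw [← ag3_map_span]; exact Ideal.map_mono h𝔟)
      (omega T σ g)
    simpa only [Ideal.map_sup, Ideal.map_span, Set.image_singleton, ag3_map_colon] using this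
  have h3 := fibre_lemma (Ideal.span (Set.range fun i => ∑ t, C (e i t) * X t))
    (fun κ _ ξ => by
      have := genR_linear T ι κ fun i t => ξ (e i t)
      rw [Ideal.map_span, ← Set.range_comp]
      convert this using 3
      funext i
      simp [map_sum])
    _ h2 (fun I' => by simpa only [ag3_map_sup] using h1 I') (I.comap (omega T σ))
    (by rw [← Ideal.map_le_iff_le_comap, ag3_map_span]; exact hI)
  simpa only [ag3_map_comap] using h3

end Crest.Agent.R181
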