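import Crest.Agent.R181.ATransfer
import Crest.Agent.R181.ACell
import Crest.Agent.R181.AGen3

/-! # Row 181 A: one step, the tower, and the base of the tower -/

set_option autoImplicit false

namespace Crest.Agent.R181

open MvPolynomial

theorem step {K D : Type} [Field K] [DivisionRing D] [Algebra K D] {n : ℕ} (blk : Blk K n)
    (hP : P1 D Unit fun _ => blk) :
    ∃ (D' : Type) (_ : DivisionRing D') (_ : Algebra K D') (j : D →ₐ[K] D')
      (uv : Fin n → Fin 2 → D'), (∀ d m i, Commute (j d) (uv m i)) ∧ Ulrich blk uv ∧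
      ∀ (B' : Type) [Fintype B'] [DecidableEq B'] (blk' : B' → Blk K n),
        P1 D (Option B') (fun o => o.elim blk blk') → P1 D' B' blk' := by
  obtain ⟨S⟩ := exists_smash D (BV n)
  obtain ⟨L⟩ := exists_loc (S.theory blk hP) (S.Sj blk 0) (S.wm_Sj blk 0)
    (by simpa [Smash.theory] using S.rho_Sj blk 0)
    (fun P h => by simpa [Smash.theory] using S.rho_sub_Sj blk hP 0 P h)
  obtain ⟨D', _, act, hact⟩ := L.exists_divRing
  obtain ⟨_, j, uv, hK, hc, hU⟩ := L.ulrich act hact
  exact ⟨D', inferInstance, inferInstance, j, uv, hc, hU,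
    fun B' _ _ blk' h => L.transfer act hK B' blk' h⟩

theorem Ulrich.map {K D D' : Type} [Field K] [Ring D] [Algebra K D] [Ring D'] [Algebra K D']
    {n : ℕ} {blk : Blk K n} {uv : Fin n → Fin 2 → D} (h : Ulrich blk uv) (j : D →ₐ[K] D') :
    Ulrich blk fun m i => j (uv m i) := by
  obtain ⟨χ, h1, h2, h3, h4⟩ := h
  refine ⟨(AddMonoidAlgebra.mapRingHom _ (j : D →+* D')).comp χ, fun c => ?_, fun i => ?_,
    fun m => ?_, fun m => ?_⟩
  · simp [h1, AddMonoidAlgebra.mapRingHom_single]
  · simp [h2, AddMonoidAlgebra.mapRingHom_single]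
  · simp [h3, lin, AddMonoidAlgebra.mapRingHom_single]
  · simp [h4]

/-- Induction on a finset `s` of processed blocks; invariant: `D`, `uv` with `Ulrich` and commutation on
`s`, and `P1 D B'' (blk ∘ ι)` for every injective `ι : B'' → B` avoiding `s` (use `Unit` and
`Option B''` with `Option.elim · b ι` in the step). -/
theorem tower {K : Type} [Field K] {n : ℕ} {B : Type} [Fintype B] [DecidableEq B]
    (blk : B → Blk K n)
    (h : ∀ (B'' : Type) [Fintype B''] [DecidableEq B''] (ι : B'' → B), Function.Injective ι →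
      P1 K B'' fun b => blk (ι b)) :
    ∃ (D : Type) (_ : DivisionRing D) (_ : Algebra K D) (uv : B → Fin n → Fin 2 → D),
      (∀ b b', b ≠ b' → ∀ m i m' i', Commute (uv b m i) (uv b' m' i')) ∧
      ∀ b, Ulrich (blk b) (uv b) := by
  have key : ∀ s : Finset B, ∃ (D : Type) (_ : DivisionRing D) (_ : Algebra K D)
      (uv : B → Fin n → Fin 2 → D),
      (∀ b ∈ s, ∀ b' ∈ s, b ≠ b' → ∀ m i m' i', Commute (uv b m i) (uv b' m' i')) ∧
      (∀ b ∈ s, Ulrich (blk b) (uv b)) ∧
      ∀ (B'' : Type) [Fintype B''] [DecidableEq B''] (ι : B'' → B), Function.Injective ι →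
        (∀ x, ι x ∉ s) → P1 D B'' fun b => blk (ι b) := by
    intro s
    induction s using Finset.induction_on with
    | empty =>
      exact ⟨K, inferInstance, inferInstance, fun _ _ _ => 0, by simp, by simp,
        fun B'' _ _ ι hι _ => h B'' ι hι⟩
    | insert b s hb ih =>
      obtain ⟨D, _, _, uv, hc, hU, hP⟩ := ih
      obtain ⟨D', _, _, j, uv₀, hc₀, hU₀, hP₀⟩ := step (blk b)
        (hP Unit (fun _ => b) (fun _ _ _ => rfl) fun _ => hb)
      refine ⟨D', inferInstance, inferInstance,
        fun b' => if b' = b then uv₀ else fun m i => j (uv b' m i), ?_, ?_, ?_⟩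
      · intro b₁ h₁ b₂ h₂ hne m i m' i'
        by_cases e₁ : b₁ = b
        · have e₂ : b₂ ≠ b := fun e => hne (e₁.trans e.symm)
          simp only [if_pos e₁, if_neg e₂]
          exact (hc₀ _ _ _).symm
        · by_cases e₂ : b₂ = b
          · simp only [if_neg e₁, if_pos e₂]
            exact hc₀ _ _ _
          · simp only [if_neg e₁, if_neg e₂]
            exact (hc b₁ ((Finset.mem_insert.1 h₁).resolve_left e₁) b₂
              ((Finset.mem_insert.1 h₂).resolve_left e₂) hne m i m' i').map j
      · intro b₁ h₁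
        by_cases e₁ : b₁ = b
        · subst e₁
          simpa using hU₀
        · simp only [if_neg e₁]
          exact (hU b₁ ((Finset.mem_insert.1 h₁).resolve_left e₁)).map j
      · intro B'' _ _ ι hι hs
        refine hP₀ B'' _ ?_
        have hinj : Function.Injective fun o : Option B'' => o.elim b ι := by
          rintro (_ | x) (_ | y) hxy
          · rfl
          · exact absurd (Finset.mem_insert.2 (Or.inl (show ι y = b from hxy.symm))) (hs y)
          · exact absurd (Finset.mem_insert.2 (Or.inl (show ι x = b from hxy))) (hs x)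
          · exact congrArg some (hι hxy)
        have := hP (Option B'') (fun o => o.elim b ι) hinj (by
          rintro (_ | x)
          · exact hb
          · exact fun hx => hs x (Finset.mem_insert_of_mem hx))
        convert this using 2 with o
        cases o <;> rfl
  obtain ⟨D, _, _, uv, hc, hU, -⟩ := key Finset.univ
  exact ⟨D, inferInstance, inferInstance, uv,
    fun b b' => hc b (Finset.mem_univ _) b' (Finset.mem_univ _), fun b => hU b (Finset.mem_univ _)⟩

theorem genE_coeff {σ T : Type} [Fintype T] (e : T → MvPolynomial σ ℂ) (μ : σ →₀ ℕ) :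
    (genE e).coeff μ =
      algebraMap (MvPolynomial T ℂ) (Kf T) (∑ t, C ((e t).coeff μ) * X t) := by
  simp only [genE, coeff_sum, coeff_C_mul, coeff_map, map_sum, map_mul]
  refine Finset.sum_congr rfl fun t _ => ?_
  rw [mul_comm, IsScalarTower.algebraMap_apply ℂ (MvPolynomial T ℂ) (Kf T), algebraMap_eq]

theorem genE_tri {n : ℕ} {T : Type} [Fintype T] {m : Fin n} {δ : ℕ}
    {e : T → MvPolynomial (BV n) ℂ} (h : ∀ t, Tri m δ (e t)) : Tri m δ (genE e) := by
  refine ⟨?_, fun ν hν => ?_⟩
  · exact IsHomogeneous.sum _ _ _ fun t _ => ((h t).1.map _).C_mul _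
  · by_contra hne
    rw [mem_support_iff, genE_coeff] at hν
    refine hν ?_
    rw [Finset.sum_eq_zero, map_zero]
    intro t _
    have : (e t).coeff ν = 0 := by
      by_contra h0
      exact hne ((h t).2 ν (mem_support_iff.2 h0))
    rw [this, map_zero, zero_mul]

theorem genE_coeff_ne {σ T : Type} [Fintype T] {e : T → MvPolynomial σ ℂ} {μ : σ →₀ ℕ}
    (h : ∃ t, (e t).coeff μ ≠ 0) : (genE e).coeff μ ≠ 0 := by
  classical
  obtain ⟨t, ht⟩ := h
  rw [genE_coeff]
  intro h0
  have h1 := IsFractionRing.injective (MvPolynomial T ℂ) (Kf T) (h0.trans (map_zero _).symm)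
  have h2 := congrArg (eval (Pi.single t (1 : ℂ))) h1
  simp only [map_sum, map_mul, eval_C, eval_X, map_zero, Pi.single_apply, mul_ite, mul_one,
    mul_zero, Finset.sum_ite_eq', Finset.mem_univ, if_true] at h2
  exact ht h2

/-- the generic blocks of a system -/
noncomputable def Sys.blk {n A : ℕ} {c : Config n A} {a : Fin n → ℕ}
    {f : Fin n → MvPolynomial (Fin n) ℂ} (s : Sys c a f) (b : c.B) : Blk (Kf s.T) n where
  δ := s.δ b
  E := fun m => genE (s.e b m)
  pos := s.pos b
  tri := fun m => genE_tri (s.tri b m)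
  lc := fun m => genE_coeff_ne (s.lc b m)

theorem map_dh {B : Type} [DecidableEq B] {R S : Type*} [CommRing R] [CommRing S] (φ : R →+* S)
    (n : ℕ) (J : Finset B) (w : B × BV n) : map φ (dh R n J w) = dh S n J w := by
  unfold dh
  split_ifs <;> simp

theorem aeval_dh_genE {B T : Type} [DecidableEq B] [Fintype T] {n : ℕ} (J : Finset B) (b : B)
    (e : T → MvPolynomial (BV n) ℂ) :
    aeval (dh (Kf T) n J) (rename (Prod.mk b) (genE e)) =
      genE fun t => aeval (dh ℂ n J) (rename (Prod.mk b) (e t)) := by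
  simp only [genE, map_sum, map_mul, rename_C, aeval_C, algebraMap_eq]
  refine Finset.sum_congr rfl fun t _ => ?_
  congr 1
  induction e t using MvPolynomial.induction_on with
  | C c => simp
  | add p q hp hq => simp only [map_add, hp, hq]
  | mul_X p v hp => simp only [map_mul, hp, map_X, rename_X, aeval_X, map_dh]

/-- `P1_of_gen` and `gen_generic` with `e' (b, m) t = aeval (dh ℂ n J) (rename (Prod.mk b) (e (ι b) m t))`;
`IndPt e'` from `Ind` (extend `φ` by zero outside the range of `ι`; the point of the block `b` is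
`v ↦ aeval ξ (dh ℂ n J (b, v))`, which has `p = 1` or `q = 1`). -/
theorem Sys.base {n A : ℕ} {c : Config n A} {a : Fin n → ℕ}
    {f : Fin n → MvPolynomial (Fin n) ℂ} (s : Sys c a f) (B'' : Type) [Fintype B'']
    [DecidableEq B''] (ι : B'' → c.B) (hι : Function.Injective ι) :
    P1 (Kf s.T) B'' fun b => s.blk (ι b) := by
  classical
  refine P1_of_gen _ fun J => ?_
  have e1 : (fun bm : B'' × Fin n => aeval (dh (Kf s.T) n J)
      (rename (Prod.mk bm.1) ((s.blk (ι bm.1)).E bm.2))) =
      fun bm : B'' × Fin n => genE fun t =>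
        aeval (dh ℂ n J) (rename (Prod.mk bm.1) (s.e (ι bm.1) bm.2 t)) :=
    funext fun bm => aeval_dh_genE J bm.1 _
  rw [e1]
  refine gen_generic _ ?_
  intro κ _ _ τ ξ hτ hz
  have e2 : ∀ (b : B'') (F : MvPolynomial (BV n) ℂ),
      aeval ξ (aeval (dh ℂ n J) (rename (Prod.mk b) F)) =
        aeval (fun v => aeval ξ (dh ℂ n J (b, v))) F := by
    intro b F
    induction F using MvPolynomial.induction_on with
    | C c => simp
    | add p q hp hq => simp only [map_add, hp, hq]
    | mul_X p v hp => simp only [map_mul, hp, rename_X, aeval_X]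
  simp only [e2] at hz ⊢
  rw [Fintype.linearIndependent_iff]
  intro g hg
  have key := s.ind κ τ hτ
    (Function.extend ι (fun b v => aeval ξ (dh ℂ n J (b, v))) 0)
    (Function.extend ι (fun b m => g (b, m)) 0) ?_ ?_
  · rintro ⟨b, m⟩
    have := key (ι b) m
    rwa [hι.extend_apply] at this
  · intro b m hφ
    by_cases hb : ∃ x, ι x = b
    · obtain ⟨x, rfl⟩ := hb
      simp only [hι.extend_apply]
      refine ⟨?_, fun m' => hz (x, m')⟩
      by_cases hx : x ∈ J
      · right
        simp [dh, hx]
      · left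
        simp [dh, hx]
    · rw [Function.extend_apply' _ _ _ hb] at hφ
      exact absurd rfl hφ
  · intro t
    have h1 := congrFun hg t
    simp only [Finset.sum_apply, Pi.smul_apply, smul_eq_mul, Pi.zero_apply] at h1
    rw [Fintype.sum_prod_type] at h1
    rw [← h1]
    symm
    refine Fintype.sum_of_injective ι hι _ _ ?_ ?_
    · intro b hb
      rw [Function.extend_apply' (fun b m => g (b, m)) _ _ hb]
      simp
    · intro x
      simp only [hι.extend_apply]

end Crest.Agent.R181
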