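import Crest.Agent.R181.AAsmBlk
import Crest.Agent.R181.ATower
import Crest.Agent.R181.ASys
import Crest.Agent.R181.AConfig
import Crest.Agent.R181.AAssembleAuxS

/-! # Row 181 A: assembling the linear forms -/

set_option autoImplicit false

namespace Crest.Agent.R181

open MvPolynomial

/-- Define `Y : AV n B → (Fin n → D)` (coefficient vectors of linear forms): `Y (inl i) = single i 1`,
`Y (inr (b, m)) = ∑ i, uv b m i • ∑ w, P b i w • Y w`, by well-founded recursion on `rk` (`dep`; or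
iterate the defining map `max rk + 1` times).  The coefficients of `Y (inr (b, m))` lie in the subring
generated by the `uv b'` with `rk b' < rk b` or `b' = b`; so the `uv b` commute with the pencil
`𝒫 b i = ∑ w, P b i w • lin (Y w)`.  Induction on `rk`: all `lin (Y w)` commute (inside one block use the
`χ` of `Ulrich`: let `C` be the centraliser of `𝒫 b 0, 𝒫 b 1` in `D`, lift `χ` to `DP C (Fin 2)`
[`exists_eval`, injectivity of `DP C → DP D`] and compose with `exists_evalDP : DP C (Fin 2) → DP D (Fin n)`).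
`Χ` from `exists_eval`; `Χ ∘ (aeval sub)` agrees with that composite by ring hom extensionality. -/
theorem assemble_blocks {n A : ℕ} (c : Config n A) {K D : Type} [Field K] [Algebra ℂ K]
    [DivisionRing D] [Algebra K D] (blk : c.B → Blk K n) (uv : c.B → Fin n → Fin 2 → D)
    (hc : ∀ b b', b ≠ b' → ∀ m i m' i', Commute (uv b m i) (uv b' m' i'))
    (hU : ∀ b, Ulrich (blk b) (uv b)) :
    ∃ (Y : AV n c.B → Fin n → D) (Χ : MvPolynomial (AV n c.B) K →+* DP D (Fin n)),
      (∀ k, Χ (C k) = AddMonoidAlgebra.single 0 (algebraMap K D k)) ∧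
      (∀ w, Χ (X w) = lin (Y w)) ∧ (∀ i, Y (Sum.inl i) = Pi.single i 1) ∧
      ∀ b m, Χ (aeval (fun v => map (algebraMap ℂ K) (c.sub b v)) ((blk b).E m)) = 0 := by
  exact asm_blocks c blk uv hc hU

/-- If the left ideal generated by commuting linear forms contains `x_i^s`, the forms span.
All forms of degree `≥ s' = n s` lie in `∑ D[x]_{k-1} α_j`, so `D[x]_{s'+t} = ∑_{|β| = t} D[x]_{s'} α^β`.
If `α_{j₀} = ∑_{j ≠ j₀} d_j α_j` (left coefficients) only `β` with `β j₀ = 0` are needed, which gives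
`C(s'+t+n-1, n-1) ≤ c * C(t+n-2, n-2)` for all `t`, false for large `t`.  So the rows `d j` are left
independent, hence a basis of `Fin n → D`. -/
theorem span_of_pow {n : ℕ} {D : Type} [DivisionRing D] (d : Fin n → Fin n → D)
    (hc : ∀ j l, Commute (lin (d j)) (lin (d l))) (s : ℕ)
    (h : ∀ i, xD D i ^ s ∈ Ideal.span (Set.range fun j => lin (d j))) :
    ∃ e : Fin n → Fin n → D, ∀ i l, ∑ j, e i j * d j l = if i = l then 1 else 0 :=
  sp_span_of_pow d hc s h

theorem gen_comb_ne {T : Type} [Fintype T] {c : T → ℂ} (hc : c ≠ 0) :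
    ∑ t, algebraMap (MvPolynomial T ℂ) (Kf T) (X t) * algebraMap ℂ (Kf T) (c t) ≠ 0 := by
  obtain ⟨t, ht⟩ := Function.ne_iff.1 hc
  have := genE_coeff_ne (σ := Unit) (e := fun t => C (c t)) (μ := 0) ⟨t, by simpa using ht⟩
  simpa [genE, coeff_sum] using this

theorem aeval_genE {T σ τ : Type} [Fintype T] (u : σ → MvPolynomial τ ℂ)
    (e : T → MvPolynomial σ ℂ) :
    aeval (fun v => map (algebraMap ℂ (Kf T)) (u v)) (genE e) = genE fun t => aeval u (e t) := by
  simp only [genE, map_sum, map_mul, aeval_C, algebraMap_eq]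
  refine Finset.sum_congr rfl fun t _ => ?_
  congr 1
  induction e t using MvPolynomial.induction_on with
  | C c => simp
  | add p q hp hq => simp only [map_add, hp, hq]
  | mul_X p v hp => simp only [map_mul, hp, map_X, aeval_X]

/-- the generic form of the identity `iden m` -/
theorem Sys.iden_gen {n A : ℕ} {c : Config n A} {a : Fin n → ℕ}
    {f : Fin n → MvPolynomial (Fin n) ℂ} (s : Sys c a f) (m : Fin n) :
    ∃ (c₁ c₂ : Kf s.T) (g γ : Fin n → MvPolynomial (AV n c.B) (Kf s.T)), c₁ ≠ 0 ∧ c₂ ≠ 0 ∧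
      ∑ b ∈ Finset.univ.filter (fun b => m ≤ c.lv b),
        aeval (fun v => map (algebraMap ℂ (Kf s.T)) (c.sub b v)) ((s.blk b).E m) =
        C c₁ * X (Sum.inr (c.α m, m)) ^ a m
        - C c₂ * map (algebraMap ℂ (Kf s.T)) (rename Sum.inl (f m))
        - ∑ i ∈ Finset.univ.filter (· < m),
            g i * map (algebraMap ℂ (Kf s.T)) (rename Sum.inl (f i))
        - ∑ j ∈ Finset.univ.filter (m < ·), γ j * X (Sum.inr (c.α j, j)) := by
  obtain ⟨c₁, c₂, g, γ, h₁, h₂, hid⟩ := s.iden m
  refine ⟨_, _, fun i => genE (g i), fun j => genE (γ j), gen_comb_ne h₁, gen_comb_ne h₂, ?_⟩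
  simp only [Sys.blk, aeval_genE]
  simp only [genE]
  rw [Finset.sum_comm]
  simp only [← Finset.mul_sum, ← map_sum, hid]
  simp only [map_sub, map_mul, map_sum, map_C, map_pow, map_X, mul_sub, Finset.sum_sub_distrib,
    Finset.mul_sum, Finset.sum_mul, mul_assoc]
  congr 1
  · congr 1
    exact Finset.sum_comm
  · exact Finset.sum_comm

/-- `tower` (with `Sys.base`), `assemble_blocks`; `d m = Y (inr (α m, m))`.  Multiply `iden m` by the
generic `t`, map to `K[AV]`, apply `Χ`: `c₁ α_m^a = c₂ f_m + ∑_{i<m} g_i f_i + ∑_{j>m} γ_j α_j` with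
`c₁, c₂ ∈ K` nonzero.  This gives `rel`, and by induction on `m` all `f_m` lie in the left ideal of the
`α_j`, hence so do the `x_i^s`; `span_of_pow`.  `Algebra ℂ D` via `RingHom.toAlgebra'`. -/
theorem alpha_of_sys {n A : ℕ} {c : Config n A} {a : Fin n → ℕ}
    {f : Fin n → MvPolynomial (Fin n) ℂ} (s : Sys c a f) (ha : ∀ i, 1 ≤ a i)
    (hpow : ∃ s : ℕ, 1 ≤ s ∧ ∀ i, X i ^ s ∈ Ideal.span (Set.range f)) :
    ∃ (D : Type) (_ : DivisionRing D) (_ : Algebra ℂ D), Nonempty (AlphaData D a f) := by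
  classical
  obtain ⟨D, _, _, uv, hc, hU⟩ := tower s.blk s.base
  obtain ⟨Y, Χ, hC, hX, hY, hE⟩ := assemble_blocks c s.blk uv hc hU
  let _ : Algebra ℂ D := Algebra.compHom D (algebraMap ℂ (Kf s.T))
  have hincl : ∀ F : MvPolynomial (Fin n) ℂ,
      Χ (map (algebraMap ℂ (Kf s.T)) (rename Sum.inl F)) = incl D (Fin n) F := by
    intro F
    induction F using MvPolynomial.induction_on with
    | C k =>
      rw [rename_C, map_C, hC]
      exact (AddMonoidAlgebra.mapRingHom_single (algebraMap ℂ D) (0 : Fin n →₀ ℕ) k).symm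
    | add p q hp hq => simp only [map_add, hp, hq]
    | mul_X p v hp =>
      simp only [map_mul, hp, rename_X, map_X, hX, hY]
      congr 1
      have : incl D (Fin n) (X v) = AddMonoidAlgebra.single (Finsupp.single v 1) 1 :=
        (AddMonoidAlgebra.mapRingHom_single _ _ _).trans (by rw [map_one])
      rw [this, lin, Finset.sum_eq_single v]
      · simp
      · intro w _ hw
        simp [Pi.single_eq_of_ne hw]
      · simp
  set d : Fin n → Fin n → D := fun m => Y (Sum.inr (c.α m, m)) with hd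
  have hcomm : ∀ j l, Commute (lin (d j)) (lin (d l)) := fun j l => by
    simp only [hd, ← hX]
    exact (Commute.all _ _).map Χ
  have key : ∀ m, ∃ (u₁ v₁ u₂ v₂ : DP D (Fin n)) (g γ : Fin n → DP D (Fin n)),
      v₁ * u₁ = 1 ∧ v₂ * u₂ = 1 ∧
      u₁ * lin (d m) ^ a m = u₂ * incl D (Fin n) (f m)
        + ∑ i ∈ Finset.univ.filter (· < m), g i * incl D (Fin n) (f i)
        + ∑ j ∈ Finset.univ.filter (m < ·), γ j * lin (d j) := by
    intro m
    obtain ⟨c₁, c₂, g, γ, h₁, h₂, hid⟩ := s.iden_gen m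
    refine ⟨Χ (C c₁), Χ (C c₁⁻¹), Χ (C c₂), Χ (C c₂⁻¹), fun i => Χ (g i), fun j => Χ (γ j),
      by rw [← map_mul, ← map_mul, inv_mul_cancel₀ h₁, map_one, map_one],
      by rw [← map_mul, ← map_mul, inv_mul_cancel₀ h₂, map_one, map_one], ?_⟩
    have h3 := congrArg Χ hid
    simp only [map_sum, hE, Finset.sum_const_zero, map_sub, map_mul, map_pow, hincl, hX] at h3
    rw [sub_sub, sub_sub, eq_comm, sub_eq_zero, ← add_assoc] at h3
    exact h3
  have hF : ∀ m, incl D (Fin n) (f m) ∈ Ideal.span (Set.range fun j => lin (d j)) := by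
    intro m
    induction m using WellFoundedLT.induction with
    | ind m ih =>
      obtain ⟨u₁, v₁, u₂, v₂, g, γ, -, h₂, h3⟩ := key m
      have hα : ∀ j, lin (d j) ∈ Ideal.span (Set.range fun j => lin (d j)) :=
        fun j => Ideal.subset_span ⟨j, rfl⟩
      have h4 : u₂ * incl D (Fin n) (f m) = u₁ * lin (d m) ^ a m
          - ∑ i ∈ Finset.univ.filter (· < m), g i * incl D (Fin n) (f i)
          - ∑ j ∈ Finset.univ.filter (m < ·), γ j * lin (d j) := by
        rw [h3]; abel
      rw [← one_mul (incl D (Fin n) (f m)), ← h₂, mul_assoc, h4]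
      refine Ideal.mul_mem_left _ _ (sub_mem (sub_mem (Ideal.mul_mem_left _ _ ?_) ?_) ?_)
      · obtain ⟨k, hk⟩ := Nat.exists_eq_add_of_le' (ha m)
        rw [hk, pow_succ]
        exact Ideal.mul_mem_left _ _ (hα m)
      · exact Ideal.sum_mem _ fun i hi =>
          Ideal.mul_mem_left _ _ (ih i (Finset.mem_filter.1 hi).2)
      · exact Ideal.sum_mem _ fun j _ => Ideal.mul_mem_left _ _ (hα j)
  obtain ⟨p, -, hp⟩ := hpow
  obtain ⟨e, he⟩ := span_of_pow d hcomm p fun i => by
    have h1 : Ideal.span (Set.range f) ≤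
        (Ideal.span (Set.range fun j => lin (d j))).comap (incl D (Fin n)) := by
      rw [Ideal.span_le]
      rintro _ ⟨m, rfl⟩
      exact hF m
    have h2 := Ideal.mem_comap.1 (h1 (hp i))
    have : incl D (Fin n) (X i) = xD D i :=
      (AddMonoidAlgebra.mapRingHom_single _ _ _).trans (by rw [map_one])
    rwa [map_pow, this] at h2
  refine ⟨D, inferInstance, inferInstance, ⟨⟨d, e, hcomm, he, fun m => ?_⟩⟩⟩
  obtain ⟨u₁, v₁, u₂, v₂, g, γ, h₁, -, h3⟩ := key m
  refine ⟨fun i => (if i = m then v₁ * u₂ else 0) + (if i < m then v₁ * g i else 0),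
    fun j => v₁ * γ j, ?_⟩
  rw [← one_mul (lin (d m) ^ a m), ← h₁, mul_assoc, h3]
  simp only [mul_add, add_mul, ite_mul, zero_mul, Finset.sum_add_distrib, Finset.sum_ite_eq',
    Finset.mem_univ, if_true, Finset.mul_sum, mul_assoc, ← Finset.sum_filter]

end Crest.Agent.R181
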