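import Crest.Agent.R181.ATri

/-! # Row 181 A: counting standard monomials of blocks (helper9). -/

set_option autoImplicit false

namespace Crest.Agent.R181

open MvPolynomial

variable {K : Type} [Field K] {n : ℕ}

/-- the weight of the triangular order -/
def ab1wt (n : ℕ) : BV n → ℕ := Sum.elim (fun m => n - m) fun _ => 0

theorem ab1_deg {m : Fin n} {δ : ℕ} {F : MvPolynomial (BV n) K} (h : Tri m δ F)
    {ν : BV n →₀ ℕ} (hν : ν ∈ F.support) : ∑ x, ν x = δ := by
  have h1 := h.1 (mem_support_iff.1 hν)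
  rw [Finsupp.weight_eq_sum] at h1
  simpa using h1

theorem ab1_low {m : Fin n} {δ : ℕ} (hδ : 1 ≤ δ) {F : MvPolynomial (BV n) K} (h : Tri m δ F)
    {ν : BV n →₀ ℕ} (hν : ν ∈ F.support) :
    ν = Finsupp.single (Sum.inl m) δ ∨ Finsupp.weight (ab1wt n) ν < δ * ab1wt n (Sum.inl m) := by
  refine (h.2 ν hν).imp_right fun h0 => ?_
  have h1 : Finsupp.weight (ab1wt n) ν ≤ ∑ x, ν x * (n - m - 1) := by
    rw [Finsupp.weight_eq_sum]
    refine Finset.sum_le_sum fun x _ => ?_
    rcases x with j | j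
    · by_cases hj : j ≤ m
      · simp [h0 j hj]
      · have : (m : ℕ) < j := not_le.1 hj
        exact Nat.mul_le_mul_left _ (by simp only [ab1wt, Sum.elim_inl]; omega)
    · simp [ab1wt]
  rw [← Finset.sum_mul, ab1_deg h hν] at h1
  refine h1.trans_lt (Nat.mul_lt_mul_of_pos_left ?_ hδ)
  have := m.2
  simp only [ab1wt, Sum.elim_inl]
  omega

theorem ab1_weight_map {σ τ G : Type*} [AddCommMonoid G] (w : τ → G) (f : σ → τ) (ν : σ →₀ ℕ) :
    Finsupp.weight w (ν.mapDomain f) = Finsupp.weight (w ∘ f) ν := by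
  induction ν using Finsupp.induction_linear with
  | zero => simp
  | add a b ha hb => rw [Finsupp.mapDomain_add, map_add, map_add, ha, hb]
  | single a r => rw [Finsupp.mapDomain_single, Finsupp.weight_single, Finsupp.weight_single]; rfl

open Classical in
/-- standard exponent vectors of degree `k` (with `p`-exponent zero if `j`) -/
noncomputable def ab1std (δ : Fin n → ℕ) (j : Prop) (k : ℕ) : Finset (BV n → ℕ) :=
  (Finset.piAntidiag Finset.univ k).filter fun f =>
    (∀ m, f (Sum.inl m) < δ m) ∧ (j → f (Sum.inr 0) = 0)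

theorem ab1_mem {δ : Fin n → ℕ} {j : Prop} {k : ℕ} {f : BV n → ℕ} :
    f ∈ ab1std δ j k ↔ ∑ x, f x = k ∧ (∀ m, f (Sum.inl m) < δ m) ∧ (j → f (Sum.inr 0) = 0) := by
  simp [ab1std]

open Classical in
theorem ab1_card (δ : Fin n → ℕ) (j : Prop) {k : ℕ} (hk : ∑ m, δ m ≤ k) :
    ((ab1std δ j k).card : ℤ) = if j then bN δ else bh δ k := by
  have hbox : ∀ u ∈ Fintype.piFinset fun m => Finset.range (δ m), ∑ m, u m ≤ k := fun u hu =>
    (Finset.sum_le_sum fun m _ =>
      (Finset.mem_range.1 (Fintype.mem_piFinset.1 hu m)).le).trans hk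
  have h1 : (ab1std δ j k).card = ((Fintype.piFinset fun m => Finset.range (δ m)).sigma fun u =>
      (Finset.range (k - ∑ m, u m + 1)).filter fun a => j → a = 0).card := by
    refine Finset.card_nbij' (fun f => ⟨fun m => f (Sum.inl m), f (Sum.inr 0)⟩)
      (fun x => Sum.elim x.1 ![x.2, k - ∑ m, x.1 m - x.2]) ?_ ?_ ?_ ?_
    · intro f hf
      obtain ⟨h1, h2, h3⟩ := ab1_mem.1 (Finset.mem_coe.1 hf)
      rw [Fintype.sum_sum_type, Fin.sum_univ_two] at h1
      simp only [Finset.coe_sigma, Set.mem_sigma_iff, Finset.mem_coe, Fintype.mem_piFinset,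
        Finset.mem_range, Finset.mem_filter]
      exact ⟨h2, by omega, h3⟩
    · rintro ⟨u, a⟩ hx
      have hx' := Finset.mem_sigma.1 (Finset.mem_coe.1 hx)
      have h0 := hbox u hx'.1
      obtain ⟨h2, h3⟩ := Finset.mem_filter.1 hx'.2
      have h2' : a < k - ∑ m, u m + 1 := Finset.mem_range.1 h2
      refine Finset.mem_coe.2 (ab1_mem.2 ⟨?_, fun m => ?_, h3⟩)
      · rw [Fintype.sum_sum_type, Fin.sum_univ_two]
        show ∑ m, u m + (a + (k - ∑ m, u m - a)) = k
        omega
      · exact Finset.mem_range.1 (Fintype.mem_piFinset.1 hx'.1 m)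
    · intro f hf
      obtain ⟨h1, -, -⟩ := ab1_mem.1 (Finset.mem_coe.1 hf)
      rw [Fintype.sum_sum_type, Fin.sum_univ_two] at h1
      funext x
      rcases x with m | i
      · rfl
      · fin_cases i
        · rfl
        · show k - ∑ m, f (Sum.inl m) - f (Sum.inr 0) = f (Sum.inr 1)
          omega
    · rintro ⟨u, a⟩ _
      rfl
  rw [h1, Finset.card_sigma]
  push_cast
  split_ifs with hj
  · have e : ∀ u : Fin n → ℕ,
        ((Finset.range (k - ∑ m, u m + 1)).filter fun a => j → a = 0) = {0} := by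
      intro u
      ext a
      simp only [Finset.mem_filter, Finset.mem_range, Finset.mem_singleton]
      exact ⟨fun h => h.2 hj, fun h => ⟨by omega, fun _ => h⟩⟩
    simp [e, bN]
  · unfold bh
    refine Finset.sum_congr rfl fun u hu => ?_
    rw [Finset.filter_true_of_mem fun a _ h => absurd h hj, Finset.card_range]
    have := hbox u hu
    omega

theorem ab1_bw {B : Type} [Fintype B] [DecidableEq B] (μ : B × BV n →₀ ℕ) (b : B) :
    Finsupp.weight (bw B n) μ b = ((∑ x, μ (b, x) : ℕ) : ℤ) := by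
  rw [Finsupp.weight_eq_sum, Finset.sum_apply, Fintype.sum_prod_type, Finset.sum_eq_single b]
  · simp [bw]
  · intro b' _ hb
    simp [bw, hb]
  · simp

theorem ab1_one (μ : BV n →₀ ℕ) :
    Finsupp.weight (fun _ : BV n => (1 : ℤ)) μ = ((∑ x, μ x : ℕ) : ℤ) := by
  rw [Finsupp.weight_eq_sum]
  simp

theorem ab1_bw_finite (B : Type) [Fintype B] [DecidableEq B] (k : B → ℤ) :
    {μ : B × BV n →₀ ℕ | Finsupp.weight (bw B n) μ = k}.Finite := by
  refine (Finsupp.finite_of_degree_le (∑ b, (k b).toNat)).subset fun μ hμ => ?_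
  show μ.degree ≤ _
  rw [Finsupp.degree_eq_sum, Fintype.sum_prod_type]
  refine Finset.sum_le_sum fun b _ => ?_
  have h1 := ab1_bw μ b
  rw [show Finsupp.weight (bw B n) μ = k from hμ] at h1
  omega

theorem ab1_codim_cell {B : Type} [Fintype B] [DecidableEq B] (blk : B → Blk K n) (J : Finset B) :
    EvIn (codim (D := K) (bw B n) (Ideal.span
      (Set.range (fun bm : B × Fin n => rename (Prod.mk bm.1) ((blk bm.1).E bm.2)) ∪
        (fun b => X (b, Sum.inr 0)) '' (J : Set B)))) (Hsp fun b => (blk b).δ) := by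
  classical
  refine ⟨_, AddSubgroup.subset_closure ⟨J, rfl⟩, fun b => ((∑ m, (blk b).δ m : ℕ) : ℤ),
    fun k hk => ?_⟩
  let v : (B × Fin n) ⊕ J → B × BV n :=
    Sum.elim (fun bm => (bm.1, Sum.inl bm.2)) fun b => (b.1, Sum.inr 0)
  let δ : (B × Fin n) ⊕ J → ℕ := Sum.elim (fun bm => (blk bm.1).δ bm.2) fun _ => 1
  let E : (B × Fin n) ⊕ J → MvPolynomial (B × BV n) K :=
    Sum.elim (fun bm => rename (Prod.mk bm.1) ((blk bm.1).E bm.2)) fun b => X (b.1, Sum.inr 0)
  have hv : Function.Injective v := by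
    rintro (⟨a, b⟩ | a) (⟨c, d⟩ | c) h
    · simpa [v] using h
    · simp [v] at h
    · simp [v] at h
    · exact congrArg Sum.inr (Subtype.ext (congrArg Prod.fst h))
  have hsupp : ∀ (b : B) (m : Fin n), ∀ ν ∈ (rename (Prod.mk b) ((blk b).E m)).support,
      ∃ u ∈ ((blk b).E m).support, u.mapDomain (Prod.mk b) = ν := by
    intro b m ν hν
    obtain ⟨u, h1, h2⟩ := coeff_rename_ne_zero _ _ _ (mem_support_iff.1 hν)
    exact ⟨u, mem_support_iff.2 h2, h1⟩
  have hr : (Set.range (fun bm : B × Fin n => rename (Prod.mk bm.1) ((blk bm.1).E bm.2)) ∪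
      (fun b => X (b, Sum.inr 0)) '' (J : Set B)) =
      Set.range fun i => inc K K (B × BV n) (E i) := by
    have hinc : ∀ F, inc K K (B × BV n) F = F := fun F => by
      unfold inc
      rw [Algebra.algebraMap_self, AddMonoidAlgebra.mapRingHom_id, RingHom.id_apply]
    simp only [hinc]
    rw [show (fun i => E i) = E from rfl, Set.Sum.elim_range, Set.image_eq_range]
    rfl
  rw [hr, codim_tri (D := K) (fun x => ab1wt n x.2) v hv δ ?_ E ?_ ?_ (bw B n)
    (Sum.elim (fun bm => Pi.single bm.1 ((blk bm.1).δ bm.2 : ℤ)) fun b => Pi.single b.1 1) ?_ k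
    (ab1_bw_finite B k)]
  · let e : (B × BV n →₀ ℕ) ≃ (B → BV n → ℕ) := Finsupp.equivFunOnFinite.trans (Equiv.curry _ _ _)
    have hS : e '' {μ | (∀ i, μ (v i) < δ i) ∧ Finsupp.weight (bw B n) μ = k} =
        ↑(Fintype.piFinset fun b => ab1std (blk b).δ (b ∈ J) (k b).toNat) := by
      ext f
      obtain ⟨μ, rfl⟩ := e.surjective f
      rw [e.injective.mem_set_image, Finset.mem_coe, Fintype.mem_piFinset]
      have he : ∀ b x, e μ b x = μ (b, x) := fun _ _ => rfl
      simp only [ab1_mem, he, Set.mem_ofPred_eq]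
      constructor
      · rintro ⟨h1, h2⟩ b
        have h3 := ab1_bw μ b
        rw [h2] at h3
        refine ⟨by omega, fun m => h1 (Sum.inl (b, m)), fun hb => ?_⟩
        exact Nat.lt_one_iff.1 (h1 (Sum.inr ⟨b, hb⟩))
      · intro h
        refine ⟨?_, funext fun b => ?_⟩
        · rintro (⟨b, m⟩ | ⟨b, hb⟩)
          · exact (h b).2.1 m
          · exact Nat.lt_one_iff.2 ((h b).2.2 hb)
        · have h3 : ((∑ m, (blk b).δ m : ℕ) : ℤ) ≤ k b := hk b
          rw [ab1_bw, (h b).1]
          omega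
    rw [← Set.ncard_image_of_injective _ e.injective, hS, Set.ncard_coe_finset,
      Fintype.card_piFinset]
    push_cast
    refine Finset.prod_congr rfl fun b _ => ?_
    have h3 : ((∑ m, (blk b).δ m : ℕ) : ℤ) ≤ k b := hk b
    rw [ab1_card _ _ (by omega), Int.toNat_of_nonneg (by omega)]
    congr
  · rintro (⟨b, m⟩ | b)
    · exact (blk b).pos m
    · exact le_rfl
  · rintro (⟨b, m⟩ | b)
    · have h1 := coeff_rename_mapDomain (Prod.mk b) (Prod.mk_right_injective b) ((blk b).E m)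
        (Finsupp.single (Sum.inl m) ((blk b).δ m))
      rw [Finsupp.mapDomain_single] at h1
      exact fun h => (blk b).lc m (h1.symm.trans h)
    · show coeff (Finsupp.single (b.1, Sum.inr 0) 1) (X (b.1, Sum.inr 0)) ≠ 0
      rw [coeff_X]
      simp
  · rintro (⟨b, m⟩ | b) ν hν
    · obtain ⟨u, hu, rfl⟩ := hsupp b m ν hν
      rcases ab1_low ((blk b).pos m) ((blk b).tri m) hu with h | h
      · left
        rw [h, Finsupp.mapDomain_single]
        rfl
      · right
        rw [ab1_weight_map]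
        exact h
    · left
      have hν' : ν ∈ (X (b.1, Sum.inr 0) : MvPolynomial (B × BV n) K).support := hν
      rw [support_X] at hν'
      exact Finset.mem_singleton.1 hν'
  · rintro (⟨b, m⟩ | b) ν hν
    · obtain ⟨u, hu, rfl⟩ := hsupp b m ν hν
      rw [ab1_weight_map, Finsupp.weight_eq_sum]
      show ∑ x, u x • (Pi.single b 1 : B → ℤ) = Pi.single b ((blk b).δ m : ℤ)
      rw [← Finset.sum_smul, ab1_deg ((blk b).tri m) hu, ← Pi.single_smul]
      simp
    · have hν' : ν ∈ (X (b.1, Sum.inr 0) : MvPolynomial (B × BV n) K).support := hν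
      rw [support_X] at hν'
      rw [Finset.mem_singleton.1 hν', Finsupp.weight_single, one_smul]
      rfl

theorem ab1_blk_codim (D : Type) [DivisionRing D] [Algebra K D] (blk : Blk K n) :
    ∃ k₀ : ℤ, ∀ k, k₀ ≤ k →
    codim (fun _ : BV n => (1 : ℤ)) (Ideal.span (Set.range (blk.ED D))) k = bh blk.δ k := by
  classical
  refine ⟨((∑ m, blk.δ m : ℕ) : ℤ), fun k hk => ?_⟩
  have hfin : {μ : BV n →₀ ℕ | Finsupp.weight (fun _ : BV n => (1 : ℤ)) μ = k}.Finite := by
    refine (Finsupp.finite_of_degree_le k.toNat).subset fun μ hμ => ?_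
    show μ.degree ≤ _
    have h1 := ab1_one μ
    rw [show Finsupp.weight (fun _ : BV n => (1 : ℤ)) μ = k from hμ] at h1
    rw [Finsupp.degree_eq_sum]
    omega
  have h := codim_tri (D := D) (ab1wt n) Sum.inl Sum.inl_injective blk.δ blk.pos blk.E blk.lc
    (fun m ν hν => ab1_low (blk.pos m) (blk.tri m) hν) (fun _ : BV n => (1 : ℤ))
    (fun m => (blk.δ m : ℤ)) (fun m ν hν => by rw [ab1_one, ab1_deg (blk.tri m) hν]) k hfin
  refine h.trans ?_
  let e : (BV n →₀ ℕ) ≃ (BV n → ℕ) := Finsupp.equivFunOnFinite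
  have hS : e '' {μ | (∀ i, μ (Sum.inl i) < blk.δ i) ∧
      Finsupp.weight (fun _ : BV n => (1 : ℤ)) μ = k} = ↑(ab1std blk.δ False k.toNat) := by
    ext f
    obtain ⟨μ, rfl⟩ := e.surjective f
    rw [e.injective.mem_set_image, Finset.mem_coe]
    have he : ∀ x, e μ x = μ x := fun _ => rfl
    simp only [ab1_mem, he, Set.mem_ofPred_eq, ab1_one]
    exact ⟨fun h => ⟨by omega, h.1, False.elim⟩, fun h => ⟨h.2.1, by omega⟩⟩
  rw [← Set.ncard_image_of_injective _ e.injective, hS, Set.ncard_coe_finset,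
    ab1_card _ _ (by omega), if_neg not_false, Int.toNat_of_nonneg (by omega)]

end Crest.Agent.R181
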