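import Crest.Agent.R181.ATri
import Crest.Agent.R181.ABlkAux1

/-! # Row 181 A: consequences of `tri_basis` for blocks.
Weight `wt (y_m) = n - m`, `wt p = wt q = 0` (`Tri` gives `hlow`).  Standard monomials: `μ (y_m) < δ m`;
they are stable under multiplication and division by `p, q`.
Counting: `#{standard of degree k} = ∑_{u ∈ box, |u| ≤ k} (k - |u| + 1) = bh δ k` for `k ≥ ∑ δ`, and with
`p`-exponent `0` it is `#box = bN δ`; for several blocks the count is the product over the blocks. -/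

set_option autoImplicit false

namespace Crest.Agent.R181

open MvPolynomial

variable {K : Type} [Field K] {n : ℕ}

/-- the central variable `v` of `D[σ]` -/
noncomputable abbrev xD (D : Type*) [Ring D] {σ : Type*} (v : σ) : DP D σ :=
  AddMonoidAlgebra.single (Finsupp.single v 1) 1

theorem bh_eq (δ : Fin n → ℕ) (k : ℤ) : bh δ k = bN δ * k + bh δ 0 := by
  unfold bh bN
  have h1 : ((Fintype.piFinset fun m => Finset.range (δ m)).card : ℤ) = ∏ m, (δ m : ℤ) := by
    simp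
  rw [← h1, ← nsmul_eq_mul, ← Finset.sum_const, ← Finset.sum_add_distrib]
  exact Finset.sum_congr rfl fun u _ => by ring

theorem bN_pos {δ : Fin n → ℕ} (h : ∀ m, 1 ≤ δ m) : 0 < bN δ := by
  exact Finset.prod_pos fun m _ => by exact_mod_cast h m

theorem bw_finite (B : Type) [Fintype B] [DecidableEq B] (k : B → ℤ) :
    {μ : B × BV n →₀ ℕ | Finsupp.weight (bw B n) μ = k}.Finite := by
  exact ab1_bw_finite B k

/-- Hilbert function of `(E, p_b (b ∈ J))`: apply `codim_tri` with index `(B × Fin n) ⊕ J`. -/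
theorem codim_cell {B : Type} [Fintype B] [DecidableEq B] (blk : B → Blk K n) (J : Finset B) :
    EvIn (codim (D := K) (bw B n) (Ideal.span
      (Set.range (fun bm : B × Fin n => rename (Prod.mk bm.1) ((blk bm.1).E bm.2)) ∪
        (fun b => X (b, Sum.inr 0)) '' (J : Set B)))) (Hsp fun b => (blk b).δ) := by
  exact ab1_codim_cell blk J

variable (D : Type) [DivisionRing D] [Algebra K D] (blk : Blk K n)

theorem blk_codim : ∃ k₀ : ℤ, ∀ k, k₀ ≤ k →
    codim (fun _ : BV n => (1 : ℤ)) (Ideal.span (Set.range (blk.ED D))) k = bh blk.δ k := by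
  exact ab1_blk_codim D blk

theorem ab2_deg (m : Fin n) {ν : BV n →₀ ℕ} (hν : ν ∈ (blk.E m).support) :
    ν.degree = blk.δ m := by
  rw [Finsupp.degree_eq_weight_one]
  exact (blk.tri m).1 (mem_support_iff.1 hν)

theorem ab2_hlow (m : Fin n) : ∀ ν ∈ (blk.E m).support,
    ν = Finsupp.single (Sum.inl m) (blk.δ m) ∨
      Finsupp.weight (Sum.elim (fun j : Fin n => n - j) fun _ : Fin 2 => 0) ν <
        blk.δ m * Sum.elim (fun j : Fin n => n - j) (fun _ : Fin 2 => 0) (Sum.inl m : BV n) := by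
  intro ν hν
  refine ((blk.tri m).2 ν hν).imp_right fun h => ?_
  have h1 : Finsupp.weight (Sum.elim (fun j : Fin n => n - j) fun _ : Fin 2 => 0) ν ≤
      blk.δ m * (n - m - 1) := by
    rw [← ab2_deg blk m hν, Finsupp.weight_apply, Finsupp.degree_apply, Finset.sum_mul]
    refine Finset.sum_le_sum fun a ha => Nat.mul_le_mul_left _ ?_
    rcases a with j | j
    · have : ¬ j ≤ m := fun hj => Finsupp.mem_support_iff.1 ha (h j hj)
      have : (m : ℕ) < j := not_le.1 this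
      simp only [Sum.elim_inl]
      omega
    · simp
  refine h1.trans_lt (Nat.mul_lt_mul_of_pos_left ?_ (blk.pos m))
  have := m.2
  simp only [Sum.elim_inl]
  omega

/-- the standard elements -/
noncomputable def ab2_S : Submodule D (DP D (BV n)) :=
  AddMonoidAlgebra.supported D D {μ : BV n →₀ ℕ | ∀ i, μ (Sum.inl i) < blk.δ i}

theorem ab2_compl : IsCompl (ab2_S D blk)
    ((Ideal.span (Set.range (blk.ED D))).restrictScalars D) :=
  tri_basis _ Sum.inl Sum.inl_injective blk.δ blk.pos blk.E blk.lc (ab2_hlow blk)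

theorem ab2_nf (F : DP D (BV n)) :
    ∃ F' ∈ ab2_S D blk, F - F' ∈ Ideal.span (Set.range (blk.ED D)) := by
  obtain ⟨a, ha, b, hb, h⟩ := Submodule.mem_sup.1
    ((ab2_compl D blk).sup_eq_top.symm ▸ Submodule.mem_top (x := F))
  exact ⟨a, ha, by rw [← h, add_sub_cancel_left]; exact hb⟩

theorem ab2_zero {F : DP D (BV n)} (h1 : F ∈ ab2_S D blk)
    (h2 : F ∈ Ideal.span (Set.range (blk.ED D))) : F = 0 :=
  (Submodule.disjoint_def.1 (ab2_compl D blk).disjoint) F h1 h2

theorem ab2_comm {σ : Type} (v : σ) (F : DP D σ) : F * xD D v = xD D v * F :=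
  (AddMonoidAlgebra.single_commute (fun _ => AddCommute.all _ _) (fun _ => Commute.one_left _)
    F).eq.symm

omit [Algebra K D] in
theorem ab2_mulS (i : Fin 2) {F : DP D (BV n)} (h : F ∈ ab2_S D blk) :
    xD D (Sum.inr i) * F ∈ ab2_S D blk := by
  classical
  intro μ hμ
  obtain ⟨ν, hν, rfl⟩ := Finset.mem_image.1
    (AddMonoidAlgebra.support_coeff_single_mul_subset F 1 _ hμ)
  intro m
  simpa using h hν m

omit [Algebra K D] in
theorem ab2_powS (i : Fin 2) (k : ℕ) {F : DP D (BV n)} (h : F ∈ ab2_S D blk) :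
    xD D (Sum.inr i) ^ k * F ∈ ab2_S D blk := by
  induction k with
  | zero => simpa using h
  | succ k ih => rw [pow_succ', mul_assoc]; exact ab2_mulS D blk i ih

theorem ab2_x_ne {σ : Type} (v : σ) : xD D v ≠ 0 := by simp [xD]

theorem ab2_single_mem {σ : Type} {v : σ} {μ : σ →₀ ℕ} (h : μ v ≠ 0) {J : Ideal (DP D σ)}
    (hJ : xD D v ∈ J) : (AddMonoidAlgebra.single μ 1 : DP D σ) ∈ J := by
  obtain ⟨ν, rfl⟩ := exists_add_of_le (Finsupp.single_le_iff.2 (Nat.one_le_iff_ne_zero.2 h))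
  have := J.mul_mem_left (AddMonoidAlgebra.single ν 1) hJ
  rwa [AddMonoidAlgebra.single_mul_single, mul_one, add_comm] at this

theorem ab2_mem_of_supp {σ : Type} {F : DP D σ} {J : Ideal (DP D σ)}
    (h : ∀ μ ∈ F.coeff.support, (AddMonoidAlgebra.single μ 1 : DP D σ) ∈ J) : F ∈ J := by
  have h1 : F ∈ AddMonoidAlgebra.supported D D (F.coeff.support : Set (σ →₀ ℕ)) :=
    AddMonoidAlgebra.mem_supported.2 subset_rfl
  rw [AddMonoidAlgebra.supported_eq_span_single] at h1
  refine (Submodule.span_le (p := J.restrictScalars D)).2 ?_ h1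
  rintro _ ⟨μ, hμ, rfl⟩
  exact h μ hμ

theorem blk_inj (i : Fin 2) (F : DP D (BV n))
    (h : F * xD D (Sum.inr i) ∈ Ideal.span (Set.range (blk.ED D))) :
    F ∈ Ideal.span (Set.range (blk.ED D)) := by
  obtain ⟨F', h1, h2⟩ := ab2_nf D blk F
  have h3 : xD D (Sum.inr i) * F' = 0 := by
    refine ab2_zero D blk (ab2_mulS D blk i h1) ?_
    have := sub_mem h (Ideal.mul_mem_left _ (xD D (Sum.inr i)) h2)
    rwa [ab2_comm, ← mul_sub, sub_sub_cancel] at this
  rwa [(mul_eq_zero.1 h3).resolve_left (ab2_x_ne D _), sub_zero] at h2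

theorem blk_koszul (F₁ F₂ : DP D (BV n))
    (h : F₁ * xD D (Sum.inr 1) - F₂ * xD D (Sum.inr 0) ∈ Ideal.span (Set.range (blk.ED D))) :
    ∃ H, F₁ - H * xD D (Sum.inr 0) ∈ Ideal.span (Set.range (blk.ED D)) ∧
      F₂ - H * xD D (Sum.inr 1) ∈ Ideal.span (Set.range (blk.ED D)) := by
  obtain ⟨G₁, h1, h1'⟩ := ab2_nf D blk F₁
  obtain ⟨G₂, h2, h2'⟩ := ab2_nf D blk F₂
  have h3 : xD D (Sum.inr 1) * G₁ = xD D (Sum.inr 0) * G₂ := by
    refine sub_eq_zero.1 (ab2_zero D blk (sub_mem (ab2_mulS D blk 1 h1) (ab2_mulS D blk 0 h2)) ?_)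
    have := add_mem (sub_mem h (Ideal.mul_mem_left _ (xD D (Sum.inr 1)) h1'))
      (Ideal.mul_mem_left _ (xD D (Sum.inr 0)) h2')
    rw [ab2_comm, ab2_comm] at this
    convert this using 1
    noncomm_ring
  have h4 : G₁ ∈ Ideal.span {xD D (Sum.inr 0 : BV n)} := by
    refine ab2_mem_of_supp D fun μ hμ =>
      ab2_single_mem D (v := Sum.inr 0) (fun h0 => ?_) (Ideal.subset_span rfl)
    have h5 := congrArg (fun F : DP D (BV n) => F.coeff (Finsupp.single (Sum.inr 1) 1 + μ)) h3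
    simp only [xD] at h5
    rw [AddMonoidAlgebra.coeff_single_mul_add, one_mul,
      AddMonoidAlgebra.coeff_single_mul_of_forall_add_ne] at h5
    · exact Finsupp.mem_support_iff.1 hμ h5
    · intro d hd
      have := DFunLike.congr_fun hd (Sum.inr 0)
      simp [h0] at this
  obtain ⟨H, rfl⟩ := Ideal.mem_span_singleton'.1 h4
  refine ⟨H, h1', ?_⟩
  rw [← mul_assoc, ab2_comm D (Sum.inr 0), ← ab2_comm D (Sum.inr 1)] at h3
  rwa [mul_left_cancel₀ (ab2_x_ne D _) h3]

/-- reduce `F` to its normal form `F' ≠ 0`; `(∑ c_i p^i q^(k-i)) * F' = 0` in the domain `D[σ]`. -/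
theorem blk_grow (F : DP D (BV n)) (hF : F ∉ Ideal.span (Set.range (blk.ED D))) (k : ℕ)
    (c : Fin (k + 1) → D)
    (h : ∑ i, c i • (xD D (Sum.inr 0) ^ (i : ℕ) * xD D (Sum.inr 1) ^ (k - i) * F) ∈
      Ideal.span (Set.range (blk.ED D))) : c = 0 := by
  classical
  obtain ⟨F', h1, h2⟩ := ab2_nf D blk F
  have h0 : F' ≠ 0 := fun h0 => hF (by rwa [h0, sub_zero] at h2)
  set G : DP D (BV n) := ∑ i, c i • (xD D (Sum.inr 0) ^ (i : ℕ) * xD D (Sum.inr 1) ^ (k - i))
    with hG
  have e : ∀ F : DP D (BV n), G * F =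
      ∑ i, c i • (xD D (Sum.inr 0) ^ (i : ℕ) * xD D (Sum.inr 1) ^ (k - i) * F) := fun F => by
    simp only [hG, Finset.sum_mul, smul_mul_assoc]
  have h3 : G * F' = 0 := by
    refine ab2_zero D blk ?_ ?_
    · rw [e]
      refine Submodule.sum_mem _ fun i _ => Submodule.smul_mem _ _ ?_
      rw [mul_assoc]
      exact ab2_powS D blk _ _ (ab2_powS D blk _ _ h1)
    · have := sub_mem h (Ideal.mul_mem_left _ G h2)
      rwa [← e, ← mul_sub, sub_sub_cancel] at this
  have h4 := (mul_eq_zero.1 h3).resolve_right h0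
  funext j
  have h5 := congrArg (fun F : DP D (BV n) => F.coeff
    (Finsupp.single (Sum.inr 0) (j : ℕ) + Finsupp.single (Sum.inr 1) (k - j))) h4
  simp only [hG, xD, AddMonoidAlgebra.single_pow, AddMonoidAlgebra.single_mul_single, one_pow,
    mul_one, AddMonoidAlgebra.smul_single, smul_eq_mul, AddMonoidAlgebra.coeff_sum,
    AddMonoidAlgebra.coeff_single, Finsupp.smul_single, Finsupp.coe_finsetSum, Finset.sum_apply,
    AddMonoidAlgebra.coeff_zero, Finsupp.coe_zero, Pi.zero_apply] at h5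
  rw [Finset.sum_eq_single j, Finsupp.single_eq_same] at h5
  · exact h5
  · intro i _ hi
    refine Finsupp.single_eq_of_ne fun h6 => hi (Fin.ext ?_)
    simpa using (DFunLike.congr_fun h6 (Sum.inr 0)).symm
  · exact fun h6 => absurd (Finset.mem_univ j) h6

theorem blk_nil : ∃ s : ℤ, ∀ k, s ≤ k → ∀ F ∈ homW D (fun _ : BV n => (1 : ℤ)) k,
    ∃ A B, F - (A * xD D (Sum.inr 0) + B * xD D (Sum.inr 1)) ∈
      Ideal.span (Set.range (blk.ED D)) := by
  have hw : ∀ ν : BV n →₀ ℕ, Finsupp.weight (fun _ : BV n => (1 : ℤ)) ν = ν.degree := fun ν => by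
    simp [Finsupp.weight_apply, Finsupp.degree_apply, Finsupp.sum]
  refine ⟨(∑ m, blk.δ m : ℕ) + 1, fun k hk F hF => ?_⟩
  rw [tri_basis_graded _ Sum.inl Sum.inl_injective blk.δ blk.pos blk.E blk.lc (ab2_hlow blk)
    (fun _ : BV n => (1 : ℤ)) (fun m => blk.δ m)
    (fun m ν hν => by rw [hw, ab2_deg blk m hν]) k] at hF
  obtain ⟨a, ha, b, hb, rfl⟩ := Submodule.mem_sup.1 hF
  have h1 : a ∈ Ideal.span {xD D (Sum.inr 0 : BV n), xD D (Sum.inr 1 : BV n)} := by
    refine ab2_mem_of_supp D fun μ hμ => ?_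
    have h2 : Finsupp.weight (fun _ : BV n => (1 : ℤ)) μ = k := ha.1 hμ
    have h3 : ∀ i, μ (Sum.inl i) < blk.δ i := ha.2 hμ
    have h4 : ∑ m, μ (Sum.inl m) ≤ ∑ m, blk.δ m := Finset.sum_le_sum fun m _ => (h3 m).le
    rw [hw, Finsupp.degree_eq_sum, Fintype.sum_sum_type, Fin.sum_univ_two] at h2
    by_cases h0 : μ (Sum.inr 0) = 0
    · exact ab2_single_mem D (v := Sum.inr 1) (by omega) (Ideal.subset_span (by simp))
    · exact ab2_single_mem D h0 (Ideal.subset_span (by simp))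
  obtain ⟨A, B, h2⟩ := Submodule.mem_span_pair.1 h1
  refine ⟨A, B, ?_⟩
  rw [smul_eq_mul, smul_eq_mul] at h2
  rw [h2, add_sub_cancel_left]
  exact hb.2

end Crest.Agent.R181
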