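import Crest.Agent.R181.Kos

/-!
# Row 181, part A: DEFINITIONS ONLY (owner helper27; do not edit, add new files)

A *block* is a complete intersection curve `E_m = c_m y_m^{δ_m} - Φ_m(p, q, y_j (j > m))` (`m < n`) in
variables `y_0..y_{n-1}, p, q`.  We look for a division ring `D ⊇ K` and `u, v ∈ D` such that
`y_m = u_m p + v_m q` solves the equations in `D[p,q]` ("twisted Ulrich sheaf of rank one").
-/

set_option autoImplicit false

namespace Crest.Agent.R181

open MvPolynomial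

/-! ## ideal-additive functions -/

/-- `μ` is additive on the ideals above `I₀`. -/
def IdAdd {A : Type*} [CommRing A] {Q : Type*} [AddCommGroup Q] (I₀ : Ideal A)
    (μ : Ideal A → Q) : Prop :=
  μ ⊤ = 0 ∧ ∀ I, I₀ ≤ I → ∀ f : A, μ I = μ (I ⊔ Ideal.span {f}) + μ (I.colon {f})

/-- "`G_0 (A / I₀)` is generated by the class of `A / I₀`". -/
def GenR (A : Type*) [CommRing A] (I₀ : Ideal A) : Prop :=
  ∀ (Q : Type) [AddCommGroup Q] (μ : Ideal A → Q), IdAdd I₀ μ → μ I₀ = 0 → ∀ I, I₀ ≤ I → μ I = 0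

/-- the field of rational functions in the parameters -/
abbrev Kf (T : Type) := FractionRing (MvPolynomial T ℂ)

/-- the generic member `∑ t_τ e_τ` of a linear system -/
noncomputable def genE {T σ : Type} [Fintype T] (e : T → MvPolynomial σ ℂ) :
    MvPolynomial σ (Kf T) :=
  ∑ t, C (algebraMap (MvPolynomial T ℂ) (Kf T) (X t)) * map (algebraMap ℂ (Kf T)) (e t)

/-! ## blocks -/

/-- variables of a block: `inl m = y_m`, `inr 0 = p`, `inr 1 = q` -/
abbrev BV (n : ℕ) := Fin n ⊕ Fin 2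

/-- `F` is a form of degree `δ` of the shape `c y_m^δ - Φ(p, q, y_j (j > m))` -/
def Tri {R : Type*} [CommSemiring R] {n : ℕ} (m : Fin n) (δ : ℕ) (F : MvPolynomial (BV n) R) :
    Prop :=
  F.IsHomogeneous δ ∧
    ∀ ν ∈ F.support, ν = Finsupp.single (Sum.inl m) δ ∨ ∀ j ≤ m, ν (Sum.inl j) = 0

/-- a block over the field `K` -/
structure Blk (K : Type) [Field K] (n : ℕ) where
  δ : Fin n → ℕ
  E : Fin n → MvPolynomial (BV n) K
  pos : ∀ m, 1 ≤ δ m
  tri : ∀ m, Tri m (δ m) (E m)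
  lc : ∀ m, (E m).coeff (Finsupp.single (Sum.inl m) (δ m)) ≠ 0

/-- degree of the block curve over the `(p:q)`-line -/
def bN {n : ℕ} (δ : Fin n → ℕ) : ℤ := ∏ m, (δ m : ℤ)

/-- Hilbert polynomial of the block curve -/
def bh {n : ℕ} (δ : Fin n → ℕ) (k : ℤ) : ℤ :=
  ∑ u ∈ Fintype.piFinset fun m => Finset.range (δ m), (k - (∑ m, u m : ℕ) + 1)

/-- the admissible multigraded Hilbert polynomials -/
def Hsp {n : ℕ} {B : Type} [Fintype B] [DecidableEq B] (δ : B → Fin n → ℕ) :
    AddSubgroup ((B → ℤ) → ℤ) :=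
  AddSubgroup.closure
    {φ | ∃ J : Finset B, φ = fun k => ∏ b, if b ∈ J then bN (δ b) else bh (δ b) (k b)}

/-- `φ` agrees for large multidegrees with a member of `H` -/
def EvIn {B : Type} (φ : (B → ℤ) → ℤ) (H : AddSubgroup ((B → ℤ) → ℤ)) : Prop :=
  ∃ ψ ∈ H, ∃ k₀ : B → ℤ, ∀ k, k₀ ≤ k → φ k = ψ k

/-- the inclusion `K[x] → D[x]` -/
noncomputable def inc (K : Type*) [CommRing K] (D : Type*) [Ring D] [Algebra K D] (σ : Type*) :
    MvPolynomial σ K →+* DP D σ :=
  AddMonoidAlgebra.mapRingHom _ (algebraMap K D)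

/-- homogeneous elements of weight `k` -/
noncomputable def homW (D : Type*) [Ring D] {σ G : Type*} [AddCommMonoid G] (w : σ → G) (k : G) :
    Submodule D (DP D σ) :=
  AddMonoidAlgebra.supported D D {μ | Finsupp.weight w μ = k}

/-- the multigrading by blocks -/
def bw (B : Type) [DecidableEq B] (n : ℕ) : B × BV n → (B → ℤ) := fun x => Pi.single x.1 1

/-- codimension of a left ideal in weight `k` -/
noncomputable def codim {D : Type*} [DivisionRing D] {σ G : Type*} [AddCommMonoid G] (w : σ → G)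
    (N : Ideal (DP D σ)) (k : G) : ℤ :=
  (Module.finrank D (homW D w k) : ℤ) - Module.finrank D ↥(homW D w k ⊓ N.restrictScalars D)

/-- property `𝒫`: Hilbert functions of cyclic modules over the product of the blocks are
eventually admissible. -/
def P1 {K : Type} [Field K] {n : ℕ} (D : Type) [DivisionRing D] [Algebra K D] (B : Type)
    [Fintype B] [DecidableEq B] (blk : B → Blk K n) : Prop :=
  ∀ N : Ideal (DP D (B × BV n)),
    (∀ b m, inc K D _ (rename (Prod.mk b) ((blk b).E m)) ∈ N) →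
      EvIn (codim (bw B n) N) (Hsp fun b => (blk b).δ)

/-- `y_m = uv m 0 * p + uv m 1 * q` solves the equations of the block in `D[p,q]`. -/
def Ulrich {K : Type} [Field K] {n : ℕ} {D : Type} [Ring D] [Algebra K D] (blk : Blk K n)
    (uv : Fin n → Fin 2 → D) : Prop :=
  ∃ χ : MvPolynomial (BV n) K →+* DP D (Fin 2),
    (∀ c, χ (C c) = AddMonoidAlgebra.single 0 (algebraMap K D c)) ∧
    (∀ i, χ (X (Sum.inr i)) = AddMonoidAlgebra.single (Finsupp.single i 1) 1) ∧
    (∀ m, χ (X (Sum.inl m)) = lin (uv m)) ∧ ∀ m, χ (blk.E m) = 0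

/-- free coordinates of the cell `J` (`p_b = 0, q_b = 1` for `b ∈ J`; `p_b = 1` otherwise) -/
def cellVar {B : Type} (n : ℕ) (J : Finset B) : Type :=
  {w : B × BV n // w.2 ≠ Sum.inr 0 ∧ (w.2 = Sum.inr 1 → w.1 ∉ J)}

instance {B : Type} [Finite B] (n : ℕ) (J : Finset B) : Finite (cellVar n J) :=
  inferInstanceAs (Finite {w : B × BV n // w.2 ≠ Sum.inr 0 ∧ (w.2 = Sum.inr 1 → w.1 ∉ J)})

/-- dehomogenisation onto the cell `J` -/
noncomputable def dh {B : Type} [DecidableEq B] (R : Type*) [CommRing R] (n : ℕ) (J : Finset B)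
    (w : B × BV n) : MvPolynomial (cellVar n J) R :=
  if h : w.2 ≠ Sum.inr 0 ∧ (w.2 = Sum.inr 1 → w.1 ∉ J) then X ⟨w, h⟩
  else if w.2 = Sum.inr 0 ∧ w.1 ∈ J then 0 else 1

/-- independence of the equations at points of the generic fibre (strong form) -/
def Ind {n : ℕ} {B T : Type} [Fintype B] [Fintype T]
    (e : B → Fin n → T → MvPolynomial (BV n) ℂ) : Prop :=
  ∀ (κ : Type) [Field κ] [Algebra ℂ κ] (τ : T → κ),
    Function.Injective (aeval τ : MvPolynomial T ℂ →ₐ[ℂ] κ) →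
    ∀ (ξ : B → BV n → κ) (φ : B → Fin n → κ),
      (∀ b m, φ b m ≠ 0 → (ξ b (Sum.inr 0) ≠ 0 ∨ ξ b (Sum.inr 1) ≠ 0) ∧
        ∀ m', ∑ t, τ t * aeval (ξ b) (e b m' t) = 0) →
      (∀ t, ∑ b, ∑ m, φ b m * aeval (ξ b) (e b m t) = 0) → ∀ b m, φ b m = 0

/-! ## abstract localisation -/

/-- modules all of whose elements have annihilator in `F` -/
def WM {Γ : Type} [Ring Γ] (F : Set (Ideal Γ)) (M : Type) [AddCommGroup M] [Module Γ M] : Prop :=
  ∀ x : M, Ideal.torsionOf Γ M x ∈ F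

/-- an integer valued additive function on the finitely generated modules of a class -/
structure RhoTheory (Γ : Type) [Ring Γ] where
  F : Set (Ideal Γ)
  up : ∀ a ∈ F, ∀ b, a ≤ b → b ∈ F
  inf : ∀ a ∈ F, ∀ b ∈ F, a ⊓ b ∈ F
  ρ : ∀ (M : Type) [AddCommGroup M] [Module Γ M], ℤ
  iso : ∀ (M N : Type) [AddCommGroup M] [Module Γ M] [AddCommGroup N] [Module Γ N],
    (M ≃ₗ[Γ] N) → ρ M = ρ N
  noeth : ∀ (M : Type) [AddCommGroup M] [Module Γ M] [Module.Finite Γ M], WM F M →
    IsNoetherian Γ M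
  add : ∀ (M : Type) [AddCommGroup M] [Module Γ M] [Module.Finite Γ M], WM F M →
    ∀ P : Submodule Γ M, ρ M = ρ P + ρ (M ⧸ P)

/-- the `ρ`-injective envelope of a `ρ`-simple module `O` -/
structure Loc {Γ : Type} [Ring Γ] (T : RhoTheory Γ) (O : Type) [AddCommGroup O] [Module Γ O] where
  G : Type
  [acg : AddCommGroup G]
  [mod : Module Γ G]
  finO : Module.Finite Γ O
  rhoO : T.ρ O = 1
  w : WM T.F G
  i : O →ₗ[Γ] G
  i_inj : Function.Injective i
  pos : ∀ P : Submodule Γ G, P.FG → P ≠ ⊥ → 1 ≤ T.ρ P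
  cof : ∀ P : Submodule Γ G, P.FG → ∃ Q : Submodule Γ G, P ≤ Q ∧ Q.FG ∧ T.ρ Q = 1
  ext : ∀ (M : Type) [AddCommGroup M] [Module Γ M] [Module.Finite Γ M], WM T.F M →
    ∀ M₁ : Submodule Γ M, T.ρ M₁ = T.ρ M → (∀ M' : Submodule Γ M, M₁ ≤ M' → T.ρ M₁ ≤ T.ρ M') →
      ∀ φ : M₁ →ₗ[Γ] G, ∃ ψ : M →ₗ[Γ] G, ∀ x : M₁, ψ x = φ x

attribute [instance] Loc.acg Loc.mod

/-! ## graded modules as modules over one ring -/

/-- a ring generated by `D[σ]` and the degree projections -/
structure Smash (D : Type) [Ring D] (σ : Type) where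
  Γ : Type
  [ring : Ring Γ]
  ι : DP D σ →+* Γ
  π : ℤ → Γ
  π_mul : ∀ k l, π k * π l = if k = l then π k else 0
  π_ι : ∀ (μ : σ →₀ ℕ) (d : D) (k : ℤ), π (k + μ.degree) * ι (AddMonoidAlgebra.single μ d) =
    ι (AddMonoidAlgebra.single μ d) * π k
  gen : ∀ γ j, ∃ F, γ * π j = ι F * π j
  inj : ∀ F j, ι F * π j = 0 → F = 0

attribute [instance] Smash.ring

namespace Smash

variable {D : Type} [DivisionRing D] {σ : Type} (S : Smash D σ)

/-- `D → Γ` -/
noncomputable def ιD : D →+* S.Γ := S.ι.comp AddMonoidAlgebra.singleZeroRingHom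

/-- the variable `v` in `Γ` -/
noncomputable def xv (v : σ) : S.Γ := S.ι (AddMonoidAlgebra.single (Finsupp.single v 1) 1)

/-- a `Γ`-module as a `D`-module -/
@[reducible] noncomputable def modD (M : Type) [AddCommGroup M] [Module S.Γ M] : Module D M :=
  Module.compHom M S.ιD

theorem π_ιD (d : D) (k : ℤ) : S.π k * S.ιD d = S.ιD d * S.π k := by
  simpa [ιD] using S.π_ι 0 d k

/-- the degree `k` piece of a `Γ`-module -/
noncomputable def piece (M : Type) [AddCommGroup M] [Module S.Γ M] (k : ℤ) :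
    letI := S.modD M; Submodule D M :=
  letI := S.modD M
  { carrier := {x | S.π k • x = x}
    add_mem' := fun {a b} ha hb => by
      simp only [Set.mem_setOf_eq] at *; rw [smul_add, ha, hb]
    zero_mem' := smul_zero _
    smul_mem' := fun d x hx => by
      change S.π k • S.ιD d • x = S.ιD d • x
      have hx' : S.π k • x = x := hx
      rw [smul_smul, π_ιD, mul_smul, hx'] }

/-- Hilbert function of a `Γ`-module -/
noncomputable def dimk (M : Type) [AddCommGroup M] [Module S.Γ M] (k : ℤ) : ℕ :=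
  letI := S.modD M; Module.finrank D (S.piece M k)

/-- annihilators of elements of graded modules killed by the equations -/
def Fil {I : Type} (E : I → DP D σ) : Set (Ideal S.Γ) :=
  {a | (∀ m, S.ι (E m) ∈ a) ∧ ∃ s : Finset ℤ, 1 - ∑ k ∈ s, S.π k ∈ a}

/-- the left ideal presenting `(D[σ]/(E))(-j)` -/
noncomputable def sId {I : Type} (E : I → DP D σ) (j : ℤ) : Ideal S.Γ :=
  Ideal.span (insert (1 - S.π j) (Set.range fun m => S.ι (E m)))

open Classical in
/-- `ρ = r - e` if the Hilbert function is eventually `r * h + e * N`. -/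
noncomputable def rho {n : ℕ} (δ : Fin n → ℕ) (M : Type) [AddCommGroup M] [Module S.Γ M] : ℤ :=
  if h : ∃ re : ℤ × ℤ, ∃ k₀ : ℤ, ∀ k, k₀ ≤ k → (S.dimk M k : ℤ) = re.1 * bh δ k + re.2 * bN δ
  then h.choose.1 - h.choose.2 else 0

end Smash

/-- the equations of a block inside `D[y,p,q]` -/
noncomputable def Blk.ED {K : Type} [Field K] {n : ℕ} (blk : Blk K n) (D : Type) [Ring D]
    [Algebra K D] (m : Fin n) : DP D (BV n) := inc K D _ (blk.E m)

/-! ## the configuration of blocks -/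

/-- all variables: the `x_i` and one `y` for each block and level -/
abbrev AV (n : ℕ) (B : Type) := Fin n ⊕ B × Fin n

/-- variables available for the pencils of the leaves of level `m` -/
def Act {n : ℕ} {B : Type} (lv : B → Fin n) (m : Fin n) : AV n B → Prop
  | Sum.inl _ => True
  | Sum.inr x => m < lv x.1 ∧ m < x.2

/-- combinatorial data: blocks with a level, a rank, and a pencil `(P b 0, P b 1)` of linear forms
(coefficient vectors) in earlier variables. -/
structure Config (n A : ℕ) where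
  B : Type
  [fin : Fintype B]
  [dec : DecidableEq B]
  lv : B → Fin n
  rk : B → ℕ
  P : B → Fin 2 → AV n B → ℕ
  α : Fin n → B
  lv_α : ∀ m, lv (α m) = m
  dep : ∀ b i b' j, P b i (Sum.inr (b', j)) ≠ 0 → rk b' < rk b ∧ lv b ≤ lv b' ∧ lv b ≤ j
  kind : ∀ b, (∀ i w, P b i w ≠ 0 → Act lv (lv b) w) ∨
    ∀ i, P b i = 0 ∨ ∃ b', b' ≠ α (lv b) ∧ P b i = Pi.single (Sum.inr (b', lv b)) 1
  grid : ∀ m, ∀ g : Fin 2 → AV n B → ℕ, (∀ i w, g i w ≤ A) → (∀ i w, g i w ≠ 0 → Act lv m w) →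
    ∃ b, lv b = m ∧ P b = g
  used : ∀ m b, m ≤ lv b → b ≠ α m →
    ∃ b' i, lv b' = m ∧ P b' i = Pi.single (Sum.inr (b, m)) 1

attribute [instance] Config.fin Config.dec

/-- linear form with a coefficient vector -/
noncomputable def lf {W : Type} [Fintype W] (g : W → ℕ) : MvPolynomial W ℂ :=
  ∑ w, (g w : MvPolynomial W ℂ) * X w

/-- substitution of the variables of the block `b` -/
noncomputable def Config.sub {n A : ℕ} (c : Config n A) (b : c.B) :
    BV n → MvPolynomial (AV n c.B) ℂ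
  | Sum.inl m => X (Sum.inr (b, m))
  | Sum.inr i => lf (c.P b i)

/-- the linear systems of equations on a configuration -/
structure Sys {n A : ℕ} (c : Config n A) (a : Fin n → ℕ) (f : Fin n → MvPolynomial (Fin n) ℂ) where
  T : Type
  [fin : Fintype T]
  δ : c.B → Fin n → ℕ
  e : c.B → Fin n → T → MvPolynomial (BV n) ℂ
  pos : ∀ b m, 1 ≤ δ b m
  tri : ∀ b m t, Tri m (δ b m) (e b m t)
  lc : ∀ b m, ∃ t, (e b m t).coeff (Finsupp.single (Sum.inl m) (δ b m)) ≠ 0
  ind : Ind e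
  iden : ∀ m, ∃ (c₁ c₂ : T → ℂ) (g γ : Fin n → T → MvPolynomial (AV n c.B) ℂ),
    c₁ ≠ 0 ∧ c₂ ≠ 0 ∧ ∀ t,
      ∑ b ∈ Finset.univ.filter (fun b => m ≤ c.lv b), aeval (c.sub b) (e b m t) =
        C (c₁ t) * X (Sum.inr (c.α m, m)) ^ a m - C (c₂ t) * rename Sum.inl (f m)
        - ∑ i ∈ Finset.univ.filter (· < m), g i t * rename Sum.inl (f i)
        - ∑ j ∈ Finset.univ.filter (m < ·), γ j t * X (Sum.inr (c.α j, j))

attribute [instance] Sys.fin

end Crest.Agent.R181
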