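import Crest.Agent.R181.ADefs

/-! # Row 181 A: ideal-additive functions, basic lemmas and the fibre lemma -/

set_option autoImplicit false

namespace Crest.Agent.R181

open MvPolynomial

/-- `μ 0 = μ (g) + μ (0 : g) = μ (g) + μ 0` for `g ≠ 0`. -/
theorem genR_pid (A : Type*) [CommRing A] [IsDomain A] [IsPrincipalIdealRing A] : GenR A ⊥ := by
  intro Q _ μ hμ h0 I _
  obtain ⟨g, rfl⟩ : ∃ g, I = Ideal.span {g} := (IsPrincipalIdealRing.principal I).principal
  by_cases hg : g = 0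
  · rw [hg, Ideal.span_singleton_zero, h0]
  have h := hμ.2 ⊥ le_rfl g
  have e : (⊥ : Ideal A).colon {g} = ⊥ := by
    refine eq_bot_iff.2 fun x hx => ?_
    rw [Submodule.mem_colon_singleton, smul_eq_mul, Ideal.mem_bot] at hx
    exact (mul_eq_zero.1 hx).resolve_right hg
  rwa [e, h0, bot_sup_eq, add_zero, eq_comm] at h

theorem ag1_comap_colon {A A' : Type*} [CommRing A] [CommRing A'] (ψ : A →+* A') (J : Ideal A')
    (f : A) : (J.colon {ψ f}).comap ψ = (J.comap ψ).colon {f} := by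
  ext x
  simp only [Ideal.mem_comap, Submodule.mem_colon_singleton, smul_eq_mul, map_mul]

/-- transport along a surjection: `μ' J := μ (comap ψ J)`. -/
theorem genR_of_surj {A A' : Type*} [CommRing A] [CommRing A'] (ψ : A →+* A')
    (hψ : Function.Surjective ψ) (I' : Ideal A') (h : GenR A' I') : GenR A (I'.comap ψ) := by
  intro Q _ μ hμ h0 I hI
  have hk : ∀ J : Ideal A', Ideal.comap ψ ⊥ ≤ J.comap ψ := fun J => Ideal.comap_mono bot_le
  have h1 := h Q (fun J => μ (J.comap ψ)) ⟨by simp only [Ideal.comap_top]; exact hμ.1, fun J hJ f' => ?_⟩ h0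
    (I.map ψ) ((Ideal.map_comap_of_surjective ψ hψ I').symm.le.trans (Ideal.map_mono hI))
  · rwa [Ideal.comap_map_of_surjective ψ hψ, sup_eq_left.2 ((hk I').trans hI)] at h1
  · obtain ⟨f, rfl⟩ := hψ f'
    have e : (J ⊔ Ideal.span {ψ f}).comap ψ = J.comap ψ ⊔ Ideal.span {f} := by
      have : J ⊔ Ideal.span {ψ f} = (J.comap ψ ⊔ Ideal.span {f}).map ψ := by
        rw [Ideal.map_sup, Ideal.map_comap_of_surjective ψ hψ, Ideal.map_span, Set.image_singleton]
      rw [this, Ideal.comap_map_of_surjective ψ hψ, sup_eq_left.2 ((hk J).trans le_sup_left)]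
    simp only [e, ag1_comap_colon]
    exact hμ.2 _ (Ideal.comap_mono hJ) f

/-- pull back along a map with the colon property: `I ↦ μ (I B + b₀)` is additive on `A`. -/
theorem pullback_zero {A B : Type*} [CommRing A] [CommRing B] (φ : A →+* B) (b₀ : Ideal B)
    (hc : ∀ (I : Ideal A) (f : A),
      (I.map φ ⊔ b₀).colon {φ f} = Ideal.map φ (I.colon {f}) ⊔ b₀)
    (hA : GenR A ⊥) {Q : Type} [AddCommGroup Q] (μ : Ideal B → Q) (hμ : IdAdd b₀ μ)
    (h0 : μ b₀ = 0) (I : Ideal A) : μ (I.map φ ⊔ b₀) = 0 := by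
  refine hA Q (fun I => μ (I.map φ ⊔ b₀)) ⟨?_, fun J _ f => ?_⟩ ?_ I bot_le
  · simp only [Ideal.map_top, top_sup_eq]; exact hμ.1
  · simp only [← hc]
    rw [Ideal.map_sup, Ideal.map_span, Set.image_singleton, sup_right_comm]
    exact hμ.2 _ le_sup_right _
  · simp only [Ideal.map_bot, bot_sup_eq]; exact h0

section Fibre
variable {A T κ : Type} [CommRing A] [Field κ] {ξ : A →+* κ}

/-- clearing denominators -/
theorem ag1_clear (hξ : ∀ a : κ, ∃ s x, ξ s ≠ 0 ∧ ξ s * a = ξ x) (F : MvPolynomial T κ) :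
    ∃ s f, ξ s ≠ 0 ∧ C (ξ s) * F = MvPolynomial.map ξ f := by
  induction F using MvPolynomial.induction_on with
  | C a =>
    obtain ⟨s, x, hs, h⟩ := hξ a
    exact ⟨s, C x, hs, by rw [← map_mul, h, map_C]⟩
  | add F G hF hG =>
    obtain ⟨s, f, hs, h⟩ := hF
    obtain ⟨t, g, ht, h'⟩ := hG
    refine ⟨s * t, C t * f + C s * g, by rw [map_mul]; exact mul_ne_zero hs ht, ?_⟩
    simp only [map_mul, map_add, map_C, ← h, ← h']
    ring
  | mul_X F i hF =>
    obtain ⟨s, f, hs, h⟩ := hF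
    exact ⟨s, f * X i, hs, by rw [map_mul, map_X, ← h, mul_assoc]⟩

theorem ag1_unit {s : A} (hs : ξ s ≠ 0) : IsUnit (C (ξ s) : MvPolynomial T κ) :=
  (IsUnit.mk0 _ hs).map C

theorem ag1_map_comap (hξ : ∀ a : κ, ∃ s x, ξ s ≠ 0 ∧ ξ s * a = ξ x) (c : Ideal (MvPolynomial T κ)) :
    (c.comap (MvPolynomial.map ξ)).map (MvPolynomial.map ξ) = c := by
  refine le_antisymm Ideal.map_comap_le fun F hF => ?_
  obtain ⟨s, f, hs, h⟩ := ag1_clear hξ F
  rw [← Ideal.unit_mul_mem_iff_mem _ (ag1_unit hs), h]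
  exact Ideal.mem_map_of_mem _ (Ideal.mem_comap.2 (h ▸ c.mul_mem_left _ hF))

theorem ag1_mem_comap_map (hξ : ∀ a : κ, ∃ s x, ξ s ≠ 0 ∧ ξ s * a = ξ x)
    {b : Ideal (MvPolynomial T A)} (hb : (RingHom.ker ξ).map C ≤ b) {x : MvPolynomial T A} :
    x ∈ (b.map (MvPolynomial.map ξ)).comap (MvPolynomial.map ξ) ↔ ∃ s, ξ s ≠ 0 ∧ C s * x ∈ b := by
  constructor
  · intro hx
    have key : ∀ F ∈ b.map (MvPolynomial.map ξ),
        ∃ s, ξ s ≠ 0 ∧ ∃ y ∈ b, C (ξ s) * F = MvPolynomial.map ξ y := by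
      intro F hF
      induction hF using Submodule.span_induction with
      | mem F hF =>
        obtain ⟨y, hy, rfl⟩ := hF
        exact ⟨1, by simp, y, hy, by simp⟩
      | zero => exact ⟨1, by simp, 0, zero_mem _, by simp⟩
      | add F G _ _ hF hG =>
        obtain ⟨s, hs, f, hf, h⟩ := hF
        obtain ⟨t, ht, g, hg, h'⟩ := hG
        refine ⟨s * t, by rw [map_mul]; exact mul_ne_zero hs ht, C t * f + C s * g,
          add_mem (b.mul_mem_left _ hf) (b.mul_mem_left _ hg), ?_⟩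
        simp only [map_mul, map_add, map_C, ← h, ← h']
        ring
      | smul G F _ hF =>
        obtain ⟨s, hs, f, hf, h⟩ := hF
        obtain ⟨t, g, ht, h'⟩ := ag1_clear hξ G
        refine ⟨s * t, by rw [map_mul]; exact mul_ne_zero hs ht, g * f, b.mul_mem_left _ hf, ?_⟩
        simp only [map_mul, smul_eq_mul, ← h, ← h']
        ring
    obtain ⟨s, hs, y, hy, h⟩ := key _ hx
    refine ⟨s, hs, ?_⟩
    have h1 : C s * x - y ∈ RingHom.ker (MvPolynomial.map ξ : MvPolynomial T A →+* _) := by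
      rw [RingHom.mem_ker, map_sub, map_mul, map_C, h, sub_self]
    rw [MvPolynomial.ker_map] at h1
    simpa using add_mem (hb h1) hy
  · rintro ⟨s, hs, h⟩
    rw [Ideal.mem_comap, ← Ideal.unit_mul_mem_iff_mem _ (ag1_unit hs), ← map_C, ← map_mul]
    exact Ideal.mem_map_of_mem _ h

theorem ag1_comap_map [IsNoetherianRing A] [Finite T] (hξ : ∀ a : κ, ∃ s x, ξ s ≠ 0 ∧ ξ s * a = ξ x)
    {b : Ideal (MvPolynomial T A)} (hb : (RingHom.ker ξ).map C ≤ b) : ∃ s, ξ s ≠ 0 ∧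
      (b.map (MvPolynomial.map ξ)).comap (MvPolynomial.map ξ) = b.colon {C s} := by
  classical
  obtain ⟨G, hG⟩ := IsNoetherian.noetherian
    ((b.map (MvPolynomial.map ξ)).comap (MvPolynomial.map ξ : MvPolynomial T A →+* _))
  have h1 : ∀ x : G, ∃ s, ξ s ≠ 0 ∧ C s * (x : MvPolynomial T A) ∈ b := fun x =>
    (ag1_mem_comap_map hξ hb).1 (hG ▸ Submodule.subset_span x.2)
  choose s hs hsb using h1
  have hs' : ξ (∏ x, s x) ≠ 0 := by
    rw [map_prod]; exact Finset.prod_ne_zero_iff.2 fun x _ => hs x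
  refine ⟨∏ x, s x, hs', le_antisymm ?_ fun x hx => (ag1_mem_comap_map hξ hb).2 ⟨_, hs', ?_⟩⟩
  · rw [← hG]
    refine Submodule.span_le.2 fun x hx => ?_
    rw [SetLike.mem_coe, Submodule.mem_colon_singleton, smul_eq_mul,
      ← Finset.prod_erase_mul _ _ (Finset.mem_univ (⟨x, hx⟩ : G)), map_mul, mul_comm, mul_assoc]
    exact b.mul_mem_left _ (hsb ⟨x, hx⟩)
  · rwa [Submodule.mem_colon_singleton, smul_eq_mul, mul_comm] at hx

end Fibre

/-- Fibre lemma.  Noetherian induction on `I ⊆ A`, claim: `μ b = 0` for all `b ≥ I B + b₀`.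
`I = ⊤`: `b = ⊤`.  `I` not prime, `f g ∈ I`: `μ b = μ (b + f) + μ (b : f)` and `b : f ∋ g`.
`I = 𝔭` prime: for `s ∉ 𝔭`, `μ b = μ (b : s)`; let `κ = FractionRing (A ⧸ 𝔭)`, `ψ = map ξ`; for
`b ≥ 𝔭 B + b₀`, `comap ψ (map ψ b) = b : s` for one `s ∉ 𝔭` (noetherian), so
`μ (comap ψ (map ψ b)) = μ b`; `μ_F c := μ (comap ψ c)` is additive above `b₀.map ψ` (every element of
`κ[T]` is `ψ f` up to a unit `C (ξ s)⁻¹`), `μ_F (b₀.map ψ) = μ (𝔭 B + b₀) = 0`. -/
theorem fibre_lemma {A T : Type} [CommRing A] [IsNoetherianRing A] [Finite T]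
    (b₀ : Ideal (MvPolynomial T A))
    (hF : ∀ (κ : Type) [Field κ] (ξ : A →+* κ),
      GenR (MvPolynomial T κ) (b₀.map (MvPolynomial.map ξ)))
    {Q : Type} [AddCommGroup Q] (μ : Ideal (MvPolynomial T A) → Q) (hμ : IdAdd b₀ μ)
    (h0 : ∀ I : Ideal A, μ (I.map C ⊔ b₀) = 0) : ∀ b, b₀ ≤ b → μ b = 0 := by
  suffices H : ∀ I : Ideal A, ∀ b, I.map C ≤ b → b₀ ≤ b → μ b = 0 from
    fun b hb => H ⊥ b (by simp) hb
  intro I
  induction I using WellFoundedGT.induction with | _ I ih => ?_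
  have step : ∀ f ∉ I, ∀ b, I.map C ≤ b → b₀ ≤ b → C f ∈ b → μ b = 0 := fun f hf b h1 h2 h3 => by
    refine ih (I ⊔ Ideal.span {f}) (lt_of_le_of_ne le_sup_left fun h => hf ?_) b ?_ h2
    · rw [h]; exact Ideal.mem_sup_right (Ideal.mem_span_singleton_self f)
    · rw [Ideal.map_sup, Ideal.map_span, Set.image_singleton]
      exact sup_le h1 ((Ideal.span_singleton_le_iff_mem _).2 h3)
  have lec : ∀ (b : Ideal (MvPolynomial T A)) f, b ≤ b.colon {f} := fun b f x hx =>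
    Submodule.mem_colon_singleton.2 (b.mul_mem_right _ hx)
  have col : ∀ s ∉ I, ∀ b, I.map C ≤ b → b₀ ≤ b → μ b = μ (b.colon {C s}) := fun s hs b h1 h2 => by
    rw [hμ.2 b h2 (C s), step s hs _ (h1.trans le_sup_left) (h2.trans le_sup_left)
      (Ideal.mem_sup_right (Ideal.mem_span_singleton_self _)), zero_add]
  by_cases hI : I.IsPrime
  swap
  · intro b h1 h2
    rcases Ideal.not_isPrime_iff.1 hI with rfl | ⟨f, hf, g, hg, hfg⟩
    · rw [Ideal.map_top, top_le_iff] at h1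
      rw [h1, hμ.1]
    · rw [col f hf b h1 h2]
      refine step g hg _ (h1.trans (lec _ _)) (h2.trans (lec _ _)) ?_
      rw [Submodule.mem_colon_singleton, smul_eq_mul, ← map_mul, mul_comm]
      exact h1 (Ideal.mem_map_of_mem _ hfg)
  let ξ : A →+* FractionRing (A ⧸ I) :=
    (algebraMap (A ⧸ I) (FractionRing (A ⧸ I))).comp (Ideal.Quotient.mk I)
  have hker : RingHom.ker ξ = I := by
    ext x
    rw [RingHom.mem_ker, RingHom.comp_apply, FaithfulSMul.algebraMap_eq_zero_iff,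
      Ideal.Quotient.eq_zero_iff_mem]
  have hξ : ∀ a : FractionRing (A ⧸ I), ∃ s x, ξ s ≠ 0 ∧ ξ s * a = ξ x := by
    intro a
    obtain ⟨x, s, hs, rfl⟩ := IsFractionRing.div_surjective (A := A ⧸ I) a
    obtain ⟨x, rfl⟩ := Ideal.Quotient.mk_surjective x
    obtain ⟨s, rfl⟩ := Ideal.Quotient.mk_surjective s
    have : ξ s ≠ 0 := IsFractionRing.to_map_ne_zero_of_mem_nonZeroDivisors (R := A ⧸ I) hs
    exact ⟨s, x, this, mul_div_cancel₀ _ this⟩
  set ψ : MvPolynomial T A →+* _ := MvPolynomial.map ξ with hψ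
  have sat : ∀ b, I.map C ≤ b → b₀ ≤ b → μ ((b.map ψ).comap ψ) = μ b := fun b h1 h2 => by
    obtain ⟨s, hs, e⟩ := ag1_comap_map hξ (b := b) (hker.symm ▸ h1)
    rw [e, ← col s (fun h => hs (by rwa [← hker] at h)) b h1 h2]
  have hIψ : (I.map C).map ψ = ⊥ := by
    rw [Ideal.map_eq_bot_iff_le_ker, hψ, MvPolynomial.ker_map, hker]
  intro b h1 h2
  rw [← sat b h1 h2]
  refine hF _ ξ Q (fun c => μ (c.comap ψ)) ⟨by simp only [Ideal.comap_top]; exact hμ.1, fun c hc F => ?_⟩ ?_ _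
    (Ideal.map_mono h2)
  · obtain ⟨s, f, hs, h⟩ := ag1_clear hξ F
    have e1 : Ideal.span {F} = Ideal.span {ψ f} := by
      rw [← h, Ideal.span_singleton_mul_left_unit (ag1_unit hs)]
    have e2 : c.colon {F} = c.colon {ψ f} := by
      ext x
      simp only [Submodule.mem_colon_singleton, smul_eq_mul]
      rw [← h, mul_left_comm, Ideal.unit_mul_mem_iff_mem _ (ag1_unit hs)]
    have k1 : I.map C ≤ c.comap ψ := Ideal.map_le_iff_le_comap.1 (hIψ ▸ bot_le)
    have k2 : b₀ ≤ c.comap ψ := Ideal.map_le_iff_le_comap.1 hc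
    have e3 : c ⊔ Ideal.span {ψ f} = (c.comap ψ ⊔ Ideal.span {f}).map ψ := by
      rw [Ideal.map_sup, ag1_map_comap hξ, Ideal.map_span, Set.image_singleton]
    simp only [e1, e2, e3, ag1_comap_colon]
    rw [sat _ (k1.trans le_sup_left) (k2.trans le_sup_left)]
    exact hμ.2 _ k2 f
  · have := sat (I.map C ⊔ b₀) le_sup_left le_sup_right
    rw [Ideal.map_sup, hIψ, bot_sup_eq, h0] at this
    exact this

end Crest.Agent.R181
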