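import Crest.Agent.R181.AGen1

/-! # Row 181 A: polynomial rings over fields, quotients by linear forms, the map `omega` -/

set_option autoImplicit false

namespace Crest.Agent.R181

open MvPolynomial

theorem gen2_equiv {A A' : Type*} [CommRing A] [CommRing A'] (e : A ≃+* A') (h : GenR A' ⊥) :
    GenR A ⊥ := by
  have h1 := genR_of_surj (e : A →+* A') e.surjective ⊥ h
  rwa [← RingHom.ker_eq_comap_bot, (RingHom.injective_iff_ker_eq_bot (e : A →+* A')).mp e.injective] at h1

theorem gen2_step {A : Type} [CommRing A] [IsNoetherianRing A] (hA : GenR A ⊥) :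
    GenR (MvPolynomial Unit A) ⊥ := by
  intro Q _ μ hμ h0
  refine fibre_lemma ⊥ ?_ μ hμ ?_
  · intro κ _ ξ
    rw [Ideal.map_bot]
    exact gen2_equiv (uniqueAlgEquiv κ Unit).toRingEquiv (genR_pid _)
  · refine pullback_zero C ⊥ ?_ hA μ hμ h0
    intro I f
    ext p
    simp only [sup_bot_eq, Submodule.mem_colon_singleton, smul_eq_mul, mem_map_C_iff]
    refine forall_congr' fun m => ?_
    rw [mul_comm p, coeff_C_mul, mul_comm]

theorem gen2_fin (κ : Type) [Field κ] (n : ℕ) : GenR (MvPolynomial (Fin n) κ) ⊥ := by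
  induction n with
  | zero => exact gen2_equiv (isEmptyRingEquiv κ (Fin 0)) (genR_pid _)
  | succ n ih =>
    exact gen2_equiv ((finSuccEquiv κ n).toRingEquiv.trans
      (uniqueAlgEquiv (MvPolynomial (Fin n) κ) Unit).toRingEquiv.symm) (gen2_step ih)

/-- Induction on the number of variables: `A[T]` with `T = Unit` (or `Fin 1`), colon property
coefficientwise (`MvPolynomial.mem_map_C_iff`), `pullback_zero`, `fibre_lemma`, fibres are PIDs. -/
theorem genR_mvpoly (σ κ : Type) [Finite σ] [Field κ] : GenR (MvPolynomial σ κ) ⊥ := by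
  obtain ⟨n, ⟨e⟩⟩ := Finite.exists_equiv_fin σ
  exact gen2_equiv (renameEquiv κ e).toRingEquiv (gen2_fin κ n)

/-- the linear form with a given coefficient vector -/
noncomputable def gen2L (α κ : Type) [Fintype α] [Field κ] : (α → κ) →ₗ[κ] MvPolynomial α κ :=
  Fintype.linearCombination κ X

theorem gen2L_apply {α κ : Type} [Fintype α] [Field κ] (v : α → κ) :
    gen2L α κ v = ∑ t, C (v t) * X t := by
  simp only [gen2L, Fintype.linearCombination_apply, smul_eq_C_mul]

theorem gen2L_single {α κ : Type} [Fintype α] [DecidableEq α] [Field κ] (a : α) :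
    gen2L α κ (Pi.single a 1) = X a := by
  simp [gen2L]

/-- the substitution given by a linear map -/
noncomputable def gen2S {α β κ : Type} [Fintype β] [DecidableEq α] [Field κ]
    (f : (α → κ) →ₗ[κ] (β → κ)) : MvPolynomial α κ →ₐ[κ] MvPolynomial β κ :=
  aeval fun a => gen2L β κ (f (Pi.single a 1))

theorem gen2S_L {α β κ : Type} [Fintype α] [Fintype β] [DecidableEq α] [Field κ]
    (f : (α → κ) →ₗ[κ] (β → κ)) (v : α → κ) : gen2S f (gen2L α κ v) = gen2L β κ (f v) := by
  have h : (gen2S f).toLinearMap ∘ₗ gen2L α κ = gen2L β κ ∘ₗ f := by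
    refine (Pi.basisFun κ α).ext fun a => ?_
    simp only [Pi.basisFun_apply, LinearMap.comp_apply, gen2L_single, AlgHom.toLinearMap_apply, gen2S,
      aeval_X]
  exact LinearMap.congr_fun h v

/-- a linear surjection `κ^T → κ^r` whose kernel is the span of the rows gives a surjective algebra
map `κ[T] → κ[Fin r]` with kernel the ideal of the linear forms; `genR_of_surj`. -/
theorem genR_linear (T ι κ : Type) [Fintype T] [Finite ι] [Field κ] (M : ι → T → κ) :
    GenR (MvPolynomial T κ) (Ideal.span (Set.range fun i => ∑ t, C (M i t) * X t)) := by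
  classical
  set I : Ideal (MvPolynomial T κ) := Ideal.span (Set.range fun i => ∑ t, C (M i t) * X t) with hI
  let W : Submodule κ (T → κ) := Submodule.span κ (Set.range M)
  let b := Module.finBasis κ ((T → κ) ⧸ W)
  let π : (T → κ) →ₗ[κ] (Fin (Module.finrank κ ((T → κ) ⧸ W)) → κ) :=
    b.equivFun.toLinearMap ∘ₗ W.mkQ
  have hπs : Function.Surjective π := b.equivFun.surjective.comp W.mkQ_surjective
  have hπk : ∀ v, π v = 0 ↔ v ∈ W := by
    intro v
    simp only [π, LinearMap.comp_apply, LinearEquiv.coe_coe, LinearEquiv.map_eq_zero_iff,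
      Submodule.mkQ_apply, Submodule.Quotient.mk_eq_zero]
  obtain ⟨s, hs⟩ := π.exists_rightInverse_of_surjective (LinearMap.range_eq_top.mpr hπs)
  have hs' : ∀ v, π (s v) = v := fun v => LinearMap.congr_fun hs v
  have hW : ∀ v ∈ W, gen2L T κ v ∈ I := by
    intro v hv
    refine Submodule.span_induction ?_ ?_ ?_ ?_ hv
    · rintro _ ⟨i, rfl⟩
      rw [gen2L_apply]
      exact Ideal.subset_span ⟨i, rfl⟩
    · simp
    · intro x y _ _ hx hy
      rw [map_add]; exact I.add_mem hx hy
    · intro a x _ hx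
      rw [map_smul, smul_eq_C_mul]; exact I.mul_mem_left _ hx
  have h1 : (gen2S π).comp (gen2S s) = AlgHom.id κ _ := by
    ext1 j
    rw [AlgHom.comp_apply, ← gen2L_single, gen2S_L, gen2S_L, hs', AlgHom.id_apply]
  have h2 : (Ideal.Quotient.mkₐ κ I).comp ((gen2S s).comp (gen2S π)) = Ideal.Quotient.mkₐ κ I := by
    ext1 t
    rw [AlgHom.comp_apply, AlgHom.comp_apply, ← gen2L_single, gen2S_L, gen2S_L,
      Ideal.Quotient.mkₐ_eq_mk, Ideal.Quotient.eq, ← map_sub]
    apply hW
    rw [← hπk, map_sub, hs', sub_self]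
  have hsurj : Function.Surjective (gen2S π) := fun q => ⟨gen2S s q, AlgHom.congr_fun h1 q⟩
  have h3 := genR_of_surj (gen2S π).toRingHom hsurj ⊥ (genR_mvpoly _ κ)
  have h4 : Ideal.comap (gen2S π).toRingHom ⊥ = I := by
    apply le_antisymm
    · intro p hp
      have hp' : gen2S π p = 0 := hp
      have := AlgHom.congr_fun h2 p
      rw [AlgHom.comp_apply, AlgHom.comp_apply, hp', map_zero, map_zero, Ideal.Quotient.mkₐ_eq_mk] at this
      exact Ideal.Quotient.eq_zero_iff_mem.mp this.symm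
    · rw [hI, Ideal.span_le]
      rintro _ ⟨i, rfl⟩
      change gen2S π (∑ t, C (M i t) * X t) = 0
      rw [← gen2L_apply, gen2S_L, (hπk _).mpr (Submodule.subset_span ⟨i, rfl⟩), map_zero]
  rwa [h4] at h3

/-- `ℂ[σ][T] → ℂ(T)[σ]` -/
noncomputable def omega (T σ : Type) :
    MvPolynomial T (MvPolynomial σ ℂ) →+* MvPolynomial σ (Kf T) :=
  eval₂Hom (map (algebraMap ℂ (Kf T))) fun t => C (algebraMap (MvPolynomial T ℂ) (Kf T) (X t))

theorem omega_map_C (T σ : Type) (s : MvPolynomial T ℂ) :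
    omega T σ (map C s) = C (algebraMap (MvPolynomial T ℂ) (Kf T) s) := by
  have h : (omega T σ).comp (map C) = C.comp (algebraMap (MvPolynomial T ℂ) (Kf T)) := by
    refine ringHom_ext (fun c => ?_) (fun t => ?_)
    · simp only [omega, RingHom.comp_apply, map_C, eval₂Hom_C]
      rw [IsScalarTower.algebraMap_apply ℂ (MvPolynomial T ℂ) (Kf T), algebraMap_eq]
    · simp only [omega, RingHom.comp_apply, map_X, eval₂Hom_X']
  exact RingHom.congr_fun h s

theorem gen2_omega_C_X (T σ : Type) (i : σ) : omega T σ (C (X i)) = X i := by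
  simp only [omega, eval₂Hom_C, map_X]

theorem omega_injective (T σ : Type) : Function.Injective (omega T σ) := by
  have h : omega T σ = (map (algebraMap (MvPolynomial T ℂ) (Kf T))).comp
      (commAlgEquiv ℂ T σ).toRingEquiv.toRingHom := by
    refine ringHom_ext' (ringHom_ext (fun c => ?_) (fun i => ?_)) (fun t => ?_)
    · have h1 := omega_map_C T σ (C c)
      rw [map_C] at h1
      have h2 : commAlgEquiv ℂ T σ (C (C c)) = C (C c) := (commAlgEquiv ℂ T σ).commutes c
      change omega T σ (C (C c)) = map _ (commAlgEquiv ℂ T σ (C (C c)))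
      rw [h1, h2, map_C]
    · change omega T σ (C (X i)) = map _ (commAlgEquiv ℂ T σ (C (X i)))
      rw [gen2_omega_C_X, commAlgEquiv_C_X, map_X]
    · have h1 := omega_map_C T σ (X t)
      rw [map_X] at h1
      change omega T σ (X t) = map _ (commAlgEquiv ℂ T σ (X t))
      rw [h1, commAlgEquiv_X, map_C]
  rw [h]
  exact (map_injective _ (IsFractionRing.injective (MvPolynomial T ℂ) (Kf T))).comp
    (commAlgEquiv ℂ T σ).injective

theorem omega_surj (T σ : Type) (b : MvPolynomial σ (Kf T)) :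
    ∃ s : MvPolynomial T ℂ, s ≠ 0 ∧ ∃ b₁,
      omega T σ b₁ = C (algebraMap (MvPolynomial T ℂ) (Kf T) s) * b := by
  induction b using MvPolynomial.induction_on with
  | C k =>
    obtain ⟨⟨a, s⟩, h⟩ := IsLocalization.surj (nonZeroDivisors (MvPolynomial T ℂ)) k
    refine ⟨s, nonZeroDivisors.coe_ne_zero s, map C a, ?_⟩
    rw [omega_map_C, ← C_mul, mul_comm]
    exact congrArg C h.symm
  | add p q hp hq =>
    obtain ⟨s, hs, p₁, hp⟩ := hp
    obtain ⟨s', hs', q₁, hq⟩ := hq
    refine ⟨s * s', mul_ne_zero hs hs', map C s' * p₁ + map C s * q₁, ?_⟩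
    rw [map_add, map_mul, map_mul, omega_map_C, omega_map_C, hp, hq, map_mul, C_mul]
    ring
  | mul_X p i hp =>
    obtain ⟨s, hs, p₁, hp⟩ := hp
    refine ⟨s, hs, p₁ * C (X i), ?_⟩
    rw [map_mul, hp, gen2_omega_C_X, mul_assoc]

/-- membership in an extended ideal = membership after clearing a denominator -/
theorem omega_mem_map (T σ : Type) (I : Ideal (MvPolynomial T (MvPolynomial σ ℂ)))
    (b₁ : MvPolynomial T (MvPolynomial σ ℂ)) :
    omega T σ b₁ ∈ I.map (omega T σ) ↔ ∃ s : MvPolynomial T ℂ, s ≠ 0 ∧ map C s * b₁ ∈ I := by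
  constructor
  · intro h
    have key : ∀ b ∈ I.map (omega T σ), ∃ s : MvPolynomial T ℂ, s ≠ 0 ∧ ∃ i ∈ I,
        omega T σ i = C (algebraMap (MvPolynomial T ℂ) (Kf T) s) * b := by
      intro b hb
      refine Submodule.span_induction ?_ ?_ ?_ ?_ hb
      · rintro _ ⟨i, hi, rfl⟩
        exact ⟨1, one_ne_zero, i, hi, by simp⟩
      · exact ⟨1, one_ne_zero, 0, I.zero_mem, by simp⟩
      · rintro p q _ _ ⟨s, hs, p₁, hp₁, hp⟩ ⟨s', hs', q₁, hq₁, hq⟩
        refine ⟨s * s', mul_ne_zero hs hs', map C s' * p₁ + map C s * q₁,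
          I.add_mem (I.mul_mem_left _ hp₁) (I.mul_mem_left _ hq₁), ?_⟩
        rw [map_add, map_mul, map_mul, omega_map_C, omega_map_C, hp, hq, map_mul, C_mul]
        ring
      · rintro a p _ ⟨s, hs, p₁, hp₁, hp⟩
        obtain ⟨s', hs', a₁, ha⟩ := omega_surj T σ a
        refine ⟨s' * s, mul_ne_zero hs' hs, a₁ * p₁, I.mul_mem_left _ hp₁, ?_⟩
        rw [map_mul, ha, hp, map_mul, C_mul, smul_eq_mul]
        ring
    obtain ⟨s, hs, i, hi, h1⟩ := key _ h
    refine ⟨s, hs, ?_⟩
    rw [← omega_map_C, ← map_mul] at h1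
    rw [← omega_injective T σ h1]
    exact hi
  · rintro ⟨s, hs, h⟩
    have h1 := Ideal.mem_map_of_mem (omega T σ) h
    rw [map_mul, omega_map_C] at h1
    have hu : IsUnit (C (algebraMap (MvPolynomial T ℂ) (Kf T) s) : MvPolynomial σ (Kf T)) := by
      refine IsUnit.map C (IsUnit.mk0 _ ?_)
      exact fun h0 => hs (IsFractionRing.injective (MvPolynomial T ℂ) (Kf T) (by rw [h0, map_zero]))
    exact (Ideal.unit_mul_mem_iff_mem _ hu).mp h1

end Crest.Agent.R181
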