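import Mathlib

/-! # Row 181 A: powers of the variables in a homogeneous complete intersection -/

set_option autoImplicit false

namespace Crest.Agent.R181

open MvPolynomial RingTheory.Sequence

universe u v

theorem ag2_supportDim {R : Type u} [CommRing R] [IsNoetherianRing R] (rs : List R) :
    ∀ {M : Type v} [AddCommGroup M] [Module R M] [Module.Finite R M], IsWeaklyRegular M rs →
      Module.supportDim R (M ⧸ Ideal.ofList rs • (⊤ : Submodule R M)) + rs.length ≤
        Module.supportDim R M := by
  induction rs with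
  | nil =>
    intro M _ _ _ _
    rw [Ideal.ofList_nil, Submodule.bot_smul]
    simpa using (Module.supportDim_eq_of_equiv (Submodule.quotEquivOfEqBot ⊥ rfl)).le
  | cons x rs ih =>
    intro M _ _ _ reg
    obtain ⟨h1, h2⟩ := (isWeaklyRegular_cons_iff M _ _).mp reg
    have h3 := Module.supportDim_quotSMulTop_succ_le_of_notMem_minimalPrimes (M := M) (x := x)
      (fun _ => h1.notMem_of_mem_minimalPrimes)
    rw [Module.supportDim_eq_of_equiv (Submodule.quotOfListConsSMulTopEquivQuotSMulTopInner M x _),
      List.length_cons, Nat.cast_add, Nat.cast_one, ← add_assoc]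
    exact le_trans (add_le_add_left (ih h2) 1) h3

attribute [local instance] MvPolynomial.gradedAlgebra

theorem ag2_exists_pow_mem {n : ℕ} (a : Fin n → ℕ)
    (f : Fin n → MvPolynomial (Fin n) ℂ) (hf : ∀ i, (f i).IsHomogeneous (a i))
    (hreg : RingTheory.Sequence.IsRegular (MvPolynomial (Fin n) ℂ) (List.ofFn f)) :
    ∃ s : ℕ, 1 ≤ s ∧ ∀ i, X i ^ s ∈ Ideal.span (Set.range f) := by
  set I : Ideal (MvPolynomial (Fin n) ℂ) := Ideal.span (Set.range f) with hI
  have hl : Ideal.ofList (List.ofFn f) • (⊤ : Ideal (MvPolynomial (Fin n) ℂ)) = I := by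
    rw [smul_eq_mul, Ideal.mul_top, hI, Ideal.ofList]
    congr 1
    ext x
    simp [List.mem_ofFn]
  have hd := ag2_supportDim (M := MvPolynomial (Fin n) ℂ) _ hreg.toIsWeaklyRegular
  rw [hl, Module.supportDim_quotient_eq_ringKrullDim, Module.supportDim_self_eq_ringKrullDim,
    MvPolynomial.ringKrullDim_of_isNoetherianRing, ringKrullDim_eq_zero_of_field,
    List.length_ofFn, Nat.card_eq_fintype_card, Fintype.card_fin] at hd
  have hd0 : ringKrullDim (MvPolynomial (Fin n) ℂ ⧸ I) ≤ 0 := by
    generalize ringKrullDim (MvPolynomial (Fin n) ℂ ⧸ I) = d at hd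
    induction d using WithBot.recBotCoe with
    | bot => exact bot_le
    | coe d =>
      induction d using ENat.recTopCoe with
      | top => exact absurd hd (by
          rw [zero_add, ← WithBot.coe_natCast, ← WithBot.coe_add, WithBot.coe_le_coe]
          simp)
      | coe d =>
        have h1 : d + n ≤ 0 + n := by exact_mod_cast hd
        have h2 : d = 0 := by omega
        simp [h2]
  have hk : Ring.KrullDimLE 0 (MvPolynomial (Fin n) ℂ ⧸ I) :=
    (Ring.krullDimLE_iff).2 (by simpa using hd0)
  have hmax := Ideal.krullDimLE_zero_quotient_iff_forall_minimalPrimes_isMaximal.1 hk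
  have hhom : I.IsHomogeneous (homogeneousSubmodule (Fin n) ℂ) :=
    Ideal.homogeneous_span _ _ (by
      rintro _ ⟨i, rfl⟩
      exact ⟨a i, hf i⟩)
  have hrad : ∀ i, X i ∈ I.radical := by
    intro i
    rw [Ideal.radical_eq_sInf, Submodule.mem_sInf]
    rintro P ⟨hIP, hP⟩
    set Q := Ideal.homogeneousCore (homogeneousSubmodule (Fin n) ℂ) P with hQ
    have hQp : Q.toIdeal.IsPrime := Ideal.IsPrime.homogeneousCore hP
    have hIQ : I ≤ Q.toIdeal := by
      rw [← hhom.toIdeal_homogeneousCore_eq_self]
      exact Ideal.homogeneousCore_mono _ hIP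
    obtain ⟨J, hJ, hJQ⟩ := Ideal.exists_minimalPrimes_le hIQ
    have hJm := hmax J hJ
    have hQm : Q.toIdeal ≤ RingHom.ker (constantCoeff (σ := Fin n) (R := ℂ)) := by
      intro x hx
      rw [RingHom.mem_ker]
      by_contra h0
      have h1 := Q.isHomogeneous 0 hx
      have h2 : ((DirectSum.decompose (homogeneousSubmodule (Fin n) ℂ) x 0 :
          homogeneousSubmodule (Fin n) ℂ 0) : MvPolynomial (Fin n) ℂ) = C (constantCoeff x) := by
        rw [constantCoeff_eq, ← homogeneousComponent_zero]
        exact MvPolynomial.decomposition.decompose'_apply x 0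
      rw [h2] at h1
      exact hQp.ne_top (Ideal.eq_top_of_isUnit_mem _ h1 ((IsUnit.mk0 _ h0).map C))
    have hne : RingHom.ker (constantCoeff (σ := Fin n) (R := ℂ)) ≠ ⊤ := RingHom.ker_ne_top _
    have heq := hJm.eq_of_le hne (hJQ.trans hQm)
    have hX : X i ∈ J := by
      rw [heq, RingHom.mem_ker, constantCoeff_X]
    exact Ideal.toIdeal_homogeneousCore_le _ P (hJQ hX)
  choose s hs using hrad
  refine ⟨(∑ i, s i) + 1, by omega, fun i => ?_⟩
  have : s i ≤ (∑ i, s i) + 1 :=
    (Finset.single_le_sum (fun j _ => Nat.zero_le (s j)) (Finset.mem_univ i)).trans (by omega)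
  exact Ideal.pow_mem_of_pow_mem I (hs i) this

end Crest.Agent.R181
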