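import Crest.Agent.R181.ADefs
import Crest.Agent.R181.AGridAux2

/-! # Row 181 A: the grid lemma, and powers of the variables in a complete intersection -/

set_option autoImplicit false

namespace Crest.Agent.R181

open MvPolynomial

/-- forms of degree `a` in the variables satisfying `act` -/
def FormIn {W : Type} (act : W → Prop) (a : ℕ) (F : MvPolynomial W ℂ) : Prop :=
  F.IsHomogeneous a ∧ ∀ μ ∈ F.support, ∀ w, μ w ≠ 0 → act w

theorem AGrid_lf_eq {W : Type} [Fintype W] (g : W → ℕ) :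
    lf g = ∑ w, (g w : ℂ) • (X w : MvPolynomial W ℂ) := by
  unfold lf
  refine Finset.sum_congr rfl fun w _ => ?_
  rw [smul_eq_C_mul, map_natCast]

theorem AGrid_lf_pow {W : Type} [Fintype W] [DecidableEq W] (s : Finset W) (a : ℕ) {g : W → ℕ}
    (hg : ∀ w, g w ≠ 0 → w ∈ s) :
    lf g ^ a = ∑ μ ∈ s.finsuppAntidiag a,
      ((μ.multinomial * μ.prod fun r m => g r ^ m : ℕ) : ℂ) • monomial μ (1 : ℂ) := by
  ext ν
  rw [AGrid_lf_eq, coeff_linearCombination_X_pow_of_fintype, coeff_sum]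
  simp only [coeff_smul, coeff_monomial, smul_eq_mul, mul_ite, mul_one, mul_zero]
  rw [Finset.sum_ite_eq']
  simp only [Finset.mem_finsuppAntidiag']
  by_cases h1 : (ν.sum fun _ m => m) = a
  · by_cases h2 : ν.support ⊆ s
    · rw [if_pos h1, if_pos ⟨h1, h2⟩]
      simp [Finsupp.prod]
    · rw [if_pos h1, if_neg fun h => h2 h.2]
      obtain ⟨w, hw, hws⟩ := Finset.not_subset.1 h2
      have h0 : g w = 0 := by
        by_contra h0
        exact hws (hg w h0)
      rw [Finsupp.prod, Finset.prod_eq_zero hw, mul_zero]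
      rw [h0, Nat.cast_zero, zero_pow (Finsupp.mem_support_iff.1 hw)]
  · rw [if_neg h1, if_neg fun h => h1 h.1]

/-- `G(s) = Ω ((∑ s_w w)^a) = ∑_μ multinomial μ * Ω (w^μ) * s^μ` is a polynomial over `κ` in the active
`s_w`, of degree `≤ a ≤ A` in each, vanishing on `{0..A}^active`
(`MvPolynomial.eq_zero_of_eval_zero_at_prod_finset`); characteristic zero. -/
theorem grid_vanish {W κ : Type} [Fintype W] [Field κ] [Algebra ℂ κ] (act : W → Prop) {a A : ℕ}
    (haA : a ≤ A) (Ω : MvPolynomial W ℂ →ₗ[ℂ] κ)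
    (h : ∀ g : W → ℕ, (∀ w, g w ≤ A) → (∀ w, g w ≠ 0 → act w) → Ω (lf g ^ a) = 0) :
    ∀ F, FormIn act a F → Ω F = 0 := by
  classical
  have : CharZero κ := charZero_of_injective_algebraMap (algebraMap ℂ κ).injective
  obtain ⟨s, hs⟩ : ∃ s : Finset W, ∀ w, w ∈ s ↔ act w :=
    ⟨Finset.univ.filter act, fun w => by simp⟩
  obtain ⟨G, hG⟩ : ∃ G : MvPolynomial W κ, G = ∑ μ ∈ s.finsuppAntidiag a,
      monomial μ ((μ.multinomial : κ) * Ω (monomial μ 1)) := ⟨_, rfl⟩
  have hc : ∀ ν, coeff ν G = if ν ∈ s.finsuppAntidiag a then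
      (ν.multinomial : κ) * Ω (monomial ν 1) else 0 := fun ν => by
    rw [hG, coeff_sum]
    simp only [coeff_monomial]
    rw [Finset.sum_ite_eq']
  have hG0 : G = 0 := by
    refine eq_zero_of_eval_zero_at_prod_finset G
      (fun w => (Finset.range (if act w then A + 1 else 1)).image (Nat.cast : ℕ → κ))
      (fun w => ?_) fun x hx => ?_
    · rw [Finset.card_image_of_injective _ Nat.cast_injective, Finset.card_range,
        degreeOf_lt_iff (by split_ifs <;> omega)]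
      intro ν hν
      rw [mem_support_iff, hc] at hν
      have h1 : ν ∈ s.finsuppAntidiag a := by
        by_contra h1
        exact hν (if_neg h1)
      rw [Finset.mem_finsuppAntidiag'] at h1
      split_ifs with hw
      · have h2 : ν w ≤ ν.degree := Finsupp.le_degree w ν
        have h3 : ν.degree = a := h1.1
        omega
      · have : ν w = 0 := by
          by_contra h0
          exact hw ((hs w).1 (h1.2 (Finsupp.mem_support_iff.2 h0)))
        omega
    · choose g hg1 hg2 using fun w => Finset.mem_image.1 (hx w)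
      have hg3 : ∀ w, g w ≠ 0 → act w := fun w h0 => by
        by_contra hw
        have := Finset.mem_range.1 (hg1 w)
        rw [if_neg hw] at this
        omega
      have hg4 : ∀ w, g w ≤ A := fun w => by
        have := Finset.mem_range.1 (hg1 w)
        split_ifs at this <;> omega
      have h5 := h g hg4 hg3
      rw [AGrid_lf_pow s a fun w h0 => (hs w).2 (hg3 w h0), map_sum] at h5
      rw [hG, map_sum, ← h5]
      refine Finset.sum_congr rfl fun μ _ => ?_
      rw [eval_monomial, map_smul, Nat.cast_smul_eq_nsmul, nsmul_eq_mul]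
      simp only [← hg2, Finsupp.prod]
      push_cast
      ring
  intro F hF
  rw [F.as_sum, map_sum]
  refine Finset.sum_eq_zero fun μ hμ => ?_
  have h1 : μ ∈ s.finsuppAntidiag a := by
    rw [Finset.mem_finsuppAntidiag']
    refine ⟨?_, fun w hw => (hs w).2 (hF.2 μ hμ w (Finsupp.mem_support_iff.1 hw))⟩
    by_contra h2
    exact mem_support_iff.1 hμ (hF.1.coeff_eq_zero h2)
  have h2 := hc μ
  rw [hG0, coeff_zero, if_pos h1] at h2
  have h3 : (μ.multinomial : κ) ≠ 0 := Nat.cast_ne_zero.2 (Nat.multinomial_pos _ _).ne'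
  have h4 := (mul_eq_zero.1 h2.symm).resolve_left h3
  rw [← mul_one (coeff μ F), ← smul_eq_mul, ← smul_monomial, map_smul, h4, smul_zero]

/-- If `Ω (ℓ₀^a) = φ₀ ≠ 0` for a grid form, put `ν w = Ω (ℓ₀^(a-1) * X w) / φ₀`; then
`Ω (ℓ^a) = φ₀ * (aeval ν ℓ)^a` for all grid forms, and `grid_vanish` applies to `Ω - φ₀ • aeval ν`. -/
theorem grid_lemma {W κ : Type} [Fintype W] [Field κ] [Algebra ℂ κ] (act : W → Prop) {a A : ℕ}
    (ha : 1 ≤ a) (haA : a ≤ A) (Ω : MvPolynomial W ℂ →ₗ[ℂ] κ)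
    (h : ∀ g : Fin 2 → W → ℕ, (∀ i w, g i w ≤ A) → (∀ i w, g i w ≠ 0 → act w) →
      ∃ φ x y : κ, ∀ i ≤ a, Ω (lf (g 0) ^ (a - i) * lf (g 1) ^ i) = φ * x ^ (a - i) * y ^ i) :
    (∀ F, FormIn act a F → Ω F = 0) ∨
      ∃ (φ₀ : κ) (ν : W → κ), φ₀ ≠ 0 ∧ (∃ w, act w ∧ ν w ≠ 0) ∧
        ∀ F, FormIn act a F → Ω F = φ₀ * aeval ν F := by
  classical
  by_cases h0 : ∀ g : W → ℕ, (∀ w, g w ≤ A) → (∀ w, g w ≠ 0 → act w) → Ω (lf g ^ a) = 0
  · exact Or.inl (grid_vanish act haA Ω h0)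
  right
  push Not at h0
  obtain ⟨g₀, hg1, hg2, hφ⟩ := h0
  obtain ⟨ν, hν⟩ : ∃ ν : W → κ, ∀ w, ν w = Ω (lf g₀ ^ (a - 1) * X w) / Ω (lf g₀ ^ a) :=
    ⟨_, fun _ => rfl⟩
  have hev : ∀ g : W → ℕ, aeval ν (lf g) = ∑ w, (g w : κ) * ν w := fun g => by simp [lf]
  have hlin : ∀ g : W → ℕ, Ω (lf g₀ ^ (a - 1) * lf g) = Ω (lf g₀ ^ a) * aeval ν (lf g) := by
    intro g
    rw [hev, AGrid_lf_eq g, Finset.mul_sum, map_sum, Finset.mul_sum]
    refine Finset.sum_congr rfl fun w _ => ?_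
    rw [mul_smul_comm, map_smul, Nat.cast_smul_eq_nsmul, nsmul_eq_mul, hν]
    field_simp
  refine ⟨Ω (lf g₀ ^ a), ν, hφ, ?_, fun F hF => ?_⟩
  · by_contra hc
    push Not at hc
    have h1 := hlin g₀
    rw [← pow_succ, Nat.sub_add_cancel ha, hev, Finset.sum_eq_zero, mul_zero] at h1
    · exact hφ h1
    · intro w _
      by_cases hw : g₀ w = 0
      · rw [hw, Nat.cast_zero, zero_mul]
      · rw [hc w (hg2 w hw), mul_zero]
  · have key := grid_vanish act haA
      (Ω - LinearMap.mulLeft ℂ (Ω (lf g₀ ^ a)) ∘ₗ (aeval ν).toLinearMap) (fun g h1 h2 => ?_) F hF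
    · exact sub_eq_zero.1 key
    obtain ⟨φ, x, y, hxy⟩ := h ![g₀, g] (Fin.forall_fin_two.2 ⟨hg1, h1⟩)
      (Fin.forall_fin_two.2 ⟨hg2, h2⟩)
    have e0 := hxy 0 (Nat.zero_le _)
    have e1 := hxy 1 ha
    have e2 := hxy a le_rfl
    simp only [Matrix.cons_val_zero, Matrix.cons_val_one, Nat.sub_zero, Nat.sub_self, pow_zero,
      mul_one, one_mul, pow_one] at e0 e1 e2
    change Ω (lf g ^ a) - Ω (lf g₀ ^ a) * aeval ν (lf g ^ a) = 0
    rw [hlin, e0] at e1
    rw [e0] at hφ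
    obtain ⟨b, rfl⟩ : ∃ b, a = b + 1 := ⟨a - 1, by omega⟩
    have hx : x ≠ 0 := fun hx => hφ (by simp [hx])
    have e3 : x * aeval ν (lf g) = y := by
      refine mul_left_cancel₀ (mul_ne_zero (left_ne_zero_of_mul hφ) (pow_ne_zero b hx)) ?_
      rw [Nat.add_sub_cancel] at e1
      linear_combination e1
    rw [e2, e0, map_pow, ← e3]
    ring

/-- Hilbert functions: `H_i(k) = dim (S/(f_1..f_i))_k` satisfies `H_{i+1}(k) = H_i(k) - H_i(k - a_{i+1})`
by regularity; `H_0` agrees with a polynomial of degree `n - 1`, so `H_n` is eventually `0`.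
(Or: Krull dimension drops along a regular sequence.) -/
theorem exists_pow_mem {n : ℕ} (a : Fin n → ℕ) (ha : ∀ i, 1 ≤ a i)
    (f : Fin n → MvPolynomial (Fin n) ℂ) (hf : ∀ i, (f i).IsHomogeneous (a i))
    (hreg : RingTheory.Sequence.IsRegular (MvPolynomial (Fin n) ℂ) (List.ofFn f)) :
    ∃ s : ℕ, 1 ≤ s ∧ ∀ i, X i ^ s ∈ Ideal.span (Set.range f) :=
  ag2_exists_pow_mem a f hf hreg

end Crest.Agent.R181
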