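import Crest.Agent.R181.ADefs

/-! # Row 181 A: existence of the localisation.
Call a finitely generated `G` in the class *good* if `ρ G = 1` and every nonzero submodule has `ρ ≥ 1`.
(`WM` passes to submodules, quotients, products; `ρ 0 = 0`.)
* maps from a f.g. module `Q` all of whose... : if `G, G'` are good, `o : O ↪ G`, `o' : O ↪ G'`, a map
  `f : G → G'` with `f ∘ o = o'` is unique (the difference kills `O`; its image is `G/R`, `R ≠ 0`, so
  `ρ ≤ 0`, so it is `0`) and injective (same count, the image contains `o' O ≠ 0`).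
* Lemma PO: `G` good, `G ↪ Q` f.g. in the class with `ρ Q = 1` and `ρ G' ≥ 1` for all `G ≤ G' ≤ Q`.  Then
  every `R ≤ Q` has `ρ R = ρ (R ⊓ G) + ρ ((R ⊔ G)/G) ≥ 0`; take `R` maximal with `ρ R = 0`
  (noetherian): `R ⊓ G = 0` and `Q/R` is good.
* index type `ι := Σ' (r : ℕ) (R : Submodule Γ (Fin r → Γ)) (o : O →ₗ (Fin r → Γ) ⧸ R), good ∧ injective`,
  preorder `i ≤ j ↔ ∃ map under O`, directed by PO applied to the pushout `(G₁ × G₂) ⧸ {(o₁ x, -o₂ x)}`;
  `G := Module.DirectLimit`; transition maps injective.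
* `ext`: `φ (M₁)` lies in the image of a good `G_i`; pushout `Q = (G_i × M) ⧸ {(φ x, -x)}`,
  `Q / G_i ≅ M / M₁`; PO; `Q/R` is isomorphic (under `O`) to an indexed object `j ≥ i`. -/

set_option autoImplicit false

namespace Crest.Agent.R181

variable {Γ : Type} [Ring Γ]

theorem WM.sub (T : RhoTheory Γ) {M N : Type} [AddCommGroup M] [Module Γ M] [AddCommGroup N]
    [Module Γ N] (h : WM T.F N) (f : M →ₗ[Γ] N) (hf : Function.Injective f) : WM T.F M := by
  intro x
  refine T.up _ (h (f x)) _ fun a ha => ?_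
  rw [Ideal.mem_torsionOf_iff] at ha ⊢
  exact hf (by rw [map_smul, ha, map_zero])

theorem WM.quot (T : RhoTheory Γ) {M N : Type} [AddCommGroup M] [Module Γ M] [AddCommGroup N]
    [Module Γ N] (h : WM T.F M) (f : M →ₗ[Γ] N) (hf : Function.Surjective f) : WM T.F N := by
  intro y
  obtain ⟨x, rfl⟩ := hf y
  refine T.up _ (h x) _ fun a ha => ?_
  rw [Ideal.mem_torsionOf_iff] at ha ⊢
  rw [← map_smul, ha, map_zero]

theorem WM.prod (T : RhoTheory Γ) {M N : Type} [AddCommGroup M] [Module Γ M] [AddCommGroup N]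
    [Module Γ N] (h : WM T.F M) (h' : WM T.F N) : WM T.F (M × N) := by
  intro x
  refine T.up _ (T.inf _ (h x.1) _ (h' x.2)) _ fun a ha => ?_
  exact Prod.ext ha.1 ha.2

theorem WM.finsupp (T : RhoTheory Γ) {M : Type} [AddCommGroup M] [Module Γ M] (h : WM T.F M)
    (I : Type) : WM T.F (I →₀ M) := by
  intro x
  induction x using Finsupp.induction_linear with
  | zero => simpa using h 0
  | add f g hf hg =>
    refine T.up _ (T.inf _ hf _ hg) _ fun a ha => ?_
    have h1 : a • f = 0 := ha.1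
    have h2 : a • g = 0 := ha.2
    rw [Ideal.mem_torsionOf_iff, smul_add, h1, h2, add_zero]
  | single i m =>
    refine T.up _ (h m) _ fun a ha => ?_
    rw [Ideal.mem_torsionOf_iff] at ha ⊢
    rw [Finsupp.smul_single, ha, Finsupp.single_zero]

/-- additivity along a linear map -/
theorem RhoTheory.add_map (T : RhoTheory Γ) {M N : Type} [AddCommGroup M] [Module Γ M]
    [AddCommGroup N] [Module Γ N] [Module.Finite Γ M] (h : WM T.F M) (f : M →ₗ[Γ] N) :
    T.ρ M = T.ρ (LinearMap.ker f) + T.ρ (LinearMap.range f) := by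
  rw [T.add M h (LinearMap.ker f), T.iso _ _ f.quotKerEquivRange]

theorem RhoTheory.rho_subsingleton (T : RhoTheory Γ) (hF : ⊤ ∈ T.F) (M : Type) [AddCommGroup M]
    [Module Γ M] [Subsingleton M] : T.ρ M = 0 := by
  have hW : WM T.F M := fun x => by rw [Subsingleton.elim x 0, Ideal.torsionOf_zero]; exact hF
  have h := T.add M hW ⊥
  rw [T.iso _ _ (Submodule.quotEquivOfEqBot ⊥ rfl),
    T.iso (⊥ : Submodule Γ M) M (LinearEquiv.ofSubsingleton _ _)] at h
  omega

section Aloc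

variable {T : RhoTheory Γ}

theorem aloc_map_inj (T : RhoTheory Γ) {M N : Type} [AddCommGroup M] [Module Γ M] [AddCommGroup N]
    [Module Γ N] (f : M →ₗ[Γ] N) (hf : Function.Injective f) (P : Submodule Γ M) :
    T.ρ (P.map f) = T.ρ P :=
  (T.iso _ _ (Submodule.equivMapOfInjective f hf P)).symm

/-- additivity on a submodule -/
theorem aloc_restrict {M N : Type} [AddCommGroup M] [Module Γ M] [AddCommGroup N]
    [Module Γ N] [Module.Finite Γ M] (h : WM T.F M) (f : M →ₗ[Γ] N) (P : Submodule Γ M) :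
    T.ρ P = T.ρ ↥(P ⊓ LinearMap.ker f) + T.ρ (P.map f) := by
  have := T.noeth M h
  rw [T.add_map (h.sub T P.subtype P.injective_subtype) (f ∘ₗ P.subtype),
    ← aloc_map_inj T P.subtype P.injective_subtype, LinearMap.ker_comp, Submodule.map_comap_subtype,
    LinearMap.range_comp, Submodule.range_subtype]

/-- good modules -/
structure AlocGood (T : RhoTheory Γ) (G : Type) [AddCommGroup G] [Module Γ G] : Prop where
  fin : Module.Finite Γ G
  w : WM T.F G
  one : T.ρ G = 1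
  pos : ∀ P : Submodule Γ G, P ≠ ⊥ → 1 ≤ T.ρ P

variable {O G G' : Type} [AddCommGroup O] [Module Γ O] [AddCommGroup G] [Module Γ G]
  [AddCommGroup G'] [Module Γ G']

theorem AlocGood.top (h : AlocGood T G) : ⊤ ∈ T.F := by simpa using h.w 0

theorem AlocGood.nonneg (h : AlocGood T G) (P : Submodule Γ G) : 0 ≤ T.ρ P := by
  by_cases hP : P = ⊥
  · rw [hP, T.rho_subsingleton h.top]
  · exact zero_le_one.trans (h.pos P hP)

theorem AlocGood.range_ne (h : AlocGood T O) {o : O →ₗ[Γ] G} (ho : Function.Injective o) :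
    LinearMap.range o ≠ ⊥ := by
  intro hb
  have h1 := T.iso _ _ (LinearEquiv.ofInjective o ho)
  rw [h.one, hb, T.rho_subsingleton h.top] at h1
  exact one_ne_zero h1

theorem AlocGood.equiv (h : AlocGood T G) (e : G ≃ₗ[Γ] G') : AlocGood T G' := by
  have := h.fin
  refine ⟨Module.Finite.equiv e, h.w.quot T e.toLinearMap e.surjective,
    (T.iso _ _ e).symm.trans h.one, fun P hP => ?_⟩
  rw [← aloc_map_inj T e.symm.toLinearMap e.symm.injective]
  refine h.pos _ fun hb => hP ?_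
  exact Submodule.map_eq_bot_iff.1 hb

theorem AlocGood.unique (hO : AlocGood T O) (h : AlocGood T G) (h' : AlocGood T G')
    {o : O →ₗ[Γ] G} (ho : Function.Injective o) {f g : G →ₗ[Γ] G'} (hfg : f ∘ₗ o = g ∘ₗ o) :
    f = g := by
  have := h.fin
  have h1 := T.add_map h.w (f - g)
  have h2 : 1 ≤ T.ρ (LinearMap.ker (f - g)) := by
    refine h.pos _ fun hb => hO.range_ne ho (le_bot_iff.1 (hb ▸ ?_))
    rw [LinearMap.range_le_ker_iff, LinearMap.sub_comp, hfg, sub_self]
  by_contra hne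
  have h3 := h'.pos (LinearMap.range (f - g)) fun hb =>
    hne (sub_eq_zero.1 (LinearMap.range_eq_bot.1 hb))
  rw [h.one] at h1
  omega

theorem AlocGood.inj (hO : AlocGood T O) (h : AlocGood T G) (h' : AlocGood T G')
    {o : O →ₗ[Γ] G} {f : G →ₗ[Γ] G'} (hf : Function.Injective (f ∘ₗ o)) :
    Function.Injective f := by
  have := h.fin
  have h1 := T.add_map h.w f
  have h2 : 1 ≤ T.ρ (LinearMap.range f) :=
    h'.pos _ fun hb => hO.range_ne hf (le_bot_iff.1 (hb ▸ LinearMap.range_comp_le_range o f))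
  by_contra hne
  have h3 := h.pos (LinearMap.ker f) fun hb => hne (LinearMap.ker_eq_bot.1 hb)
  rw [h.one] at h1
  omega

/-- Lemma PO -/
theorem AlocGood.pushout (h : AlocGood T G) {N M : Type} [AddCommGroup N] [Module Γ N]
    [AddCommGroup M] [Module Γ M] [Module.Finite Γ M] (hM : WM T.F M) (j : N →ₗ[Γ] M)
    (hj : Function.Injective j) (h1 : T.ρ N = T.ρ M)
    (h2 : ∀ M' : Submodule Γ M, LinearMap.range j ≤ M' → T.ρ N ≤ T.ρ M') (φ : N →ₗ[Γ] G) :
    ∃ R : Submodule Γ (G × M), AlocGood T ((G × M) ⧸ R) ∧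
      Function.Injective (R.mkQ ∘ₗ LinearMap.inl Γ G M) ∧
      R.mkQ ∘ₗ LinearMap.inl Γ G M ∘ₗ φ = R.mkQ ∘ₗ LinearMap.inr Γ G M ∘ₗ j := by
  have := h.fin
  have hW : WM T.F (G × M) := h.w.prod T hM
  have := T.noeth _ hW
  set K : Submodule Γ (G × M) := LinearMap.range (φ.prod (-j)) with hK
  have hKi : Function.Injective (φ.prod (-j)) := fun x y hxy =>
    hj (neg_injective (congrArg Prod.snd hxy))
  have hKρ : T.ρ K = T.ρ N := (T.iso _ _ (LinearEquiv.ofInjective _ hKi)).symm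
  have hdec : ∀ R : Submodule Γ (G × M),
      T.ρ R = T.ρ (R.comap (LinearMap.inl Γ G M)) + T.ρ (R.map (LinearMap.snd Γ G M)) := by
    intro R
    rw [aloc_restrict hW (LinearMap.snd Γ G M) R, LinearMap.ker_snd, inf_comm,
      ← Submodule.map_comap_eq, aloc_map_inj T _ LinearMap.inl_injective]
  have hge : ∀ R : Submodule Γ (G × M), K ≤ R → T.ρ N ≤ T.ρ (R.map (LinearMap.snd Γ G M)) := by
    intro R hR
    refine h2 _ ?_
    rintro _ ⟨x, rfl⟩
    exact ⟨_, hR ⟨-x, rfl⟩, by simp⟩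
  obtain ⟨R, ⟨hKR, hR⟩, hmax⟩ := set_has_maximal_iff_noetherian.2
    (inferInstance : IsNoetherian Γ (G × M)) {R | K ≤ R ∧ T.ρ R = T.ρ N} ⟨K, le_rfl, hKρ⟩
  have htop : T.ρ (G × M) = 1 + T.ρ N := by
    rw [T.add_map hW (LinearMap.snd Γ G M), LinearMap.ker_snd, Submodule.range_snd,
      ← T.iso _ _ (LinearEquiv.ofInjective _ LinearMap.inl_injective), h.one,
      T.iso _ _ Submodule.topEquiv, h1]
  refine ⟨R, ⟨inferInstance, hW.quot T R.mkQ R.mkQ_surjective, ?_, fun P hP => ?_⟩, ?_, ?_⟩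
  · have h3 := T.add _ hW R
    omega
  · have h3 := aloc_restrict hW R.mkQ (P.comap R.mkQ)
    have hle : R ≤ P.comap R.mkQ := Submodule.le_comap_mkQ _ _
    rw [Submodule.ker_mkQ, inf_eq_right.2 hle,
      Submodule.map_comap_eq_of_surjective R.mkQ_surjective] at h3
    have h4 := hdec (P.comap R.mkQ)
    have h5 := hge _ (hKR.trans hle)
    have h6 := h.nonneg ((P.comap R.mkQ).comap (LinearMap.inl Γ G M))
    have h7 : T.ρ (P.comap R.mkQ) ≠ T.ρ N := by
      intro he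
      refine hmax _ ⟨hKR.trans hle, he⟩ (lt_of_le_of_ne hle fun hRP => hP ?_)
      rw [← Submodule.map_comap_eq_of_surjective R.mkQ_surjective P, ← hRP, Submodule.mkQ_map_self]
    omega
  · rw [← LinearMap.ker_eq_bot, LinearMap.ker_comp, Submodule.ker_mkQ]
    by_contra hne
    have h3 := h.pos _ hne
    have h4 := hdec R
    have h5 := hge R hKR
    omega
  · ext x
    refine (Submodule.Quotient.eq R).2 (hKR ⟨x, ?_⟩)
    simp

/-- the index set of the direct system -/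
structure AlocOb (T : RhoTheory Γ) (O : Type) [AddCommGroup O] [Module Γ O] : Type where
  r : ℕ
  R : Submodule Γ (Fin r → Γ)
  o : O →ₗ[Γ] (Fin r → Γ) ⧸ R
  inj : Function.Injective o
  good : AlocGood T ((Fin r → Γ) ⧸ R)

/-- the module of an index -/
abbrev AlocOb.M (i : AlocOb T O) : Type := (Fin i.r → Γ) ⧸ i.R

instance : Preorder (AlocOb T O) where
  le i j := ∃ f : i.M →ₗ[Γ] j.M, f ∘ₗ i.o = j.o
  le_refl i := ⟨LinearMap.id, rfl⟩
  le_trans i j k := fun ⟨f, hf⟩ ⟨g, hg⟩ => ⟨g ∘ₗ f, by rw [LinearMap.comp_assoc, hf, hg]⟩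

/-- the transition maps -/
noncomputable def alocTr (i j : AlocOb T O) (h : i ≤ j) : i.M →ₗ[Γ] j.M := Exists.choose h

theorem alocTr_spec (i j : AlocOb T O) (h : i ≤ j) : alocTr i j h ∘ₗ i.o = j.o :=
  Exists.choose_spec h

theorem AlocGood.exists_ob (h : AlocGood T G) {o : O →ₗ[Γ] G} (ho : Function.Injective o) :
    ∃ (i : AlocOb T O) (e : G ≃ₗ[Γ] i.M), e.toLinearMap ∘ₗ o = i.o := by
  have := h.fin
  obtain ⟨r, R, ⟨e⟩⟩ := Module.Finite.exists_fin_quot_equiv Γ G
  exact ⟨⟨r, R, e.symm.toLinearMap ∘ₗ o, e.symm.injective.comp ho, h.equiv e.symm⟩, e.symm, rfl⟩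

theorem AlocOb.ext_step (hO : AlocGood T O) (i : AlocOb T O) {N M : Type} [AddCommGroup N]
    [Module Γ N] [AddCommGroup M] [Module Γ M] [Module.Finite Γ M] (hM : WM T.F M) (j : N →ₗ[Γ] M)
    (hj : Function.Injective j) (h1 : T.ρ N = T.ρ M)
    (h2 : ∀ M' : Submodule Γ M, LinearMap.range j ≤ M' → T.ρ N ≤ T.ρ M') (φ : N →ₗ[Γ] i.M) :
    ∃ (k : AlocOb T O) (hik : i ≤ k) (ψ : M →ₗ[Γ] k.M), ψ ∘ₗ j = alocTr i k hik ∘ₗ φ := by
  obtain ⟨R, hg, hi, hc⟩ := i.good.pushout hM j hj h1 h2 φ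
  obtain ⟨k, e, he⟩ := hg.exists_ob (o := (R.mkQ ∘ₗ LinearMap.inl Γ i.M M) ∘ₗ i.o)
    (hi.comp i.inj)
  have hik : i ≤ k := ⟨e.toLinearMap ∘ₗ R.mkQ ∘ₗ LinearMap.inl Γ i.M M, he⟩
  have ht : alocTr i k hik = e.toLinearMap ∘ₗ R.mkQ ∘ₗ LinearMap.inl Γ i.M M :=
    hO.unique i.good k.good i.inj ((alocTr_spec i k hik).trans he.symm)
  refine ⟨k, hik, e.toLinearMap ∘ₗ R.mkQ ∘ₗ LinearMap.inr Γ i.M M, ?_⟩
  rw [ht]
  exact (congrArg (e.toLinearMap ∘ₗ ·) hc).symm

theorem aloc_directed (hO : AlocGood T O) : IsDirectedOrder (AlocOb T O) := by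
  refine ⟨fun i j => ?_⟩
  have := j.good.fin
  obtain ⟨k, hik, ψ, hψ⟩ := i.ext_step hO j.good.w j.o j.inj (hO.one.trans j.good.one.symm)
    (fun M' hM' => hO.one ▸ j.good.pos M' fun hb => hO.range_ne j.inj (le_bot_iff.1 (hb ▸ hM')))
    i.o
  exact ⟨k, hik, ψ, hψ.trans (alocTr_spec i k hik)⟩

theorem aloc_system (hO : AlocGood T O) :
    DirectedSystem (AlocOb.M (T := T) (O := O)) (alocTr · · ·) := by
  refine ⟨fun i x => ?_, fun k j i hij hjk x => ?_⟩
  · rw [hO.unique i.good i.good i.inj (g := LinearMap.id) (alocTr_spec i i le_rfl)]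
    rfl
  · rw [hO.unique i.good k.good i.inj (f := alocTr i k (hij.trans hjk))
      (g := alocTr j k hjk ∘ₗ alocTr i j hij)
      (by rw [LinearMap.comp_assoc, alocTr_spec, alocTr_spec, alocTr_spec])]
    rfl

theorem aloc_lim (hO : AlocGood T O) [Nonempty (AlocOb T O)] :
    ∃ (G : Type) (_ : AddCommGroup G) (_ : Module Γ G) (u : ∀ i : AlocOb T O, i.M →ₗ[Γ] G),
      (∀ i j h x, u j (alocTr i j h x) = u i x) ∧ (∀ z, ∃ i x, u i x = z) ∧
      ∀ i x y, u i x = u i y → ∃ j h, alocTr i j h x = alocTr i j h y := by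
  classical
  have := aloc_directed hO
  have := aloc_system hO
  exact ⟨Module.DirectLimit (AlocOb.M (T := T) (O := O)) alocTr, inferInstance,
    Module.DirectLimit.module _ _, Module.DirectLimit.of Γ _ _ alocTr,
    fun i j h x => Module.DirectLimit.of_f, Module.DirectLimit.exists_of,
    fun i x y => Module.DirectLimit.exists_eq_of_of_eq⟩

end Aloc

theorem exists_loc (T : RhoTheory Γ) (O : Type) [AddCommGroup O] [Module Γ O] [Module.Finite Γ O]
    (hW : WM T.F O) (h1 : T.ρ O = 1) (hsub : ∀ P : Submodule Γ O, P ≠ ⊥ → 1 ≤ T.ρ P) :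
    Nonempty (Loc T O) := by
  classical
  have hO : AlocGood T O := ⟨inferInstance, hW, h1, hsub⟩
  obtain ⟨i₀, -⟩ := hO.exists_ob (o := LinearMap.id) Function.injective_id
  have : Nonempty (AlocOb T O) := ⟨i₀⟩
  have := aloc_directed hO
  obtain ⟨G, _, _, u, u1, u2, u3⟩ := aloc_lim hO
  have hu : ∀ i, Function.Injective (u i) := fun i x y hxy => by
    obtain ⟨j, hij, h⟩ := u3 i x y hxy
    refine hO.inj i.good j.good (o := i.o) ?_ h
    rw [alocTr_spec]
    exact j.inj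
  have hmono : ∀ i j, i ≤ j → LinearMap.range (u i) ≤ LinearMap.range (u j) := by
    rintro i j hij _ ⟨x, rfl⟩
    exact ⟨alocTr i j hij x, u1 i j hij x⟩
  have hfg : ∀ P : Submodule Γ G, P.FG → ∃ i, P ≤ LinearMap.range (u i) := by
    intro P hP
    refine Submodule.fg_induction (motive := fun P _ => ∃ i, P ≤ LinearMap.range (u i))
      (fun x => ?_) (fun P Q _ _ ⟨i, hi⟩ ⟨j, hj⟩ => ?_) P hP
    · obtain ⟨i, y, rfl⟩ := u2 x
      exact ⟨i, (Submodule.span_singleton_le_iff_mem _ _).2 ⟨y, rfl⟩⟩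
    · obtain ⟨k, hik, hjk⟩ := exists_ge_ge i j
      exact ⟨k, sup_le (hi.trans (hmono i k hik)) (hj.trans (hmono j k hjk))⟩
  refine ⟨{ G := G, finO := inferInstance, rhoO := h1, w := fun x => ?_, i := u i₀ ∘ₗ i₀.o
            i_inj := (hu i₀).comp i₀.inj, pos := fun P hP hne => ?_, cof := fun P hP => ?_
            ext := fun M _ _ _ hM M₁ e1 e2 φ => ?_ }⟩
  · obtain ⟨i, y, rfl⟩ := u2 x
    refine T.up _ (i.good.w y) _ fun a ha => ?_
    rw [Ideal.mem_torsionOf_iff] at ha ⊢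
    rw [← map_smul, ha, map_zero]
  · obtain ⟨i, hi⟩ := hfg P hP
    have e := Submodule.map_comap_eq_self hi
    rw [← e, aloc_map_inj T _ (hu i)]
    refine i.good.pos _ fun hb => hne ?_
    rw [← e, hb, Submodule.map_bot]
  · obtain ⟨i, hi⟩ := hfg P hP
    have := i.good.fin
    exact ⟨_, hi, Submodule.fg_range _,
      (T.iso _ _ (LinearEquiv.ofInjective _ (hu i))).symm.trans i.good.one⟩
  · have := T.noeth M hM
    obtain ⟨i, hi⟩ := hfg (LinearMap.range φ) (Submodule.fg_range _)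
    let φ' : M₁ →ₗ[Γ] i.M := (LinearEquiv.ofInjective _ (hu i)).symm.toLinearMap ∘ₗ
      φ.codRestrict _ fun x => hi ⟨x, rfl⟩
    have hφ : ∀ x, u i (φ' x) = φ x := fun x =>
      congrArg Subtype.val ((LinearEquiv.ofInjective _ (hu i)).apply_symm_apply
        ⟨φ x, hi ⟨x, rfl⟩⟩)
    obtain ⟨k, hik, ψ, hψ⟩ := i.ext_step hO hM M₁.subtype M₁.injective_subtype e1
      (fun M' hM' => e2 M' (by rwa [Submodule.range_subtype] at hM')) φ'
    refine ⟨u k ∘ₗ ψ, fun x => ?_⟩
    have h3 : ψ x = alocTr i k hik (φ' x) := LinearMap.congr_fun hψ x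
    rw [LinearMap.comp_apply, h3, ← hφ, u1]

end Crest.Agent.R181
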