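import Crest.Agent.R181.ALoc

/-! # Row 181 A: additivity helpers for `ALocEnd` (Lemma S, Lemma T) -/

set_option autoImplicit false

namespace Crest.Agent.R181

variable {Γ : Type} [Ring Γ] {T : RhoTheory Γ} {M N : Type} [AddCommGroup M] [Module Γ M]
  [AddCommGroup N] [Module Γ N]

theorem alt_fg (hM : WM T.F M) {P Q : Submodule Γ M} (hP : P.FG) (h : Q ≤ P) : Q.FG := by
  have : Module.Finite Γ P := Module.Finite.iff_fg.2 hP
  have := T.noeth P (hM.sub T P.subtype P.injective_subtype)
  have h1 := (IsNoetherian.noetherian (Q.comap P.subtype)).map P.subtype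
  rwa [Submodule.map_comap_subtype, inf_eq_right.2 h] at h1

theorem alt_split (hM : WM T.F M) {P : Submodule Γ M} (hP : P.FG) (f : M →ₗ[Γ] N) :
    T.ρ P = T.ρ ↥(P ⊓ LinearMap.ker f) + T.ρ (P.map f) := by
  have : Module.Finite Γ P := Module.Finite.iff_fg.2 hP
  rw [T.add_map (hM.sub T P.subtype P.injective_subtype) (f.comp P.subtype),
    LinearMap.range_comp, Submodule.range_subtype]
  congr 1
  refine T.iso _ _ ((LinearEquiv.ofEq _ _ ?_).trans
    (Submodule.comapSubtypeEquivOfLe (inf_le_left : P ⊓ LinearMap.ker f ≤ P)))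
  ext x
  simp

theorem alt_bot (hM : WM T.F M) {P : Submodule Γ M} (h : P = ⊥) : T.ρ P = 0 := by
  subst h
  exact T.rho_subsingleton (by simpa using hM 0) _

theorem alt_finrank {D I : Type} [DivisionRing D] (J : Finset I) :
    Module.finrank D (Finsupp.supported D D (J : Set I)) = J.card := by
  rw [(Finsupp.supportedEquivFinsupp (J : Set I)).finrank_eq, Module.finrank_finsupp_self]
  simp

/-- a basis of `D^J` made of a basis of `N` inside `A` and standard vectors -/
theorem alt_basis {D I : Type} [DivisionRing D] (J : Finset I) (N : Submodule D (I →₀ D))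
    (hN : N ≤ Finsupp.supported D D (J : Set I)) (A : Set (I →₀ D)) (hA : Submodule.span D A = N) :
    ∃ (b : Type) (_ : Fintype b) (s : Finset b) (τ : (b →₀ D) →ₗ[D] I →₀ D)
      (κ : (I →₀ D) →ₗ[D] b →₀ D), (∀ c, κ (τ c) = c) ∧
      (∀ j ∈ J, τ (κ (Finsupp.single j 1)) = Finsupp.single j 1) ∧
      (Finsupp.supported D D (s : Set b)).map τ = N ∧
      (∀ β, τ (Finsupp.single β 1) ∈ A ∨ ∃ j ∈ J, τ (Finsupp.single β 1) = Finsupp.single j 1) ∧
      Fintype.card b = J.card ∧ s.card = Module.finrank D N := by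
  classical
  obtain ⟨A₁, hA₁, hsp, hli⟩ := exists_linearIndependent D A
  obtain ⟨b, hbt, hAb, htb, hb⟩ := exists_linearIndepOn_id_extension (K := D) (s := A₁)
    (t := A₁ ∪ (fun j => Finsupp.single j (1 : D)) '' (J : Set I)) hli Set.subset_union_left
  set τ := Finsupp.linearCombination D ((↑) : b → I →₀ D) with hτ
  have hinj : Function.Injective τ := hb
  obtain ⟨κ, hκ⟩ := τ.exists_leftInverse_of_injective (LinearMap.ker_eq_bot.2 hinj)
  have hκ' : ∀ c, κ (τ c) = c := fun c => LinearMap.congr_fun hκ c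
  have hr : LinearMap.range τ = Finsupp.supported D D (J : Set I) := by
    rw [hτ, Finsupp.range_linearCombination, Subtype.range_coe]
    refine le_antisymm (Submodule.span_le.2 fun x hx => ?_) ?_
    · rcases hbt hx with h | ⟨j, hj, rfl⟩
      · exact hN (hA ▸ Submodule.subset_span (hA₁ h))
      · exact Finsupp.single_mem_supported D _ hj
    · rw [Finsupp.supported_eq_span_single]
      exact Submodule.span_le.2 fun x hx => htb (Or.inr hx)
  have e : (b →₀ D) ≃ₗ[D] Finsupp.supported D D (J : Set I) :=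
    (LinearEquiv.ofInjective τ hinj).trans (LinearEquiv.ofEq _ _ hr)
  have : Module.Finite D (b →₀ D) :=
    Module.Finite.equiv (e.trans (Finsupp.supportedEquivFinsupp (J : Set I))).symm
  have : Finite b := Module.Finite.finite_basis (Finsupp.basisSingleOne (R := D))
  have := Fintype.ofFinite b
  have hs : (Finsupp.supported D D ((Finset.univ.filter fun β : b => β.1 ∈ A₁ : Finset b) :
      Set b)).map τ = N := by
    rw [hτ, ← Finsupp.span_image_eq_map_linearCombination, ← hA, ← hsp]
    congr 1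
    ext x
    simp only [Finset.coe_filter, Finset.mem_univ, true_and, Set.mem_image, Set.mem_ofPred_eq]
    exact ⟨fun ⟨β, h, e⟩ => e ▸ h, fun h => ⟨⟨x, hAb h⟩, h, rfl⟩⟩
  refine ⟨b, this, _, τ, κ, hκ', fun j hj => ?_, hs, fun β => ?_, ?_, ?_⟩
  · obtain ⟨c, hc⟩ : Finsupp.single j (1 : D) ∈ LinearMap.range τ :=
      hr ▸ Finsupp.single_mem_supported D _ hj
    rw [← hc, hκ']
  · rw [hτ, Finsupp.linearCombination_single, one_smul]
    rcases hbt β.2 with h | ⟨j, hj, h⟩
    · exact Or.inl (hA₁ h)
    · exact Or.inr ⟨j, hj, h.symm⟩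
  · rw [← alt_finrank (D := D) J, ← e.finrank_eq, Module.finrank_finsupp_self]
  · rw [← hs, ← (Submodule.equivMapOfInjective τ hinj _).finrank_eq, alt_finrank]

end Crest.Agent.R181
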