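import Crest.Agent.R181.ALoc
import Crest.Agent.R181.ALocEndAuxT

/-! # Row 181 A: endomorphisms of the localisation -/

set_option autoImplicit false

namespace Crest.Agent.R181

variable {Γ : Type} [Ring Γ] {T : RhoTheory Γ} {O : Type} [AddCommGroup O] [Module Γ O]
  (L : Loc T O)

/-- a map to `G` from a f.g. module with `ρ ≤ 0` all of whose nonzero submodules... precisely:
if `ρ M ≤ ρ (ker f)` then `f = 0` (the range has `ρ ≤ 0`). -/
theorem Loc.map_eq_zero {M : Type} [AddCommGroup M] [Module Γ M] [Module.Finite Γ M]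
    (hM : WM T.F M) (f : M →ₗ[Γ] L.G) (h : T.ρ M ≤ T.ρ (LinearMap.ker f)) : f = 0 := by
  have h1 := T.add_map hM f
  by_contra h0
  have h2 := L.pos (LinearMap.range f) (Submodule.fg_range f) (mt LinearMap.range_eq_bot.1 h0)
  omega

theorem Loc.top_mem (L : Loc T O) : ⊤ ∈ T.F := by
  simpa using L.w 0

theorem Loc.w_sub (Q : Submodule Γ L.G) : WM T.F Q := WM.sub T L.w Q.subtype Q.injective_subtype

/-- nonzero submodules of a f.g. submodule of `G` have `ρ ≥ 1` -/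
theorem Loc.pos_sub {Q : Submodule Γ L.G} (hQ : Q.FG) (R : Submodule Γ Q) (hR : R ≠ ⊥) :
    1 ≤ T.ρ R := by
  have : Module.Finite Γ Q := Module.Finite.iff_fg.2 hQ
  have := T.noeth Q (L.w_sub Q)
  rw [T.iso _ _ (Submodule.equivMapOfInjective Q.subtype Q.injective_subtype R)]
  refine L.pos _ ((IsNoetherian.noetherian R).map _) fun h => hR ?_
  exact Submodule.map_injective_of_injective Q.injective_subtype (h.trans (Submodule.map_bot _).symm)

/-- a map from a f.g. submodule with `ρ = 1` killing a nonzero element is zero -/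
theorem Loc.sub_eq_zero {Q : Submodule Γ L.G} (hQ : Q.FG) (h1 : T.ρ Q = 1) (f : Q →ₗ[Γ] L.G)
    {g : Q} (hg : g ≠ 0) (h : f g = 0) : f = 0 := by
  have : Module.Finite Γ Q := Module.Finite.iff_fg.2 hQ
  refine L.map_eq_zero (L.w_sub Q) f (h1.trans_le (L.pos_sub hQ _ ?_))
  exact (Submodule.ne_bot_iff _).2 ⟨g, h, hg⟩

theorem Loc.exists_ne_zero {P : Submodule Γ L.G} (h1 : T.ρ P = 1) : ∃ g ∈ P, g ≠ 0 := by
  rw [← Submodule.ne_bot_iff]
  rintro rfl
  have := T.rho_subsingleton L.top_mem (⊥ : Submodule Γ L.G)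
  omega

theorem Loc.rho_range : T.ρ (LinearMap.range L.i) = 1 := by
  rw [← T.iso _ _ (LinearEquiv.ofInjective L.i L.i_inj), L.rhoO]

theorem Loc.fg_range : (LinearMap.range L.i).FG := by
  have := L.finO
  exact Submodule.fg_range L.i

theorem Loc.range_ne_bot : LinearMap.range L.i ≠ ⊥ := by
  exact (Submodule.ne_bot_iff _).2 (L.exists_ne_zero L.rho_range)

/-- an endomorphism killing a nonzero element is zero (work in a f.g. `Q` with `ρ Q = 1`, `cof`). -/
theorem Loc.end_eq_zero (ε : Module.End Γ L.G) {g : L.G} (hg : g ≠ 0) (h : ε g = 0) : ε = 0 := by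
  ext x
  obtain ⟨Q, hQ, h1, h2⟩ := L.cof (Submodule.span Γ {g, x})
    (Submodule.fg_span (Set.toFinite _))
  have hgQ : g ∈ Q := hQ (Submodule.subset_span (by simp))
  have hxQ : x ∈ Q := hQ (Submodule.subset_span (by simp))
  have := L.sub_eq_zero h1 h2 (ε ∘ₗ Q.subtype) (g := ⟨g, hgQ⟩)
    (fun e => hg (congrArg Subtype.val e)) h
  exact LinearMap.congr_fun this ⟨x, hxQ⟩

/-- `ψ` is an extension of `φ` to a f.g. `Q` with `ρ Q = 1` -/
def Loc.Extn {P : Submodule Γ L.G} (φ : P →ₗ[Γ] L.G) (Q : Submodule Γ L.G) (ψ : Q →ₗ[Γ] L.G) :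
    Prop :=
  Q.FG ∧ T.ρ Q = 1 ∧ ∃ h : P ≤ Q, ∀ x : P, ψ ⟨x, h x.2⟩ = φ x

theorem Loc.exists_extn {P : Submodule Γ L.G} (hP : P.FG) (h1 : T.ρ P = 1) (φ : P →ₗ[Γ] L.G)
    {S : Submodule Γ L.G} (hS : S.FG) : ∃ Q ψ, S ≤ Q ∧ L.Extn φ Q ψ := by
  obtain ⟨Q, hQ, h2, h3⟩ := L.cof (P ⊔ S) (hP.sup hS)
  have hPQ : P ≤ Q := le_sup_left.trans hQ
  have : Module.Finite Γ Q := Module.Finite.iff_fg.2 h2
  have h4 : T.ρ (P.comap Q.subtype) = 1 := by
    rw [T.iso _ _ (Submodule.comapSubtypeEquivOfLe hPQ), h1]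
  obtain ⟨g, hg, hg0⟩ := L.exists_ne_zero h1
  obtain ⟨ψ, hψ⟩ := L.ext Q (L.w_sub Q) (P.comap Q.subtype) (h4.trans h3.symm)
    (fun M' hM' => h4.trans_le (L.pos_sub h2 _ ((Submodule.ne_bot_iff _).2
      ⟨⟨g, hPQ hg⟩, hM' hg, fun e => hg0 (congrArg Subtype.val e)⟩)))
    (φ ∘ₗ (Submodule.comapSubtypeEquivOfLe hPQ).toLinearMap)
  exact ⟨Q, ψ, le_sup_right.trans hQ, h2, h3, hPQ, fun x => hψ ⟨⟨x, hPQ x.2⟩, x.2⟩⟩

theorem Loc.Extn.eq_of_le {P : Submodule Γ L.G} (h1 : T.ρ P = 1) {φ : P →ₗ[Γ] L.G}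
    {Q Q' : Submodule Γ L.G} {ψ : Q →ₗ[Γ] L.G} {ψ' : Q' →ₗ[Γ] L.G} (h : L.Extn φ Q ψ)
    (h' : L.Extn φ Q' ψ') (hle : Q ≤ Q') (x : Q) : ψ x = ψ' ⟨x, hle x.2⟩ := by
  obtain ⟨g, hg, hg0⟩ := L.exists_ne_zero h1
  obtain ⟨a1, a2, a3, a4⟩ := h
  obtain ⟨-, -, b3, b4⟩ := h'
  have := L.sub_eq_zero a1 a2 (ψ - ψ' ∘ₗ Submodule.inclusion hle) (g := ⟨g, a3 hg⟩)
    (fun e => hg0 (congrArg Subtype.val e))
    (_root_.sub_eq_zero.2 ((a4 ⟨g, hg⟩).trans (b4 ⟨g, hg⟩).symm))
  exact _root_.sub_eq_zero.1 (LinearMap.congr_fun this x)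

/-- maps from a f.g. submodule with `ρ = 1` extend to endomorphisms (extend to every f.g. `Q ≥ P` with
`ρ Q = 1` by `ext`; extensions are unique, so they glue). -/
theorem Loc.exists_end (P : Submodule Γ L.G) (hP : P.FG) (h1 : T.ρ P = 1) (φ : P →ₗ[Γ] L.G) :
    ∃ ε : Module.End Γ L.G, ∀ x : P, ε x = φ x := by
  choose Q ψ hQ hψ using fun x : L.G =>
    L.exists_extn hP h1 φ (Submodule.fg_span_singleton (R := Γ) x)
  have hx : ∀ x, x ∈ Q x := fun x => hQ x (Submodule.mem_span_singleton_self x)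
  obtain ⟨e, he⟩ : ∃ e : L.G → L.G, ∀ Q' ψ', L.Extn φ Q' ψ' → ∀ x : Q', e x = ψ' x := by
    refine ⟨fun x => ψ x ⟨x, hx x⟩, fun Q' ψ' h' x => ?_⟩
    obtain ⟨Q₃, ψ₃, a1, a2⟩ := L.exists_extn hP h1 φ ((hψ x).1.sup h'.1)
    beta_reduce
    rw [Loc.Extn.eq_of_le L h1 (hψ x) a2 (le_sup_left.trans a1),
      Loc.Extn.eq_of_le L h1 h' a2 (le_sup_right.trans a1)]
  refine ⟨⟨⟨e, fun x y => ?_⟩, fun c x => ?_⟩, fun x => ?_⟩
  · obtain ⟨Q', ψ', a1, a2⟩ := L.exists_extn hP h1 φ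
      (Submodule.fg_span (R := Γ) (Set.toFinite {x, y}))
    have hxQ : x ∈ Q' := a1 (Submodule.subset_span (by simp))
    have hyQ : y ∈ Q' := a1 (Submodule.subset_span (by simp))
    rw [he Q' ψ' a2 ⟨x, hxQ⟩, he Q' ψ' a2 ⟨y, hyQ⟩, ← map_add]
    exact he Q' ψ' a2 (⟨x, hxQ⟩ + ⟨y, hyQ⟩)
  · change e (c • x) = c • e x
    rw [he _ _ (hψ x) ⟨x, hx x⟩, ← map_smul]
    exact he _ _ (hψ x) (c • ⟨x, hx x⟩)
  · exact he P φ ⟨hP, h1, le_rfl, fun _ => rfl⟩ x

theorem Loc.end_inj {ε : Module.End Γ L.G} (h : ε ≠ 0) : Function.Injective ε :=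
  (injective_iff_map_eq_zero ε).2 fun _ hx => by_contra fun hx0 => h (L.end_eq_zero ε hx0 hx)

theorem Loc.isUnit_or (ε : Module.End Γ L.G) : IsUnit ε ∨ ε = 0 := by
  refine or_iff_not_imp_right.2 fun h => ?_
  have hi := L.end_inj h
  obtain ⟨g, hg, hg0⟩ := L.exists_ne_zero L.rho_range
  have e := Submodule.equivMapOfInjective ε hi (LinearMap.range L.i)
  obtain ⟨ε', hε'⟩ := L.exists_end ((LinearMap.range L.i).map ε) (L.fg_range.map _)
    ((T.iso _ _ e).symm.trans L.rho_range) ((LinearMap.range L.i).subtype ∘ₗ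
      (Submodule.equivMapOfInjective ε hi (LinearMap.range L.i)).symm.toLinearMap)
  have h2 : ε' (ε g) = g := by
    have := hε' (Submodule.equivMapOfInjective ε hi (LinearMap.range L.i) ⟨g, hg⟩)
    rwa [LinearMap.comp_apply, LinearEquiv.coe_coe, LinearEquiv.symm_apply_apply] at this
  have h3 : ε' * ε = 1 := _root_.sub_eq_zero.1 (L.end_eq_zero (ε' * ε - 1) hg0 (_root_.sub_eq_zero.2 h2))
  have h4 : ε' ≠ 0 := by
    rintro rfl
    exact hg0 h2.symm
  have h5 : ε * ε' = 1 := LinearMap.ext fun x => L.end_inj h4 (LinearMap.congr_fun h3 (ε' x))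
  exact ⟨⟨ε, ε', h5, h3⟩, rfl⟩

/-- take a type synonym of `(End G)ᵐᵒᵖ` with `DivisionRing.ofIsUnitOrEqZero` -/
theorem Loc.exists_divRing : ∃ (D' : Type) (_ : DivisionRing D')
    (act : D' →+* (Module.End Γ L.G)ᵐᵒᵖ), Function.Bijective act := by
  obtain ⟨g, -, hg0⟩ := L.exists_ne_zero L.rho_range
  have : Nontrivial L.G := ⟨g, 0, hg0⟩
  refine ⟨(Module.End Γ L.G)ᵐᵒᵖ, DivisionRing.ofIsUnitOrEqZero fun a => ?_, RingHom.id _,
    Function.bijective_id⟩
  exact (L.isUnit_or a.unop).imp (fun h => by simpa using h.op) fun h => by simpa using h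

/-- Lemma S: induction on `J` (project to one coordinate: the image is nonzero, the kernel is f.g. by
`noeth` and contains the other `single`s). -/
theorem Loc.card_le_rho {I : Type} (J : Finset I) (P : Submodule Γ (I →₀ L.G)) (hP : P.FG)
    (hJ : ∀ j ∈ J, ∃ g : L.G, g ≠ 0 ∧ Finsupp.single j g ∈ P)
    (hsupp : P ≤ Finsupp.supported L.G Γ (J : Set I)) : (J.card : ℤ) ≤ T.ρ P := by
  classical
  have hW := L.w.finsupp T I
  induction J using Finset.induction_on generalizing P with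
  | empty => simp [alt_bot hW (by simpa using hsupp : P = ⊥)]
  | insert a J ha ih =>
    rw [alt_split hW hP (Finsupp.lapply a), Finset.card_insert_of_notMem ha, Nat.cast_succ]
    refine add_le_add (ih _ (alt_fg hW hP inf_le_left) (fun j hj => ?_) fun x hx => ?_)
      (L.pos _ (hP.map _) ?_)
    · obtain ⟨g, h0, hg⟩ := hJ j (Finset.mem_insert_of_mem hj)
      exact ⟨g, h0, hg, Finsupp.single_eq_of_ne (fun e => ha (e ▸ hj))⟩
    · refine (Finsupp.mem_supported' _ _).2 fun j hj => ?_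
      by_cases e : j = a
      · exact e ▸ hx.2
      · exact (Finsupp.mem_supported' _ _).1 (hsupp hx.1) j (by simpa [e] using hj)
    · obtain ⟨g, h0, hg⟩ := hJ a (Finset.mem_insert_self _ _)
      exact (Submodule.ne_bot_iff _).2 ⟨g, ⟨_, hg, by simp⟩, h0⟩

/-- `a · g`: the vector `j ↦ g · a_j` for the right action of `D'` on `G` -/
noncomputable def Loc.av {D' : Type} [Ring D'] (act : D' →+* (Module.End Γ L.G)ᵐᵒᵖ) {I : Type}
    (a : I →₀ D') (g : L.G) : I →₀ L.G :=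
  a.mapRange (fun d => (act d).unop g) (by simp)

/-- `G · N` -/
noncomputable def Loc.GN {D' : Type} [Ring D'] (act : D' →+* (Module.End Γ L.G)ᵐᵒᵖ) {I : Type}
    (N : Submodule D' (I →₀ D')) : Submodule Γ (I →₀ L.G) :=
  Submodule.span Γ {x | ∃ a ∈ N, ∃ g, x = L.av act a g}

/-- vectors supported in `J` with entries in `G₀` -/
def Loc.box {I : Type} (J : Finset I) (G₀ : Submodule Γ L.G) : Submodule Γ (I →₀ L.G) where
  carrier := {x | (∀ j, x j ∈ G₀) ∧ ∀ j, j ∉ J → x j = 0}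
  add_mem' := fun {a b} ha hb => ⟨fun j => G₀.add_mem (ha.1 j) (hb.1 j),
    fun j hj => by simp [ha.2 j hj, hb.2 j hj]⟩
  zero_mem' := ⟨fun _ => G₀.zero_mem, fun _ _ => rfl⟩
  smul_mem' := fun c x hx => ⟨fun j => G₀.smul_mem c (hx.1 j), fun j hj => by simp [hx.2 j hj]⟩

theorem Loc.box_empty {I : Type} (G₀ : Submodule Γ L.G) : L.box (∅ : Finset I) G₀ = ⊥ :=
  (Submodule.eq_bot_iff _).2 fun _ hx => Finsupp.ext fun j => hx.2 j (by simp)

theorem Loc.single_mem_box {I : Type} {J : Finset I} {G₀ : Submodule Γ L.G} {j : I} (hj : j ∈ J)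
    {g : L.G} (hg : g ∈ G₀) : Finsupp.single j g ∈ L.box J G₀ := by
  classical
  refine ⟨fun k => ?_, fun k hk => Finsupp.single_eq_of_ne fun e => hk (e ▸ hj)⟩
  rw [Finsupp.single_apply]
  split_ifs
  exacts [hg, G₀.zero_mem]

theorem Loc.box_map {I : Type} {J : Finset I} {a : I} (ha : a ∈ J) (G₀ : Submodule Γ L.G) :
    (L.box J G₀).map (Finsupp.lapply a) = G₀ := by
  refine le_antisymm ?_ fun g hg => ⟨_, L.single_mem_box ha hg, by simp⟩
  rintro _ ⟨x, hx, rfl⟩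
  exact hx.1 a

theorem Loc.box_inf_ker {I : Type} [DecidableEq I] {J : Finset I} {a : I} (ha : a ∉ J)
    (G₀ : Submodule Γ L.G) :
    L.box (insert a J) G₀ ⊓ LinearMap.ker (Finsupp.lapply a) = L.box J G₀ := by
  refine le_antisymm (fun x hx => ⟨hx.1.1, fun j hj => ?_⟩) fun x hx =>
    ⟨⟨hx.1, fun j hj => hx.2 j fun h => hj (Finset.mem_insert_of_mem h)⟩, hx.2 a ha⟩
  by_cases e : j = a
  · exact e ▸ hx.2
  · exact hx.1.2 j (by simpa [e] using hj)

theorem Loc.box_fg {I : Type} (J : Finset I) {G₀ : Submodule Γ L.G} (h : G₀.FG) :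
    (L.box J G₀).FG := by
  classical
  induction J using Finset.induction_on with
  | empty => exact L.box_empty G₀ ▸ Submodule.fg_bot
  | insert a J ha ih =>
    refine Submodule.fg_of_fg_map_of_fg_inf_ker (Finsupp.lapply a) ?_ ?_
    · rwa [L.box_map (Finset.mem_insert_self _ _)]
    · rwa [L.box_inf_ker ha]

theorem Loc.rho_box {I : Type} (J : Finset I) {G₀ : Submodule Γ L.G} (h : G₀.FG)
    (h1 : T.ρ G₀ = 1) : T.ρ (L.box J G₀) = J.card := by
  classical
  have hW := L.w.finsupp T I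
  induction J using Finset.induction_on with
  | empty => simpa using alt_bot hW (L.box_empty G₀)
  | insert a J ha ih =>
    rw [alt_split hW (L.box_fg _ h) (Finsupp.lapply a), L.box_map (Finset.mem_insert_self _ _),
      L.box_inf_ker ha, ih, h1, Finset.card_insert_of_notMem ha, Nat.cast_succ]

section tens

variable {D' : Type} [Ring D'] (act : D' →+* (Module.End Γ L.G)ᵐᵒᵖ) {I I' : Type}

theorem Loc.av_apply (a : I →₀ D') (g : L.G) (j : I) : L.av act a g j = (act (a j)).unop g := rfl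

theorem Loc.av_single (i : I) (d : D') (g : L.G) :
    L.av act (Finsupp.single i d) g = Finsupp.single i ((act d).unop g) :=
  Finsupp.mapRange_single

theorem Loc.av_one (i : I) (g : L.G) :
    L.av act (Finsupp.single i 1) g = Finsupp.single i g := by
  simp [L.av_single]

/-- `av a` as a linear map -/
noncomputable def Loc.avL (a : I →₀ D') : L.G →ₗ[Γ] I →₀ L.G where
  toFun := L.av act a
  map_add' x y := by ext j; simp [L.av_apply]
  map_smul' c x := by ext j; simp [L.av_apply]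

/-- `G ⊗ φ` -/
noncomputable def Loc.tens (φ : (I →₀ D') →ₗ[D'] I' →₀ D') : (I →₀ L.G) →ₗ[Γ] I' →₀ L.G :=
  Finsupp.lsum ℕ fun i => L.avL act (φ (Finsupp.single i 1))

theorem Loc.tens_single (φ : (I →₀ D') →ₗ[D'] I' →₀ D') (i : I) (g : L.G) :
    L.tens act φ (Finsupp.single i g) = L.av act (φ (Finsupp.single i 1)) g := by
  rw [Loc.tens, Finsupp.lsum_single]
  rfl

theorem Loc.tens_av (φ : (I →₀ D') →ₗ[D'] I' →₀ D') (a : I →₀ D') (g : L.G) :
    L.tens act φ (L.av act a g) = L.av act (φ a) g := by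
  have hadd : ∀ {K : Type} (a b : K →₀ D'), L.av act (a + b) g = L.av act a g + L.av act b g :=
    fun a b => by ext j; simp [L.av_apply]
  have h0 : ∀ {K : Type}, L.av act (0 : K →₀ D') g = 0 := by
    intro K; ext j; simp [L.av_apply]
  induction a using Finsupp.induction_linear with
  | zero => rw [map_zero, h0, h0, map_zero]
  | add a b ha hb => rw [map_add, hadd, hadd, map_add, ha, hb]
  | single i d =>
    rw [L.av_single, L.tens_single, ← Finsupp.smul_single_one i d, map_smul]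
    ext j
    simp [L.av_apply]

end tens

theorem alt_sum_single {I M : Type} [AddCommMonoid M] (J : Finset I) (y : I →₀ M)
    (h : ∀ j, j ∉ J → y j = 0) : y = ∑ j ∈ J, Finsupp.single j (y j) := by
  conv_lhs => rw [← Finsupp.sum_single y]
  exact Finsupp.sum_of_support_subset y (fun j hj => by_contra fun e =>
    Finsupp.mem_support_iff.1 hj (h j e)) _ (by simp)

/-- Lemma T.  Choose a `D'`-basis of `D'^J` made of a basis `A₁ ⊆ A` of `N` and standard vectors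
(`exists_linearIndepOn_extension`-style), `|J|` vectors `r_i`.  `Ψ (g_i) = ∑ av r_i g_i` is a
`Γ`-automorphism of `G^J` (inverse from the inverse matrix; `av (c • a) g = av a (g · c)`), with
`Ψ (G^{J₁} × 0) = GN`.  `P' = Ψ⁻¹ (box)` has `ρ = |J|` and contains all `single i g₀`; by `card_le_rho`,
`ρ (P' ⊓ G^{J₁}) ≥ |J₁|` and the projection to `G^{J₂}` has `ρ ≥ |J₂|`; the sum is `|J|`. -/
theorem Loc.rho_inf_GN {D' : Type} [DivisionRing D'] (act : D' →+* (Module.End Γ L.G)ᵐᵒᵖ)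
    {I : Type} (J : Finset I) (N : Submodule D' (I →₀ D'))
    (hN : N ≤ Finsupp.supported D' D' (J : Set I)) (A : Set (I →₀ D'))
    (hA : Submodule.span D' A = N) {G₀ : Submodule Γ L.G} (h : G₀.FG) (h1 : T.ρ G₀ = 1)
    {g₀ : L.G} (hg₀ : g₀ ≠ 0) (hg : g₀ ∈ G₀) (hAG : ∀ a ∈ A, ∀ j, (act (a j)).unop g₀ ∈ G₀) :
    T.ρ ↥(L.box J G₀ ⊓ L.GN act N) = Module.finrank D' N := by
  classical
  obtain ⟨b, _, s, τ, κ, h₁, h₂, h₃, h₄, h₅, h₆⟩ := alt_basis J N hN A hA
  have hW := L.w.finsupp T I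
  have hWb := L.w.finsupp T b
  have hP := L.box_fg J h
  have hinv : ∀ y ∈ L.box J G₀, L.tens act τ (L.tens act κ y) = y := fun y hy => by
    conv_rhs => rw [alt_sum_single J y hy.2]
    conv_lhs => rw [alt_sum_single J y hy.2, map_sum, map_sum]
    exact Finset.sum_congr rfl fun j hj => by rw [L.tens_single, L.tens_av, h₂ j hj, L.av_one]
  have hρ : ∀ Q ≤ L.box J G₀, T.ρ Q = T.ρ (Q.map (L.tens act κ)) := fun Q hQ => by
    rw [alt_split hW (alt_fg hW hP hQ) (L.tens act κ), alt_bot hW, zero_add]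
    exact (Submodule.eq_bot_iff _).2 fun y hy => by
      rw [← hinv y (hQ hy.1), show L.tens act κ y = 0 from hy.2, map_zero]
  have hsing : ∀ β, Finsupp.single β g₀ ∈ (L.box J G₀).map (L.tens act κ) := fun β => by
    refine ⟨L.av act (τ (Finsupp.single β 1)) g₀, ?_, by rw [L.tens_av, h₁, L.av_one]⟩
    rcases h₄ β with e | ⟨j, hj, e⟩
    · refine ⟨hAG _ e, fun j hj => ?_⟩
      rw [L.av_apply, (Finsupp.mem_supported' _ _).1 (hN (hA ▸ Submodule.subset_span e)) j hj]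
      simp
    · rw [e, L.av_one]
      exact L.single_mem_box hj hg
  let f : (b →₀ L.G) →ₗ[Γ] b →₀ L.G :=
    ⟨⟨Finsupp.filter (· ∉ s), fun _ _ => Finsupp.filter_add⟩, fun _ _ => Finsupp.filter_smul⟩
  have hf : ∀ z β, f z β = if β ∉ s then z β else 0 := fun z β => Finsupp.filter_apply _ _ _
  have hker : ∀ z, z ∈ LinearMap.ker f ↔ ∀ β, β ∉ s → z β = 0 := fun z => by
    simp [Finsupp.ext_iff, hf]
  have hP' := hP.map (L.tens act κ)
  have e1 := alt_split hWb hP' f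
  have e2 := L.card_le_rho s _ (alt_fg hWb hP' (inf_le_left (b := LinearMap.ker f)))
    (fun β hβ => ⟨g₀, hg₀, hsing β, (hker _).2 fun γ hγ =>
      Finsupp.single_eq_of_ne fun e => hγ (e ▸ hβ)⟩)
    fun z hz => (Finsupp.mem_supported' _ _).2 ((hker z).1 hz.2)
  have e3 := L.card_le_rho sᶜ _ (hP'.map f)
    (fun β hβ => ⟨g₀, hg₀, _, hsing β, Finsupp.filter_single_of_pos _ (Finset.mem_compl.1 hβ)⟩)
    (by
      rintro _ ⟨z, -, rfl⟩
      exact (Finsupp.mem_supported' _ _).2 fun β hβ => by rw [hf, if_neg (by simpa using hβ)])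
  have e4 : (L.box J G₀ ⊓ L.GN act N).map (L.tens act κ) =
      (L.box J G₀).map (L.tens act κ) ⊓ LinearMap.ker f := by
    refine le_antisymm (le_inf (Submodule.map_mono inf_le_left) ?_) ?_
    · refine Submodule.map_le_iff_le_comap.2 (inf_le_right.trans (Submodule.span_le.2 ?_))
      rintro _ ⟨a, ha, g, rfl⟩
      obtain ⟨c, hc, rfl⟩ := h₃ ▸ ha
      refine (hker _).2 fun β hβ => ?_
      rw [L.tens_av, h₁, L.av_apply, (Finsupp.mem_supported' _ _).1 hc β hβ]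
      simp
    · rintro _ ⟨⟨y, hy, rfl⟩, hz⟩
      refine ⟨y, ⟨hy, ?_⟩, rfl⟩
      rw [← hinv y hy, alt_sum_single s _ ((hker _).1 hz), map_sum]
      refine Submodule.sum_mem _ fun β hβ => Submodule.subset_span ⟨_, ?_, _, L.tens_single ..⟩
      exact h₃ ▸ ⟨_, Finsupp.single_mem_supported D' _ hβ, rfl⟩
  have e5 := Finset.card_add_card_compl s
  rw [← hρ _ le_rfl, L.rho_box J h h1] at e1
  rw [hρ _ inf_le_left, e4, ← h₆]
  omega

end Crest.Agent.R181
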