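import Crest.Agent.R181.ADefs

/-! # Row 181 A: `D[σ]` is left noetherian; homogeneous generators; evaluation at commuting elements -/

set_option autoImplicit false

namespace Crest.Agent.R181

open MvPolynomial

/-- leading exponent -/
def anLead {D σ : Type} [DivisionRing D] (m : MonomialOrder σ) (f : DP D σ) (μ : σ →₀ ℕ) : Prop :=
  f.coeff μ ≠ 0 ∧ ∀ ν, f.coeff ν ≠ 0 → m.toSyn ν ≤ m.toSyn μ

theorem an_exists_lead {D σ : Type} [DivisionRing D] (m : MonomialOrder σ) {f : DP D σ}
    (hf : f ≠ 0) : ∃ μ, anLead m f μ := by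
  have hne : f.coeff.support.Nonempty := by
    rw [Finsupp.support_nonempty_iff]
    intro h
    exact hf (AddMonoidAlgebra.coeff_injective h)
  obtain ⟨μ, h1, h2⟩ := f.coeff.support.exists_max_image (fun ν => m.toSyn ν) hne
  exact ⟨μ, Finsupp.mem_support_iff.1 h1, fun ν hν => h2 ν (Finsupp.mem_support_iff.2 hν)⟩

theorem an_reduce {D σ : Type} [DivisionRing D] (m : MonomialOrder σ) {f g : DP D σ}
    {μ β : σ →₀ ℕ} (hf : anLead m f μ) (hg : anLead m g β) (hβ : β ≤ μ) :
    ∃ a : DP D σ, ∀ ν, (f - a * g).coeff ν ≠ 0 → m.toSyn ν < m.toSyn μ := by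
  obtain ⟨τ, rfl⟩ : ∃ τ, μ = τ + β := ⟨μ - β, (tsub_add_cancel_of_le hβ).symm⟩
  refine ⟨AddMonoidAlgebra.single τ (f.coeff (τ + β) * (g.coeff β)⁻¹), fun ν hν => ?_⟩
  rw [AddMonoidAlgebra.coeff_sub, Finsupp.sub_apply] at hν
  have hne : ν ≠ τ + β := by
    rintro rfl
    rw [AddMonoidAlgebra.coeff_single_mul_add, inv_mul_cancel_right₀ hg.1, sub_self] at hν
    exact hν rfl
  refine lt_of_le_of_ne ?_ fun h => hne (m.toSyn.injective h)
  by_cases h1 : f.coeff ν = 0
  · by_cases h2 : ∃ ν', τ + ν' = ν
    · obtain ⟨ν', rfl⟩ := h2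
      rw [h1, AddMonoidAlgebra.coeff_single_mul_add] at hν
      have h3 : g.coeff ν' ≠ 0 := by
        intro h3
        rw [h3, mul_zero, sub_self] at hν
        exact hν rfl
      rw [map_add, map_add]
      exact add_le_add le_rfl (hg.2 ν' h3)
    · rw [h1, AddMonoidAlgebra.coeff_single_mul_of_forall_add_ne _ _ (not_exists.1 h2),
        sub_self] at hν
      exact absurd rfl hν
  · exact hf.2 ν h1

/-- Hilbert basis theorem over a division ring.  Dickson: fix a `MonomialOrder σ` (e.g. `lex` for a
well-order on the finite type `σ`); the set of leading exponents of a left ideal `N` is an upper set in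
`σ →₀ ℕ`, which is partially well ordered (`Finsupp.isPWO` / `WellQuasiOrderedLE`), so it has finitely many
minimal elements; the corresponding elements generate `N` (division, well-founded induction). -/
theorem isNoetherianRing_DP (D σ : Type) [DivisionRing D] [Finite σ] :
    IsNoetherianRing (DP D σ) := by
  obtain ⟨_, _⟩ := exists_wellFoundedGT σ
  let m : MonomialOrder σ := MonomialOrder.lex
  rw [isNoetherianRing_iff, isNoetherian_def]
  intro N
  let P : (σ →₀ ℕ) → Prop := fun μ => ∃ f ∈ N, anLead m f μ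
  have hfin : {μ | Minimal P μ}.Finite :=
    WellQuasiOrderedLE.finite_of_isAntichain (setOfPred_minimal_antichain P)
  have hch : ∀ β : {μ | Minimal P μ}, ∃ f ∈ N, anLead m f β := fun β => β.2.1
  choose g hgN hgL using hch
  have := hfin.to_subtype
  rw [Submodule.fg_def]
  refine ⟨Set.range g, Set.finite_range g, le_antisymm ?_ ?_⟩
  · rw [Submodule.span_le]
    rintro _ ⟨β, rfl⟩
    exact hgN β
  · have key : ∀ a : m.syn, ∀ f ∈ N, ∀ μ, anLead m f μ → m.toSyn μ = a →
        f ∈ Submodule.span (DP D σ) (Set.range g) := by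
      intro a
      induction a using WellFoundedLT.induction with
      | ind a ih =>
        rintro f hf μ hμ rfl
        obtain ⟨β, hβ, hβ'⟩ := exists_minimal_le_of_wellFoundedLT P μ ⟨f, hf, hμ⟩
        obtain ⟨c, hc⟩ := an_reduce m hμ (hgL ⟨β, hβ'⟩) hβ
        have h1 : c * g ⟨β, hβ'⟩ ∈ Submodule.span (DP D σ) (Set.range g) :=
          Submodule.smul_mem _ c (Submodule.subset_span ⟨_, rfl⟩)
        have h2 : f - c * g ⟨β, hβ'⟩ ∈ Submodule.span (DP D σ) (Set.range g) := by
          by_cases h0 : f - c * g ⟨β, hβ'⟩ = 0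
          · rw [h0]
            exact zero_mem _
          · obtain ⟨ν, hν⟩ := an_exists_lead m h0
            exact ih _ (hc ν hν.1) _ (N.sub_mem hf (N.smul_mem c (hgN _))) ν hν rfl
        simpa using add_mem h2 h1
    intro f hf
    by_cases h0 : f = 0
    · rw [h0]
      exact zero_mem _
    · obtain ⟨μ, hμ⟩ := an_exists_lead m h0
      exact key _ f hf μ hμ rfl

open Classical in
/-- the homogeneous component of weight `k` -/
noncomputable def anCmp {D σ G : Type} [DivisionRing D] [AddCommGroup G] (w : σ → G) (k : G) :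
    DP D σ →ₗ[D] DP D σ where
  toFun y := .ofCoeff (y.coeff.filter fun μ => Finsupp.weight w μ = k)
  map_add' x y := by
    ext μ
    simp [Finsupp.filter_add]
  map_smul' c x := by
    ext μ
    simp [Finsupp.filter_smul]

open Classical in
theorem anCmp_coeff {D σ G : Type} [DivisionRing D] [AddCommGroup G] (w : σ → G) (k : G)
    (y : DP D σ) (μ : σ →₀ ℕ) :
    (anCmp w k y).coeff μ = if Finsupp.weight w μ = k then y.coeff μ else 0 :=
  Finsupp.filter_apply _ _ _

theorem anCmp_self {D σ G : Type} [DivisionRing D] [AddCommGroup G] {w : σ → G} {k : G}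
    {y : DP D σ} (hy : y ∈ homW D w k) : anCmp w k y = y := by
  ext μ
  rw [anCmp_coeff]
  split_ifs with h
  · rfl
  · exact (AddMonoidAlgebra.mem_supported'.1 hy μ h).symm

theorem anCmp_ne {D σ G : Type} [DivisionRing D] [AddCommGroup G] {w : σ → G} {k l : G}
    {y : DP D σ} (hy : y ∈ homW D w l) (hkl : l ≠ k) : anCmp w k y = 0 := by
  ext μ
  rw [anCmp_coeff]
  split_ifs with h
  · exact AddMonoidAlgebra.mem_supported'.1 hy μ fun h' => hkl (h'.symm.trans h)
  · rfl

theorem an_single_mul_hom {D σ G : Type} [DivisionRing D] [AddCommGroup G] {w : σ → G} {l : G}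
    {y : DP D σ} (hy : y ∈ homW D w l) (μ : σ →₀ ℕ) (d : D) :
    AddMonoidAlgebra.single μ d * y ∈ homW D w (Finsupp.weight w μ + l) := by
  refine AddMonoidAlgebra.mem_supported'.2 fun ν hν => ?_
  by_cases h2 : ∃ ν', μ + ν' = ν
  · obtain ⟨ν', rfl⟩ := h2
    rw [AddMonoidAlgebra.coeff_single_mul_add, AddMonoidAlgebra.mem_supported'.1 hy ν', mul_zero]
    intro h
    refine hν ?_
    have h' : Finsupp.weight w ν' = l := h
    change Finsupp.weight w (μ + ν') = _
    rw [map_add, h']
  · exact AddMonoidAlgebra.coeff_single_mul_of_forall_add_ne _ _ (not_exists.1 h2)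

/-- finitely many homogeneous elements generate all homogeneous pieces of a left ideal
(`⨆ k, homW k ⊓ N` spans a finitely generated left ideal; take homogeneous components). -/
theorem exists_hom_gens {D σ G : Type} [DivisionRing D] [Finite σ] [AddCommGroup G] (w : σ → G)
    (N : Ideal (DP D σ)) :
    ∃ s : Finset (G × DP D σ), (∀ p ∈ s, p.2 ∈ homW D w p.1 ∧ p.2 ∈ N) ∧
      ∀ k, homW D w k ⊓ N.restrictScalars D ≤ Submodule.span D
        {x | ∃ p ∈ s, ∃ μ : σ →₀ ℕ, Finsupp.weight w μ + p.1 = k ∧
          x = AddMonoidAlgebra.single μ 1 * p.2} := by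
  classical
  have := isNoetherianRing_DP D σ
  let S : Set (DP D σ) := {x | ∃ k, x ∈ homW D w k ∧ x ∈ N}
  obtain ⟨t, htS, ht⟩ := (Submodule.fg_span_iff_fg_span_finset_subset S).1
    (IsNoetherian.noetherian (Submodule.span (DP D σ) S))
  have hch : ∀ x : t, ∃ k, (x : DP D σ) ∈ homW D w k ∧ (x : DP D σ) ∈ N := fun x => htS x.2
  choose κ hκ using hch
  let s : Finset (G × DP D σ) := Finset.univ.image fun x : t => (κ x, (x : DP D σ))
  have hs : ∀ p ∈ s, p.2 ∈ homW D w p.1 ∧ p.2 ∈ N := by
    intro p hp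
    obtain ⟨x, -, rfl⟩ := Finset.mem_image.1 hp
    exact hκ x
  refine ⟨s, hs, fun k x hx => ?_⟩
  have key : ∀ y ∈ Submodule.span (DP D σ) (t : Set (DP D σ)), ∀ a : DP D σ,
      anCmp w k (a * y) ∈ Submodule.span D
        {x | ∃ p ∈ s, ∃ μ : σ →₀ ℕ, Finsupp.weight w μ + p.1 = k ∧
          x = AddMonoidAlgebra.single μ 1 * p.2} := by
    intro y hy
    induction hy using Submodule.span_induction with
    | mem y hy =>
      intro a
      induction a using AddMonoidAlgebra.induction_linear with
      | zero => simp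
      | add a b iha ihb =>
        rw [add_mul, map_add]
        exact add_mem iha ihb
      | single μ d =>
        have h1 := an_single_mul_hom (hκ ⟨y, hy⟩).1 μ d
        by_cases h2 : Finsupp.weight w μ + κ ⟨y, hy⟩ = k
        · rw [h2] at h1
          rw [anCmp_self h1, ← mul_one d, ← AddMonoidAlgebra.smul_single', smul_mul_assoc]
          exact Submodule.smul_mem _ d (Submodule.subset_span
            ⟨(κ ⟨y, hy⟩, y), Finset.mem_image.2 ⟨⟨y, hy⟩, Finset.mem_univ _, rfl⟩, μ, h2, rfl⟩)
        · rw [anCmp_ne h1 h2]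
          exact zero_mem _
    | zero => simp
    | add y z _ _ ihy ihz =>
      intro a
      rw [mul_add, map_add]
      exact add_mem (ihy a) (ihz a)
    | smul b y _ ih =>
      intro a
      rw [smul_eq_mul, ← mul_assoc]
      exact ih _
  have h1 := key x (ht ▸ Submodule.subset_span ⟨k, hx.1, hx.2⟩) 1
  rwa [one_mul, anCmp_self hx.1] at h1

open scoped IsMulCommutative in
theorem an_exists_mon {σ R : Type*} [Monoid R] (z : σ → R) (hz : ∀ v w, Commute (z v) (z w)) :
    ∃ g : Multiplicative (σ →₀ ℕ) →* R, (∀ v, g (.ofAdd (Finsupp.single v 1)) = z v) ∧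
      ∀ μ r, (∀ v, Commute r (z v)) → Commute r (g μ) := by
  have := Submonoid.isMulCommutative_closure R (s := Set.range z) (by
    rintro _ ⟨v, rfl⟩ _ ⟨w, rfl⟩
    exact (hz v w).eq)
  let z' : σ → Submonoid.closure (Set.range z) := fun v =>
    ⟨z v, Submonoid.subset_closure ⟨v, rfl⟩⟩
  let g₀ : Multiplicative (σ →₀ ℕ) →* Submonoid.closure (Set.range z) :=
    { toFun := fun μ => μ.toAdd.prod fun v n => z' v ^ n
      map_one' := Finsupp.prod_zero_index
      map_mul' := fun μ ν => Finsupp.prod_add_index' (fun _ => pow_zero _) fun _ _ _ => pow_add _ _ _ }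
  refine ⟨(Submonoid.subtype _).comp g₀, fun v => ?_, fun μ r hr => ?_⟩
  · change (((Finsupp.single v 1).prod fun v n => z' v ^ n : Submonoid.closure (Set.range z)) : R) = _
    rw [Finsupp.prod_single_index (h := fun v n => z' v ^ n) (pow_zero _), pow_one]
  · have h1 : Submonoid.closure (Set.range z) ≤ Submonoid.centralizer {r} := by
      rw [Submonoid.closure_le]
      rintro _ ⟨v, rfl⟩ _ rfl
      exact (hr v).eq
    exact h1 (g₀ μ).2 r rfl

theorem an_evalDP {D σ R : Type*} [Ring D] [Ring R] (φ : D →+* R) (z : σ → R)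
    (hz : ∀ v w, Commute (z v) (z w)) (hφ : ∀ c v, Commute (φ c) (z v)) :
    ∃ χ : DP D σ →+* R, (∀ c, χ (AddMonoidAlgebra.single 0 c) = φ c) ∧
      ∀ v, χ (AddMonoidAlgebra.single (Finsupp.single v 1) 1) = z v := by
  obtain ⟨g, h1, h2⟩ := an_exists_mon z hz
  refine ⟨AddMonoidAlgebra.liftNCRingHom φ g fun c μ => h2 μ _ (hφ c), fun c => ?_, fun v => ?_⟩
  · rw [AddMonoidAlgebra.liftNCRingHom_single, ofAdd_zero, map_one, mul_one]
  · rw [AddMonoidAlgebra.liftNCRingHom_single, map_one, one_mul, h1]

/-- evaluation of commutative polynomials at commuting elements of a noncommutative ring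
(work in the commutative subring generated by the images, or use `AddMonoidAlgebra.liftNCRingHom`). -/
theorem exists_eval {K σ R : Type*} [CommRing K] [Ring R] (φ : K →+* R) (z : σ → R)
    (hz : ∀ v w, Commute (z v) (z w)) (hφ : ∀ c v, Commute (φ c) (z v)) :
    ∃ χ : MvPolynomial σ K →+* R, (∀ c, χ (C c) = φ c) ∧ ∀ v, χ (X v) = z v := by
  exact an_evalDP φ z hz hφ

/-- the same for noncommutative coefficients -/
theorem exists_evalDP {D σ R : Type*} [Ring D] [Ring R] (φ : D →+* R) (z : σ → R)
    (hz : ∀ v w, Commute (z v) (z w)) (hφ : ∀ c v, Commute (φ c) (z v)) :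
    ∃ χ : DP D σ →+* R, (∀ c, χ (AddMonoidAlgebra.single 0 c) = φ c) ∧
      ∀ v, χ (AddMonoidAlgebra.single (Finsupp.single v 1) 1) = z v := by
  exact an_evalDP φ z hz hφ

/-- `inc` lands in the centre -/
theorem inc_commute {K D σ : Type*} [CommRing K] [Ring D] [Algebra K D] (F : MvPolynomial σ K)
    (x : DP D σ) : Commute (inc K D σ F) x := by
  induction F using AddMonoidAlgebra.induction_linear with
  | zero => rw [map_zero]; exact Commute.zero_left x
  | add F G ihF ihG => rw [map_add]; exact ihF.add_left ihG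
  | single μ c =>
    rw [inc, AddMonoidAlgebra.mapRingHom_single]
    induction x using AddMonoidAlgebra.induction_linear with
    | zero => exact Commute.zero_right _
    | add x y ihx ihy => exact ihx.add_right ihy
    | single ν d =>
      rw [Commute, SemiconjBy, AddMonoidAlgebra.single_mul_single,
        AddMonoidAlgebra.single_mul_single, add_comm, Algebra.commutes]

end Crest.Agent.R181
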