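import Crest.Agent.R181.ANoeth
import Crest.Agent.R181.ABlk

/-! # Row 181 A: module form of `P1`, and the structure of `Hsp`.
`PM`: induct on the generating set `s` (for all `Y`; or filter `U` by `U^{(i)} ⊔ Y`).  For one more generator
`g` of degree `k₀` and `Y' ≥ Y` the family reached so far (stable, inside `U`): the left `D`-linear map
`ev : D[σ] → X`, `single μ d ↦ d • χ (monomial μ 1) g` (`Finsupp.linearCombination`/`lsum`), satisfies
`ev (inc F * x) = χ F (ev x)`; `N := ⨆ k, (homW k ⊓ comap ev (Y' (k + k₀)))` is a left ideal containing the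
equations with `homW k ⊓ N = homW k ⊓ comap ev (Y' (k + k₀))`, and
`dim (Y' (k+k₀) ⊔ ev (homW k)) - dim (Y' (k+k₀)) = codim N k`.  `EvIn` is additive and shift invariant. -/

set_option autoImplicit false

namespace Crest.Agent.R181

open MvPolynomial

variable {n : ℕ} {B : Type} [Fintype B] [DecidableEq B]

theorem Hsp_gen (δ : B → Fin n → ℕ) (J : Finset B) :
    (fun k : B → ℤ => ∏ b, if b ∈ J then bN (δ b) else bh (δ b) (k b)) ∈ Hsp δ :=
  AddSubgroup.subset_closure ⟨J, rfl⟩

theorem Hsp_prod (δ : B → Fin n → ℕ) (a c : B → ℤ) :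
    (fun k : B → ℤ => ∏ b, (c b * bN (δ b) + a b * bh (δ b) (k b))) ∈ Hsp δ := by
  have : (fun k : B → ℤ => ∏ b, (c b * bN (δ b) + a b * bh (δ b) (k b))) =
      ∑ J ∈ (Finset.univ : Finset B).powerset, (∏ b, if b ∈ J then c b else a b) •
        (fun k : B → ℤ => ∏ b, if b ∈ J then bN (δ b) else bh (δ b) (k b)) := by
    funext k
    rw [Finset.prod_add, Finset.sum_apply]
    refine Finset.sum_congr rfl fun J _ => ?_
    simp only [Pi.smul_apply, smul_eq_mul]
    rw [← Finset.prod_mul_distrib]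
    have h1 : ∀ b, ((if b ∈ J then c b else a b) * if b ∈ J then bN (δ b) else bh (δ b) (k b)) =
        if b ∈ J then c b * bN (δ b) else a b * bh (δ b) (k b) := by
      intro b; split_ifs <;> rfl
    simp only [h1]
    rw [Finset.prod_ite]
    congr 1
    · refine Finset.prod_congr ?_ fun _ _ => rfl
      ext b; simp
    · refine Finset.prod_congr ?_ fun _ _ => rfl
      ext b; simp
  rw [this]
  exact AddSubgroup.sum_mem _ fun J _ => AddSubgroup.zsmul_mem _ (Hsp_gen δ J) _

theorem Hsp_shift (δ : B → Fin n → ℕ) {ψ : (B → ℤ) → ℤ} (h : ψ ∈ Hsp δ) (d : B → ℤ) :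
    (fun k => ψ (k + d)) ∈ Hsp δ := by
  induction h using AddSubgroup.closure_induction with
  | mem φ hφ =>
    obtain ⟨J, rfl⟩ := hφ
    have := Hsp_prod δ (fun b => if b ∈ J then 0 else 1) (fun b => if b ∈ J then 1 else d b)
    convert this using 3 with k b
    split_ifs
    · simp
    · rw [Pi.add_apply, bh_eq (δ b) (k b + d b), bh_eq (δ b) (k b)]; ring
  | zero => exact zero_mem _
  | add x y _ _ hx hy => exact add_mem hx hy
  | neg x _ hx => exact neg_mem hx

theorem EvIn.shift {δ : B → Fin n → ℕ} {φ : (B → ℤ) → ℤ} (h : EvIn φ (Hsp δ)) (d : B → ℤ) :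
    EvIn (fun k => φ (k + d)) (Hsp δ) := by
  obtain ⟨ψ, hψ, k₀, hk⟩ := h
  exact ⟨_, Hsp_shift δ hψ d, k₀ - d, fun k hk' => hk _ (sub_le_iff_le_add.1 hk')⟩

omit [Fintype B] [DecidableEq B] in
theorem EvIn.add {H : AddSubgroup ((B → ℤ) → ℤ)} {φ φ' : (B → ℤ) → ℤ} (h : EvIn φ H)
    (h' : EvIn φ' H) : EvIn (φ + φ') H := by
  obtain ⟨ψ, hψ, k₀, hk⟩ := h
  obtain ⟨ψ', hψ', k₀', hk'⟩ := h'
  refine ⟨ψ + ψ', add_mem hψ hψ', k₀ ⊔ k₀', fun k hk2 => ?_⟩
  rw [Pi.add_apply, Pi.add_apply, hk k (le_sup_left.trans hk2), hk' k (le_sup_right.trans hk2)]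

theorem Hsp_option (δ₀ : Fin n → ℕ) (δ : B → Fin n → ℕ) {ψ : (Option B → ℤ) → ℤ}
    (h : ψ ∈ Hsp (fun o : Option B => o.elim δ₀ δ)) :
    ∃ A ∈ Hsp δ, ∃ C ∈ Hsp δ, ∀ k : Option B → ℤ,
      ψ k = A (fun b => k (some b)) * bh δ₀ (k none) + C (fun b => k (some b)) * bN δ₀ := by
  induction h using AddSubgroup.closure_induction with
  | mem φ hφ =>
    obtain ⟨J, rfl⟩ := hφ
    have hg := Hsp_gen δ (Finset.univ.filter fun b => some b ∈ J)
    by_cases hJ : none ∈ J
    · refine ⟨0, zero_mem _, _, hg, fun k => ?_⟩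
      simp only [Fintype.prod_option, hJ, if_true, Option.elim, Finset.mem_filter,
        Finset.mem_univ, true_and, Pi.zero_apply]
      ring
    · refine ⟨_, hg, 0, zero_mem _, fun k => ?_⟩
      simp only [Fintype.prod_option, hJ, if_false, Option.elim, Finset.mem_filter,
        Finset.mem_univ, true_and, Pi.zero_apply]
      ring
  | zero => exact ⟨0, zero_mem _, 0, zero_mem _, fun k => by simp⟩
  | add x y _ _ hx hy =>
    obtain ⟨A, hA, C, hC, h⟩ := hx
    obtain ⟨A', hA', C', hC', h'⟩ := hy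
    refine ⟨A + A', add_mem hA hA', C + C', add_mem hC hC', fun k => ?_⟩
    simp only [Pi.add_apply, h k, h' k]; ring
  | neg x _ hx =>
    obtain ⟨A, hA, C, hC, h⟩ := hx
    refine ⟨-A, neg_mem hA, -C, neg_mem hC, fun k => ?_⟩
    simp only [Pi.neg_apply, h k]; ring

theorem Hsp_unit (δ₀ : Fin n → ℕ) {ψ : (Unit → ℤ) → ℤ} (h : ψ ∈ Hsp (fun _ : Unit => δ₀)) :
    ∃ r e : ℤ, ∀ k : ℤ, ψ (fun _ => k) = r * bh δ₀ k + e * bN δ₀ := by
  induction h using AddSubgroup.closure_induction with
  | mem φ hφ =>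
    obtain ⟨J, rfl⟩ := hφ
    by_cases hJ : () ∈ J
    · exact ⟨0, 1, fun k => by simp [hJ]⟩
    · exact ⟨1, 0, fun k => by simp [hJ]⟩
  | zero => exact ⟨0, 0, fun k => by simp⟩
  | add x y _ _ hx hy =>
    obtain ⟨r, e, h⟩ := hx
    obtain ⟨r', e', h'⟩ := hy
    refine ⟨r + r', e + e', fun k => ?_⟩
    simp only [Pi.add_apply, h k, h' k]; ring
  | neg x _ hx =>
    obtain ⟨r, e, h⟩ := hx
    refine ⟨-r, -e, fun k => ?_⟩
    simp only [Pi.neg_apply, h k]; ring

section PMaux

set_option linter.unusedSectionVars false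

/-- rank-nullity on a submodule -/
theorem pm_finrank_map_add {D V X : Type*} [DivisionRing D] [AddCommGroup V] [Module D V]
    [AddCommGroup X] [Module D X] (f : V →ₗ[D] X) (A : Submodule D V) [Module.Finite D A] :
    Module.finrank D (A.map f) + Module.finrank D ↥(A ⊓ LinearMap.ker f) = Module.finrank D A := by
  have h := LinearMap.finrank_range_add_finrank_ker (f.domRestrict A)
  rw [LinearMap.range_domRestrict, LinearMap.ker_domRestrict] at h
  rw [← h, ← Submodule.map_comap_subtype, Submodule.finrank_map_subtype_eq]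

theorem pm_dim {D V X : Type*} [DivisionRing D] [AddCommGroup V] [Module D V]
    [AddCommGroup X] [Module D X] (f : V →ₗ[D] X) (A : Submodule D V) [Module.Finite D A]
    (Y : Submodule D X) [Module.Finite D Y] :
    (Module.finrank D ↥(Y ⊔ A.map f) : ℤ) - Module.finrank D Y =
      (Module.finrank D A : ℤ) - Module.finrank D ↥(A ⊓ Y.comap f) := by
  have h1 := pm_finrank_map_add (Y.mkQ ∘ₗ f) A
  have h2 := pm_finrank_map_add Y.mkQ (Y ⊔ A.map f)
  rw [LinearMap.ker_comp, Submodule.ker_mkQ, Submodule.map_comp] at h1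
  have e1 : (Y ⊔ A.map f).map Y.mkQ = (A.map f).map Y.mkQ := by
    rw [Submodule.map_sup, Submodule.mkQ_map_self, bot_sup_eq]
  have e2 : (Y ⊔ A.map f) ⊓ LinearMap.ker Y.mkQ = Y := by
    rw [Submodule.ker_mkQ]; exact inf_eq_right.2 le_sup_left
  rw [e1, e2] at h2
  omega

variable {K D : Type} [Field K] [DivisionRing D] [Algebra K D] {X : Type} [AddCommGroup X]
  [Module D X]

theorem pm_mon_mem (χ : MvPolynomial (B × BV n) K →+* Module.End D X)
    (Y : (B → ℤ) → Submodule D X)
    (hY : ∀ b v k, ∀ x ∈ Y k, χ (MvPolynomial.X (b, v)) x ∈ Y (k + Pi.single b 1))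
    (μ : B × BV n →₀ ℕ) : ∀ k, ∀ x ∈ Y k,
      χ (monomial μ 1) x ∈ Y (k + Finsupp.weight (bw B n) μ) := by
  induction μ using Finsupp.induction_linear with
  | zero =>
    intro k x hx
    have : (monomial (0 : B × BV n →₀ ℕ) (1 : K)) = 1 := rfl
    simpa [this] using hx
  | add f g hf hg =>
    intro k x hx
    have : (monomial (f + g) (1 : K)) = monomial g 1 * monomial f 1 := by
      rw [monomial_mul, one_mul, add_comm]
    rw [this, map_mul, map_add, ← add_assoc]
    exact hg _ _ (hf _ _ hx)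
  | single a m =>
    induction m with
    | zero =>
      intro k x hx
      have : (monomial (0 : B × BV n →₀ ℕ) (1 : K)) = 1 := rfl
      simpa [this] using hx
    | succ m ih =>
      intro k x hx
      have : (monomial (Finsupp.single a (m + 1)) (1 : K)) =
          MvPolynomial.X a * monomial (Finsupp.single a m) 1 := by
        rw [MvPolynomial.X, monomial_mul, one_mul, ← Finsupp.single_add, add_comm]
      rw [this, map_mul, Finsupp.single_add, map_add, ← add_assoc]
      have h1 : Finsupp.weight (bw B n) (Finsupp.single a 1) = Pi.single a.1 1 := by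
        rw [Finsupp.weight_single, one_smul]; rfl
      rw [h1]
      exact hY a.1 a.2 _ _ (ih _ _ hx)

/-- evaluation of the weight `k` component at `g` -/
noncomputable def pmEv (χ : MvPolynomial (B × BV n) K →+* Module.End D X) (g : X) (k : B → ℤ) :
    DP D (B × BV n) →ₗ[D] X :=
  Finsupp.linearCombination D
      (fun μ : B × BV n →₀ ℕ =>
        if Finsupp.weight (bw B n) μ = k then χ (monomial μ 1) g else 0) ∘ₗ
    (AddMonoidAlgebra.coeffLinearEquiv D).toLinearMap

theorem pmEv_single (χ : MvPolynomial (B × BV n) K →+* Module.End D X) (g : X) (k : B → ℤ)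
    (μ : B × BV n →₀ ℕ) (d : D) :
    pmEv χ g k (AddMonoidAlgebra.single μ d) =
      if Finsupp.weight (bw B n) μ = k then d • χ (monomial μ 1) g else 0 := by
  have : pmEv χ g k (AddMonoidAlgebra.single μ d) = Finsupp.linearCombination D
      (fun μ : B × BV n →₀ ℕ =>
        if Finsupp.weight (bw B n) μ = k then χ (monomial μ 1) g else 0)
      (Finsupp.single μ d) := rfl
  rw [this, Finsupp.linearCombination_single]
  split_ifs <;> simp

theorem pmEv_mul (χ : MvPolynomial (B × BV n) K →+* Module.End D X) (g : X) (k : B → ℤ)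
    (μ : B × BV n →₀ ℕ) (d : D) (F : DP D (B × BV n)) :
    pmEv χ g k (AddMonoidAlgebra.single μ d * F) =
      d • χ (monomial μ 1) (pmEv χ g (k - Finsupp.weight (bw B n) μ) F) := by
  induction F using AddMonoidAlgebra.induction_linear with
  | zero => simp
  | add F G hF hG => rw [mul_add, map_add, hF, hG, map_add, map_add, smul_add]
  | single ν e =>
    rw [AddMonoidAlgebra.single_mul_single, pmEv_single, pmEv_single]
    have hiff : Finsupp.weight (bw B n) (μ + ν) = k ↔
        Finsupp.weight (bw B n) ν = k - Finsupp.weight (bw B n) μ := by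
      rw [map_add, eq_sub_iff_add_eq, add_comm]
    by_cases h : Finsupp.weight (bw B n) ν = k - Finsupp.weight (bw B n) μ
    · rw [if_pos h, if_pos (hiff.2 h), map_smul, smul_smul]
      have : (monomial (μ + ν) (1 : K)) = monomial μ 1 * monomial ν 1 := by
        rw [monomial_mul, one_mul]
      rw [this, map_mul]; rfl
    · rw [if_neg h, if_neg (fun h' => h (hiff.1 h'))]; simp

/-- the left ideal of relations of `g` modulo `Y` -/
noncomputable def pmN (χ : MvPolynomial (B × BV n) K →+* Module.End D X) (g : X) (k₀ : B → ℤ)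
    (Y : (B → ℤ) → Submodule D X)
    (hY : ∀ b v k, ∀ x ∈ Y k, χ (MvPolynomial.X (b, v)) x ∈ Y (k + Pi.single b 1)) :
    Ideal (DP D (B × BV n)) where
  carrier := {F | ∀ k, pmEv χ g k F ∈ Y (k + k₀)}
  add_mem' := fun {a b} ha hb k => by
    rw [map_add]; exact add_mem (ha k) (hb k)
  zero_mem' := fun k => by rw [map_zero]; exact zero_mem _
  smul_mem' := fun r F hF => by
    change ∀ k, pmEv χ g k (r * F) ∈ Y (k + k₀)
    induction r using AddMonoidAlgebra.induction_linear with
    | zero => intro k; rw [zero_mul, map_zero]; exact zero_mem _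
    | add r s hr hs => intro k; rw [add_mul, map_add]; exact add_mem (hr k) (hs k)
    | single μ d =>
      intro k
      rw [pmEv_mul]
      refine Submodule.smul_mem _ _ ?_
      have := pm_mon_mem χ Y hY μ _ _ (hF (k - Finsupp.weight (bw B n) μ))
      have e : k - Finsupp.weight (bw B n) μ + k₀ + Finsupp.weight (bw B n) μ = k + k₀ := by abel
      rwa [e] at this

theorem pmEv_homW_ne (χ : MvPolynomial (B × BV n) K →+* Module.End D X) (g : X) {k k' : B → ℤ}
    (hk : k ≠ k') {F : DP D (B × BV n)} (hF : F ∈ homW D (bw B n) k) : pmEv χ g k' F = 0 := by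
  have : homW D (bw B n) k ≤ LinearMap.ker (pmEv χ g k') := by
    unfold homW
    rw [AddMonoidAlgebra.supported_eq_span_single, Submodule.span_le]
    rintro _ ⟨μ, hμ, rfl⟩
    have hμ' : Finsupp.weight (bw B n) μ = k := hμ
    change pmEv χ g k' (AddMonoidAlgebra.single μ 1) = 0
    rw [pmEv_single, if_neg (by rw [hμ']; exact hk)]
  exact this hF

/-- the span of the multiples of `g` (of degree `k₀`) in degree `k` -/
noncomputable def pmW (χ : MvPolynomial (B × BV n) K →+* Module.End D X)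
    (t : Finset ((B → ℤ) × X)) (k : B → ℤ) : Submodule D X :=
  Submodule.span D {x | ∃ p ∈ t, ∃ μ : B × BV n →₀ ℕ,
      Finsupp.weight (bw B n) μ + p.1 = k ∧ x = χ (monomial μ 1) p.2}

theorem pmW_single (χ : MvPolynomial (B × BV n) K →+* Module.End D X) (p : (B → ℤ) × X)
    (k : B → ℤ) : pmW χ {p} (k + p.1) = (homW D (bw B n) k).map (pmEv χ p.2 k) := by
  unfold homW pmW
  rw [AddMonoidAlgebra.supported_eq_span_single, Submodule.map_span]
  congr 1
  ext x
  constructor
  · rintro ⟨q, hq, μ, hμ, rfl⟩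
    rw [Finset.mem_singleton] at hq
    subst hq
    have hμ' : Finsupp.weight (bw B n) μ = k := add_right_cancel hμ
    refine ⟨_, ⟨μ, hμ', rfl⟩, ?_⟩
    change pmEv χ q.2 k (AddMonoidAlgebra.single μ 1) = _
    rw [pmEv_single, if_pos hμ', one_smul]
  · rintro ⟨_, ⟨μ, hμ, rfl⟩, rfl⟩
    have hμ' : Finsupp.weight (bw B n) μ = k := hμ
    refine ⟨p, Finset.mem_singleton_self _, μ, by rw [hμ'], ?_⟩
    change pmEv χ p.2 k (AddMonoidAlgebra.single μ 1) = _
    rw [pmEv_single, if_pos hμ', one_smul]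

open Classical in
theorem pmW_insert (χ : MvPolynomial (B × BV n) K →+* Module.End D X) (p : (B → ℤ) × X)
    (t : Finset ((B → ℤ) × X)) (k : B → ℤ) :
    pmW χ (insert p t) k = pmW χ t k ⊔ pmW χ {p} k := by
  unfold pmW
  rw [← Submodule.span_union]
  congr 1
  ext x
  constructor
  · rintro ⟨q, hq, h⟩
    rcases Finset.mem_insert.1 hq with rfl | hq
    · exact Or.inr ⟨q, Finset.mem_singleton_self _, h⟩
    · exact Or.inl ⟨q, hq, h⟩
  · rintro (⟨q, hq, h⟩ | ⟨q, hq, h⟩)
    · exact ⟨q, Finset.mem_insert_of_mem hq, h⟩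
    · rw [Finset.mem_singleton] at hq
      exact ⟨q, by rw [hq]; exact Finset.mem_insert_self _ _, h⟩

theorem pmW_stable (χ : MvPolynomial (B × BV n) K →+* Module.End D X)
    (t : Finset ((B → ℤ) × X)) (b : B) (v : BV n) (k : B → ℤ) :
    ∀ x ∈ pmW χ t k, χ (MvPolynomial.X (b, v)) x ∈ pmW χ t (k + Pi.single b 1) := by
  have : pmW χ t k ≤ (pmW χ t (k + Pi.single b 1)).comap (χ (MvPolynomial.X (b, v))) := by
    unfold pmW
    rw [Submodule.span_le]
    rintro _ ⟨p, hp, μ, hμ, rfl⟩
    refine Submodule.subset_span ⟨p, hp, Finsupp.single (b, v) 1 + μ, ?_, ?_⟩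
    · rw [map_add, Finsupp.weight_single, one_smul, ← hμ]
      have : bw B n (b, v) = Pi.single b 1 := rfl
      rw [this]; abel
    · have : (monomial (Finsupp.single (b, v) 1 + μ) (1 : K)) =
          MvPolynomial.X (b, v) * monomial μ 1 := by
        rw [MvPolynomial.X, monomial_mul, one_mul]
      rw [this, map_mul]; rfl
  exact fun x hx => this hx

theorem pmW_finite (χ : MvPolynomial (B × BV n) K →+* Module.End D X)
    (t : Finset ((B → ℤ) × X)) (k : B → ℤ) : Module.Finite D (pmW χ t k) := by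
  unfold pmW
  refine Module.Finite.span_of_finite D ?_
  have : {x | ∃ p ∈ t, ∃ μ : B × BV n →₀ ℕ,
      Finsupp.weight (bw B n) μ + p.1 = k ∧ x = χ (monomial μ 1) p.2} ⊆
      ⋃ p ∈ (t : Set ((B → ℤ) × X)), (fun μ => χ (monomial μ 1) p.2) ''
        {μ : B × BV n →₀ ℕ | Finsupp.weight (bw B n) μ = k - p.1} := by
    rintro _ ⟨p, hp, μ, hμ, rfl⟩
    simp only [Set.mem_iUnion]
    exact ⟨p, hp, μ, eq_sub_of_add_eq hμ, rfl⟩
  exact (t.finite_toSet.biUnion fun p _ => (bw_finite B _).image _).subset this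

theorem pm_homW_finite (k : B → ℤ) : Module.Finite D (homW D (bw B n) k) := by
  unfold homW
  rw [AddMonoidAlgebra.supported_eq_span_single]
  exact Module.Finite.span_of_finite D ((bw_finite B k).image _)

theorem pm_weight_mapDomain (b : B) (ν : BV n →₀ ℕ) :
    Finsupp.weight (bw B n) (ν.mapDomain (Prod.mk b)) = Pi.single b (ν.degree : ℤ) := by
  induction ν using Finsupp.induction_linear with
  | zero => simp
  | add f g hf hg =>
    rw [Finsupp.mapDomain_add, map_add, hf, hg, map_add, Nat.cast_add, Pi.single_add]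
  | single a m =>
    rw [Finsupp.mapDomain_single, Finsupp.weight_single, Finsupp.degree_single]
    have : bw B n (b, a) = Pi.single b 1 := rfl
    rw [this, ← Pi.single_smul]
    simp

theorem pmEv_inc (χ : MvPolynomial (B × BV n) K →+* Module.End D X)
    (hχ : ∀ c x, χ (C c) x = algebraMap K D c • x) (g : X) (k : B → ℤ) (b : B) {δ : ℕ}
    {E : MvPolynomial (BV n) K} (hE : E.IsHomogeneous δ) :
    pmEv χ g k (inc K D _ (rename (Prod.mk b) E)) =
      if Pi.single b (δ : ℤ) = k then χ (rename (Prod.mk b) E) g else 0 := by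
  have key : ∀ ν ∈ E.support, pmEv χ g k (inc K D _ (rename (Prod.mk b) (monomial ν (E.coeff ν)))) =
      if Pi.single b (δ : ℤ) = k then χ (rename (Prod.mk b) (monomial ν (E.coeff ν))) g else 0 := by
    intro ν hν
    have hd : ν.degree = δ := by
      have := hE (mem_support_iff.1 hν)
      rw [Finsupp.degree_eq_weight_one]; exact this
    rw [rename_monomial]
    have h1 : inc K D _ (monomial (ν.mapDomain (Prod.mk b)) (E.coeff ν)) =
        AddMonoidAlgebra.single (ν.mapDomain (Prod.mk b)) (algebraMap K D (E.coeff ν)) := by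
      rw [← single_eq_monomial]
      exact AddMonoidAlgebra.mapRingHom_single _ _ _
    rw [h1, pmEv_single, pm_weight_mapDomain, hd]
    split_ifs
    · rw [← hχ]
      have : monomial (ν.mapDomain (Prod.mk b)) (E.coeff ν) =
          C (E.coeff ν) * monomial (ν.mapDomain (Prod.mk b)) (1 : K) := by
        rw [C_mul_monomial, mul_one]
      rw [this, map_mul]; rfl
    · rfl
  conv_lhs => rw [E.as_sum]
  conv_rhs => rw [E.as_sum]
  rw [map_sum, map_sum, map_sum, Finset.sum_congr rfl key]
  split_ifs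
  · rw [map_sum, LinearMap.sum_apply]
  · simp

theorem pm_step {blk : B → Blk K n} (hP : P1 D B blk)
    (χ : MvPolynomial (B × BV n) K →+* Module.End D X)
    (hχ : ∀ c x, χ (C c) x = algebraMap K D c • x) (Y : (B → ℤ) → Submodule D X)
    (hfin : ∀ k, Module.Finite D (Y k))
    (hY : ∀ b v k, ∀ x ∈ Y k, χ (MvPolynomial.X (b, v)) x ∈ Y (k + Pi.single b 1))
    (p : (B → ℤ) × X)
    (hE : ∀ b m, χ (rename (Prod.mk b) ((blk b).E m)) p.2 ∈
      Y (p.1 + Pi.single b ((blk b).δ m : ℤ))) :
    EvIn (fun k => (Module.finrank D ↥(Y k ⊔ pmW χ {p} k) : ℤ) - Module.finrank D (Y k))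
      (Hsp fun b => (blk b).δ) := by
  have h1 := hP (pmN χ p.2 p.1 Y hY) (by
    intro b m k
    rw [pmEv_inc χ hχ p.2 k b ((blk b).tri m).1]
    split_ifs with h
    · rw [← h, add_comm]; exact hE b m
    · exact zero_mem _)
  have h2 := h1.shift (-p.1)
  have e : (fun k => (Module.finrank D ↥(Y k ⊔ pmW χ {p} k) : ℤ) - Module.finrank D (Y k)) =
      fun k => codim (bw B n) (pmN χ p.2 p.1 Y hY) (k + -p.1) := by
    funext k
    obtain ⟨j, rfl⟩ : ∃ j, k = j + p.1 := ⟨k - p.1, by abel⟩
    rw [add_neg_cancel_right, pmW_single]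
    have := pm_homW_finite (D := D) (n := n) j
    have := hfin (j + p.1)
    rw [pm_dim]
    unfold codim
    have e2 : homW D (bw B n) j ⊓ (Y (j + p.1)).comap (pmEv χ p.2 j) =
        homW D (bw B n) j ⊓ (pmN χ p.2 p.1 Y hY).restrictScalars D := by
      ext F
      constructor
      · rintro ⟨h1, h2⟩
        refine ⟨h1, fun k => ?_⟩
        by_cases hk : j = k
        · subst hk; exact h2
        · rw [pmEv_homW_ne χ p.2 hk h1]; exact zero_mem _
      · rintro ⟨h1, h2⟩
        exact ⟨h1, h2 j⟩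
    rw [e2]
  rw [e]; exact h2

end PMaux

theorem PM {K D : Type} [Field K] [DivisionRing D] [Algebra K D] {blk : B → Blk K n}
    (hP : P1 D B blk) {X : Type} [AddCommGroup X] [Module D X]
    (χ : MvPolynomial (B × BV n) K →+* Module.End D X)
    (hχ : ∀ c x, χ (C c) x = algebraMap K D c • x) (U Y : (B → ℤ) → Submodule D X)
    (hYU : ∀ k, Y k ≤ U k)
    (hU : ∀ b v k, ∀ x ∈ U k, χ (MvPolynomial.X (b, v)) x ∈ U (k + Pi.single b 1))
    (hY : ∀ b v k, ∀ x ∈ Y k, χ (MvPolynomial.X (b, v)) x ∈ Y (k + Pi.single b 1))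
    (hE : ∀ b m k, ∀ x ∈ U k, χ (rename (Prod.mk b) ((blk b).E m)) x ∈
      Y (k + Pi.single b ((blk b).δ m : ℤ)))
    (s : Finset ((B → ℤ) × X)) (hs : ∀ p ∈ s, p.2 ∈ U p.1)
    (hgen : ∀ k, U k ≤ Submodule.span D {x | ∃ p ∈ s, ∃ μ : B × BV n →₀ ℕ,
      Finsupp.weight (bw B n) μ + p.1 = k ∧ x = χ (monomial μ 1) p.2}) :
    EvIn (fun k => (Module.finrank D (U k) : ℤ) - Module.finrank D (Y k))
      (Hsp fun b => (blk b).δ) := by
  classical
  have hUfin : ∀ k, Module.Finite D (U k) := fun k =>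
    have := pmW_finite χ s k
    Submodule.finiteDimensional_of_le (S₂ := pmW χ s k) (hgen k)
  have hWU : ∀ t ⊆ s, ∀ k, pmW χ t k ≤ U k := by
    intro t ht k
    unfold pmW
    rw [Submodule.span_le]
    rintro _ ⟨p, hp, μ, hμ, rfl⟩
    have := pm_mon_mem χ U hU μ _ _ (hs p (ht hp))
    rwa [add_comm, hμ] at this
  have key : ∀ t ⊆ s, EvIn (fun k => (Module.finrank D ↥(Y k ⊔ pmW χ t k) : ℤ) -
      Module.finrank D (Y k)) (Hsp fun b => (blk b).δ) := by
    intro t
    induction t using Finset.induction_on with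
    | empty =>
      intro _
      refine ⟨0, zero_mem _, 0, fun k _ => ?_⟩
      have : pmW χ ∅ k = ⊥ := by
        unfold pmW; simp
      simp only [Pi.zero_apply]
      rw [this, sup_bot_eq, sub_self]
    | insert p t _ ih =>
      intro hsub
      have ht : t ⊆ s := (Finset.subset_insert _ _).trans hsub
      have hp : p ∈ s := hsub (Finset.mem_insert_self _ _)
      have h1 := pm_step hP χ hχ (fun k => Y k ⊔ pmW χ t k)
        (fun k => by
          have := hUfin k
          exact Submodule.finiteDimensional_of_le (S₂ := U k) (sup_le (hYU k) (hWU t ht k)))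
        (fun b v k x hx => by
          obtain ⟨y, hy, z, hz, rfl⟩ := Submodule.mem_sup.1 hx
          rw [map_add]
          exact Submodule.add_mem_sup (hY b v k y hy) (pmW_stable χ t b v k z hz))
        p (fun b m => Submodule.mem_sup_left (hE b m _ _ (hs p hp)))
      have h2 := h1.add (ih ht)
      convert h2 using 2 with k
      rw [pmW_insert, ← sup_assoc]
      simp only [Pi.add_apply]
      ring
  have h := key s subset_rfl
  convert h using 2 with k
  have : Y k ⊔ pmW χ s k = U k :=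
    le_antisymm (sup_le (hYU k) (hWU s subset_rfl k)) (le_sup_of_le_right (hgen k))
  rw [this]

end Crest.Agent.R181
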