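import Crest.Agent.R181.ADefs

/-! # Row 181 A: construction of the ring `Γ` (helper87) -/

set_option autoImplicit false

namespace Crest.Agent.R181

open AddMonoidAlgebra

variable {D σ : Type} [Ring D]

/-- the homogeneous component of total degree `d` -/
noncomputable def smaComp (d : ℤ) : DP D σ →+ DP D σ :=
  (coeffAddEquiv.symm.toAddMonoidHom.comp
    (Finsupp.filterAddHom fun μ : σ →₀ ℕ => (μ.degree : ℤ) = d)).comp coeffAddEquiv.toAddMonoidHom

theorem smaComp_single (d : ℤ) (μ : σ →₀ ℕ) (c : D) :
    smaComp d (single μ c) = if (μ.degree : ℤ) = d then single μ c else 0 := by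
  split_ifs with h
  · exact congrArg ofCoeff (Finsupp.filter_single_of_pos (fun μ : σ →₀ ℕ => (μ.degree : ℤ) = d) h)
  · exact congrArg ofCoeff (Finsupp.filter_single_of_neg (fun μ : σ →₀ ℕ => (μ.degree : ℤ) = d) h)

theorem smaComp_comp (a b : ℤ) (x : DP D σ) :
    smaComp a (smaComp b x) = if a = b then smaComp a x else 0 := by
  induction x using AddMonoidAlgebra.induction_linear with
  | zero => simp
  | add x y hx hy =>
    rw [map_add, map_add, hx, hy, map_add]
    split_ifs <;> simp
  | single μ c =>
    rw [smaComp_single, smaComp_single, apply_ite (smaComp a), smaComp_single, map_zero]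
    split_ifs <;> first | rfl | omega

theorem smaComp_mul (a : ℤ) (μ : σ →₀ ℕ) (c : D) (x : DP D σ) :
    smaComp (a + μ.degree) (single μ c * x) = single μ c * smaComp a x := by
  induction x using AddMonoidAlgebra.induction_linear with
  | zero => simp
  | add x y hx hy => rw [mul_add, map_add, hx, hy, map_add, mul_add]
  | single ν e =>
    rw [single_mul_single, smaComp_single, smaComp_single, mul_ite, single_mul_single, mul_zero,
      map_add]
    exact if_congr (by push_cast; omega) rfl rfl

/-- left multiplication -/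
noncomputable def smaI : DP D σ →+* AddMonoid.End (ℤ → DP D σ) :=
  Module.toAddMonoidEnd (DP D σ) (ℤ → DP D σ)

/-- degree projection -/
noncomputable def smaP (k : ℤ) : AddMonoid.End (ℤ → DP D σ) :=
  AddMonoidHom.pi fun j => (smaComp (k - j)).comp (Pi.evalAddMonoidHom _ j)

theorem smaP_mul (k l : ℤ) :
    (smaP k * smaP l : AddMonoid.End (ℤ → DP D σ)) = if k = l then smaP k else 0 := by
  refine AddMonoidHom.ext fun x => funext fun j => (smaComp_comp (k - j) (l - j) (x j)).trans ?_
  split_ifs <;> first | rfl | omega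

theorem smaP_I (μ : σ →₀ ℕ) (c : D) (k : ℤ) :
    smaP (k + μ.degree) * smaI (single μ c) = smaI (single μ c) * smaP k := by
  refine AddMonoidHom.ext fun x => funext fun j => ?_
  change smaComp (k + μ.degree - j) (single μ c * x j) = single μ c * smaComp (k - j) (x j)
  rw [← smaComp_mul, add_sub_right_comm]

/-- the ring `Γ` -/
noncomputable def smaG (D σ : Type) [Ring D] : Subring (AddMonoid.End (ℤ → DP D σ)) where
  carrier := {γ | ∀ j, ∃ F, γ * smaP j = smaI F * smaP j}
  one_mem' _ := ⟨1, by rw [map_one]⟩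
  zero_mem' _ := ⟨0, by rw [map_zero]⟩
  add_mem' {a b} ha hb j := by
    obtain ⟨F, hF⟩ := ha j
    obtain ⟨G, hG⟩ := hb j
    exact ⟨F + G, by rw [add_mul, hF, hG, map_add, add_mul]⟩
  neg_mem' {a} ha j := by
    obtain ⟨F, hF⟩ := ha j
    exact ⟨-F, (neg_mul a _).trans (by rw [hF, map_neg]; exact (neg_mul (smaI F) _).symm)⟩
  mul_mem' {a b} ha hb j := by
    obtain ⟨F, hF⟩ := hb j
    rw [mul_assoc, hF]
    clear hF
    induction F using AddMonoidAlgebra.induction_linear with
    | zero => exact ⟨0, by rw [map_zero, zero_mul, mul_zero]⟩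
    | add x y hx hy =>
      obtain ⟨F, hF⟩ := hx
      obtain ⟨G, hG⟩ := hy
      exact ⟨F + G, by rw [map_add, add_mul, mul_add, hF, hG, map_add, add_mul]⟩
    | single μ c =>
      obtain ⟨G, hG⟩ := ha (j + μ.degree)
      exact ⟨G * single μ c, by rw [← smaP_I, ← mul_assoc, hG, mul_assoc, smaP_I, map_mul, mul_assoc]⟩

theorem sma_exists (D σ : Type) [Ring D] : Nonempty (Smash D σ) :=
  ⟨{ Γ := smaG D σ
     ι := smaI.codRestrict (smaG D σ) fun F _ => ⟨F, rfl⟩
     π := fun k => ⟨smaP k, fun j => by
       rw [smaP_mul]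
       split_ifs with h
       · exact ⟨1, by rw [h, map_one, one_mul]⟩
       · exact ⟨0, by rw [map_zero, zero_mul]⟩⟩
     π_mul := fun k l => Subtype.ext ((smaP_mul k l).trans (by split_ifs <;> rfl))
     π_ι := fun μ c k => Subtype.ext (smaP_I μ c k)
     gen := fun γ j => (γ.2 j).imp fun _ h => Subtype.ext h
     inj := fun F j h => by
       have h1 : F * smaComp (j - j) (single 0 1) = 0 :=
         congrArg (fun γ : smaG D σ => γ.1 (fun _ => single 0 1) j) h
       rwa [smaComp_single, if_pos (by simp), ← one_def, mul_one] at h1 }⟩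

end Crest.Agent.R181
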