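import Crest.Agent.R181.ANoeth

/-! # Row 181 A: graded pieces of `Γ`-modules (proofs for `ASmash`, part 2) -/

set_option autoImplicit false
set_option linter.style.haveILetI false

namespace Crest.Agent.R181

namespace Smash

variable {D : Type} [DivisionRing D] {σ : Type} (S : Smash D σ)

/-- a `Γ`-linear map as a `D`-linear map -/
noncomputable def Aux2_lin {M N : Type} [AddCommGroup M] [Module S.Γ M] [AddCommGroup N]
    [Module S.Γ N] (f : M →ₗ[S.Γ] N) : letI := S.modD M; letI := S.modD N; M →ₗ[D] N :=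
  letI := S.modD M; letI := S.modD N
  { toFun := f
    map_add' := f.map_add
    map_smul' := fun d x => f.map_smul (S.ιD d) x }

/-- the map induced on pieces -/
noncomputable def Aux2_pmap {M N : Type} [AddCommGroup M] [Module S.Γ M] [AddCommGroup N]
    [Module S.Γ N] (f : M →ₗ[S.Γ] N) (k : ℤ) :
    letI := S.modD M; letI := S.modD N; S.piece M k →ₗ[D] S.piece N k :=
  letI := S.modD M; letI := S.modD N
  (S.Aux2_lin f).restrict (p := S.piece M k) (q := S.piece N k) fun x hx => by
    have hx' : S.π k • x = x := hx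
    change S.π k • f x = f x
    rw [← f.map_smul, hx']

theorem Aux2_pmap_apply {M N : Type} [AddCommGroup M] [Module S.Γ M] [AddCommGroup N]
    [Module S.Γ N] (f : M →ₗ[S.Γ] N) (k : ℤ) (x : S.piece M k) :
    (S.Aux2_pmap f k x).1 = f x.1 := rfl

theorem Aux2_dimk_iso {M N : Type} [AddCommGroup M] [Module S.Γ M] [AddCommGroup N] [Module S.Γ N]
    (e : M ≃ₗ[S.Γ] N) (k : ℤ) : S.dimk M k = S.dimk N k := by
  letI := S.modD M; letI := S.modD N
  refine LinearEquiv.finrank_eq (LinearEquiv.ofBijective (S.Aux2_pmap e.toLinearMap k) ⟨?_, ?_⟩)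
  · intro x y hxy
    have := congrArg Subtype.val hxy
    rw [Aux2_pmap_apply, Aux2_pmap_apply] at this
    exact Subtype.ext (e.injective this)
  · intro y
    refine ⟨S.Aux2_pmap e.symm.toLinearMap k y, Subtype.ext ?_⟩
    rw [Aux2_pmap_apply, Aux2_pmap_apply]
    exact e.apply_symm_apply _

theorem Aux2_dimk_submodule {M : Type} [AddCommGroup M] [Module S.Γ M] (P : Submodule S.Γ M)
    (k : ℤ) (V : letI := S.modD M; Submodule D M) (hV : ∀ x, x ∈ V ↔ x ∈ P ∧ S.π k • x = x) :
    S.dimk P k = (letI := S.modD M; Module.finrank D V) := by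
  letI := S.modD M; letI := S.modD P
  have hmem : ∀ x ∈ S.piece P k, S.Aux2_lin P.subtype x ∈ V := by
    intro x hx
    have hx' : S.π k • x = x := hx
    exact (hV _).mpr ⟨x.2, congrArg Subtype.val hx'⟩
  refine LinearEquiv.finrank_eq (LinearEquiv.ofBijective
    ((S.Aux2_lin P.subtype).restrict (p := S.piece P k) (q := V) hmem) ⟨?_, ?_⟩)
  · intro x y hxy
    have : (x.1 : M) = (y.1 : M) := congrArg (fun z : V => (z : M)) hxy
    exact Subtype.ext (Subtype.ext this)
  · intro y
    obtain ⟨h1, h2⟩ := (hV _).mp y.2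
    exact ⟨⟨⟨y.1, h1⟩, Subtype.ext h2⟩, rfl⟩

theorem Aux2_sum {I : Type} (E : I → DP D σ) {M : Type} [AddCommGroup M] [Module S.Γ M]
    (hM : WM (S.Fil E) M) (x : M) : ∃ s : Finset ℤ, ∑ k ∈ s, S.π k • x = x := by
  obtain ⟨-, s, hs⟩ := hM x
  refine ⟨s, ?_⟩
  rw [Ideal.mem_torsionOf_iff, sub_smul, one_smul, Finset.sum_smul, sub_eq_zero] at hs
  exact hs.symm

theorem Aux2_π_π {M : Type} [AddCommGroup M] [Module S.Γ M] (k : ℤ) (x : M) :
    S.π k • S.π k • x = S.π k • x := by
  rw [smul_smul, S.π_mul, if_pos rfl]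

theorem Aux2_exists_gens {I : Type} (E : I → DP D σ) {M : Type} [AddCommGroup M] [Module S.Γ M]
    (hM : WM (S.Fil E) M) (P : Submodule S.Γ M) (hP : P.FG) :
    ∃ s : Finset (ℤ × M), (∀ p ∈ s, p.2 ∈ P ∧ S.π p.1 • p.2 = p.2) ∧
      ∀ k x, x ∈ P → S.π k • x = x → x ∈ (letI := S.modD M; Submodule.span D
        {y | ∃ p ∈ s, ∃ μ : σ →₀ ℕ, (μ.degree : ℤ) + p.1 = k ∧
          y = S.ι (AddMonoidAlgebra.single μ 1) • p.2}) := by
  classical
  letI := S.modD M
  obtain ⟨t, ht⟩ := hP
  choose c hc using S.Aux2_sum E hM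
  refine ⟨t.biUnion fun x => (c x).image fun j => (j, S.π j • x), ?_, ?_⟩
  · intro p hp
    simp only [Finset.mem_biUnion, Finset.mem_image] at hp
    obtain ⟨x, hx, j, -, rfl⟩ := hp
    refine ⟨P.smul_mem _ ?_, S.Aux2_π_π j x⟩
    rw [← ht]; exact Submodule.subset_span hx
  intro k
  set W : Submodule D M := Submodule.span D
    {y | ∃ p ∈ t.biUnion fun x => (c x).image fun j => (j, S.π j • x), ∃ μ : σ →₀ ℕ,
      (μ.degree : ℤ) + p.1 = k ∧ y = S.ι (AddMonoidAlgebra.single μ 1) • p.2} with hW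
  have key : ∀ x ∈ t, ∀ j ∈ c x, ∀ F : DP D σ, S.π k • S.ι F • S.π j • x ∈ W := by
    intro x hx j hj F
    induction F using AddMonoidAlgebra.induction_linear with
    | zero => simp
    | add F G hF hG => rw [map_add, add_smul, smul_add]; exact W.add_mem hF hG
    | single μ d =>
      have h1 : S.π k • S.ι (AddMonoidAlgebra.single μ d) • S.π j • x =
          (S.π k * S.π (j + μ.degree)) • S.ι (AddMonoidAlgebra.single μ d) • x := by
        rw [smul_smul (S.ι _), ← S.π_ι, mul_smul, mul_smul]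
      rw [h1, S.π_mul]
      split_ifs with hk
      · have h2 : S.π k • S.ι (AddMonoidAlgebra.single μ d) • x =
            d • (S.ι (AddMonoidAlgebra.single μ 1) • S.π j • x) := by
          change _ = S.ι (AddMonoidAlgebra.single 0 d) •
            (S.ι (AddMonoidAlgebra.single μ 1) • S.π j • x)
          rw [hk, smul_smul, S.π_ι, smul_smul, smul_smul, ← map_mul,
            AddMonoidAlgebra.single_mul_single, zero_add, mul_one]
        rw [h2]
        refine W.smul_mem d (Submodule.subset_span ⟨(j, S.π j • x), ?_, μ, ?_, rfl⟩)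
        · simp only [Finset.mem_biUnion, Finset.mem_image]
          exact ⟨x, hx, j, hj, rfl⟩
        · rw [hk]; ring
      · simp
  have main : ∀ y ∈ P, ∀ γ : S.Γ, S.π k • γ • y ∈ W := by
    intro y hy
    rw [← ht] at hy
    induction hy using Submodule.span_induction with
    | mem x hx =>
      intro γ
      rw [← hc x, Finset.smul_sum, Finset.smul_sum]
      refine W.sum_mem fun j hj => ?_
      obtain ⟨F, hF⟩ := S.gen γ j
      rw [smul_smul γ, hF, mul_smul]
      exact key x hx j hj F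
    | zero => intro γ; simp
    | add x y _ _ hx hy => intro γ; rw [smul_add, smul_add]; exact W.add_mem (hx γ) (hy γ)
    | smul a x _ hx => intro γ; rw [smul_smul γ]; exact hx _
  intro x hx hkx
  have := main x hx 1
  rwa [one_smul, hkx] at this

variable [Finite σ]

theorem Aux2_piece_finite {I : Type} (E : I → DP D σ) (M : Type) [AddCommGroup M] [Module S.Γ M]
    [Module.Finite S.Γ M] (hM : WM (S.Fil E) M) (k : ℤ) :
    letI := S.modD M; Module.Finite D (S.piece M k) := by
  letI := S.modD M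
  obtain ⟨s, -, hs⟩ := S.Aux2_exists_gens E hM ⊤ Module.Finite.fg_top
  have hfin : {y : M | ∃ p ∈ s, ∃ μ : σ →₀ ℕ, (μ.degree : ℤ) + p.1 = k ∧
      y = S.ι (AddMonoidAlgebra.single μ 1) • p.2}.Finite := by
    refine Set.Finite.subset (s.finite_toSet.biUnion fun p _ =>
      (Finsupp.finite_of_degree_eq (σ := σ) (k - p.1).toNat).image
        fun μ => S.ι (AddMonoidAlgebra.single μ 1) • p.2) ?_
    rintro y ⟨p, hp, μ, hμ, rfl⟩
    simp only [Set.mem_iUnion, Set.mem_image]
    refine ⟨p, hp, μ, ?_, rfl⟩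
    change μ.degree = _
    omega
  haveI := Module.Finite.span_of_finite D hfin
  exact Submodule.finiteDimensional_of_le fun x hx => hs k x trivial hx

theorem Aux2_noeth {I : Type} (E : I → DP D σ) (M : Type) [AddCommGroup M] [Module S.Γ M]
    [Module.Finite S.Γ M] (hM : WM (S.Fil E) M) : IsNoetherian S.Γ M := by
  classical
  letI := S.modD M
  letI : Module (DP D σ) M := Module.compHom M S.ι
  letI : Module (DP D σ) S.Γ := Module.compHom S.Γ S.ι
  haveI : IsScalarTower (DP D σ) S.Γ M := ⟨fun a b c => mul_smul (S.ι a) b c⟩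
  haveI := isNoetherianRing_DP D σ
  obtain ⟨s, -, hs⟩ := S.Aux2_exists_gens E hM ⊤ Module.Finite.fg_top
  haveI : Module.Finite (DP D σ) M := by
    refine ⟨⟨s.image Prod.snd, ?_⟩⟩
    rw [eq_top_iff]
    intro x _
    obtain ⟨c, hc⟩ := S.Aux2_sum E hM x
    rw [← hc]
    refine Submodule.sum_mem _ fun k _ => ?_
    have h1 := hs k _ trivial (S.Aux2_π_π k x)
    generalize S.π k • x = z at h1
    induction h1 using Submodule.span_induction with
    | mem y hy =>
      obtain ⟨p, hp, μ, -, rfl⟩ := hy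
      refine Submodule.smul_mem _ (AddMonoidAlgebra.single μ 1 : DP D σ)
        (Submodule.subset_span ?_)
      simp only [Finset.coe_image, Set.mem_image, Finset.mem_coe]
      exact ⟨p, hp, rfl⟩
    | zero => exact Submodule.zero_mem _
    | add y z _ _ hy hz => exact Submodule.add_mem _ hy hz
    | smul d y _ hy => exact Submodule.smul_mem _ (AddMonoidAlgebra.single 0 d : DP D σ) hy
  exact isNoetherian_of_tower (DP D σ) inferInstance

theorem Aux2_dimk_add {I : Type} (E : I → DP D σ) (M : Type) [AddCommGroup M] [Module S.Γ M]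
    [Module.Finite S.Γ M] (hM : WM (S.Fil E) M) (P : Submodule S.Γ M) (k : ℤ) :
    S.dimk M k = S.dimk P k + S.dimk (M ⧸ P) k := by
  letI := S.modD M; letI := S.modD (M ⧸ P)
  haveI := S.Aux2_piece_finite E M hM k
  have h1 := LinearMap.finrank_range_add_finrank_ker (S.Aux2_pmap P.mkQ k)
  have hsurj : LinearMap.range (S.Aux2_pmap P.mkQ k) = ⊤ := by
    rw [LinearMap.range_eq_top]
    rintro ⟨y, hy⟩
    obtain ⟨x, rfl⟩ := P.mkQ_surjective y
    have hy' : S.π k • P.mkQ x = P.mkQ x := hy
    refine ⟨⟨S.π k • x, S.Aux2_π_π k x⟩, Subtype.ext ?_⟩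
    rw [Aux2_pmap_apply]
    exact (P.mkQ.map_smul _ _).trans hy'
  have h2 : S.dimk P k = Module.finrank D
      ((LinearMap.ker (S.Aux2_pmap P.mkQ k)).map (S.piece M k).subtype) := by
    refine S.Aux2_dimk_submodule P k _ fun x => ⟨?_, ?_⟩
    · rintro ⟨y, hy, rfl⟩
      have := congrArg Subtype.val (LinearMap.mem_ker.mp hy)
      rw [Aux2_pmap_apply] at this
      exact ⟨(Submodule.Quotient.mk_eq_zero P).mp this, y.2⟩
    · rintro ⟨hx, hk⟩
      refine ⟨⟨x, hk⟩, LinearMap.mem_ker.mpr (Subtype.ext ?_), rfl⟩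
      rw [Aux2_pmap_apply]
      exact (Submodule.Quotient.mk_eq_zero P).mpr hx
  rw [Submodule.finrank_map_subtype_eq] at h2
  rw [hsurj, finrank_top] at h1
  rw [h2]
  unfold dimk
  omega

end Smash

end Crest.Agent.R181
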