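import Crest.Agent.R181.ANoeth
import Crest.Agent.R181.ASmashAux2
import Crest.Agent.R181.ASmashAux

/-! # Row 181 A: the ring `Γ` and graded modules -/

set_option autoImplicit false

namespace Crest.Agent.R181

/-- `X₀ := ℤ →₀ DP D σ` (component `j` is the free module generated in degree `j`), `Γ` the subring of
`AddMonoid.End X₀` (or `Module.End ℤ X₀`) generated by left multiplications `ι F` and the projections
`π k` (on component `j`: homogeneous component of total degree `k - j`).  `gen`: closure induction on `γ`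
(`π k * ι F * π j = ι (F_{k-j}) * π j`); `inj`: evaluate at `single j 1`. -/
theorem exists_smash (D σ : Type) [DivisionRing D] : Nonempty (Smash D σ) := by
  exact sma_exists D σ

namespace Smash

variable {D : Type} [DivisionRing D] {σ : Type} (S : Smash D σ)

theorem mem_piece {M : Type} [AddCommGroup M] [Module S.Γ M] {k : ℤ} {x : M} :
    x ∈ S.piece M k ↔ S.π k • x = x := Iff.rfl

theorem π_xv (v : σ) (k : ℤ) : S.π (k + 1) * S.xv v = S.xv v * S.π k := by
  simpa [xv] using S.π_ι (Finsupp.single v 1) 1 k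

theorem π_ι_hom {F : DP D σ} {d : ℤ} (hF : F ∈ homW D (fun _ : σ => (1 : ℤ)) d) (k : ℤ) :
    S.π (k + d) * S.ι F = S.ι F * S.π k := by
  rw [← F.sum_coeff_single, Finsupp.sum, map_sum, Finset.mul_sum, Finset.sum_mul]
  refine Finset.sum_congr rfl fun μ hμ => ?_
  have h : Finsupp.weight (fun _ : σ => (1 : ℤ)) μ = d := hF hμ
  rw [← S.π_ι, ← h]
  simp [Finsupp.weight_apply, Finsupp.degree_apply, Finsupp.sum]

theorem fil_up {I : Type} (E : I → DP D σ) : ∀ a ∈ S.Fil E, ∀ b, a ≤ b → b ∈ S.Fil E := by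
  rintro a ⟨h1, s, h2⟩ b hab
  exact ⟨fun m => hab (h1 m), s, hab h2⟩

theorem sma_mono {a : Ideal S.Γ} {s t : Finset ℤ} (hst : s ⊆ t) (h : 1 - ∑ k ∈ s, S.π k ∈ a) :
    1 - ∑ k ∈ t, S.π k ∈ a := by
  have e : (∑ k ∈ t, S.π k) * ∑ k ∈ s, S.π k = ∑ k ∈ s, S.π k := by
    rw [Finset.mul_sum]
    refine Finset.sum_congr rfl fun l hl => ?_
    simp only [Finset.sum_mul, S.π_mul]
    rw [Finset.sum_ite_eq', if_pos (hst hl)]
  have := a.mul_mem_left (1 - ∑ k ∈ t, S.π k) h
  rwa [mul_sub, mul_one, sub_mul, one_mul, e, sub_self, sub_zero] at this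

theorem fil_inf {I : Type} (E : I → DP D σ) :
    ∀ a ∈ S.Fil E, ∀ b ∈ S.Fil E, a ⊓ b ∈ S.Fil E := by
  rintro a ⟨h1, s, h2⟩ b ⟨h3, t, h4⟩
  exact ⟨fun m => ⟨h1 m, h3 m⟩, s ∪ t, S.sma_mono Finset.subset_union_left h2,
    S.sma_mono Finset.subset_union_right h4⟩

theorem wm_iff {I : Type} (E : I → DP D σ) (M : Type) [AddCommGroup M] [Module S.Γ M] :
    WM (S.Fil E) M ↔ ∀ x : M, (∀ m, S.ι (E m) • x = 0) ∧
      ∃ s : Finset ℤ, ∑ k ∈ s, S.π k • x = x := by
  refine forall_congr' fun x => and_congr Iff.rfl (exists_congr fun s => ?_)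
  rw [Ideal.mem_torsionOf_iff, sub_smul, one_smul, Finset.sum_smul, sub_eq_zero, eq_comm]

theorem dimk_iso {M N : Type} [AddCommGroup M] [Module S.Γ M] [AddCommGroup N] [Module S.Γ N]
    (e : M ≃ₗ[S.Γ] N) (k : ℤ) : S.dimk M k = S.dimk N k :=
  S.Aux2_dimk_iso e k

/-- the Hilbert function of a submodule, computed in the ambient module -/
theorem dimk_submodule {M : Type} [AddCommGroup M] [Module S.Γ M] (P : Submodule S.Γ M) (k : ℤ)
    (V : letI := S.modD M; Submodule D M) (hV : ∀ x, x ∈ V ↔ x ∈ P ∧ S.π k • x = x) :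
    S.dimk P k = (letI := S.modD M; Module.finrank D V) :=
  S.Aux2_dimk_submodule P k V hV

/-- homogeneous generators of a finitely generated submodule of a graded module -/
theorem exists_gens {I : Type} (E : I → DP D σ) {M : Type} [AddCommGroup M] [Module S.Γ M]
    (hM : WM (S.Fil E) M) (P : Submodule S.Γ M) (hP : P.FG) :
    ∃ s : Finset (ℤ × M), (∀ p ∈ s, p.2 ∈ P ∧ S.π p.1 • p.2 = p.2) ∧
      ∀ k x, x ∈ P → S.π k • x = x → x ∈ (letI := S.modD M; Submodule.span D
        {y | ∃ p ∈ s, ∃ μ : σ →₀ ℕ, (μ.degree : ℤ) + p.1 = k ∧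
          y = S.ι (AddMonoidAlgebra.single μ 1) • p.2}) :=
  S.Aux2_exists_gens E hM P hP

variable [Finite σ]

theorem piece_finite {I : Type} (E : I → DP D σ) (M : Type) [AddCommGroup M] [Module S.Γ M]
    [Module.Finite S.Γ M] (hM : WM (S.Fil E) M) (k : ℤ) :
    letI := S.modD M; Module.Finite D (S.piece M k) :=
  S.Aux2_piece_finite E M hM k

/-- `M` is finitely generated over the left noetherian ring `D[σ]` (`gen`, `Module.compHom M S.ι`). -/
theorem noeth {I : Type} (E : I → DP D σ) (M : Type) [AddCommGroup M] [Module S.Γ M]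
    [Module.Finite S.Γ M] (hM : WM (S.Fil E) M) : IsNoetherian S.Γ M :=
  S.Aux2_noeth E M hM

theorem dimk_add {I : Type} (E : I → DP D σ) (M : Type) [AddCommGroup M] [Module S.Γ M]
    [Module.Finite S.Γ M] (hM : WM (S.Fil E) M) (P : Submodule S.Γ M) (k : ℤ) :
    S.dimk M k = S.dimk P k + S.dimk (M ⧸ P) k :=
  S.Aux2_dimk_add E M hM P k

end Smash

end Crest.Agent.R181
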