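import Crest.Agent.R181.ASmash

/-! # Row 181 A: auxiliary lemmas for the modules `S_j` -/

set_option autoImplicit false

namespace Crest.Agent.R181

open MvPolynomial

theorem ats_weight {σ : Type*} (μ : σ →₀ ℕ) :
    Finsupp.weight (fun _ : σ => (1 : ℤ)) μ = (μ.degree : ℤ) := by
  simp [Finsupp.weight_apply, Finsupp.degree_apply, Finsupp.sum]

theorem ats_single_mem {D σ : Type*} [Ring D] (μ : σ →₀ ℕ) (d : D) :
    (AddMonoidAlgebra.single μ d : DP D σ) ∈ homW D (fun _ : σ => (1 : ℤ)) (μ.degree : ℤ) := by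
  classical
  rw [homW, AddMonoidAlgebra.mem_supported']
  intro m hm
  rw [AddMonoidAlgebra.coeff_single, Finsupp.single_apply, if_neg]
  rintro rfl
  exact hm (ats_weight μ)

theorem ats_inc_mem {K D σ : Type*} [CommRing K] [Ring D] [Algebra K D] {F : MvPolynomial σ K}
    {d : ℕ} (hF : F.IsHomogeneous d) : inc K D σ F ∈ homW D (fun _ : σ => (1 : ℤ)) (d : ℤ) := by
  rw [homW, AddMonoidAlgebra.mem_supported']
  intro m hm
  have h0 : F.coeff m = 0 := by
    by_contra h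
    apply hm
    have := hF h
    change Finsupp.weight _ m = _
    rw [ats_weight, Finsupp.degree_eq_weight_one]
    exact_mod_cast this
  have h1 : AddMonoidAlgebra.coeff F m = 0 := h0
  rw [inc, AddMonoidAlgebra.coeff_mapRingHom, h1, map_zero]

theorem ats_finite (D : Type*) [DivisionRing D] {σ : Type*} [Finite σ] (k : ℤ) :
    Module.Finite D (homW D (fun _ : σ => (1 : ℤ)) k) := by
  have hf : {μ : σ →₀ ℕ | Finsupp.weight (fun _ : σ => (1 : ℤ)) μ = k}.Finite := by
    refine (Finsupp.finite_of_degree_eq (σ := σ) k.toNat).subset fun μ hμ => ?_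
    have : (μ.degree : ℤ) = k := by rw [← ats_weight]; exact hμ
    change μ.degree = k.toNat
    omega
  have := hf.to_subtype
  exact Module.Finite.equiv (AddMonoidAlgebra.supportedEquivFinsupp (R := D) (S := D) _).symm

theorem ats_ED_mem {K D : Type} [Field K] [DivisionRing D] [Algebra K D] {n : ℕ} (blk : Blk K n)
    (m : Fin n) : blk.ED D m ∈ homW D (fun _ : BV n => (1 : ℤ)) (blk.δ m : ℤ) :=
  ats_inc_mem (blk.tri m).1

namespace Smash

variable {D : Type} [DivisionRing D] {σ : Type} (S : Smash D σ)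

theorem ats_mul {I : Type} {E : I → DP D σ} {δ : I → ℤ}
    (hE : ∀ m, E m ∈ homW D (fun _ : σ => (1 : ℤ)) (δ m)) (j : ℤ) {G : DP D σ}
    (hG : G ∈ Ideal.span (Set.range E)) :
    ∀ γ : S.Γ, ∃ G' ∈ Ideal.span (Set.range E), γ * S.ι G * S.π j = S.ι G' * S.π j := by
  induction hG using Submodule.span_induction with
  | mem x hx =>
    obtain ⟨m, rfl⟩ := hx
    intro γ
    obtain ⟨H, hH⟩ := S.gen γ (j + δ m)
    refine ⟨H * E m, Ideal.mul_mem_left _ _ (Ideal.subset_span ⟨m, rfl⟩), ?_⟩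
    rw [map_mul, mul_assoc, mul_assoc, ← S.π_ι_hom (hE m) j, ← mul_assoc, ← mul_assoc, hH]
  | zero => exact fun γ => ⟨0, zero_mem _, by simp⟩
  | add x y _ _ hx hy =>
    intro γ
    obtain ⟨a, ha, ha'⟩ := hx γ
    obtain ⟨b, hb, hb'⟩ := hy γ
    exact ⟨a + b, add_mem ha hb, by rw [map_add, map_add, mul_add, add_mul, add_mul, ha', hb']⟩
  | smul a x _ hx =>
    intro γ
    obtain ⟨b, hb, hb'⟩ := hx (γ * S.ι a)
    exact ⟨b, hb, by rw [smul_eq_mul, map_mul, ← mul_assoc, hb']⟩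

theorem ats_sId {I : Type} {E : I → DP D σ} {δ : I → ℤ}
    (hE : ∀ m, E m ∈ homW D (fun _ : σ => (1 : ℤ)) (δ m)) (j : ℤ) {γ : S.Γ}
    (hγ : γ ∈ S.sId E j) :
    ∃ G ∈ Ideal.span (Set.range E), γ * S.π j = S.ι G * S.π j := by
  induction hγ using Submodule.span_induction with
  | mem x hx =>
    rcases hx with rfl | ⟨m, rfl⟩
    · exact ⟨0, zero_mem _, by simp [sub_mul, S.π_mul]⟩
    · exact ⟨E m, Ideal.subset_span ⟨m, rfl⟩, rfl⟩
  | zero => exact ⟨0, zero_mem _, by simp⟩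
  | add x y _ _ hx hy =>
    obtain ⟨a, ha, ha'⟩ := hx
    obtain ⟨b, hb, hb'⟩ := hy
    exact ⟨a + b, add_mem ha hb, by rw [map_add, add_mul, add_mul, ha', hb']⟩
  | smul a x _ hx =>
    obtain ⟨b, hb, hb'⟩ := hx
    obtain ⟨c, hc, hc'⟩ := S.ats_mul hE j hb a
    exact ⟨c, hc, by rw [smul_eq_mul, mul_assoc, hb', ← mul_assoc, hc']⟩

theorem ats_mem_sId {I : Type} (E : I → DP D σ) (j : ℤ) {G : DP D σ}
    (hG : G ∈ Ideal.span (Set.range E)) : S.ι G ∈ S.sId E j := by
  induction hG using Submodule.span_induction with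
  | mem x hx =>
    obtain ⟨m, rfl⟩ := hx
    exact Ideal.subset_span (Set.mem_insert_of_mem _ ⟨m, rfl⟩)
  | zero => simp
  | add x y _ _ hx hy => rw [map_add]; exact add_mem hx hy
  | smul a x _ hx => rw [smul_eq_mul, map_mul]; exact Ideal.mul_mem_left _ _ hx

theorem ats_one_sub {I : Type} (E : I → DP D σ) (j : ℤ) (γ : S.Γ) :
    γ - γ * S.π j ∈ S.sId E j := by
  have : γ - γ * S.π j = γ * (1 - S.π j) := by rw [mul_sub, mul_one]
  rw [this]
  exact Ideal.mul_mem_left _ _ (Ideal.subset_span (Set.mem_insert _ _))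

theorem ats_ι_smul (d : D) (F : DP D σ) : S.ι (d • F) = S.ιD d * S.ι F := by
  rw [ιD, RingHom.comp_apply, ← map_mul]
  congr 1
  ext μ
  simp [AddMonoidAlgebra.singleZeroRingHom, AddMonoidAlgebra.coeff_single_zero_mul]

end Smash

end Crest.Agent.R181
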