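import Crest.Agent.R181.ASmash
import Crest.Agent.R181.ATheoryAuxS
import Crest.Agent.R181.APM
import Crest.Agent.R181.ALocEnd

/-! # Row 181 A: the rank function of a block and the modules `S_j = (D[y,p,q]/(E))(-j)` -/

set_option autoImplicit false

namespace Crest.Agent.R181

open MvPolynomial

namespace Smash

variable {K D : Type} [Field K] [DivisionRing D] [Algebra K D] {n : ℕ} (S : Smash D (BV n))
  (blk : Blk K n)

/-- uniqueness of `(r, e)`: `bh δ k = bN δ * k + const`, `bN δ > 0`. -/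
theorem rho_spec (M : Type) [AddCommGroup M] [Module S.Γ M] {r e k₀ : ℤ}
    (h : ∀ k, k₀ ≤ k → (S.dimk M k : ℤ) = r * bh blk.δ k + e * bN blk.δ) :
    S.rho blk.δ M = r - e := by
  have hex : ∃ re : ℤ × ℤ, ∃ k₀ : ℤ, ∀ k, k₀ ≤ k →
      (S.dimk M k : ℤ) = re.1 * bh blk.δ k + re.2 * bN blk.δ := ⟨(r, e), k₀, h⟩
  unfold rho
  rw [dif_pos hex]
  obtain ⟨k₁, h₁⟩ := hex.choose_spec
  have hN := bN_pos blk.pos
  have a1 := h (max k₀ k₁) (le_max_left _ _)
  have a2 := h₁ (max k₀ k₁) (le_max_right _ _)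
  have b1 := h (max k₀ k₁ + 1) (by omega)
  have b2 := h₁ (max k₀ k₁ + 1) (by omega)
  rw [bh_eq] at a1 a2 b1 b2
  have hr : hex.choose.1 = r := by
    have : (hex.choose.1 - r) * bN blk.δ = 0 := by linear_combination b1 - b2 - a1 + a2
    rcases mul_eq_zero.1 this with h0 | h0
    · omega
    · omega
  have he : hex.choose.2 = e := by
    rw [hr] at a2
    have : (hex.choose.2 - e) * bN blk.δ = 0 := by linear_combination a1 - a2
    rcases mul_eq_zero.1 this with h0 | h0
    · omega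
    · omega
  rw [hr, he]

omit [Field K] in
theorem inc_monomial' {K : Type} [CommRing K] [Algebra K D] {σ : Type} (μ : σ →₀ ℕ) (c : K) :
    inc K D σ (monomial μ c) = AddMonoidAlgebra.single μ (algebraMap K D c) := by
  unfold inc
  exact AddMonoidAlgebra.mapRingHom_single _ _ _

theorem weight_bw_unit (μ : BV n →₀ ℕ) (u : Unit) :
    Finsupp.weight (bw Unit n) (μ.mapDomain (Prod.mk ())) u = (μ.degree : ℤ) := by
  induction μ using Finsupp.induction_linear with
  | zero => simp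
  | add a b ha hb => simp [Finsupp.mapDomain_add, ha, hb]
  | single v c => simp [Finsupp.weight_single, bw]

variable (K) in
/-- the action of `K[Unit × vars]` on a `Γ`-module by `D`-linear maps -/
noncomputable def actK (M : Type) [AddCommGroup M] [Module S.Γ M] :
    letI := S.modD M; MvPolynomial (Unit × BV n) K →+* Module.End D M :=
  letI := S.modD M
  { toFun := fun F =>
      { toFun := fun x => S.ι (inc K D _ (rename Prod.snd F)) • x
        map_add' := fun x y => smul_add _ _ _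
        map_smul' := fun d x => by
          change S.ι _ • S.ι (AddMonoidAlgebra.single 0 d) • x =
            S.ι (AddMonoidAlgebra.single 0 d) • S.ι _ • x
          rw [smul_smul, smul_smul, ← map_mul, ← map_mul, (inc_commute _ _).eq] }
    map_one' := by ext x; simp
    map_mul' := fun F G => by ext x; simp [mul_smul]
    map_zero' := by ext x; simp
    map_add' := fun F G => by ext x; simp [add_smul] }

/-- `PM` with `B = Unit`, `X = M`, `Y = ⊥`, `U k = piece M (k ())`, `χ` from `ι ∘ inc ∘ rename Prod.snd`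
(these act `D`-linearly by `inc_commute`), generators from `exists_gens`; then `Hsp_unit`. -/
theorem exists_re (hP : P1 D Unit fun _ => blk) (M : Type) [AddCommGroup M] [Module S.Γ M]
    [Module.Finite S.Γ M] (hM : WM (S.Fil (blk.ED D)) M) :
    ∃ r e k₀ : ℤ, ∀ k, k₀ ≤ k → (S.dimk M k : ℤ) = r * bh blk.δ k + e * bN blk.δ := by
  classical
  let _ := S.modD M
  have hW := (S.wm_iff _ M).1 hM
  let χ := S.actK K M
  have hχ : ∀ F x, χ F x = S.ι (inc K D _ (rename Prod.snd F)) • x := fun F x => rfl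
  obtain ⟨s, hs, hgen⟩ := S.exists_gens _ hM ⊤ Module.Finite.fg_top
  have key := PM hP (X := M) χ
    (fun c x => by
      rw [hχ, rename_C]
      change _ = S.ι (AddMonoidAlgebra.single 0 (algebraMap K D c)) • x
      rw [← inc_monomial' (D := D) 0 c]
      rfl)
    (fun k => S.piece M (k ())) (fun _ => ⊥) (fun _ => bot_le)
    (fun b v k x hx => by
      have hx' : S.π (k ()) • x = x := hx
      rw [hχ, rename_X]
      have h1 : inc K D _ (X v : MvPolynomial (BV n) K) =
          AddMonoidAlgebra.single (Finsupp.single v 1) 1 := by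
        rw [X, inc_monomial', map_one]
      change S.π _ • _ = _
      simp only [h1, Pi.add_apply, Pi.single_eq_same]
      change S.π (k () + 1) • S.xv v • x = S.xv v • x
      rw [smul_smul, π_xv, mul_smul, hx'])
    (fun b v k x hx => by
      rw [Submodule.mem_bot] at hx ⊢
      rw [hx, map_zero])
    (fun b m k x _ => by
      rw [Submodule.mem_bot, hχ, rename_rename]
      have : (Prod.snd ∘ Prod.mk b : BV n → BV n) = id := rfl
      rw [this, rename_id_apply]
      exact (hW x).1 m)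
    (s.image fun p => (fun _ => p.1, p.2))
    (fun p hp => by
      obtain ⟨q, hq, rfl⟩ := Finset.mem_image.1 hp
      exact (hs q hq).2)
    (fun k x hx => by
      refine Submodule.span_mono ?_ (hgen (k ()) x Submodule.mem_top hx)
      rintro y ⟨p, hp, μ, hμ, rfl⟩
      refine ⟨_, Finset.mem_image_of_mem _ hp, μ.mapDomain (Prod.mk ()), ?_, ?_⟩
      · funext u
        rw [Pi.add_apply, weight_bw_unit]
        exact hμ
      · rw [hχ, rename_monomial, ← Finsupp.mapDomain_comp]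
        have : (Prod.snd ∘ Prod.mk () : BV n → BV n) = id := rfl
        rw [this, Finsupp.mapDomain_id, inc_monomial', map_one])
  obtain ⟨ψ, hψ, k₀, hk⟩ := key
  obtain ⟨r, e, hre⟩ := Hsp_unit blk.δ hψ
  refine ⟨r, e, k₀ (), fun k hk' => ?_⟩
  have := hk (fun _ => k) (fun _ => hk')
  rw [hre] at this
  simpa [dimk] using this

theorem rho_iso (M N : Type) [AddCommGroup M] [Module S.Γ M] [AddCommGroup N] [Module S.Γ N]
    (e : M ≃ₗ[S.Γ] N) : S.rho blk.δ M = S.rho blk.δ N := by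
  have h : S.dimk M = S.dimk N := funext (S.dimk_iso e)
  unfold rho
  rw [h]

theorem wm_sub {I : Type} (E : I → DP D (BV n)) {M : Type} [AddCommGroup M] [Module S.Γ M]
    (hM : WM (S.Fil E) M) (P : Submodule S.Γ M) : WM (S.Fil E) P := by
  rw [S.wm_iff] at hM ⊢
  intro x
  obtain ⟨h1, s, hs⟩ := hM x
  refine ⟨fun m => Subtype.ext (h1 m), s, Subtype.ext ?_⟩
  simpa using hs

theorem wm_quot {I : Type} (E : I → DP D (BV n)) {M : Type} [AddCommGroup M] [Module S.Γ M]
    (hM : WM (S.Fil E) M) (P : Submodule S.Γ M) : WM (S.Fil E) (M ⧸ P) := by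
  rw [S.wm_iff] at hM ⊢
  intro x
  obtain ⟨x, rfl⟩ := P.mkQ_surjective x
  obtain ⟨h1, s, hs⟩ := hM x
  refine ⟨fun m => by rw [← map_smul, h1, map_zero], s, ?_⟩
  conv_rhs => rw [← hs]
  simp only [map_sum, map_smul]

theorem rho_add (hP : P1 D Unit fun _ => blk) (M : Type) [AddCommGroup M] [Module S.Γ M]
    [Module.Finite S.Γ M] (hM : WM (S.Fil (blk.ED D)) M) (P : Submodule S.Γ M) :
    S.rho blk.δ M = S.rho blk.δ P + S.rho blk.δ (M ⧸ P) := by
  have := S.noeth _ M hM
  have hMP := S.wm_sub _ hM P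
  have hMQ := S.wm_quot _ hM P
  obtain ⟨r₁, e₁, k₁, h₁⟩ := S.exists_re blk hP P hMP
  obtain ⟨r₂, e₂, k₂, h₂⟩ := S.exists_re blk hP (M ⧸ P) hMQ
  rw [S.rho_spec blk P h₁, S.rho_spec blk (M ⧸ P) h₂,
    S.rho_spec blk M (r := r₁ + r₂) (e := e₁ + e₂) (k₀ := max k₁ k₂) fun k hk => ?_]
  · ring
  · rw [S.dimk_add _ M hM P k, Nat.cast_add, h₁ k ((le_max_left _ _).trans hk),
      h₂ k ((le_max_right _ _).trans hk)]
    ring

/-- the rank theory of a block -/
noncomputable def theory (hP : P1 D Unit fun _ => blk) : RhoTheory S.Γ where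
  F := S.Fil (blk.ED D)
  up := S.fil_up _
  inf := S.fil_inf _
  ρ := fun M _ _ => S.rho blk.δ M
  iso := fun M N _ _ _ _ e => S.rho_iso blk M N e
  noeth := fun M _ _ _ h => S.noeth _ M h
  add := fun M _ _ _ h P => S.rho_add blk hP M h P

/-- `S_j` -/
abbrev Sj (j : ℤ) : Type := S.Γ ⧸ S.sId (blk.ED D) j

/-- the class of `F ∈ D[y,p,q]` in `S_j` -/
noncomputable def cl (j : ℤ) (F : DP D (BV n)) : S.Sj blk j := Submodule.Quotient.mk (S.ι F)

/-- `γ = γ π_j + γ (1 - π_j)`, `gen`. -/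
theorem cl_surj (j : ℤ) : Function.Surjective (S.cl blk j) := by
  intro x
  obtain ⟨γ, rfl⟩ := Submodule.Quotient.mk_surjective _ x
  obtain ⟨F, hF⟩ := S.gen γ j
  refine ⟨F, (Submodule.Quotient.eq _).2 ?_⟩
  have := sub_mem (S.ats_one_sub (blk.ED D) j (S.ι F)) (S.ats_one_sub (blk.ED D) j γ)
  rwa [hF, sub_sub_sub_cancel_right] at this

/-- if `ι F = γ₀ (1 - π_j) + ∑ γ_m ι E_m`, multiply by `π_j` on the right, use `π_ι_hom` for the homogeneous
`E_m`, `gen` and `inj`. -/
theorem cl_eq_zero (j : ℤ) (F : DP D (BV n)) :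
    S.cl blk j F = 0 ↔ F ∈ Ideal.span (Set.range (blk.ED D)) := by
  rw [cl, Submodule.Quotient.mk_eq_zero]
  refine ⟨fun h => ?_, S.ats_mem_sId _ j⟩
  obtain ⟨G, hG, hG'⟩ := S.ats_sId (ats_ED_mem (D := D) blk) j h
  have := S.inj (F - G) j (by rw [map_sub, sub_mul, hG', sub_self])
  rwa [sub_eq_zero.1 this]

theorem π_cl (j d : ℤ) {F : DP D (BV n)} (hF : F ∈ homW D (fun _ => (1 : ℤ)) d) :
    S.π (j + d) • S.cl blk j F = S.cl blk j F := by
  rw [cl, ← Submodule.Quotient.mk_smul, smul_eq_mul, S.π_ι_hom hF, eq_comm]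
  exact (Submodule.Quotient.eq _).2 (S.ats_one_sub _ j _)

/-- homogeneous elements of `S_j` come from homogeneous polynomials -/
theorem exists_hom_cl (j k : ℤ) (x : S.Sj blk j) (hx : S.π k • x = x) :
    ∃ F ∈ homW D (fun _ : BV n => (1 : ℤ)) (k - j), S.cl blk j F = x := by
  obtain ⟨F, rfl⟩ := S.cl_surj blk j x
  suffices h : ∀ F : DP D (BV n), ∃ F' ∈ homW D (fun _ : BV n => (1 : ℤ)) (k - j),
      S.cl blk j F' = S.π k • S.cl blk j F by
    obtain ⟨F', h1, h2⟩ := h F
    exact ⟨F', h1, h2.trans hx⟩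
  intro F
  induction F using AddMonoidAlgebra.induction_linear with
  | zero => exact ⟨0, zero_mem _, by simp [cl]⟩
  | add a b ha hb =>
    obtain ⟨a', ha1, ha2⟩ := ha
    obtain ⟨b', hb1, hb2⟩ := hb
    refine ⟨a' + b', add_mem ha1 hb1, ?_⟩
    simp only [cl, map_add, Submodule.Quotient.mk_add, smul_add] at ha2 hb2 ⊢
    rw [ha2, hb2]
  | single μ d =>
    have h1 := S.π_cl blk j _ (ats_single_mem μ d)
    by_cases hk : k = j + μ.degree
    · refine ⟨AddMonoidAlgebra.single μ d, ?_, by rw [hk, h1]⟩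
      rw [hk, add_sub_cancel_left]
      exact ats_single_mem μ d
    · refine ⟨0, zero_mem _, ?_⟩
      rw [← h1, smul_smul, S.π_mul, if_neg hk, zero_smul]
      simp [cl]

theorem wm_Sj (j : ℤ) : WM (S.Fil (blk.ED D)) (S.Sj blk j) := by
  intro x
  obtain ⟨F, rfl⟩ := S.cl_surj blk j x
  induction F using AddMonoidAlgebra.induction_linear with
  | zero =>
    refine ⟨fun m => ?_, ∅, ?_⟩ <;> rw [Ideal.mem_torsionOf_iff] <;> simp [cl]
  | add a b ha hb =>
    refine S.fil_up _ _ (S.fil_inf _ _ ha _ hb) _ fun γ hγ => ?_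
    obtain ⟨h1, h2⟩ := hγ
    rw [SetLike.mem_coe, Ideal.mem_torsionOf_iff] at h1 h2
    rw [Ideal.mem_torsionOf_iff]
    simp only [cl, map_add, Submodule.Quotient.mk_add, smul_add] at h1 h2 ⊢
    rw [h1, h2, add_zero]
  | single μ d =>
    refine ⟨fun m => ?_, {j + μ.degree}, ?_⟩
    · rw [Ideal.mem_torsionOf_iff, cl, ← Submodule.Quotient.mk_smul, smul_eq_mul, ← map_mul,
        Blk.ED, (inc_commute _ _).eq]
      exact (S.cl_eq_zero blk j _).2 (Ideal.mul_mem_left _ _ (Ideal.subset_span ⟨m, rfl⟩))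
    · rw [Ideal.mem_torsionOf_iff, Finset.sum_singleton, sub_smul, one_smul,
        S.π_cl blk j _ (ats_single_mem μ d), sub_self]

theorem dimk_Sj (j k : ℤ) : (S.dimk (S.Sj blk j) k : ℤ) =
    codim (fun _ : BV n => (1 : ℤ)) (Ideal.span (Set.range (blk.ED D))) (k - j) := by
  let := S.modD (S.Sj blk j)
  have := ats_finite D (σ := BV n) (k - j)
  let f : homW D (fun _ : BV n => (1 : ℤ)) (k - j) →ₗ[D] S.piece (S.Sj blk j) k :=
    { toFun := fun F => ⟨S.cl blk j F, by
        have := S.π_cl blk j _ F.2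
        rwa [add_sub_cancel] at this⟩
      map_add' := fun a b => Subtype.ext (by simp [cl])
      map_smul' := fun d a => Subtype.ext (by
        change S.cl blk j (d • (a : DP D (BV n))) = S.ιD d • S.cl blk j a
        rw [cl, cl, S.ats_ι_smul, ← Submodule.Quotient.mk_smul, smul_eq_mul]) }
  have hr : LinearMap.range f = ⊤ := by
    rw [LinearMap.range_eq_top]
    rintro ⟨x, hx⟩
    obtain ⟨F, h1, h2⟩ := S.exists_hom_cl blk j k x hx
    exact ⟨⟨F, h1⟩, Subtype.ext h2⟩
  have hk : LinearMap.ker f = (homW D (fun _ : BV n => (1 : ℤ)) (k - j) ⊓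
      (Ideal.span (Set.range (blk.ED D))).restrictScalars D).comap
        (homW D (fun _ : BV n => (1 : ℤ)) (k - j)).subtype := by
    ext F
    rw [LinearMap.mem_ker, Subtype.ext_iff, Submodule.mem_comap, Submodule.mem_inf,
      Submodule.restrictScalars_mem, ← S.cl_eq_zero blk j]
    exact ⟨fun h => ⟨F.2, h⟩, fun h => h.2⟩
  have h := LinearMap.finrank_range_add_finrank_ker f
  rw [hr, hk, finrank_top, (Submodule.comapSubtypeEquivOfLe inf_le_left).finrank_eq] at h
  rw [codim, ← h, dimk]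
  push_cast
  ring

/-- universal property -/
theorem exists_hom_Sj (j : ℤ) {M : Type} [AddCommGroup M] [Module S.Γ M]
    (hM : WM (S.Fil (blk.ED D)) M) (g : M) (hg : S.π j • g = g) :
    ∃ f : S.Sj blk j →ₗ[S.Γ] M, ∀ F, f (S.cl blk j F) = S.ι F • g := by
  refine ⟨Submodule.liftQ _ (LinearMap.toSpanSingleton S.Γ M g) ?_, fun F => rfl⟩
  refine Submodule.span_le.2 ?_
  rintro x (rfl | ⟨m, rfl⟩)
  · simp [sub_smul, hg]
  · exact (hM g).1 m

theorem dimk_Sj_ev (j : ℤ) : ∃ k₀ : ℤ, ∀ k, k₀ ≤ k →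
    (S.dimk (S.Sj blk j) k : ℤ) = 1 * bh blk.δ k + (-j) * bN blk.δ := by
  obtain ⟨k₀, h⟩ := blk_codim D blk
  refine ⟨k₀ + j, fun k hk => ?_⟩
  rw [S.dimk_Sj, h _ (by omega), bh_eq, bh_eq _ k]
  ring

theorem rho_Sj (j : ℤ) : S.rho blk.δ (S.Sj blk j) = 1 + j := by
  obtain ⟨k₀, h⟩ := S.dimk_Sj_ev blk j
  rw [S.rho_spec blk _ h]
  ring

theorem ι_smul_cl (j : ℤ) (A F : DP D (BV n)) :
    S.ι A • S.cl blk j F = S.cl blk j (A * F) := by
  unfold cl
  rw [map_mul, ← Submodule.Quotient.mk_smul, smul_eq_mul]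

theorem cl_add (j : ℤ) (A F : DP D (BV n)) :
    S.cl blk j (A + F) = S.cl blk j A + S.cl blk j F := by
  unfold cl
  rw [map_add, Submodule.Quotient.mk_add]

theorem cl_sub (j : ℤ) (A F : DP D (BV n)) :
    S.cl blk j (A - F) = S.cl blk j A - S.cl blk j F := by
  unfold cl
  rw [map_sub, Submodule.Quotient.mk_sub]

theorem cl_sum (j : ℤ) {I : Type} (s : Finset I) (A : I → DP D (BV n)) :
    S.cl blk j (∑ i ∈ s, A i) = ∑ i ∈ s, S.cl blk j (A i) := by
  unfold cl
  rw [map_sum]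
  exact map_sum (S.sId (blk.ED D) j).mkQ _ _

theorem π_xv_pow (v : BV n) (t : ℕ) (k : ℤ) :
    S.π (k + t) * S.xv v ^ t = S.xv v ^ t * S.π k := by
  induction t with
  | zero => simp
  | succ t ih =>
    rw [pow_succ', Nat.cast_succ, ← add_assoc, ← mul_assoc, π_xv, mul_assoc, ih, mul_assoc]

/-- the Hilbert function of a nonzero submodule of `S_j` grows -/
theorem grow (j : ℤ) (P : Submodule S.Γ (S.Sj blk j)) [Module.Finite S.Γ P]
    (hMP : WM (S.Fil (blk.ED D)) P) (F : DP D (BV n)) (hFP : S.cl blk j F ∈ P)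
    (hF0 : F ∉ Ideal.span (Set.range (blk.ED D))) {d : ℤ}
    (hd : S.π d • S.cl blk j F = S.cl blk j F) (t : ℕ) : t + 1 ≤ S.dimk P (d + t) := by
  let _ := S.modD P
  have := S.piece_finite _ P hMP (d + t)
  let y : P := ⟨S.cl blk j F, hFP⟩
  have hy : S.π d • y = y := Subtype.ext hd
  let v : Fin (t + 1) → S.piece P (d + t) := fun i =>
    ⟨(S.xv (Sum.inr 0) ^ (i : ℕ) * S.xv (Sum.inr 1) ^ (t - i)) • y, by
      rw [mem_piece, smul_smul]
      have hi : d + (t : ℤ) = (d + (t - i : ℕ)) + (i : ℕ) := by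
        have := i.2
        omega
      rw [hi, ← mul_assoc, π_xv_pow, mul_assoc, π_xv_pow, ← mul_assoc, mul_smul, hy]⟩
  have hv : LinearIndependent D v := by
    rw [Fintype.linearIndependent_iff]
    intro c hc
    have hc0 := blk_grow D blk F hF0 t c (by
      rw [← S.cl_eq_zero blk j, cl_sum]
      have h1 := congrArg (fun z : S.piece P (d + t) => ((z : P) : S.Sj blk j)) hc
      simp only [Submodule.coe_sum, Submodule.coe_zero] at h1
      rw [← h1]
      refine Finset.sum_congr rfl fun i _ => ?_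
      change _ = S.ι (AddMonoidAlgebra.single 0 (c i)) •
        (S.xv (Sum.inr 0) ^ (i : ℕ) * S.xv (Sum.inr 1) ^ (t - i)) • S.cl blk j F
      unfold xv
      rw [← map_pow, ← map_pow, ← map_mul, ι_smul_cl, ι_smul_cl]
      congr 1
      ext μ
      simp [AddMonoidAlgebra.coeff_single_zero_mul])
    intro i
    rw [hc0]; rfl
  simpa [dimk] using hv.fintype_card_le_finrank

/-- `dim P_k = r h + e N ≤ h(k - j) = h(k) - j N`; `dim P_k` is unbounded (`blk_grow` for a nonzero
homogeneous element of `P`), so `r ≥ 1`, hence `r = 1` and `e ≤ -j`. -/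
theorem rho_sub_Sj (hP : P1 D Unit fun _ => blk) (j : ℤ) (P : Submodule S.Γ (S.Sj blk j))
    (h : P ≠ ⊥) : 1 + j ≤ S.rho blk.δ P := by
  classical
  have hM := S.wm_Sj blk j
  have := S.noeth _ _ hM
  have hMP := S.wm_sub _ hM P
  obtain ⟨r, e, k₁, h₁⟩ := S.exists_re blk hP P hMP
  obtain ⟨k₂, h₂⟩ := S.dimk_Sj_ev blk j
  rw [S.rho_spec blk P h₁]
  -- a nonzero homogeneous element
  obtain ⟨x, hxP, hx0⟩ := (Submodule.ne_bot_iff P).1 h
  obtain ⟨-, s, hs⟩ := (S.wm_iff _ _).1 hM x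
  obtain ⟨d, hd⟩ : ∃ d, S.π d • x ≠ 0 := by
    by_contra hc
    push Not at hc
    apply hx0
    rw [← hs]
    simp [hc]
  have hy : S.π d • S.π d • x = S.π d • x := by
    rw [smul_smul, S.π_mul, if_pos rfl]
  obtain ⟨F, -, hF⟩ := S.exists_hom_cl blk j d _ hy
  have hFP : S.cl blk j F ∈ P := hF ▸ P.smul_mem _ hxP
  have hF0 : F ∉ Ideal.span (Set.range (blk.ED D)) := fun hc =>
    hd (hF ▸ (S.cl_eq_zero blk j F).2 hc)
  have hgrow : ∀ t : ℕ, t + 1 ≤ S.dimk P (d + t) := fun t =>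
    S.grow blk j P hMP F hFP hF0 (hF ▸ hy) t
  have hle : ∀ k, S.dimk P k ≤ S.dimk (S.Sj blk j) k := fun k => by
    rw [S.dimk_add _ _ hM P k]; omega
  have hN := bN_pos blk.pos
  set N := bN blk.δ with hNdef
  set c := bh blk.δ 0 with hc
  have up : ∀ k, max k₁ k₂ ≤ k → r * (N * k + c) + e * N ≤ (N * k + c) - j * N := fun k hk => by
    have a1 := h₁ k ((le_max_left _ _).trans hk)
    have a2 := h₂ k ((le_max_right _ _).trans hk)
    rw [bh_eq] at a1 a2
    have a3 : (S.dimk P k : ℤ) ≤ S.dimk (S.Sj blk j) k := by exact_mod_cast hle k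
    linarith
  have lo : ∀ k, max k₁ d ≤ k → k - d + 1 ≤ r * (N * k + c) + e * N := fun k hk => by
    have a1 := h₁ k ((le_max_left _ _).trans hk)
    rw [bh_eq] at a1
    have hdk : d ≤ k := (le_max_right _ _).trans hk
    have a3 := hgrow (k - d).toNat
    have a4 : d + ((k - d).toNat : ℤ) = k := by omega
    rw [a4] at a3
    have a5 : (((k - d).toNat + 1 : ℕ) : ℤ) ≤ S.dimk P k := by exact_mod_cast a3
    push_cast at a5
    have a6 : ((k - d).toNat : ℤ) = k - d := by omega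
    linarith
  have hr1 : 1 ≤ r := by
    by_contra hr
    have hr' : r ≤ 0 := by omega
    set k := max (max k₁ d) (max 0 (r * c + e * N + d)) with hk
    have k0 : 0 ≤ k := le_max_of_le_right (le_max_left _ _)
    have k1 : r * c + e * N + d ≤ k := le_max_of_le_right (le_max_right _ _)
    have a := lo k (le_max_left _ _)
    have : r * (N * k) ≤ 0 := mul_nonpos_of_nonpos_of_nonneg hr' (mul_nonneg hN.le k0)
    nlinarith
  have hr2 : r ≤ 1 := by
    by_contra hr
    have hr' : 2 ≤ r := by omega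
    set k := max (max k₁ k₂) (max 0 (1 - (r - 1) * c - (e + j) * N)) with hk
    have k0 : 0 ≤ k := le_max_of_le_right (le_max_left _ _)
    have k1 : 1 - (r - 1) * c - (e + j) * N ≤ k := le_max_of_le_right (le_max_right _ _)
    have a := up k (le_max_left _ _)
    have b1 : k ≤ N * k := by nlinarith
    have b2 : N * k ≤ (r - 1) * (N * k) := by nlinarith
    nlinarith
  have hr : r = 1 := le_antisymm hr2 hr1
  subst hr
  have a := up _ le_rfl
  have : (e + j) * N ≤ 0 := by linarith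
  have : e + j ≤ 0 := by
    by_contra hc'
    have : 0 < (e + j) * N := mul_pos (by omega) hN
    omega
  omega

/-- submodules containing `p` and `q` have finite colength (`blk_nil`) -/
theorem rho_of_pq (j : ℤ) (P : Submodule S.Γ (S.Sj blk j))
    (h : ∀ i : Fin 2, S.cl blk j (xD D (Sum.inr i)) ∈ P) : S.rho blk.δ P = 1 + j := by
  obtain ⟨k₀, h₀⟩ := S.dimk_Sj_ev blk j
  obtain ⟨s, hs⟩ := blk_nil D blk
  rw [S.rho_spec blk P (r := 1) (e := -j) (k₀ := max k₀ (s + j)) fun k hk => ?_]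
  · ring
  · rw [← h₀ k ((le_max_left _ _).trans hk)]
    have hk' : s + j ≤ k := (le_max_right _ _).trans hk
    rw [S.dimk_submodule P k (S.piece _ k) fun x => ⟨fun hx => ⟨?_, hx⟩, fun hx => hx.2⟩]
    · rfl
    · obtain ⟨F, hF, rfl⟩ := S.exists_hom_cl blk j k x hx
      obtain ⟨A, B, hAB⟩ := hs (k - j) (by omega) F hF
      rw [← S.cl_eq_zero blk j, cl_sub, sub_eq_zero] at hAB
      rw [hAB, cl_add, ← ι_smul_cl, ← ι_smul_cl]
      exact P.add_mem (P.smul_mem _ (h 0)) (P.smul_mem _ (h 1))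

end Smash

end Crest.Agent.R181
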