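import Crest.Agent.R181.ATransferAux

/-! # Row 181 A: `P1` passes to the new division ring.
Let `N'` be a left ideal of `D'[σ']`, `σ' = B' × BV n`, containing the equations.
1. `exists_hom_gens` gives `s`; `G₀ := cof` of the span of `L.one` and all `L.one · (coefficients of s)`.
2. `X := (σ' →₀ ℕ) →₀ L.G`, a `D`-module through `S.modD L.G`; `χ` from `exists_eval`: `(none, v)` acts by
   `mapRange (S.xv v • ·)`, `(some b, v)` by `Finsupp.mapDomain (· + single (b,v) 1)`.
   For `k' : B' → ℤ` let `J k'` be the finset of monomials of weight `k'` (`bw_finite`),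
   `N k' := (homW k' ⊓ N').map coeffLinearEquiv`,
   `U k := {x ∈ L.box (J k') G₀ | π (k none) • x = x}`, `Y k := U k ⊓ L.GN act (N k')`, `k' = k ∘ some`.
   The equations of `none` act as `ι (ED m) = 0` (`wm_iff`); those of `some b` send `single μ g` to
   `av (x^μ * inc E') g` (`hK`).  Generators: `single 0 g_i` with `g_i` from `exists_gens` for `G₀`.
3. `PM`, `Hsp_option`: for `k' ≥ k₀'` and large `k`:
   `dimk (box) k - dimk (box ⊓ GN) k = A k' * bh k + C k' * bN` (`dimk_submodule`); with `exists_re`,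
   `rho_spec`: `ρ box - ρ (box ⊓ GN) = A k' - C k'`; `rho_box`, `rho_inf_GN` (spanning set from step 1)
   identify the left side with `codim N' k'`. -/

set_option autoImplicit false

namespace Crest.Agent.R181

open MvPolynomial

variable {K D : Type} [Field K] [DivisionRing D] [Algebra K D] {n : ℕ} {S : Smash D (BV n)}
  {blk : Blk K n} {hP : P1 D Unit fun _ => blk} (L : Loc (S.theory blk hP) (S.Sj blk 0))

section Aux

variable {D' : Type} [DivisionRing D'] [Algebra K D'] (act : D' →+* (Module.End S.Γ L.G)ᵐᵒᵖ)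
  {B' : Type} [Fintype B'] [DecidableEq B']

/-- the monomials of weight `k'` -/
noncomputable def trJ (n : ℕ) (k' : B' → ℤ) : Finset (B' × BV n →₀ ℕ) := (bw_finite B' k').toFinset

theorem mem_trJ {k' : B' → ℤ} {μ : B' × BV n →₀ ℕ} :
    μ ∈ trJ n k' ↔ Finsupp.weight (bw B' n) μ = k' := by
  simp [trJ]

/-- the coefficient vectors of the weight `k'` part of `N'` -/
noncomputable def trN (N' : Ideal (DP D' (B' × BV n))) (k' : B' → ℤ) :
    Submodule D' ((B' × BV n →₀ ℕ) →₀ D') :=
  (homW D' (bw B' n) k' ⊓ N'.restrictScalars D').map (AddMonoidAlgebra.coeffLinearEquiv D').toLinearMap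

omit [Fintype B'] in
theorem mem_trN {N' : Ideal (DP D' (B' × BV n))} {k' : B' → ℤ} {a : DP D' (B' × BV n)}
    (h1 : a ∈ homW D' (bw B' n) k') (h2 : a ∈ N') : a.coeff ∈ trN N' k' :=
  ⟨a, ⟨h1, h2⟩, rfl⟩

theorem codim_eq_tr (N' : Ideal (DP D' (B' × BV n))) (k' : B' → ℤ) :
    codim (bw B' n) N' k' = ((trJ n k').card : ℤ) - Module.finrank D' (trN N' k') := by
  rw [codim, trN, LinearEquiv.finrank_map_eq]
  congr 2
  have e := AddMonoidAlgebra.supportedEquivFinsupp (R := D') (S := D')
    {μ : B' × BV n →₀ ℕ | Finsupp.weight (bw B' n) μ = k'}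
  have := (bw_finite (n := n) B' k').fintype
  rw [homW, e.finrank_eq, Module.finrank_finsupp_self, trJ, Set.Finite.card_toFinset]

/-- the degree `k` piece of a `Γ`-submodule -/
def trP {X : Type} [AddCommGroup X] [Module S.Γ X] [Module D X]
    (hD : ∀ (d : D) (x : X), d • x = S.ιD d • x) (P : Submodule S.Γ X) (k : ℤ) : Submodule D X where
  carrier := {x | x ∈ P ∧ S.π k • x = x}
  add_mem' := fun {a b} ha hb => ⟨P.add_mem ha.1 hb.1, by rw [smul_add, ha.2, hb.2]⟩
  zero_mem' := ⟨P.zero_mem, smul_zero _⟩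
  smul_mem' := fun d x hx => by
    rw [hD]
    exact ⟨P.smul_mem _ hx.1, by rw [smul_smul, S.π_ιD, mul_smul, hx.2]⟩

theorem mem_trP {X : Type} [AddCommGroup X] [Module S.Γ X] [Module D X]
    {hD : ∀ (d : D) (x : X), d • x = S.ιD d • x} {P : Submodule S.Γ X} {k : ℤ} {x : X} :
    x ∈ trP hD P k ↔ x ∈ P ∧ S.π k • x = x := Iff.rfl

theorem Loc.tr_box_shift {G₀ : Submodule S.Γ L.G} {k' : B' → ℤ} {x : (B' × BV n →₀ ℕ) →₀ L.G}
    (hx : x ∈ L.box (trJ n k') G₀) (μ : B' × BV n →₀ ℕ) :
    Finsupp.mapDomain (μ + ·) x ∈ L.box (trJ n (k' + Finsupp.weight (bw B' n) μ)) G₀ := by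
  rw [Loc.tr_mem_box] at hx ⊢
  refine ⟨fun j => ?_, fun j hj => ?_⟩ <;> by_cases h : j ∈ Set.range (μ + ·)
  · obtain ⟨j, rfl⟩ := h
    rw [Finsupp.mapDomain_apply (add_right_injective μ)]
    exact hx.1 j
  · rw [Finsupp.mapDomain_of_notMem_range _ _ h]
    exact G₀.zero_mem
  · obtain ⟨j, rfl⟩ := h
    rw [Finsupp.mapDomain_apply (add_right_injective μ)]
    refine hx.2 j fun hj' => hj ?_
    rw [mem_trJ] at hj' ⊢
    rw [map_add, hj', add_comm]
  · exact Finsupp.mapDomain_of_notMem_range _ _ h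

omit [Fintype B'] [Algebra K D'] in
theorem Loc.tr_GN_shift {N' : Ideal (DP D' (B' × BV n))} {k' : B' → ℤ}
    {x : (B' × BV n →₀ ℕ) →₀ L.G} (hx : x ∈ L.GN act (trN N' k')) (μ : B' × BV n →₀ ℕ) :
    Finsupp.mapDomain (μ + ·) x ∈ L.GN act (trN N' (k' + Finsupp.weight (bw B' n) μ)) := by
  induction hx using Submodule.span_induction with
  | mem x hx =>
    obtain ⟨_, ⟨a, ⟨h1, h2⟩, rfl⟩, g, rfl⟩ := hx
    refine Submodule.subset_span ⟨(AddMonoidAlgebra.single μ 1 * a).coeff, mem_trN ?_ ?_, g, ?_⟩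
    · rw [add_comm]
      exact tr_single_mul_mem h1 _ _
    · exact N'.mul_mem_left _ h2
    · rw [Loc.tr_av_mapDomain, tr_coeff_shift]
      rfl
  | zero => rw [Finsupp.mapDomain_zero]; exact Submodule.zero_mem _
  | add x y _ _ hx hy => rw [Finsupp.mapDomain_add]; exact Submodule.add_mem _ hx hy
  | smul c x _ hx => rw [Finsupp.mapDomain_smul]; exact Submodule.smul_mem _ _ hx

variable [Module D ((B' × BV n →₀ ℕ) →₀ L.G)]
  (hD : ∀ (d : D) (x : (B' × BV n →₀ ℕ) →₀ L.G), d • x = S.ιD d • x)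
  (χ : MvPolynomial (Option B' × BV n) K →+* Module.End D ((B' × BV n →₀ ℕ) →₀ L.G))
  (h1 : ∀ c x, χ (C c) x = algebraMap K D c • x)

omit [Fintype B'] [DecidableEq B'] in
include hD h1 in
theorem Loc.tr_chi_none (h2 : ∀ v x, χ (X (none, v)) x = S.xv v • x) (F : MvPolynomial (BV n) K)
    (x : (B' × BV n →₀ ℕ) →₀ L.G) : χ (rename (Prod.mk none) F) x = S.ι (inc K D _ F) • x := by
  induction F using MvPolynomial.induction_on generalizing x with
  | C c => rw [rename_C, h1, hD, tr_inc_C]; rfl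
  | add p q hp hq => rw [map_add, map_add, LinearMap.add_apply, hp, hq, map_add, map_add, add_smul]
  | mul_X p v hp =>
    rw [map_mul, map_mul, Module.End.mul_apply, hp, rename_X, h2, map_mul, map_mul, mul_smul, tr_inc_X]
    rfl

omit [Fintype B'] [DecidableEq B'] in
include hD h1 in
theorem Loc.tr_chi_some
    (hK : ∀ c g, (act (algebraMap K D' c)).unop g = S.ιD (algebraMap K D c) • g)
    (h3 : ∀ b v x, χ (X (some b, v)) x = Finsupp.mapDomain (Finsupp.single (b, v) 1 + ·) x)
    (F : MvPolynomial (B' × BV n) K) (a : DP D' (B' × BV n)) (g : L.G) :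
    χ (rename (Prod.map some id) F) (L.av act a.coeff g) = L.av act (inc K D' _ F * a).coeff g := by
  induction F using MvPolynomial.induction_on generalizing a with
  | C c =>
    rw [rename_C, h1, hD, tr_inc_C, Loc.tr_smul_av, ← hK, ← Loc.tr_av_smul]
    congr 1
    ext j
    rw [AddMonoidAlgebra.coeff_single_zero_mul, Finsupp.smul_apply, smul_eq_mul]
  | add p q hp hq =>
    rw [map_add, map_add, LinearMap.add_apply, hp, hq, map_add, add_mul, AddMonoidAlgebra.coeff_add,
      Loc.tr_av_add]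
  | mul_X p v hp =>
    rw [map_mul, map_mul, Module.End.mul_apply, rename_X, map_mul, mul_assoc, ← hp, tr_inc_X,
      tr_coeff_shift, ← Loc.tr_av_mapDomain]
    exact congrArg _ (h3 v.1 v.2 _)

end Aux

theorem tr_solve {δ : Fin n → ℕ} (hδ : ∀ m, 1 ≤ δ m) {a c t₀ : ℤ}
    (h : ∀ t, t₀ ≤ t → a * bh δ t + c * bN δ = 0) : a = 0 ∧ c = 0 := by
  have hN := bN_pos hδ
  have e1 := h t₀ le_rfl
  have e2 := h (t₀ + 1) (by omega)
  rw [bh_eq] at e1 e2
  have ha : a = 0 := by
    have : a * bN δ = 0 := by linear_combination e2 - e1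
    exact (mul_eq_zero.1 this).resolve_right hN.ne'
  subst ha
  refine ⟨rfl, ?_⟩
  have : c * bN δ = 0 := by linear_combination e1
  exact (mul_eq_zero.1 this).resolve_right hN.ne'

theorem Loc.transfer {D' : Type} [DivisionRing D'] [Algebra K D']
    (act : D' →+* (Module.End S.Γ L.G)ᵐᵒᵖ)
    (hK : ∀ c g, (act (algebraMap K D' c)).unop g = S.ιD (algebraMap K D c) • g)
    (B' : Type) [Fintype B'] [DecidableEq B'] (blk' : B' → Blk K n)
    (h : P1 D (Option B') fun o => o.elim blk blk') : P1 D' B' blk' := by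
  classical
  intro N' hN'
  -- step 1
  obtain ⟨s, hs1, hs2⟩ := exists_hom_gens (bw B' n) N'
  let gens : Finset L.G := insert L.one
    (s.biUnion fun p => p.2.coeff.support.image fun j => (act (p.2.coeff j)).unop L.one)
  obtain ⟨G₀, hG₀, hfg, hρ⟩ := L.cof (Submodule.span S.Γ (gens : Set L.G)) ⟨gens, rfl⟩
  have hone : L.one ∈ G₀ := hG₀ (Submodule.subset_span (Finset.mem_insert_self _ _))
  have hco : ∀ p ∈ s, ∀ j, (act (p.2.coeff j)).unop L.one ∈ G₀ := by
    intro p hp j
    by_cases hj : j ∈ p.2.coeff.support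
    · exact hG₀ (Submodule.subset_span (Finset.mem_insert_of_mem
        (Finset.mem_biUnion.2 ⟨p, hp, Finset.mem_image_of_mem _ hj⟩)))
    · rw [Finsupp.notMem_support_iff.1 hj]
      simp
  have hw : WM (S.Fil (blk.ED D)) L.G := L.w
  have hwX : WM (S.Fil (blk.ED D)) ((B' × BV n →₀ ℕ) →₀ L.G) := WM.finsupp (S.theory blk hP) L.w _
  obtain ⟨t, ht1, ht2⟩ := S.exists_gens _ hw G₀ hfg
  -- step 2
  let : Module D ((B' × BV n →₀ ℕ) →₀ L.G) := S.modD _
  have hD : ∀ (d : D) (x : (B' × BV n →₀ ℕ) →₀ L.G), d • x = S.ιD d • x := fun _ _ => rfl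
  obtain ⟨χ, h1, h2, h3⟩ := S.tr_exists_chi (K := K) hD
  let P₁ : (B' → ℤ) → Submodule S.Γ ((B' × BV n →₀ ℕ) →₀ L.G) := fun k' => L.box (trJ n k') G₀
  let P₂ : (B' → ℤ) → Submodule S.Γ ((B' × BV n →₀ ℕ) →₀ L.G) := fun k' =>
    L.box (trJ n k') G₀ ⊓ L.GN act (trN N' k')
  let U : (Option B' → ℤ) → Submodule D ((B' × BV n →₀ ℕ) →₀ L.G) := fun k =>
    trP hD (P₁ fun b => k (some b)) (k none)
  let Y : (Option B' → ℤ) → Submodule D ((B' × BV n →₀ ℕ) →₀ L.G) := fun k =>
    trP hD (P₂ fun b => k (some b)) (k none)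
  have e1 : ∀ (k : Option B' → ℤ) (c : ℤ),
      (fun b => (k + Pi.single none c : Option B' → ℤ) (some b)) = fun b => k (some b) := by
    intro k c
    funext b
    simp
  have e2 : ∀ (k : Option B' → ℤ) (b : B') (c : ℤ),
      (fun b' => (k + Pi.single (some b) c : Option B' → ℤ) (some b')) =
        (fun b' => k (some b')) + Pi.single b c := by
    intro k b c
    funext b'
    simp [Pi.single_apply]
  have e3 : ∀ (k : Option B' → ℤ) (c : ℤ), (k + Pi.single none c : Option B' → ℤ) none = k none + c := by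
    intro k c
    simp
  have e4 : ∀ (k : Option B' → ℤ) (b : B') (c : ℤ),
      (k + Pi.single (some b) c : Option B' → ℤ) none = k none := by
    intro k b c
    simp
  have hπ : ∀ (v : BV n) (k : ℤ) (x : (B' × BV n →₀ ℕ) →₀ L.G), S.π k • x = x →
      S.π (k + 1) • S.xv v • x = S.xv v • x := by
    intro v k x hx
    rw [smul_smul, S.π_xv, mul_smul, hx]
  have hU : ∀ b v k, ∀ x ∈ U k, χ (X (b, v)) x ∈ U (k + Pi.single b 1) := by
    rintro (_ | b) v k x hx
    · rw [h2, mem_trP, e1, e3]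
      exact ⟨Submodule.smul_mem _ _ hx.1, hπ v _ x hx.2⟩
    · rw [h3, mem_trP, e2, e4, ← Finsupp.mapDomain_smul, hx.2, ← tr_weight_single b v]
      exact ⟨L.tr_box_shift hx.1 _, rfl⟩
  have hY : ∀ b v k, ∀ x ∈ Y k, χ (X (b, v)) x ∈ Y (k + Pi.single b 1) := by
    rintro (_ | b) v k x hx
    · rw [h2, mem_trP, e1, e3]
      exact ⟨Submodule.smul_mem _ _ hx.1, hπ v _ x hx.2⟩
    · rw [h3, mem_trP, e2, e4, ← Finsupp.mapDomain_smul, hx.2, ← tr_weight_single b v]
      exact ⟨⟨L.tr_box_shift hx.1.1 _, L.tr_GN_shift act hx.1.2 _⟩, rfl⟩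
  have hsingle : ∀ (F : MvPolynomial (B' × BV n) K) (j : B' × BV n →₀ ℕ) (g : L.G),
      χ (rename (Prod.map some id) F) (Finsupp.single j g) =
        L.av act (inc K D' _ F * AddMonoidAlgebra.single j 1).coeff g := by
    intro F j g
    rw [← L.tr_chi_some act hD χ h1 hK h3, AddMonoidAlgebra.coeff_single, Loc.tr_av_single]
  have hE : ∀ (b : Option B') m k, ∀ x ∈ U k,
      χ (rename (Prod.mk b) ((b.elim blk blk').E m)) x ∈
        Y (k + Pi.single b ((b.elim blk blk').δ m : ℤ)) := by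
    rintro (_ | b) m k x hx
    · rw [L.tr_chi_none hD χ h1 h2]
      have : S.ι (inc K D _ ((Option.elim none blk blk').E m)) • x = 0 :=
        (((S.wm_iff _ _).1 hwX) x).1 m
      rw [this]
      exact Submodule.zero_mem _
    · have hu := tr_stable χ h1 U hU (tr_weight_rename (some b) ((blk' b).tri m).1) k hx
      refine ⟨⟨hu.1, ?_⟩, hu.2⟩
      rw [e2, ← x.sum_single, Finsupp.sum, map_sum]
      refine Submodule.sum_mem _ fun j hj => ?_
      have hr : rename (Prod.mk (some b)) ((Option.elim (some b) blk blk').E m) =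
          rename (Prod.map some id) (rename (Prod.mk b) ((blk' b).E m)) := by
        rw [rename_rename]
        rfl
      rw [hr, hsingle]
      refine Submodule.subset_span ⟨_, mem_trN ?_ ?_, _, rfl⟩
      · have hj' : j ∈ trJ n fun b => k (some b) := by
          by_contra h
          exact Finsupp.mem_support_iff.1 hj (hx.1.2 j h)
        rw [add_comm, ← mem_trJ.1 hj']
        exact tr_inc_mul_mem (tr_single_mem _ _ _) (tr_weight_rename b ((blk' b).tri m).1)
      · rw [(inc_commute _ _).eq]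
        exact N'.mul_mem_left _ (hN' b m)
  have hmain := PM h χ h1 U Y (fun k x hx => ⟨hx.1.1, hx.2⟩) hU hY hE
    (t.image fun p => (Pi.single none p.1, Finsupp.single 0 p.2)) (by
      intro p hp
      obtain ⟨q, hq, rfl⟩ := Finset.mem_image.1 hp
      refine ⟨⟨fun j => ?_, fun j hj => ?_⟩, ?_⟩
      · by_cases hj : j = 0
        · subst hj
          simpa using (ht1 q hq).1
        · simp [Finsupp.single_eq_of_ne hj]
      · refine Finsupp.single_eq_of_ne ?_
        rintro rfl
        refine hj (mem_trJ.2 ?_)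
        funext b
        simp
      · simp [(ht1 q hq).2]) (by
      intro k x hx
      rw [← x.sum_single, Finsupp.sum]
      refine Submodule.sum_mem _ fun j hj => ?_
      have hj' : j ∈ trJ n fun b => k (some b) := by
        by_contra h
        exact Finsupp.mem_support_iff.1 hj (hx.1.2 j h)
      have hx' := ht2 (k none) (x j) (hx.1.1 j) (by rw [← Finsupp.smul_apply, hx.2])
      generalize x j = g at hx'
      let := S.modD L.G
      induction hx' using Submodule.span_induction with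
      | mem y hy =>
        obtain ⟨p, hp, ν, hν, rfl⟩ := hy
        refine Submodule.subset_span ⟨_, Finset.mem_image_of_mem _ hp,
          ν.mapDomain (Prod.mk none) + j.mapDomain (Prod.map some id), ?_, ?_⟩
        · rw [map_add, tr_weight_mk]
          funext o
          rw [Pi.add_apply, Pi.add_apply, tr_weight_some, mem_trJ.1 hj']
          cases o <;> simp [hν]
        · have : (monomial (ν.mapDomain (Prod.mk none) + j.mapDomain (Prod.map some id)) 1 :
              MvPolynomial (Option B' × BV n) K) =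
              rename (Prod.mk none) (monomial ν 1) * rename (Prod.map some id) (monomial j 1) := by
            rw [rename_monomial, rename_monomial, monomial_mul, one_mul]
          rw [this, map_mul, Module.End.mul_apply, hsingle, L.tr_chi_none hD χ h1 h2, tr_inc_monomial,
            tr_inc_monomial, map_one, map_one, AddMonoidAlgebra.single_mul_single, add_zero, mul_one,
            AddMonoidAlgebra.coeff_single, Loc.tr_av_single, Finsupp.smul_single]
      | zero => rw [Finsupp.single_zero]; exact Submodule.zero_mem _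
      | add a b _ _ ha hb => rw [Finsupp.single_add]; exact Submodule.add_mem _ ha hb
      | smul d a _ ha =>
        have : Finsupp.single j (d • a) = d • (Finsupp.single j a : (B' × BV n →₀ ℕ) →₀ L.G) := by
          rw [hD, Finsupp.smul_single]
          rfl
        rw [this]
        exact Submodule.smul_mem _ _ ha)
  -- step 3
  have hδ : (fun b : Option B' => (b.elim blk blk').δ) =
      fun o : Option B' => o.elim blk.δ fun b => (blk' b).δ := by
    funext o
    cases o <;> rfl
  rw [hδ] at hmain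
  obtain ⟨ψ, hψ, k₀, hk₀⟩ := hmain
  obtain ⟨A, hA, C, hC, hAC⟩ := Hsp_option _ _ hψ
  refine ⟨A - C, sub_mem hA hC, fun b => k₀ (some b), fun k' hk' => ?_⟩
  have f₁ : (P₁ k').FG := L.box_fg _ hfg
  have := Module.Finite.iff_fg.2 f₁
  have w₁ : WM (S.Fil (blk.ED D)) (P₁ k') :=
    WM.sub (S.theory blk hP) hwX _ (Submodule.subtype_injective _)
  have w₂ : WM (S.Fil (blk.ED D)) (P₂ k') :=
    WM.sub (S.theory blk hP) hwX _ (Submodule.subtype_injective _)
  have f₂ : (P₂ k').FG := isNoetherian_submodule.1 (S.noeth _ _ w₁) _ inf_le_left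
  have := Module.Finite.iff_fg.2 f₂
  obtain ⟨r₁, c₁, t₁, hr₁⟩ := S.exists_re blk hP _ w₁
  obtain ⟨r₂, c₂, t₂, hr₂⟩ := S.exists_re blk hP _ w₂
  have ρ₁ : S.rho blk.δ (P₁ k') = (trJ n k').card := L.rho_box _ hfg hρ
  have ρ₂ : S.rho blk.δ (P₂ k') = Module.finrank D' (trN N' k') := by
    refine L.rho_inf_GN act _ _ ?_ ((AddMonoidAlgebra.coeffLinearEquiv D').toLinearMap ''
      {x | ∃ p ∈ s, ∃ μ, Finsupp.weight (bw B' n) μ + p.1 = k' ∧
        x = AddMonoidAlgebra.single μ 1 * p.2}) ?_ hfg hρ L.one_ne_zero hone ?_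
    · rintro _ ⟨a, ha, rfl⟩
      exact fun j hj => Finset.mem_coe.2 (mem_trJ.2 (ha.1 hj))
    · rw [← Submodule.map_span, trN]
      congr 1
      refine le_antisymm (Submodule.span_le.2 ?_) (hs2 k')
      rintro _ ⟨p, hp, μ, rfl, rfl⟩
      exact ⟨tr_single_mul_mem (hs1 p hp).1 _ _, N'.mul_mem_left _ (hs1 p hp).2⟩
    · rintro _ ⟨_, ⟨p, hp, μ, -, rfl⟩, rfl⟩ j
      change (act ((AddMonoidAlgebra.single μ (1 : D') * p.2).coeff j)).unop L.one ∈ G₀
      rw [tr_coeff_shift]
      by_cases h : j ∈ Set.range (μ + ·)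
      · obtain ⟨j, rfl⟩ := h
        rw [Finsupp.mapDomain_apply (add_right_injective μ)]
        exact hco p hp j
      · rw [Finsupp.mapDomain_of_notMem_range _ _ h]
        simp
  rw [S.rho_spec blk _ hr₁] at ρ₁
  rw [S.rho_spec blk _ hr₂] at ρ₂
  obtain ⟨z₁, z₂⟩ := tr_solve blk.pos (a := r₁ - r₂ - A k') (c := c₁ - c₂ - C k')
    (t₀ := max (max t₁ t₂) (k₀ none)) fun τ hτ => by
      have a₁ := hr₁ τ (by omega)
      have a₂ := hr₂ τ (by omega)
      have a₃ := hk₀ (fun o => o.elim τ k') (by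
        rintro (_ | b)
        · change k₀ none ≤ τ
          omega
        · exact hk' b)
      rw [hAC] at a₃
      rw [S.dimk_submodule _ τ (trP hD (P₁ k') τ) fun _ => Iff.rfl] at a₁
      rw [S.dimk_submodule _ τ (trP hD (P₂ k') τ) fun _ => Iff.rfl] at a₂
      have a₄ : (Module.finrank D (trP hD (P₁ k') τ) : ℤ) - Module.finrank D (trP hD (P₂ k') τ) =
          A k' * bh blk.δ τ + C k' * bN blk.δ := a₃
      linear_combination a₄ - a₁ + a₂
  rw [codim_eq_tr, Pi.sub_apply]
  linear_combination z₁ - z₂ - ρ₁ + ρ₂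

end Crest.Agent.R181
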