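import Crest.Agent.R181.AUlrich

/-! # Row 181 A: auxiliary lemmas for `Loc.transfer` -/

set_option autoImplicit false

namespace Crest.Agent.R181

open MvPolynomial

section Poly

variable {K D σ : Type} [CommRing K] [Ring D] [Algebra K D]

theorem tr_inc_monomial (μ : σ →₀ ℕ) (c : K) :
    inc K D σ (monomial μ c) = AddMonoidAlgebra.single μ (algebraMap K D c) :=
  AddMonoidAlgebra.mapRingHom_single _ _ _

theorem tr_inc_C (c : K) : inc K D σ (C c) = AddMonoidAlgebra.single 0 (algebraMap K D c) :=
  tr_inc_monomial 0 c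

theorem tr_inc_X (v : σ) : inc K D σ (X v) = AddMonoidAlgebra.single (Finsupp.single v 1) 1 := by
  rw [← map_one (algebraMap K D), ← tr_inc_monomial]; rfl

theorem tr_coeff_shift (μ : σ →₀ ℕ) (a : DP D σ) :
    (AddMonoidAlgebra.single μ (1 : D) * a).coeff = Finsupp.mapDomain (μ + ·) a.coeff := by
  ext j
  by_cases h : j ∈ Set.range (μ + ·)
  · obtain ⟨j, rfl⟩ := h
    rw [Finsupp.mapDomain_apply (add_right_injective μ), AddMonoidAlgebra.coeff_single_mul_add, one_mul]
  · rw [Finsupp.mapDomain_of_notMem_range _ _ h]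
    exact AddMonoidAlgebra.coeff_single_mul_of_forall_add_ne _ _ fun d hd => h ⟨d, hd⟩

theorem tr_mem_homW {G : Type} [AddCommMonoid G] {w : σ → G} {k : G} {a : DP D σ} :
    a ∈ homW D w k ↔ ∀ μ, Finsupp.weight w μ ≠ k → a.coeff μ = 0 :=
  AddMonoidAlgebra.mem_supported'

theorem tr_single_mul_mem {G : Type} [AddCommMonoid G] {w : σ → G} {k : G} {a : DP D σ}
    (ha : a ∈ homW D w k) (μ : σ →₀ ℕ) (d : D) :
    AddMonoidAlgebra.single μ d * a ∈ homW D w (Finsupp.weight w μ + k) := by
  rw [tr_mem_homW] at ha ⊢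
  intro j hj
  by_cases h : j ∈ Set.range (μ + ·)
  · obtain ⟨j, rfl⟩ := h
    rw [AddMonoidAlgebra.coeff_single_mul_add, ha j, mul_zero]
    rintro rfl
    exact hj (map_add _ _ _)
  · exact AddMonoidAlgebra.coeff_single_mul_of_forall_add_ne _ _ fun d hd => h ⟨d, hd⟩

theorem tr_inc_mul_mem {G : Type} [AddCommMonoid G] {w : σ → G} {k l : G} {a : DP D σ}
    (ha : a ∈ homW D w k) {F : MvPolynomial σ K} (hF : ∀ μ ∈ F.support, Finsupp.weight w μ = l) :
    inc K D σ F * a ∈ homW D w (l + k) := by
  rw [F.as_sum, map_sum, Finset.sum_mul]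
  refine Submodule.sum_mem _ fun μ hμ => ?_
  rw [tr_inc_monomial, ← hF μ hμ]
  exact tr_single_mul_mem ha _ _

theorem tr_single_mem {G : Type} [AddCommMonoid G] (w : σ → G) (μ : σ →₀ ℕ) (d : D) :
    AddMonoidAlgebra.single μ d ∈ homW D w (Finsupp.weight w μ) := by
  rw [tr_mem_homW]
  intro j hj
  rw [AddMonoidAlgebra.coeff_single, Finsupp.single_eq_of_ne]
  rintro rfl
  exact hj rfl

end Poly

section Weights

variable {n : ℕ} {B : Type} [DecidableEq B]

theorem tr_weight_single (b : B) (v : BV n) :
    Finsupp.weight (bw B n) (Finsupp.single (b, v) 1) = Pi.single b 1 := by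
  simp [Finsupp.weight_single, bw]

theorem tr_weight_mk (b : B) (ν : BV n →₀ ℕ) :
    Finsupp.weight (bw B n) (ν.mapDomain (Prod.mk b)) = Pi.single b (ν.degree : ℤ) := by
  induction ν using Finsupp.induction_linear with
  | zero => simp
  | add f g hf hg => rw [Finsupp.mapDomain_add, map_add, hf, hg, map_add, Nat.cast_add, Pi.single_add]
  | single v c =>
    rw [Finsupp.mapDomain_single, Finsupp.weight_single, Finsupp.degree_single, bw, ← Pi.single_smul']
    simp

theorem tr_weight_some (j : B × BV n →₀ ℕ) (o : Option B) :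
    Finsupp.weight (bw (Option B) n) (j.mapDomain (Prod.map some id)) o =
      o.elim 0 (Finsupp.weight (bw B n) j) := by
  induction j using Finsupp.induction_linear with
  | zero => cases o <;> simp
  | add f g hf hg =>
    rw [Finsupp.mapDomain_add, map_add, Pi.add_apply, hf, hg, map_add]
    cases o <;> simp
  | single v c =>
    rw [Finsupp.mapDomain_single, Finsupp.weight_single, Finsupp.weight_single]
    cases o <;> simp [bw, Pi.single_apply]

theorem tr_weight_rename {K : Type} [CommRing K] (b : B) {F : MvPolynomial (BV n) K} {δ : ℕ}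
    (hF : F.IsHomogeneous δ) : ∀ μ ∈ (rename (Prod.mk b) F).support,
      Finsupp.weight (bw B n) μ = Pi.single b (δ : ℤ) := by
  classical
  intro μ hμ
  rw [support_rename_of_injective (Prod.mk_right_injective b), Finset.mem_image] at hμ
  obtain ⟨ν, hν, rfl⟩ := hμ
  rw [tr_weight_mk, ← hF (mem_support_iff.1 hν), Finsupp.degree_eq_weight_one]
  rfl

/-- a family stable under the variables is stable under homogeneous polynomials -/
theorem tr_stable {K D : Type} [CommRing K] [Ring D] [Algebra K D] {X : Type} [AddCommGroup X]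
    [Module D X] (χ : MvPolynomial (B × BV n) K →+* Module.End D X)
    (hχ : ∀ c x, χ (C c) x = algebraMap K D c • x) (U : (B → ℤ) → Submodule D X)
    (hU : ∀ b v k, ∀ x ∈ U k, χ (MvPolynomial.X (b, v)) x ∈ U (k + Pi.single b 1))
    {F : MvPolynomial (B × BV n) K} {l : B → ℤ} (hF : ∀ μ ∈ F.support, Finsupp.weight (bw B n) μ = l)
    (k : B → ℤ) {x : X} (hx : x ∈ U k) : χ F x ∈ U (k + l) := by
  have key : ∀ (μ : B × BV n →₀ ℕ) (c : K), χ (monomial μ c) x ∈ U (k + Finsupp.weight (bw B n) μ) := by
    intro μ c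
    have h1 : ∀ (N : ℕ) (v : B × BV n) (k : B → ℤ), ∀ y ∈ U k,
        χ (MvPolynomial.X v ^ N) y ∈ U (k + N • bw B n v) := by
      intro N v k y hy
      induction N with
      | zero => simpa using hy
      | succ N ih =>
        rw [pow_succ', map_mul, Module.End.mul_apply, succ_nsmul, ← add_assoc]
        exact hU v.1 v.2 _ _ ih
    induction μ using Finsupp.induction with
    | zero =>
      rw [map_zero, add_zero, monomial_zero', hχ]
      exact (U k).smul_mem _ hx
    | single_add v N f _ _ ih =>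
      rw [monomial_single_add, map_mul, Module.End.mul_apply, map_add, Finsupp.weight_single,
        add_comm (N • _), ← add_assoc]
      exact h1 N v _ _ ih
  rw [F.as_sum, map_sum, LinearMap.sum_apply]
  exact Submodule.sum_mem _ fun μ hμ => hF μ hμ ▸ key μ _

end Weights

section Chi

variable {K D : Type} [Field K] [DivisionRing D] [Algebra K D] {σ : Type} (S : Smash D σ)

theorem Smash.tr_xv_comm (v : σ) (F : DP D σ) : S.xv v * S.ι F = S.ι F * S.xv v := by
  rw [Smash.xv, ← map_mul, ← map_mul,
    (AddMonoidAlgebra.single_commute (fun m => AddCommute.all _ m) Commute.one_left F).eq]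

variable (K D) in
/-- scalars from `K` -/
noncomputable def trK (X : Type) [AddCommGroup X] [Module D X] : K →+* Module.End D X where
  toFun c :=
    { toFun := fun x => algebraMap K D c • x
      map_add' := smul_add _
      map_smul' := fun d x => by rw [RingHom.id_apply, smul_smul, smul_smul, Algebra.commutes] }
  map_one' := by ext x; simp
  map_mul' a b := by
    ext x
    change algebraMap K D (a * b) • x = algebraMap K D a • algebraMap K D b • x
    rw [map_mul, mul_smul]
  map_zero' := by ext x; simp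
  map_add' a b := by ext x; simp [add_smul]

theorem Smash.tr_exists_chi {n : ℕ} (S : Smash D (BV n)) {G B : Type} [AddCommGroup G]
    [Module S.Γ G] [Module D ((B × BV n →₀ ℕ) →₀ G)]
    (hD : ∀ (d : D) (x : (B × BV n →₀ ℕ) →₀ G), d • x = S.ιD d • x) :
    ∃ χ : MvPolynomial (Option B × BV n) K →+* Module.End D ((B × BV n →₀ ℕ) →₀ G),
      (∀ c x, χ (C c) x = algebraMap K D c • x) ∧
      (∀ v x, χ (X (none, v)) x = S.xv v • x) ∧
      ∀ b v x, χ (X (some b, v)) x = Finsupp.mapDomain (Finsupp.single (b, v) 1 + ·) x := by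
  let zx : BV n → Module.End D ((B × BV n →₀ ℕ) →₀ G) := fun v =>
    { toFun := fun x => S.xv v • x
      map_add' := smul_add _
      map_smul' := fun d x => by
        rw [RingHom.id_apply, hD, hD, smul_smul, smul_smul]
        exact congrArg (· • x) (S.tr_xv_comm v _) }
  let zm : B × BV n → Module.End D ((B × BV n →₀ ℕ) →₀ G) := fun w =>
    { toFun := fun x => Finsupp.mapDomain (Finsupp.single w 1 + ·) x
      map_add' := fun _ _ => Finsupp.mapDomain_add
      map_smul' := fun d x => by rw [RingHom.id_apply, hD, hD, Finsupp.mapDomain_smul] }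
  let z : Option B × BV n → Module.End D ((B × BV n →₀ ℕ) →₀ G) := fun w =>
    w.1.elim (zx w.2) fun b => zm (b, w.2)
  obtain ⟨χ, h1, h2⟩ := exists_eval (trK K D _) z (by
      rintro ⟨_ | b, v⟩ ⟨_ | b', v'⟩ <;> refine LinearMap.ext fun x => ?_
      · change S.xv v • S.xv v' • x = S.xv v' • S.xv v • x
        rw [smul_smul, smul_smul]
        exact congrArg (· • x) (S.tr_xv_comm v _)
      · exact (Finsupp.mapDomain_smul _ _).symm
      · exact Finsupp.mapDomain_smul _ _
      · change Finsupp.mapDomain _ (Finsupp.mapDomain _ x) = Finsupp.mapDomain _ (Finsupp.mapDomain _ x)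
        rw [← Finsupp.mapDomain_comp, ← Finsupp.mapDomain_comp]
        congr 1
        funext j
        exact add_left_comm _ _ _)
    (fun c v => LinearMap.ext fun x => ((z v).map_smul _ x).symm)
  exact ⟨χ, fun c x => by rw [h1]; rfl, fun v x => by rw [h2]; rfl, fun b v x => by rw [h2]; rfl⟩

end Chi

section Av

variable {Γ : Type} [Ring Γ] {T : RhoTheory Γ} {O : Type} [AddCommGroup O] [Module Γ O]
  (L : Loc T O) {D' : Type} [Ring D'] (act : D' →+* (Module.End Γ L.G)ᵐᵒᵖ) {I : Type}

theorem Loc.tr_av_apply (a : I →₀ D') (g : L.G) (j : I) : L.av act a g j = (act (a j)).unop g := rfl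

theorem Loc.tr_av_add (a b : I →₀ D') (g : L.G) : L.av act (a + b) g = L.av act a g + L.av act b g := by
  ext j
  simp [Loc.tr_av_apply]

theorem Loc.tr_av_single (j : I) (g : L.G) : L.av act (Finsupp.single j 1) g = Finsupp.single j g := by
  simp [Loc.av]

theorem Loc.tr_av_mapDomain (f : I → I) (a : I →₀ D') (g : L.G) :
    Finsupp.mapDomain f (L.av act a g) = L.av act (Finsupp.mapDomain f a) g :=
  Finsupp.mapDomain_mapRange _ _ _ _ fun x y => by simp

theorem Loc.tr_smul_av (γ : Γ) (a : I →₀ D') (g : L.G) : γ • L.av act a g = L.av act a (γ • g) := by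
  ext j
  simp [Loc.tr_av_apply]

theorem Loc.tr_av_smul (d : D') (a : I →₀ D') (g : L.G) :
    L.av act (d • a) g = L.av act a ((act d).unop g) := by
  ext j
  simp [Loc.tr_av_apply]

theorem Loc.tr_mem_box {J : Finset I} {G₀ : Submodule Γ L.G} {x : I →₀ L.G} :
    x ∈ L.box J G₀ ↔ (∀ j, x j ∈ G₀) ∧ ∀ j, j ∉ J → x j = 0 := Iff.rfl

end Av

end Crest.Agent.R181
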