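import Crest.Agent.R181.ADefs

/-! # Row 181 A: standard monomials for a triangular system.
Every `μ` is uniquely `u + ∑ i, β i • single (v i) (δ i)` with `u` standard (`β i = μ (v i) / δ i`).
`b μ := x^u * ∏ i, (E i)^(β i)` (computed in the commutative ring `K[σ]`, then `inc`) is
`c • x^μ +` terms of smaller weight, `c ≠ 0`; so the `b μ` form a left `D`-basis of `D[σ]`
(independence: take a term of maximal weight; spanning: strong induction on the weight), and the left
ideal `(E)` is the span of the `b μ` with `μ` not standard (`b μ * E i = b (μ + single (v i) (δ i))`). -/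

set_option autoImplicit false

namespace Crest.Agent.R181

open MvPolynomial

variable {K D : Type} [Field K] [DivisionRing D] [Algebra K D] {σ ι : Type} [Finite ι]

/-- `F` is a nonzero multiple of `x^μ` plus terms of smaller weight -/
def ATri_Lead (wt : σ → ℕ) {R : Type} [Ring R] (F : DP R σ) (μ : σ →₀ ℕ) : Prop :=
  F.coeff μ ≠ 0 ∧ ∀ ν, F.coeff ν ≠ 0 → ν = μ ∨ Finsupp.weight wt ν < Finsupp.weight wt μ

theorem ATri_Lead.le {wt : σ → ℕ} {R : Type} [Ring R] {F : DP R σ} {μ ν : σ →₀ ℕ}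
    (h : ATri_Lead wt F μ) (hν : F.coeff ν ≠ 0) : Finsupp.weight wt ν ≤ Finsupp.weight wt μ := by
  rcases h.2 ν hν with rfl | h
  exacts [le_rfl, h.le]

theorem ATri_single (wt : σ → ℕ) {R : Type} [Ring R] [Nontrivial R] (μ : σ →₀ ℕ) :
    ATri_Lead wt (AddMonoidAlgebra.single μ (1 : R)) μ :=
  ⟨by simp, fun ν hν => Or.inl (by
    by_contra hne
    exact hν (Finsupp.single_eq_of_ne hne))⟩

theorem ATri_Lead.mul {wt : σ → ℕ} {R : Type} [Ring R] [NoZeroDivisors R] {F G : DP R σ}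
    {μ ν : σ →₀ ℕ} (hF : ATri_Lead wt F μ) (hG : ATri_Lead wt G ν) :
    ATri_Lead wt (F * G) (μ + ν) := by
  classical
  have key : ∀ a b, F.coeff a * G.coeff b ≠ 0 →
      (a = μ ∧ b = ν) ∨ Finsupp.weight wt (a + b) < Finsupp.weight wt (μ + ν) := fun a b h => by
    have ha := left_ne_zero_of_mul h
    have hb := right_ne_zero_of_mul h
    rw [map_add, map_add]
    rcases hF.2 a ha with rfl | h1
    · rcases hG.2 b hb with rfl | h2
      · exact Or.inl ⟨rfl, rfl⟩
      · exact Or.inr (by omega)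
    · have := hG.le hb
      exact Or.inr (by omega)
  constructor
  · rw [AddMonoidAlgebra.coeff_mul_antidiag F G _ _ Finset.HasAntidiagonal.mem_antidiagonal,
      Finset.sum_eq_single (μ, ν)]
    · exact mul_ne_zero hF.1 hG.1
    · rintro ⟨a, b⟩ hab hne
      by_contra h
      rcases key a b h with ⟨rfl, rfl⟩ | h'
      · exact hne rfl
      · rw [Finset.HasAntidiagonal.mem_antidiagonal.1 hab] at h'
        exact lt_irrefl _ h'
    · intro h
      exact absurd (by rw [Finset.HasAntidiagonal.mem_antidiagonal]) h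
  · intro x hx
    rw [AddMonoidAlgebra.coeff_mul_antidiag F G _ _ Finset.HasAntidiagonal.mem_antidiagonal] at hx
    obtain ⟨⟨a, b⟩, hab, h⟩ := Finset.exists_ne_zero_of_sum_ne_zero hx
    rw [← Finset.HasAntidiagonal.mem_antidiagonal.1 hab]
    rcases key a b h with ⟨rfl, rfl⟩ | h'
    exacts [Or.inl rfl, Or.inr h']

theorem ATri_Lead.pow {wt : σ → ℕ} {F : DP K σ} {μ : σ →₀ ℕ} (hF : ATri_Lead wt F μ) (m : ℕ) :
    ATri_Lead wt (F ^ m) (m • μ) := by
  induction m with
  | zero => rw [pow_zero, zero_smul]; exact ATri_single wt 0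
  | succ m ih => rw [pow_succ, succ_nsmul]; exact ih.mul hF

theorem ATri_prod {wt : σ → ℕ} {J : Type} (s : Finset J) {F : J → MvPolynomial σ K}
    {μ : J → σ →₀ ℕ} (h : ∀ j, ATri_Lead wt (F j) (μ j)) :
    ATri_Lead wt (∏ j ∈ s, F j : MvPolynomial σ K) (∑ j ∈ s, μ j) := by
  classical
  induction s using Finset.induction_on with
  | empty => rw [Finset.prod_empty, Finset.sum_empty]; exact ATri_single wt 0
  | insert j s hj ih => rw [Finset.prod_insert hj, Finset.sum_insert hj]; exact (h j).mul ih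

theorem ATri_coeff_inc (F : MvPolynomial σ K) (μ : σ →₀ ℕ) :
    (inc K D σ F).coeff μ = algebraMap K D (coeff μ F) := AddMonoidAlgebra.coeff_mapRingHom _ _ _

theorem ATri_Lead.inc {wt : σ → ℕ} {F : MvPolynomial σ K} {μ : σ →₀ ℕ} (h : ATri_Lead wt F μ) :
    ATri_Lead wt (inc K D σ F) μ :=
  ⟨by rw [ATri_coeff_inc]; exact (map_ne_zero _).2 h.1, fun ν hν => h.2 ν (by
    rw [ATri_coeff_inc] at hν; exact (map_ne_zero _).1 hν)⟩

theorem ATri_span {wt : σ → ℕ} {P : Set (σ →₀ ℕ)} {V : Submodule D (DP D σ)}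
    (h : ∀ μ ∈ P, ∃ F ∈ V, ATri_Lead wt F μ ∧ F ∈ AddMonoidAlgebra.supported D D P) :
    AddMonoidAlgebra.supported D D P ≤ V := by
  have key : ∀ m, AddMonoidAlgebra.supported D D {μ | μ ∈ P ∧ Finsupp.weight wt μ < m} ≤ V := by
    intro m
    induction m with
    | zero =>
      rw [AddMonoidAlgebra.supported_eq_span_single, Submodule.span_le]
      rintro _ ⟨μ, hμ, rfl⟩
      exact absurd hμ.2 (Nat.not_lt_zero _)
    | succ m ih =>
      rw [AddMonoidAlgebra.supported_eq_span_single, Submodule.span_le]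
      rintro _ ⟨μ, hμ, rfl⟩
      obtain ⟨F, hFV, hF, hFP⟩ := h μ hμ.1
      have h1 : F.erase μ ∈ V := ih (AddMonoidAlgebra.mem_supported'.2 fun ν hν => by
        by_contra hne
        rw [AddMonoidAlgebra.coeff_erase] at hne
        have hνμ : ν ≠ μ := by rintro rfl; exact hne Finsupp.erase_same
        rw [Finsupp.erase_ne hνμ] at hne
        refine hν ⟨hFP (Finsupp.mem_support_iff.2 hne), ?_⟩
        have := (hF.2 ν hne).resolve_left hνμ
        have := hμ.2
        omega)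
      have h2 : AddMonoidAlgebra.single μ (1 : D) = (F.coeff μ)⁻¹ • (F - F.erase μ) := by
        rw [sub_eq_of_eq_add (AddMonoidAlgebra.single_add_erase μ F).symm,
          AddMonoidAlgebra.smul_single', inv_mul_cancel₀ hF.1]
      change AddMonoidAlgebra.single μ (1 : D) ∈ V
      rw [h2]
      exact V.smul_mem _ (sub_mem hFV h1)
  rw [AddMonoidAlgebra.supported_eq_span_single, Submodule.span_le]
  rintro _ ⟨μ, hμ, rfl⟩
  refine key (Finsupp.weight wt μ + 1) ?_
  rw [AddMonoidAlgebra.supported_eq_span_single]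
  exact Submodule.subset_span ⟨μ, ⟨hμ, Nat.lt_succ_self _⟩, rfl⟩

theorem ATri_indep {wt : σ → ℕ} {b : (σ →₀ ℕ) → DP D σ} (hb : ∀ μ, ATri_Lead wt (b μ) μ)
    {Q : Set (σ →₀ ℕ)} {F : DP D σ} (hF : F ∈ Submodule.span D (b '' Q))
    (h0 : ∀ μ ∈ Q, F.coeff μ = 0) : F = 0 := by
  obtain ⟨l, hl, rfl⟩ := (Finsupp.mem_span_image_iff_linearCombination D).1 hF
  by_cases hl0 : l = 0
  · rw [hl0, map_zero]
  obtain ⟨μ, hμ, hmax⟩ := l.support.exists_max_image (Finsupp.weight wt)
    (Finsupp.support_nonempty_iff.2 hl0)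
  have h1 := h0 μ (hl hμ)
  rw [Finsupp.linearCombination_apply, Finsupp.sum, AddMonoidAlgebra.coeff_sum,
    Finsupp.finsetSum_apply, Finset.sum_eq_single μ] at h1
  · exact absurd h1 (mul_ne_zero (Finsupp.mem_support_iff.1 hμ) (hb μ).1)
  · intro ν hν hne
    have : (b ν).coeff μ = 0 := by
      by_contra h
      rcases (hb ν).2 μ h with h' | h'
      · exact hne h'.symm
      · exact absurd (hmax ν hν) (not_le.2 h')
    rw [AddMonoidAlgebra.coeff_smul_apply, this, smul_zero]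
  · exact fun h => absurd hμ h

theorem ATri_lead_E {wt : σ → ℕ} {x : σ} {m : ℕ} {F : MvPolynomial σ K}
    (hlc : F.coeff (Finsupp.single x m) ≠ 0)
    (hlow : ∀ ν ∈ F.support, ν = Finsupp.single x m ∨ Finsupp.weight wt ν < m * wt x) :
    ATri_Lead wt F (Finsupp.single x m) :=
  ⟨hlc, fun ν hν => by
    rw [Finsupp.weight_single, smul_eq_mul]
    exact hlow ν (mem_support_iff.2 hν)⟩

theorem ATri_split {x : σ} {m : ℕ} {μ : σ →₀ ℕ} (h : ¬ μ x < m) :
    ∃ μ' : σ →₀ ℕ, μ = μ' + Finsupp.single x m :=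
  ⟨μ - Finsupp.single x m,
    (tsub_add_cancel_of_le (Finsupp.single_le_iff.2 (not_lt.1 h))).symm⟩

theorem ATri_exists_b (wt : σ → ℕ) (v : ι → σ) (hv : Function.Injective v) (δ : ι → ℕ)
    (hδ : ∀ i, 1 ≤ δ i) (E : ι → MvPolynomial σ K)
    (hE : ∀ i, ATri_Lead wt (E i) (Finsupp.single (v i) (δ i))) :
    ∃ b : (σ →₀ ℕ) → MvPolynomial σ K, (∀ μ, ATri_Lead wt (b μ) μ) ∧
      ∀ μ i, b μ * E i = b (μ + Finsupp.single (v i) (δ i)) := by
  classical
  have := Fintype.ofFinite ι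
  let L : (σ →₀ ℕ) → σ →₀ ℕ := fun μ => ∑ i, (μ (v i) / δ i) • Finsupp.single (v i) (δ i)
  have hβ : ∀ (μ : σ →₀ ℕ) i j, (μ + Finsupp.single (v i) (δ i) : σ →₀ ℕ) (v j) / δ j =
      μ (v j) / δ j + if j = i then 1 else 0 := fun μ i j => by
    split_ifs with h
    · rw [h, Finsupp.add_apply, Finsupp.single_eq_same, Nat.add_div_right _ (hδ i)]
    · rw [Finsupp.add_apply, Finsupp.single_eq_of_ne (hv.ne h), add_zero, add_zero]
  have hL : ∀ μ, L μ ≤ μ := fun μ x => by
    simp only [L, Finsupp.finsetSum_apply, Finsupp.smul_apply, smul_eq_mul]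
    by_cases hx : ∃ i, v i = x
    · obtain ⟨i, rfl⟩ := hx
      rw [Finset.sum_eq_single i, Finsupp.single_eq_same]
      · exact Nat.div_mul_le_self _ _
      · intro j _ hj
        rw [Finsupp.single_eq_of_ne (hv.ne hj.symm), mul_zero]
      · exact fun h => absurd (Finset.mem_univ i) h
    · rw [Finset.sum_eq_zero]
      · exact Nat.zero_le _
      · intro j _
        rw [Finsupp.single_eq_of_ne fun h => hx ⟨j, h.symm⟩, mul_zero]
  refine ⟨fun μ => monomial (μ - L μ) 1 * ∏ i, E i ^ (μ (v i) / δ i), fun μ => ?_, fun μ i => ?_⟩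
  · have := (ATri_single (R := K) wt (μ - L μ)).mul
      (ATri_prod Finset.univ fun i => (hE i).pow (μ (v i) / δ i))
    rwa [tsub_add_cancel_of_le (hL μ)] at this
  · have e : L (μ + Finsupp.single (v i) (δ i)) = L μ + Finsupp.single (v i) (δ i) := by
      simp only [L, hβ, add_smul, Finset.sum_add_distrib, ite_smul, one_smul, zero_smul,
        Finset.sum_ite_eq', Finset.mem_univ, if_true]
    simp only [e, add_tsub_add_eq_tsub_right, hβ, pow_add, Finset.prod_mul_distrib, pow_ite,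
      pow_one, pow_zero, Finset.prod_ite_eq', Finset.mem_univ, if_true, mul_assoc]

theorem ATri_disjoint (wt : σ → ℕ) (v : ι → σ) (hv : Function.Injective v) (δ : ι → ℕ)
    (hδ : ∀ i, 1 ≤ δ i) (E : ι → MvPolynomial σ K)
    (hE : ∀ i, ATri_Lead wt (E i) (Finsupp.single (v i) (δ i))) :
    Disjoint (AddMonoidAlgebra.supported D D {μ : σ →₀ ℕ | ∀ i, μ (v i) < δ i})
      ((Ideal.span (Set.range fun i => inc K D σ (E i))).restrictScalars D) := by
  have := Fintype.ofFinite ι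
  obtain ⟨b, hb, hbE⟩ := ATri_exists_b wt v hv δ hδ E hE
  let b' : (σ →₀ ℕ) → DP D σ := fun μ => inc K D σ (b μ)
  have hb' : ∀ μ, ATri_Lead wt (b' μ) μ := fun μ => (hb μ).inc
  have hall : ∀ g : DP D σ, g ∈ Submodule.span D (Set.range b') := fun g =>
    ATri_span (wt := wt) (P := Set.univ) (V := Submodule.span D (Set.range b'))
      (fun μ _ => ⟨b' μ, Submodule.subset_span ⟨μ, rfl⟩, hb' μ, Set.subset_univ _⟩)
      (Set.subset_univ _)
  have hW : ∀ i (g : DP D σ), g * inc K D σ (E i) ∈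
      Submodule.span D (b' '' {μ : σ →₀ ℕ | ∀ i, μ (v i) < δ i}ᶜ) := fun i g => by
    induction hall g using Submodule.span_induction with
    | mem x hx =>
      obtain ⟨μ, rfl⟩ := hx
      refine Submodule.subset_span ⟨μ + Finsupp.single (v i) (δ i), fun h => ?_, ?_⟩
      · simpa using h i
      · simp only [b', ← hbE, map_mul]
    | zero => rw [zero_mul]; exact zero_mem _
    | add x y _ _ hx hy => rw [add_mul]; exact add_mem hx hy
    | smul d x _ hx => rw [smul_mul_assoc]; exact Submodule.smul_mem _ _ hx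
  rw [Submodule.disjoint_def]
  intro F hF hI
  obtain ⟨g, rfl⟩ := (Submodule.mem_span_range_iff_exists_fun _).1 hI
  exact ATri_indep hb' (sum_mem fun i _ => hW i (g i)) (AddMonoidAlgebra.mem_supported'.1 hF)

omit [Finite ι] in
theorem ATri_le (wt : σ → ℕ) (v : ι → σ) (δ : ι → ℕ) (E : ι → MvPolynomial σ K)
    (hE : ∀ i, ATri_Lead wt (E i) (Finsupp.single (v i) (δ i))) {P : Set (σ →₀ ℕ)}
    (hP : ∀ μ i, μ + Finsupp.single (v i) (δ i) ∈ P → ∀ ν ∈ (E i).support, μ + ν ∈ P) :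
    AddMonoidAlgebra.supported D D P ≤
      (AddMonoidAlgebra.supported D D P ⊓
        AddMonoidAlgebra.supported D D {μ : σ →₀ ℕ | ∀ i, μ (v i) < δ i}) ⊔
      (AddMonoidAlgebra.supported D D P ⊓
        (Ideal.span (Set.range fun i => inc K D σ (E i))).restrictScalars D) := by
  classical
  have hs : ∀ (Q : Set (σ →₀ ℕ)), ∀ μ ∈ Q,
      AddMonoidAlgebra.single μ (1 : D) ∈ AddMonoidAlgebra.supported D D Q := fun Q μ hμ => by
    rw [AddMonoidAlgebra.supported_eq_span_single]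
    exact Submodule.subset_span ⟨μ, hμ, rfl⟩
  refine ATri_span (wt := wt) fun μ hμ => ?_
  by_cases h : ∀ i, μ (v i) < δ i
  · exact ⟨_, Submodule.mem_sup_left ⟨hs _ μ hμ, hs _ μ h⟩, ATri_single wt μ, hs _ μ hμ⟩
  obtain ⟨i, hi⟩ := not_forall.1 h
  obtain ⟨μ', rfl⟩ := ATri_split hi
  have h1 : AddMonoidAlgebra.single μ' (1 : D) * inc K D σ (E i) ∈
      AddMonoidAlgebra.supported D D P := AddMonoidAlgebra.mem_supported'.2 fun x hx => by
    rw [AddMonoidAlgebra.coeff_mul_antidiag _ _ _ _ Finset.HasAntidiagonal.mem_antidiagonal]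
    refine Finset.sum_eq_zero fun p hp => ?_
    by_contra hne
    have ha : p.1 = μ' := by
      by_contra ha
      exact left_ne_zero_of_mul hne (Finsupp.single_eq_of_ne ha)
    have hb := right_ne_zero_of_mul hne
    rw [ATri_coeff_inc, map_ne_zero] at hb
    rw [← Finset.HasAntidiagonal.mem_antidiagonal.1 hp, ha] at hx
    exact hx (hP μ' i hμ _ (mem_support_iff.2 hb))
  exact ⟨_, Submodule.mem_sup_right ⟨h1, Ideal.mul_mem_left _ _ (Ideal.subset_span ⟨i, rfl⟩)⟩,
    (ATri_single wt μ').mul (hE i).inc, h1⟩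

theorem tri_basis (wt : σ → ℕ) (v : ι → σ) (hv : Function.Injective v) (δ : ι → ℕ)
    (hδ : ∀ i, 1 ≤ δ i) (E : ι → MvPolynomial σ K)
    (hlc : ∀ i, (E i).coeff (Finsupp.single (v i) (δ i)) ≠ 0)
    (hlow : ∀ i, ∀ ν ∈ (E i).support,
      ν = Finsupp.single (v i) (δ i) ∨ Finsupp.weight wt ν < δ i * wt (v i)) :
    IsCompl (AddMonoidAlgebra.supported D D {μ : σ →₀ ℕ | ∀ i, μ (v i) < δ i})
      ((Ideal.span (Set.range fun i => inc K D σ (E i))).restrictScalars D) := by
  have hE := fun i => ATri_lead_E (hlc i) (hlow i)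
  refine ⟨ATri_disjoint wt v hv δ hδ E hE, codisjoint_iff_le_sup.2 fun F _ => ?_⟩
  exact ((ATri_le wt v δ E hE (P := Set.univ) fun _ _ _ _ _ => trivial).trans
    (sup_le_sup inf_le_right inf_le_right)) (Set.subset_univ _)

theorem tri_basis_graded (wt : σ → ℕ) (v : ι → σ) (hv : Function.Injective v) (δ : ι → ℕ)
    (hδ : ∀ i, 1 ≤ δ i) (E : ι → MvPolynomial σ K)
    (hlc : ∀ i, (E i).coeff (Finsupp.single (v i) (δ i)) ≠ 0)
    (hlow : ∀ i, ∀ ν ∈ (E i).support,
      ν = Finsupp.single (v i) (δ i) ∨ Finsupp.weight wt ν < δ i * wt (v i))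
    {G : Type} [AddCommMonoid G] (w : σ → G) (dg : ι → G)
    (hE : ∀ i, ∀ ν ∈ (E i).support, Finsupp.weight w ν = dg i) (k : G) :
    homW D w k =
      (homW D w k ⊓ AddMonoidAlgebra.supported D D {μ : σ →₀ ℕ | ∀ i, μ (v i) < δ i}) ⊔
      (homW D w k ⊓ (Ideal.span (Set.range fun i => inc K D σ (E i))).restrictScalars D) := by
  refine le_antisymm (ATri_le wt v δ E (fun i => ATri_lead_E (hlc i) (hlow i)) ?_)
    (sup_le inf_le_left inf_le_left)
  intro μ i hμ ν hν
  change Finsupp.weight w _ = k at hμ ⊢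
  rwa [map_add, hE i ν hν, ← hE i _ (mem_support_iff.2 (hlc i)), ← map_add]

theorem codim_tri (wt : σ → ℕ) (v : ι → σ) (hv : Function.Injective v) (δ : ι → ℕ)
    (hδ : ∀ i, 1 ≤ δ i) (E : ι → MvPolynomial σ K)
    (hlc : ∀ i, (E i).coeff (Finsupp.single (v i) (δ i)) ≠ 0)
    (hlow : ∀ i, ∀ ν ∈ (E i).support,
      ν = Finsupp.single (v i) (δ i) ∨ Finsupp.weight wt ν < δ i * wt (v i))
    {G : Type} [AddCommMonoid G] (w : σ → G) (dg : ι → G)
    (hE : ∀ i, ∀ ν ∈ (E i).support, Finsupp.weight w ν = dg i) (k : G)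
    (hfin : {μ : σ →₀ ℕ | Finsupp.weight w μ = k}.Finite) :
    codim w (Ideal.span (Set.range fun i => inc K D σ (E i))) k =
      ({μ : σ →₀ ℕ | (∀ i, μ (v i) < δ i) ∧ Finsupp.weight w μ = k}.ncard : ℤ) := by
  have := hfin.to_subtype
  have hfd : Module.Finite D (homW D w k) :=
    Module.Finite.equiv (AddMonoidAlgebra.supportedEquivFinsupp _).symm
  have h1 := tri_basis_graded (D := D) wt v hv δ hδ E hlc hlow w dg hE k
  have h2 := (tri_basis (D := D) wt v hv δ hδ E hlc hlow).disjoint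
  set St := AddMonoidAlgebra.supported D D {μ : σ →₀ ℕ | ∀ i, μ (v i) < δ i} with hSt
  set I := (Ideal.span (Set.range fun i => inc K D σ (E i))).restrictScalars D
  have : Module.Finite D ↥(homW D w k ⊓ St) := Submodule.finiteDimensional_of_le inf_le_left
  have : Module.Finite D ↥(homW D w k ⊓ I) := Submodule.finiteDimensional_of_le inf_le_left
  have h3 := Submodule.finrank_sup_add_finrank_inf_eq (homW D w k ⊓ St) (homW D w k ⊓ I)
  rw [← h1, (h2.mono inf_le_right inf_le_right).eq_bot, finrank_bot] at h3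
  have h4 : homW D w k ⊓ St = AddMonoidAlgebra.supported D D
      {μ : σ →₀ ℕ | (∀ i, μ (v i) < δ i) ∧ Finsupp.weight w μ = k} := by
    ext F
    exact ⟨fun h μ hμ => ⟨h.2 hμ, h.1 hμ⟩, fun h => ⟨fun μ hμ => (h hμ).2, fun μ hμ => (h hμ).1⟩⟩
  have := (hfin.subset (s := {μ : σ →₀ ℕ | Finsupp.weight w μ = k})
    (t := {μ : σ →₀ ℕ | (∀ i, μ (v i) < δ i) ∧ Finsupp.weight w μ = k}) fun _ h => h.2).fintype
  rw [h4, (AddMonoidAlgebra.supportedEquivFinsupp _).finrank_eq, Module.finrank_finsupp_self,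
    ← Nat.card_eq_fintype_card, Nat.card_coe_set_eq] at h3
  change (Module.finrank D (homW D w k) : ℤ) - Module.finrank D ↥(homW D w k ⊓ I) = _
  omega

end Crest.Agent.R181
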