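import Crest.Agent.R181.ATheory

/-! # Row 181 A: auxiliary lemmas for `AUlrich` (maps between the modules `S_j`) -/

set_option autoImplicit false

namespace Crest.Agent.R181

open MvPolynomial

section General

variable {Γ : Type} [Ring Γ] (T : RhoTheory Γ)

theorem au1_rho_prod {M N : Type} [AddCommGroup M] [Module Γ M] [AddCommGroup N] [Module Γ N]
    [Module.Finite Γ M] [Module.Finite Γ N] (hM : WM T.F M) (hN : WM T.F N) :
    T.ρ (M × N) = T.ρ M + T.ρ N := by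
  rw [T.add_map (WM.prod T hM hN) (LinearMap.fst Γ M N), add_comm]
  congr 1
  · rw [LinearMap.range_eq_top.2 LinearMap.fst_surjective]
    exact T.iso _ _ Submodule.topEquiv
  · rw [LinearMap.ker_fst]
    exact (T.iso _ _ (LinearEquiv.ofInjective _ LinearMap.inr_injective)).symm

/-- `ρ` of a submodule containing the kernel of a map -/
theorem au1_rho_ge_ker {M N : Type} [AddCommGroup M] [Module Γ M] [AddCommGroup N] [Module Γ N]
    [Module.Finite Γ M] (hM : WM T.F M) (f : M →ₗ[Γ] N) (hN : ∀ P : Submodule Γ N, 0 ≤ T.ρ P)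
    (M' : Submodule Γ M) (h : LinearMap.ker f ≤ M') : T.ρ (LinearMap.ker f) ≤ T.ρ M' := by
  have := T.noeth M hM
  have h1 := T.add_map (WM.sub T hM M'.subtype M'.injective_subtype) (f ∘ₗ M'.subtype)
  have h2 : T.ρ (LinearMap.ker (f ∘ₗ M'.subtype)) = T.ρ (LinearMap.ker f) := by
    rw [LinearMap.ker_comp]
    exact T.iso _ _ (Submodule.comapSubtypeEquivOfLe h)
  have h3 := hN (LinearMap.range (f ∘ₗ M'.subtype))
  omega

end General

namespace Smash

variable {K D : Type} [Field K] [DivisionRing D] [Algebra K D] {n : ℕ} (S : Smash D (BV n))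
  (blk : Blk K n)

theorem au1_top_mem (hP : P1 D Unit fun _ => blk) : ⊤ ∈ (S.theory blk hP).F :=
  ⟨fun _ => Submodule.mem_top, ∅, Submodule.mem_top⟩

theorem au1_smul_cl (j : ℤ) (A F : DP D (BV n)) :
    S.ι A • S.cl blk j F = S.cl blk j (A * F) := by
  unfold cl
  rw [← Submodule.Quotient.mk_smul, smul_eq_mul, map_mul]

theorem au1_cl_sub (j : ℤ) (A F : DP D (BV n)) :
    S.cl blk j (A - F) = S.cl blk j A - S.cl blk j F := by
  unfold cl
  rw [map_sub, Submodule.Quotient.mk_sub]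

theorem au1_cl_zero (j : ℤ) : S.cl blk j 0 = 0 := by
  unfold cl
  rw [map_zero, Submodule.Quotient.mk_zero]

theorem au1_cl_eq (j : ℤ) {A F : DP D (BV n)}
    (h : A - F ∈ Ideal.span (Set.range (blk.ED D))) : S.cl blk j A = S.cl blk j F := by
  rw [← sub_eq_zero, ← au1_cl_sub]
  exact (S.cl_eq_zero blk j _).2 h

theorem au1_π_cl_one (j : ℤ) : S.π j • S.cl blk j 1 = S.cl blk j 1 := by
  unfold cl
  rw [← Submodule.Quotient.mk_smul, Submodule.Quotient.eq, map_one, smul_eq_mul, mul_one,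
    ← neg_sub]
  exact neg_mem (Ideal.subset_span (Set.mem_insert _ _))

theorem au1_xv_cl_one (j : ℤ) (v : BV n) :
    S.xv v • S.cl blk j 1 = S.cl blk j (xD D v) := by
  rw [xv, au1_smul_cl, mul_one]

theorem au1_π_cl_x {j k : ℤ} (h : j + 1 = k) (v : BV n) :
    S.π k • S.cl blk j (xD D v) = S.cl blk j (xD D v) := by
  rw [← h, ← au1_xv_cl_one, smul_smul, π_xv, mul_smul, au1_π_cl_one]

theorem au1_exists_mul {j k : ℤ} (h : j + 1 = k) (v : BV n) :
    ∃ f : S.Sj blk k →ₗ[S.Γ] S.Sj blk j, ∀ F, f (S.cl blk k F) = S.cl blk j (F * xD D v) := by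
  obtain ⟨f, hf⟩ := S.exists_hom_Sj blk k (S.wm_Sj blk j) _ (S.au1_π_cl_x blk h v)
  exact ⟨f, fun F => by rw [hf, au1_smul_cl]⟩

/-- the map `(A, B) ↦ A q - B p` -/
theorem au1_exists_h {j k : ℤ} (h : j + 1 = k) :
    ∃ f : S.Sj blk k × S.Sj blk k →ₗ[S.Γ] S.Sj blk j, ∀ A B, f (S.cl blk k A, S.cl blk k B) =
      S.cl blk j (A * xD D (Sum.inr 1) - B * xD D (Sum.inr 0)) := by
  obtain ⟨f1, h1⟩ := S.au1_exists_mul blk h (Sum.inr 1)
  obtain ⟨f0, h0⟩ := S.au1_exists_mul blk h (Sum.inr 0)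
  refine ⟨f1.coprod (-f0), fun A B => ?_⟩
  rw [LinearMap.coprod_apply, LinearMap.neg_apply, h1, h0, au1_cl_sub, sub_eq_add_neg]

/-- the kernel of `(A, B) ↦ A q - B p` -/
theorem au1_ker_h {j k : ℤ} {f : S.Sj blk k × S.Sj blk k →ₗ[S.Γ] S.Sj blk j}
    (hf : ∀ A B, f (S.cl blk k A, S.cl blk k B) =
      S.cl blk j (A * xD D (Sum.inr 1) - B * xD D (Sum.inr 0)))
    {x : S.Sj blk k × S.Sj blk k} (hx : f x = 0) :
    ∃ H, x = (S.cl blk k (H * xD D (Sum.inr 0)), S.cl blk k (H * xD D (Sum.inr 1))) := by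
  obtain ⟨a, b⟩ := x
  obtain ⟨A, rfl⟩ := S.cl_surj blk k a
  obtain ⟨B, rfl⟩ := S.cl_surj blk k b
  rw [hf, cl_eq_zero] at hx
  obtain ⟨H, h1, h2⟩ := blk_koszul D blk A B hx
  exact ⟨H, by rw [S.au1_cl_eq blk k h1, S.au1_cl_eq blk k h2]⟩

theorem au1_xD_comm (v w : BV n) : xD D v * xD D w = xD D w * xD D v := by
  simp only [xD, AddMonoidAlgebra.single_mul_single, add_comm]

/-- all submodules of `S_j` have `ρ ≥ min (0, 1 + j)` -/
theorem au1_rho_sub (hP : P1 D Unit fun _ => blk) {j m : ℤ} (h0 : m ≤ 0) (h1 : m ≤ 1 + j)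
    (P : Submodule S.Γ (S.Sj blk j)) : m ≤ (S.theory blk hP).ρ P := by
  by_cases h : P = ⊥
  · subst h
    rw [(S.theory blk hP).rho_subsingleton (S.au1_top_mem blk hP)]
    exact h0
  · exact h1.trans (S.rho_sub_Sj blk hP j P h)

end Smash

end Crest.Agent.R181
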