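import Crest.Agent.R181.ATheory
import Crest.Agent.R181.AUlrichAux1

/-! # Row 181 A: the localisation of `S_0` is an Ulrich module -/

set_option autoImplicit false

namespace Crest.Agent.R181

open MvPolynomial

variable {K D : Type} [Field K] [DivisionRing D] [Algebra K D] {n : ℕ} {S : Smash D (BV n)}
  {blk : Blk K n} {hP : P1 D Unit fun _ => blk} (L : Loc (S.theory blk hP) (S.Sj blk 0))

/-- the distinguished element `1 ∈ G_0` -/
noncomputable def Loc.one : L.G := L.i (S.cl blk 0 1)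

theorem Loc.one_ne_zero : L.one ≠ 0 := by
  intro h
  have h1 : S.cl blk 0 1 = 0 := L.i_inj (h.trans (map_zero _).symm)
  refine L.range_ne_bot (LinearMap.range_eq_bot.2 (LinearMap.ext fun x => ?_))
  obtain ⟨F, rfl⟩ := S.cl_surj blk 0 x
  rw [← mul_one F, ← S.au1_smul_cl, h1, smul_zero, map_zero, map_zero]

theorem Loc.π_one : S.π 0 • L.one = L.one := by
  unfold Loc.one
  rw [← map_smul, S.au1_π_cl_one]

/-- `exists_hom_Sj`, `Loc.map_eq_zero`: `ρ S_k = 1 + k ≤ 0` and `≤ ρ (ker)` in both cases. -/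
theorem Loc.neg_vanish {k : ℤ} (hk : k < 0) {g : L.G} (hg : S.π k • g = g) : g = 0 := by
  obtain ⟨f, hf⟩ := S.exists_hom_Sj blk k L.w g hg
  have h0 : f = 0 := by
    refine L.map_eq_zero (S.wm_Sj blk k) f ?_
    have h1 : (S.theory blk hP).ρ (S.Sj blk k) = 1 + k := S.rho_Sj blk k
    rw [h1]
    exact S.au1_rho_sub blk hP (by omega) le_rfl _
  have h1 := hf 1
  rw [h0, map_one, one_smul] at h1
  exact h1.symm

/-- `M = S_0 × S_0 ≥ M₁ = Γ (p, q) ≅ S_1` (`blk_inj`), `ρ = 2` on both sides; `M / M₁` embeds in `S_{-1}` by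
`(a, b) ↦ a q - b p` (`blk_koszul`), whose submodules have `ρ ≥ 0`; `ext`. -/
theorem Loc.split {g : L.G} (hg : S.π 1 • g = g) :
    ∃ a b : L.G, S.π 0 • a = a ∧ S.π 0 • b = b ∧
      g = S.xv (Sum.inr 0) • a + S.xv (Sum.inr 1) • b := by
  obtain ⟨f, hf⟩ := S.exists_hom_Sj blk 1 L.w g hg
  obtain ⟨e0, he0⟩ := S.au1_exists_mul blk (zero_add (1 : ℤ)) (Sum.inr 0)
  obtain ⟨e1, he1⟩ := S.au1_exists_mul blk (zero_add (1 : ℤ)) (Sum.inr 1)
  obtain ⟨h, hh⟩ := S.au1_exists_h blk (neg_add_cancel (1 : ℤ))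
  have he : ∀ F, (e0.prod e1) (S.cl blk 1 F) =
      (S.cl blk 0 (F * xD D (Sum.inr 0)), S.cl blk 0 (F * xD D (Sum.inr 1))) := fun F =>
    Prod.ext (he0 F) (he1 F)
  have hinj : Function.Injective (e0.prod e1) := by
    rw [← LinearMap.ker_eq_bot, LinearMap.ker_eq_bot']
    intro x hx
    obtain ⟨F, rfl⟩ := S.cl_surj blk 1 x
    have h1 : e0 (S.cl blk 1 F) = 0 := congrArg Prod.fst hx
    rw [he0, S.cl_eq_zero] at h1
    exact (S.cl_eq_zero blk 1 F).2 (blk_inj D blk 0 F h1)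
  have hker : LinearMap.range (e0.prod e1) = LinearMap.ker h := by
    ext x
    constructor
    · rintro ⟨y, rfl⟩
      obtain ⟨F, rfl⟩ := S.cl_surj blk 1 y
      rw [LinearMap.mem_ker, he, hh, mul_assoc, mul_assoc, Smash.au1_xD_comm, sub_self,
        S.au1_cl_zero]
    · intro hx
      obtain ⟨H, rfl⟩ := S.au1_ker_h blk hh hx
      exact ⟨S.cl blk 1 H, he H⟩
  have hW : WM (S.theory blk hP).F (S.Sj blk 0 × S.Sj blk 0) :=
    WM.prod _ (S.wm_Sj blk 0) (S.wm_Sj blk 0)
  have hr1 : (S.theory blk hP).ρ (LinearMap.range (e0.prod e1)) =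
      (S.theory blk hP).ρ (S.Sj blk 0 × S.Sj blk 0) := by
    rw [au1_rho_prod _ (S.wm_Sj blk 0) (S.wm_Sj blk 0),
      ← (S.theory blk hP).iso _ _ (LinearEquiv.ofInjective _ hinj)]
    have h1 : (S.theory blk hP).ρ (S.Sj blk 1) = 1 + 1 := S.rho_Sj blk 1
    have h0 : (S.theory blk hP).ρ (S.Sj blk 0) = 1 + 0 := S.rho_Sj blk 0
    omega
  have hr2 : ∀ M' : Submodule S.Γ (S.Sj blk 0 × S.Sj blk 0), LinearMap.range (e0.prod e1) ≤ M' →
      (S.theory blk hP).ρ (LinearMap.range (e0.prod e1)) ≤ (S.theory blk hP).ρ M' := by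
    rw [hker]
    exact au1_rho_ge_ker _ hW h (S.au1_rho_sub blk hP le_rfl (by omega))
  obtain ⟨ψ, hψ⟩ := L.ext _ hW _ hr1 hr2 (f ∘ₗ (LinearEquiv.ofInjective _ hinj).symm.toLinearMap)
  refine ⟨ψ (S.cl blk 0 1, 0), ψ (0, S.cl blk 0 1), ?_, ?_, ?_⟩
  · rw [← map_smul, Prod.smul_mk, S.au1_π_cl_one, smul_zero]
  · rw [← map_smul, Prod.smul_mk, S.au1_π_cl_one, smul_zero]
  · have h1 := hψ (LinearEquiv.ofInjective _ hinj (S.cl blk 1 1))
    rw [LinearMap.comp_apply, LinearEquiv.coe_coe, LinearEquiv.symm_apply_apply, hf, map_one,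
      one_smul, LinearEquiv.ofInjective_apply, he, one_mul, one_mul] at h1
    rw [← map_smul, ← map_smul, ← map_add, Prod.smul_mk, Prod.smul_mk, S.au1_xv_cl_one,
      S.au1_xv_cl_one, smul_zero, smul_zero, Prod.mk_add_mk, add_zero, zero_add, h1]

/-- `M = S_{k-1} ≥ M₁ = Γ p + Γ q` (`rho_of_pq`); the map `S_k × S_k → G`, `(1,0) ↦ a`, `(0,1) ↦ b` kills the
kernel of `S_k × S_k → M₁`, `(F₁, F₂) ↦ F₁ q - F₂ p` (`blk_koszul`); `ext`. -/
theorem Loc.koszul {k : ℤ} {a b : L.G} (ha : S.π k • a = a) (hb : S.π k • b = b)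
    (h : S.xv (Sum.inr 0) • a + S.xv (Sum.inr 1) • b = 0) :
    ∃ c : L.G, S.π (k - 1) • c = c ∧ a = S.xv (Sum.inr 1) • c ∧ b = -(S.xv (Sum.inr 0) • c) := by
  obtain ⟨fa, hfa⟩ := S.exists_hom_Sj blk k L.w a ha
  obtain ⟨fb, hfb⟩ := S.exists_hom_Sj blk k L.w b hb
  obtain ⟨f, hf⟩ := S.au1_exists_h blk (sub_add_cancel k 1)
  have hker : LinearMap.ker f ≤ LinearMap.ker (fa.coprod fb) := by
    intro x hx
    obtain ⟨H, rfl⟩ := S.au1_ker_h blk hf hx
    rw [LinearMap.mem_ker, LinearMap.coprod_apply, hfa, hfb, map_mul, map_mul, mul_smul, mul_smul,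
      ← smul_add]
    exact (congrArg (S.ι H • ·) h).trans (smul_zero _)
  have hq : f (S.cl blk k 1, 0) = S.cl blk (k - 1) (xD D (Sum.inr 1)) := by
    rw [← S.au1_cl_zero blk k, hf, one_mul, zero_mul, sub_zero]
  have hp : f (0, S.cl blk k 1) = -S.cl blk (k - 1) (xD D (Sum.inr 0)) := by
    rw [← S.au1_cl_zero blk k, hf, one_mul, zero_mul, S.au1_cl_sub, S.au1_cl_zero, zero_sub]
  have hr : ∀ M' : Submodule S.Γ (S.Sj blk (k - 1)), LinearMap.range f ≤ M' →
      (S.theory blk hP).ρ M' = 1 + (k - 1) := by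
    intro M' hM'
    refine S.rho_of_pq blk (k - 1) M' (Fin.forall_fin_two.2 ⟨hM' ?_, hM' ⟨_, hq⟩⟩)
    exact ⟨-(0, S.cl blk k 1), by rw [map_neg, hp, neg_neg]⟩
  obtain ⟨ψ, hψ⟩ := L.ext _ (S.wm_Sj blk (k - 1)) (LinearMap.range f)
    ((hr _ le_rfl).trans (S.rho_Sj blk (k - 1)).symm)
    (fun M' hM' => ((hr _ le_rfl).trans (hr _ hM').symm).le)
    ((LinearMap.ker f).liftQ (fa.coprod fb) hker ∘ₗ f.quotKerEquivRange.symm.toLinearMap)
  have key : ∀ x, ψ (f x) = fa.coprod fb x := by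
    intro x
    have h1 := hψ (f.quotKerEquivRange (Submodule.Quotient.mk x))
    rw [LinearMap.comp_apply, LinearEquiv.coe_coe, LinearEquiv.symm_apply_apply,
      Submodule.liftQ_apply, LinearMap.quotKerEquivRange_apply_mk] at h1
    exact h1
  refine ⟨ψ (S.cl blk (k - 1) 1), ?_, ?_, ?_⟩
  · rw [← map_smul, S.au1_π_cl_one]
  · rw [← map_smul, S.au1_xv_cl_one, ← hq, key, LinearMap.coprod_apply, hfa, map_zero, map_one,
      one_smul, add_zero]
  · rw [← map_smul, S.au1_xv_cl_one, ← map_neg, ← hp, key, LinearMap.coprod_apply, hfb, map_zero,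
      map_one, one_smul, zero_add]

/-- `G_0 = End(G) · 1` (`exists_hom_Sj`, `Loc.exists_end` with `P = range i`). -/
theorem Loc.exists_end_one {g : L.G} (hg : S.π 0 • g = g) :
    ∃ ε : Module.End S.Γ L.G, ε L.one = g := by
  obtain ⟨f, hf⟩ := S.exists_hom_Sj blk 0 L.w g hg
  obtain ⟨ε, hε⟩ := L.exists_end (LinearMap.range L.i)
    (by rw [LinearMap.range_eq_map]; exact Module.Finite.fg_top.map _)
    (((S.theory blk hP).iso _ _ (LinearEquiv.ofInjective _ L.i_inj)).symm.trans L.rhoO)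
    (f ∘ₗ (LinearEquiv.ofInjective _ L.i_inj).symm.toLinearMap)
  refine ⟨ε, ?_⟩
  have h1 := hε (LinearEquiv.ofInjective _ L.i_inj (S.cl blk 0 1))
  rw [LinearMap.comp_apply, LinearEquiv.coe_coe, LinearEquiv.symm_apply_apply, hf, map_one,
    one_smul, LinearEquiv.ofInjective_apply] at h1
  exact h1

theorem ul_hom_xv {M : Type} [AddCommGroup M] [Module S.Γ M] (v : BV n) {k : ℤ} {x : M}
    (hx : S.π k • x = x) : S.π (k + 1) • S.xv v • x = S.xv v • x := by
  rw [smul_smul, S.π_xv, mul_smul, hx]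

theorem ul_hom_pow {M : Type} [AddCommGroup M] [Module S.Γ M] (v : BV n) (m : ℕ) {k : ℤ} {x : M}
    (hx : S.π k • x = x) : S.π (k + m) • S.xv v ^ m • x = S.xv v ^ m • x := by
  induction m with
  | zero => simpa using hx
  | succ m ih =>
    rw [pow_succ', mul_smul, Nat.cast_succ, ← add_assoc]
    exact ul_hom_xv v ih

theorem ul_π_ne {M : Type} [AddCommGroup M] [Module S.Γ M] {k l : ℤ} (h : k ≠ l) {x : M}
    (hx : S.π l • x = x) : S.π k • x = 0 := by
  rw [← hx, smul_smul, S.π_mul, if_neg h, zero_smul]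

theorem Loc.ul_inj_p {k : ℤ} {a : L.G} (ha : S.π k • a = a) (h : S.xv (Sum.inr 0) • a = 0) :
    a = 0 := by
  have key : ∀ (m : ℕ) (k : ℤ), k < m → ∀ a : L.G, S.π k • a = a → S.xv (Sum.inr 0) • a = 0 →
      a = 0 := by
    intro m
    induction m with
    | zero => exact fun k hk a ha _ => L.neg_vanish (by simpa using hk) ha
    | succ m ih =>
      intro k hk a ha h
      obtain ⟨c, hc, h1, h2⟩ := L.koszul ha (smul_zero (S.π k)) (by rw [h, smul_zero, add_zero])
      rw [h1, ih (k - 1) (by push_cast at hk; omega) c hc (neg_eq_zero.1 h2.symm), smul_zero]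
  exact key (k.toNat + 1) k (by push_cast; omega) a ha h

theorem Loc.ul_inj_pow (m : ℕ) {k : ℤ} {a : L.G} (ha : S.π k • a = a)
    (h : S.xv (Sum.inr 0) ^ m • a = 0) : a = 0 := by
  induction m with
  | zero => simpa using h
  | succ m ih =>
    rw [pow_succ', mul_smul] at h
    exact ih (L.ul_inj_p (ul_hom_pow _ m ha) h)

theorem Loc.ul_q (m : ℕ) {a b : L.G} (ha : S.π ((m : ℤ) - 1) • a = a) (hb : S.π 0 • b = b)
    (h : S.xv (Sum.inr 0) • a + S.xv (Sum.inr 1) ^ m • b = 0) : b = 0 := by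
  induction m generalizing a with
  | zero =>
    rw [L.neg_vanish (by simp) ha] at h
    simpa using h
  | succ m ih =>
    rw [pow_succ', mul_smul] at h
    have hb' := ul_hom_pow (Sum.inr 1) m hb
    rw [zero_add] at hb'
    rw [Nat.cast_succ, add_sub_cancel_right] at ha
    obtain ⟨c, hc, -, h2⟩ := L.koszul ha hb' h
    exact ih hc (by rw [h2, add_neg_cancel])

theorem ul_mon (μ : Fin 2 →₀ ℕ) :
    S.ι (AddMonoidAlgebra.single (μ.mapDomain Sum.inr) 1) =
      S.xv (Sum.inr 0) ^ μ 0 * S.xv (Sum.inr 1) ^ μ 1 := by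
  have hμ : μ = Finsupp.single 0 (μ 0) + Finsupp.single 1 (μ 1) := by
    ext i
    fin_cases i <;> simp
  rw [Smash.xv, Smash.xv, ← map_pow, ← map_pow, ← map_mul, AddMonoidAlgebra.single_pow,
    AddMonoidAlgebra.single_pow, AddMonoidAlgebra.single_mul_single]
  conv_lhs => rw [hμ]
  simp [Finsupp.mapDomain_add]

/-- the sum `∑ p^i q^j G_0` is direct.  Split by total degree with the `π k`.  `p` is injective on
homogeneous elements (`koszul` with `b = 0`, descend to negative degree), and `q b ∈ p G ⇒ b ∈ p G`;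
induction on the degree. -/
theorem Loc.direct (g : (Fin 2 →₀ ℕ) →₀ L.G) (hg : ∀ μ, S.π 0 • g μ = g μ)
    (h : (g.sum fun μ x => S.ι (AddMonoidAlgebra.single (μ.mapDomain Sum.inr) 1) • x) = 0) :
    g = 0 := by
  classical
  have hh : ∀ (i j : ℕ) (ν : Fin 2 →₀ ℕ),
      S.π ((j : ℤ) + i) • S.xv (Sum.inr 0) ^ i • S.xv (Sum.inr 1) ^ j • g ν =
        S.xv (Sum.inr 0) ^ i • S.xv (Sum.inr 1) ^ j • g ν := by
    intro i j ν
    have h1 := ul_hom_pow (Sum.inr 1) j (hg ν)
    rw [zero_add] at h1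
    exact ul_hom_pow _ i h1
  have key : ∀ (i : ℕ) (μ : Fin 2 →₀ ℕ), μ 0 = i → g μ = 0 := by
    intro i
    induction i using Nat.strong_induction_on with
    | _ i ih =>
      intro μ hμ
      by_contra hne
      have hmem : μ ∈ g.support := Finsupp.mem_support_iff.2 hne
      let T := (g.support.erase μ).filter fun ν => ν 1 + ν 0 = μ 1 + μ 0
      have hT : ∀ ν ∈ T, ∃ t, ν 0 = i + 1 + t ∧ ν 1 + t + 1 = μ 1 := by
        intro ν hν
        obtain ⟨h1, h2⟩ := Finset.mem_filter.1 hν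
        obtain ⟨h3, h4⟩ := Finset.mem_erase.1 h1
        have h5 : ¬ ν 0 < i := fun h => Finsupp.mem_support_iff.1 h4 (ih _ h ν rfl)
        have h6 : ν 0 ≠ i := by
          intro h
          apply h3
          ext j
          fin_cases j
          · simpa using h.trans hμ.symm
          · simp only [Fin.mk_one, Fin.isValue]
            omega
        exact ⟨ν 0 - i - 1, by omega, by omega⟩
      let a : L.G := ∑ ν ∈ T, S.xv (Sum.inr 0) ^ (ν 0 - i - 1) • S.xv (Sum.inr 1) ^ ν 1 • g ν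
      have ha : S.π ((μ 1 : ℤ) - 1) • a = a := by
        rw [Finset.smul_sum]
        refine Finset.sum_congr rfl fun ν hν => ?_
        obtain ⟨t, h1, h2⟩ := hT ν hν
        rw [show ν 0 - i - 1 = t by omega, show (μ 1 : ℤ) - 1 = (ν 1 : ℤ) + t by omega]
        exact hh _ _ _
      have hq := ul_hom_pow (Sum.inr 1) (μ 1) (hg μ)
      rw [zero_add] at hq
      have hp := ul_hom_xv (Sum.inr 0) ha
      rw [sub_add_cancel] at hp
      refine hne (L.ul_q (μ 1) ha (hg μ) (L.ul_inj_pow i (k := μ 1) (by rw [smul_add, hp, hq]) ?_))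
      have h1 := congrArg (fun x => S.π ((μ 1 : ℤ) + μ 0) • x) h
      simp only [Finsupp.sum, ul_mon, mul_smul, smul_zero] at h1
      rw [← Finset.add_sum_erase _ _ hmem, smul_add, hh, Finset.smul_sum, hμ] at h1
      rw [← h1, smul_add, add_comm]
      congr 1
      rw [Finset.smul_sum, Finset.smul_sum, Finset.sum_filter]
      refine Finset.sum_congr rfl fun ν hν => ?_
      split_ifs with h2
      · obtain ⟨t, h3, h4⟩ := hT ν (Finset.mem_filter.2 ⟨hν, h2⟩)
        rw [show (μ 1 : ℤ) + i = (ν 1 : ℤ) + ν 0 by omega, hh, show ν 0 - i - 1 = t by omega, h3,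
          pow_add, pow_succ, mul_smul, mul_smul]
      · exact (ul_π_ne (by omega) (hh _ _ ν)).symm
  ext μ
  exact key _ μ rfl

theorem ul_inc_C (c : K) : S.ι (inc K D (BV n) (C c)) = S.ιD (algebraMap K D c) := by
  change S.ι (AddMonoidAlgebra.mapRingHom _ _ (AddMonoidAlgebra.single 0 c)) = _
  rw [AddMonoidAlgebra.mapRingHom_single]
  rfl

theorem ul_inc_X (v : BV n) : S.ι (inc K D (BV n) (X v)) = S.xv v := by
  change S.ι (AddMonoidAlgebra.mapRingHom _ _ (AddMonoidAlgebra.single (Finsupp.single v 1) 1)) = _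
  rw [AddMonoidAlgebra.mapRingHom_single, map_one]
  rfl

theorem ul_comm {M : Type} [AddCommGroup M] [Module S.Γ M] (F : MvPolynomial (BV n) K)
    (x : DP D (BV n)) (g : M) :
    S.ι (inc K D _ F) • S.ι x • g = S.ι x • S.ι (inc K D _ F) • g := by
  rw [smul_smul, smul_smul, ← map_mul, ← map_mul, (inc_commute F x).eq]

theorem Loc.ul_central (c : K) (γ : S.Γ) (g : L.G) :
    S.ιD (algebraMap K D c) • γ • g = γ • S.ιD (algebraMap K D c) • g := by
  obtain ⟨-, s, hs⟩ := (S.wm_iff (blk.ED D) L.G).1 L.w g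
  rw [← hs]
  simp only [Finset.smul_sum]
  refine Finset.sum_congr rfl fun k _ => ?_
  obtain ⟨F, hF⟩ := S.gen γ k
  rw [smul_smul γ, hF, mul_smul, smul_smul (S.ιD _) (S.π k), ← S.π_ιD, mul_smul, smul_smul γ, hF,
    mul_smul, smul_smul (S.π k), S.π_ιD, mul_smul, ← ul_inc_C, ul_comm]

/-- `d ↦ 1 · d` -/
noncomputable def Loc.ulEv {D' : Type} [Ring D'] (act : D' →+* (Module.End S.Γ L.G)ᵐᵒᵖ) :
    D' →+ L.G where
  toFun d := (act d).unop L.one
  map_zero' := by simp
  map_add' a b := by simp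

theorem Loc.ulEv_mul {D' : Type} [Ring D'] (act : D' →+* (Module.End S.Γ L.G)ᵐᵒᵖ) (a b : D') :
    L.ulEv act (a * b) = (act b).unop (L.ulEv act a) := by
  change (act (a * b)).unop L.one = (act b).unop ((act a).unop L.one)
  rw [map_mul, MulOpposite.unop_mul, Module.End.mul_apply]

theorem Loc.ulEv_one {D' : Type} [Ring D'] (act : D' →+* (Module.End S.Γ L.G)ᵐᵒᵖ) :
    L.ulEv act 1 = L.one := by
  change (act 1).unop L.one = _
  rw [map_one]
  rfl

theorem Loc.ulEv_hom {D' : Type} [Ring D'] (act : D' →+* (Module.End S.Γ L.G)ᵐᵒᵖ) (a : D') :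
    S.π 0 • L.ulEv act a = L.ulEv act a := by
  change S.π 0 • (act a).unop L.one = (act a).unop L.one
  rw [← map_smul, L.π_one]

theorem Loc.ulEv_inj {D' : Type} [Ring D'] {act : D' →+* (Module.End S.Γ L.G)ᵐᵒᵖ}
    (hact : Function.Bijective act) : Function.Injective (L.ulEv act) := by
  rw [injective_iff_map_eq_zero]
  intro a ha
  have h1 : (act a).unop = 0 := L.end_eq_zero _ L.one_ne_zero ha
  apply hact.1
  rw [map_zero]
  exact MulOpposite.unop_injective h1

theorem Loc.ulEv_surj {D' : Type} [Ring D'] {act : D' →+* (Module.End S.Γ L.G)ᵐᵒᵖ}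
    (hact : Function.Bijective act) {g : L.G} (hg : S.π 0 • g = g) : ∃ a, L.ulEv act a = g := by
  obtain ⟨ε, hε⟩ := L.exists_end_one hg
  obtain ⟨a, ha⟩ := hact.2 (MulOpposite.op ε)
  refine ⟨a, ?_⟩
  change (act a).unop L.one = g
  rw [ha]
  exact hε

/-- `D'[p,q] → G` -/
noncomputable def Loc.ulθ {D' : Type} [Ring D'] (act : D' →+* (Module.End S.Γ L.G)ᵐᵒᵖ) :
    DP D' (Fin 2) →+ L.G :=
  (Finsupp.liftAddHom fun μ : Fin 2 →₀ ℕ =>
    (DistribSMul.toAddMonoidHom L.G
      (S.ι (AddMonoidAlgebra.single (μ.mapDomain Sum.inr) 1))).comp (L.ulEv act)).comp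
    AddMonoidAlgebra.coeffAddEquiv.toAddMonoidHom

theorem Loc.ulθ_apply {D' : Type} [Ring D'] (act : D' →+* (Module.End S.Γ L.G)ᵐᵒᵖ)
    (w : DP D' (Fin 2)) : L.ulθ act w = w.coeff.sum fun μ d =>
      S.ι (AddMonoidAlgebra.single (μ.mapDomain Sum.inr) 1) • L.ulEv act d := rfl

theorem Loc.ulθ_single {D' : Type} [Ring D'] (act : D' →+* (Module.End S.Γ L.G)ᵐᵒᵖ)
    (μ : Fin 2 →₀ ℕ) (d : D') : L.ulθ act (AddMonoidAlgebra.single μ d) =
      S.ι (AddMonoidAlgebra.single (μ.mapDomain Sum.inr) 1) • L.ulEv act d := by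
  rw [ulθ_apply, AddMonoidAlgebra.coeff_single, Finsupp.sum_single_index (by simp)]

theorem Loc.ulθ_inj {D' : Type} [Ring D'] {act : D' →+* (Module.End S.Γ L.G)ᵐᵒᵖ}
    (hact : Function.Bijective act) : Function.Injective (L.ulθ act) := by
  rw [injective_iff_map_eq_zero]
  intro w hw
  have h1 := L.direct (w.coeff.mapRange (L.ulEv act) (map_zero _))
    (fun μ => by rw [Finsupp.mapRange_apply]; exact L.ulEv_hom act _)
    (by rw [Finsupp.sum_mapRange_index (by simp)]; exact hw)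
  ext μ
  apply L.ulEv_inj hact
  simpa using congrArg (fun x => x μ) h1

theorem Loc.ulθ_mul_single {D' : Type} [Ring D'] (act : D' →+* (Module.End S.Γ L.G)ᵐᵒᵖ)
    (W : DP D' (Fin 2)) (μ : Fin 2 →₀ ℕ) (d : D') :
    L.ulθ act (W * AddMonoidAlgebra.single μ d) =
      S.ι (AddMonoidAlgebra.single (μ.mapDomain Sum.inr) 1) • (act d).unop (L.ulθ act W) := by
  induction W using AddMonoidAlgebra.induction_linear with
  | zero => simp
  | add x y hx hy => rw [add_mul, map_add, hx, hy, map_add, map_add, smul_add]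
  | single ν c =>
    rw [AddMonoidAlgebra.single_mul_single, ulθ_single, ulθ_single, map_smul, ulEv_mul, smul_smul,
      ← map_mul, AddMonoidAlgebra.single_mul_single, Finsupp.mapDomain_add, add_comm, one_mul]

theorem Loc.ulθ_rep {D' : Type} [Ring D'] (act : D' →+* (Module.End S.Γ L.G)ᵐᵒᵖ)
    {W : DP D' (Fin 2)} {F : MvPolynomial (BV n) K}
    (h : L.ulθ act W = S.ι (inc K D _ F) • L.one) (w : DP D' (Fin 2)) :
    L.ulθ act (W * w) = S.ι (inc K D _ F) • L.ulθ act w := by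
  induction w using AddMonoidAlgebra.induction_linear with
  | zero => simp
  | add x y hx hy => rw [mul_add, map_add, hx, hy, map_add, smul_add]
  | single μ d => rw [ulθ_mul_single, h, map_smul, ulθ_single, ul_comm]; rfl

theorem Loc.ulθ_comm {D' : Type} [Ring D'] {act : D' →+* (Module.End S.Γ L.G)ᵐᵒᵖ}
    (hact : Function.Bijective act) {W W' : DP D' (Fin 2)} {F F' : MvPolynomial (BV n) K}
    (h : L.ulθ act W = S.ι (inc K D _ F) • L.one) (h' : L.ulθ act W' = S.ι (inc K D _ F') • L.one) :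
    Commute W W' := by
  apply L.ulθ_inj hact
  rw [L.ulθ_rep act h, L.ulθ_rep act h', h, h', ul_comm]

theorem Loc.ulθ_lin {D' : Type} [Ring D'] (act : D' →+* (Module.End S.Γ L.G)ᵐᵒᵖ)
    (u : Fin 2 → D') : L.ulθ act (lin u) =
      S.xv (Sum.inr 0) • L.ulEv act (u 0) + S.xv (Sum.inr 1) • L.ulEv act (u 1) := by
  rw [lin, Fin.sum_univ_two, map_add, ulθ_single, ulθ_single, Finsupp.mapDomain_single,
    Finsupp.mapDomain_single]
  rfl

theorem ul_lin_inj {D' : Type} [Ring D'] {u v : Fin 2 → D'} (h : lin u = lin v) : u = v := by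
  classical
  funext i
  have := congrArg (fun x : DP D' (Fin 2) => x.coeff (Finsupp.single i 1)) h
  fin_cases i <;> simpa [lin, Finsupp.single_apply, Finsupp.single_left_inj] using this

/-- `j d` is defined by `1 · j d = d • 1` (`exists_end_one`, `end_eq_zero`); for `c ∈ K`, `g ↦ c • g` is
`Γ`-linear (`gen`, `inc_commute`), so it is `act (j c)`.  `y_m • 1 = p • (1 · u) + q • (1 · v)` (`split`);
`u, v` commute with `j D` by `direct`.  `θ : D'[p,q] → G`, `single μ d ↦ (p,q)^μ • (1 · d)` is additive,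
injective (`direct`), and `θ (Y * w) = y • θ w` for `Y = lin (uv m)`, similarly for `p, q, K`; hence the `Y`
commute, `exists_eval` gives `χ` with `θ (χ F * w) = ι (inc F) • θ w`, so `χ E = 0`. -/
theorem Loc.ulrich {D' : Type} [DivisionRing D'] (act : D' →+* (Module.End S.Γ L.G)ᵐᵒᵖ)
    (hact : Function.Bijective act) :
    ∃ (_ : Algebra K D') (j : D →ₐ[K] D') (uv : Fin n → Fin 2 → D'),
      (∀ c g, (act (algebraMap K D' c)).unop g = S.ιD (algebraMap K D c) • g) ∧
      (∀ d m i, Commute (j d) (uv m i)) ∧ Ulrich blk uv := by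
  have hinj := L.ulEv_inj hact
  have h0 : ∀ d : D, ∃ a, L.ulEv act a = S.ιD d • L.one := fun d =>
    L.ulEv_surj hact (by rw [smul_smul, S.π_ιD, mul_smul, L.π_one])
  choose j₀ hj₀ using h0
  have hj₁ : ∀ d a, L.ulEv act (j₀ d * a) = S.ιD d • L.ulEv act a := fun d a => by
    rw [L.ulEv_mul, hj₀, map_smul]
    rfl
  let j₁ : D →+* D' :=
    { toFun := j₀
      map_one' := hinj (by rw [hj₀, map_one, one_smul, L.ulEv_one])
      map_mul' := fun a b => hinj (by rw [hj₀, hj₁, hj₀, map_mul, mul_smul])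
      map_zero' := hinj (by rw [hj₀, map_zero, zero_smul, map_zero])
      map_add' := fun a b => hinj (by rw [hj₀, map_add, map_add, hj₀, hj₀, add_smul]) }
  have hc : ∀ c g, (act (j₀ (algebraMap K D c))).unop g = S.ιD (algebraMap K D c) • g := by
    intro c g
    let ε : Module.End S.Γ L.G :=
      { toFun := fun g => S.ιD (algebraMap K D c) • g
        map_add' := fun _ _ => smul_add _ _ _
        map_smul' := fun γ g => L.ul_central c γ g }
    have h1 : (act (j₀ (algebraMap K D c))).unop - ε = 0 :=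
      L.end_eq_zero _ L.one_ne_zero (_root_.sub_eq_zero.2 (hj₀ _))
    rw [_root_.sub_eq_zero.1 h1]
    rfl
  let _ : Algebra K D' := RingHom.toAlgebra' (j₁.comp (algebraMap K D)) fun c x => hinj (by
    change L.ulEv act (j₀ _ * x) = L.ulEv act (x * j₀ _)
    rw [hj₁, L.ulEv_mul, hc])
  let j : D →ₐ[K] D' := { j₁ with commutes' := fun _ => rfl }
  have h1 : ∀ m : Fin n, ∃ u : Fin 2 → D', L.ulθ act (lin u) = S.xv (Sum.inl m) • L.one := by
    intro m
    have h2 := S.π_xv (Sum.inl m) 0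
    rw [zero_add] at h2
    obtain ⟨a, b, ha, hb, hab⟩ := L.split (g := S.xv (Sum.inl m) • L.one)
      (by rw [smul_smul, h2, mul_smul, L.π_one])
    obtain ⟨u, rfl⟩ := L.ulEv_surj hact ha
    obtain ⟨v, rfl⟩ := L.ulEv_surj hact hb
    exact ⟨![u, v], by rw [L.ulθ_lin, hab]; rfl⟩
  choose uv huv using h1
  have hxD : ∀ (v : BV n) (d : D) (g : L.G), S.xv v • S.ιD d • g = S.ιD d • S.xv v • g :=
    fun v d g => by
      rw [← ul_inc_X (K := K)]
      exact ul_comm _ _ _
  refine ⟨inferInstance, j, uv, hc, fun d m i => ?_, ?_⟩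
  · have h2 : lin (fun i => j₀ d * uv m i) = lin fun i => uv m i * j₀ d := by
      apply L.ulθ_inj hact
      have h3 := huv m
      rw [L.ulθ_lin] at h3
      rw [L.ulθ_lin, L.ulθ_lin, hj₁, hj₁, hxD, hxD, ← smul_add, h3, L.ulEv_mul, L.ulEv_mul,
        ← map_smul (act (j₀ d)).unop, ← map_smul (act (j₀ d)).unop, ← map_add, h3, map_smul, ← hxD,
        ← hj₀]
      rfl
    exact congrFun (ul_lin_inj h2) i
  · let z : BV n → DP D' (Fin 2) :=
      Sum.elim (fun m => lin (uv m)) fun i => AddMonoidAlgebra.single (Finsupp.single i 1) 1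
    let φ : K →+* DP D' (Fin 2) := AddMonoidAlgebra.singleZeroRingHom.comp (algebraMap K D')
    have hz : ∀ v, L.ulθ act (z v) = S.ι (inc K D _ (X v)) • L.one := by
      intro v
      rw [ul_inc_X]
      cases v with
      | inl m => exact huv m
      | inr i =>
        change L.ulθ act (AddMonoidAlgebra.single (Finsupp.single i 1) 1) = _
        rw [L.ulθ_single, Finsupp.mapDomain_single, L.ulEv_one]
        rfl
    have hφ : ∀ c, L.ulθ act (φ c) = S.ι (inc K D _ (C c)) • L.one := by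
      intro c
      change L.ulθ act (AddMonoidAlgebra.single 0 (j₀ (algebraMap K D c))) = _
      rw [L.ulθ_single, Finsupp.mapDomain_zero, ← AddMonoidAlgebra.one_def, map_one, one_smul, hj₀,
        ul_inc_C]
    obtain ⟨χ, hχ₁, hχ₂⟩ := exists_eval φ z (fun v w => L.ulθ_comm hact (hz v) (hz w))
      fun c v => L.ulθ_comm hact (hφ c) (hz v)
    have hχ : ∀ F, L.ulθ act (χ F) = S.ι (inc K D _ F) • L.one := by
      intro F
      induction F using MvPolynomial.induction_on with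
      | C c => rw [hχ₁, hφ]
      | add p q hp hq => rw [map_add, map_add, hp, hq, map_add, map_add, add_smul]
      | mul_X p v hp => rw [map_mul, L.ulθ_rep act hp, hχ₂, hz, map_mul, map_mul, mul_smul]
    refine ⟨χ, hχ₁, fun i => hχ₂ _, fun m => hχ₂ _, fun m => L.ulθ_inj hact ?_⟩
    rw [hχ, map_zero]
    exact ((S.wm_iff (blk.ED D) L.G).1 L.w L.one).1 m

end Crest.Agent.R181
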