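import Crest.Agent.R181.CDefs

/-! # Row 181, part C: replacing the components of a `z`-stable ideal by their lex-plus-powers versions.
`choose N` from `hC` for the `comp S z I k` (`Good.comp`); `V = {μ ∈ AS (insert z S) | μ.erase z ∈ N (μ z)}`,
so `comp S z V k = N k`.  `N k ⊆ N (k+1)` by `lex_nested`, `hf_mono`; `N k = AS S` for `a z ≤ k` (`lex_nested` with
`good_AS`).  `z`-stability `x_t N (k+1) ⊆ N k` (`k + 1 < a z`): for `w ∈ N (k+1)` of degree `d` the set
`J = {μ | μ ∈ I_{k+1} ∧ degree μ ≤ d ∨ μ ∈ I_k ∧ d < degree μ}` is `Good a S`; its lex version `J'` (from `hC`) has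
`hf J' d = hf (N (k+1)) d`, `hf J' (d+1) = hf (N k) (d+1)`, so `w ∈ J'`, `w + t ∈ J'`, `w + t ∈ N k` (`lex_nested`).
`hf_eq_sum_comp`: induction with `fr_split`/`fr_layer`, or a bijection `μ ↦ (μ z, μ.erase z)`. -/

set_option autoImplicit false

namespace Crest.Agent.R181

open Finsupp

variable {n : ℕ} {a : Fin n → ℕ} {S : Finset (Fin n)} {z : Fin n}

theorem CComp_fr_lt (hz : z ∉ S) {M : Set (Fin n →₀ ℕ)} (hM : M ⊆ AS (insert z S)) (e : ℤ) (K : ℕ) :
    fr (M ∩ {μ | μ z < K}) e = ∑ k ∈ Finset.range K, fr (comp S z M k) (e - k) := by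
  induction K with
  | zero => simp [fr]
  | succ K ih =>
    rw [Finset.sum_range_succ, ← ih, ← fr_layer hz hM, fr_split _ {μ | μ z = K}, add_comm]
    congr 2
    · ext μ
      simp only [Set.mem_sdiff, Set.mem_inter_iff, Set.mem_ofPred_eq]
      constructor
      · rintro ⟨⟨h1, h2⟩, h3⟩
        exact ⟨h1, by omega⟩
      · rintro ⟨h1, h2⟩
        exact ⟨⟨h1, by omega⟩, by omega⟩
    · ext μ
      simp only [Set.mem_inter_iff, Set.mem_ofPred_eq]
      constructor
      · rintro ⟨⟨h1, h2⟩, h3⟩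
        exact ⟨h1, h3⟩
      · rintro ⟨h1, h2⟩
        exact ⟨⟨h1, by omega⟩, h2⟩

theorem CComp_erase_z (μ : Fin n →₀ ℕ) (z : Fin n) (k : ℕ) : (μ + single z k).erase z = μ.erase z := by
  rw [erase_add, erase_single, add_zero]

theorem CComp_erase_ne (μ : Fin n →₀ ℕ) {z t : Fin n} (h : z ≠ t) (k : ℕ) :
    (μ + single t k).erase z = μ.erase z + single t k := by
  rw [erase_add, erase_single_ne h]

theorem CComp_erase_self {μ : Fin n →₀ ℕ} {z : Fin n} (h : μ z = 0) : μ.erase z = μ :=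
  erase_of_notMem_support (by simp [h])

theorem hf_eq_sum_comp (hz : z ∉ S) {M : Set (Fin n →₀ ℕ)} (hM : M ⊆ AS (insert z S)) (d : ℕ) :
    hf M d = ∑ k ∈ Finset.range (d + 1), hf (comp S z M k) (d - k) := by
  have h1 : hf M d = hf (M ∩ {μ | μ z < d + 1}) d := by
    refine le_antisymm (hf_mono fun μ hμ hd => ⟨hμ, ?_⟩) (hf_mono fun μ hμ _ => hμ.1)
    have := Finsupp.le_degree z μ
    change μ z < d + 1
    omega
  have h2 := CComp_fr_lt hz hM d (d + 1)
  rw [fr_nat, ← h1] at h2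
  have h3 : ∑ k ∈ Finset.range (d + 1), fr (comp S z M k) ((d : ℤ) - k) =
      ∑ k ∈ Finset.range (d + 1), (hf (comp S z M k) (d - k) : ℤ) := by
    refine Finset.sum_congr rfl fun k hk => ?_
    rw [← fr_nat, Nat.cast_sub (Nat.lt_succ_iff.1 (Finset.mem_range.1 hk))]
  rw [h3] at h2
  exact_mod_cast h2

theorem compress (hz : z ∉ S) (hC : Claim a S) {I : Set (Fin n →₀ ℕ)}
    (hI : Good a (insert z S) I) (hs : ZStable a S z I) :
    ∃ V, Good a (insert z S) V ∧ ZStable a S z V ∧ ZComp a S z V ∧ (∀ d, hf V d = hf I d) ∧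
      (∀ k d, hf (comp S z V k) d = hf (comp S z I k) d) ∧
      ∀ k p j, bq S (comp S z I k) p j ≤ bq S (comp S z V k) p j := by
  choose N hN hNl hNh hNb using fun k => hC _ (hI.comp k)
  have hzt : ∀ t ∈ S, z ≠ t := fun t ht h => hz (h ▸ ht)
  have hzI : z ∈ insert z S := Finset.mem_insert_self _ _
  have hup : ∀ k, ∀ w ∈ N k, w ∈ N (k + 1) := fun k w hw => by
    refine lex_nested (hN k) (hNl k) (hN (k + 1)) (hNl (k + 1)) ?_ w hw rfl
    rw [hNh, hNh]
    refine hf_mono fun μ hμ _ => ⟨hμ.1, ?_⟩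
    rw [single_add, ← add_assoc]
    exact hI.mul _ hμ.2 z hzI
  have htop : ∀ k, a z ≤ k → ∀ w ∈ AS S, w ∈ N k := fun k hk w hw => by
    refine lex_nested (good_AS a S) (fun _ _ _ ν hν _ _ => hν) (hN k) (hNl k) ?_ w hw rfl
    rw [hNh]
    refine hf_mono fun μ hμ _ => ⟨hμ, hI.pow _ (AS_add.2 ⟨AS_mono (Finset.subset_insert _ _) hμ,
      single_mem_AS hzI _⟩) fun h => ?_⟩
    have := h z
    simp only [Finsupp.add_apply, single_eq_same] at this
    omega
  have hst : ∀ k, k + 1 < a z → ∀ w ∈ N (k + 1), ∀ t ∈ S, w + single t 1 ∈ N k := by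
    intro k hk w hw t ht
    have hJ : Good a S {μ | μ ∈ comp S z I (k + 1) ∧ μ.degree ≤ w.degree ∨
        μ ∈ comp S z I k ∧ w.degree < μ.degree} := by
      refine ⟨?_, ?_, fun μ hμ hb => ?_⟩
      · rintro μ (h | h)
        · exact h.1.1
        · exact h.1.1
      · rintro μ (h | h) s hs'
        · by_cases hd : (μ + single s 1).degree ≤ w.degree
          · exact Or.inl ⟨(hI.comp (k + 1)).mul μ h.1 s hs', hd⟩
          · refine Or.inr ⟨⟨AS_mul μ h.1.1 s hs', ?_⟩, not_le.1 hd⟩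
            rw [add_right_comm]
            refine hs _ ?_ ?_ s hs'
            · rw [add_assoc, ← single_add]
              exact h.1.2
            · simpa [h.1.1 z hz] using hk
        · refine Or.inr ⟨(hI.comp k).mul μ h.1 s hs', ?_⟩
          have := h.2
          rw [degree_add_single]
          omega
      · rcases le_or_gt μ.degree w.degree with h | h
        · exact Or.inl ⟨(hI.comp _).pow μ hμ hb, h⟩
        · exact Or.inr ⟨(hI.comp _).pow μ hμ hb, h⟩
    obtain ⟨J, hJ1, hJ2, hJ3, -⟩ := hC _ hJ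
    have h1 : w ∈ J := by
      refine lex_nested (hN _) (hNl _) hJ1 hJ2 ?_ w hw rfl
      rw [hNh, hJ3]
      exact hf_mono fun μ hμ hd => Or.inl ⟨hμ, hd.le⟩
    refine lex_nested hJ1 hJ2 (hN k) (hNl k) ?_ _ (hJ1.mul w h1 t ht) rfl
    rw [hNh, hJ3]
    refine hf_mono ?_
    rintro μ (h | h) hd
    · have := h.2
      rw [degree_add_single] at hd
      omega
    · exact h.1
  have hcomp : ∀ k, comp S z {μ | μ ∈ AS (insert z S) ∧ μ.erase z ∈ N (μ z)} k = N k := fun k => by
    ext w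
    constructor
    · rintro ⟨h1, -, h2⟩
      rw [CComp_erase_z, CComp_erase_self (h1 z hz)] at h2
      simpa [h1 z hz] using h2
    · intro h
      have h1 := (hN k).sub h
      refine ⟨h1, AS_add.2 ⟨AS_mono (Finset.subset_insert _ _) h1, single_mem_AS hzI _⟩, ?_⟩
      rw [CComp_erase_z, CComp_erase_self (h1 z hz)]
      simpa [h1 z hz] using h
  refine ⟨{μ | μ ∈ AS (insert z S) ∧ μ.erase z ∈ N (μ z)}, ⟨fun _ h => h.1, ?_, ?_⟩, ?_, ?_, ?_, ?_, ?_⟩
  · rintro μ ⟨h1, h2⟩ t ht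
    refine ⟨AS_mul μ h1 t ht, ?_⟩
    rcases Finset.mem_insert.1 ht with rfl | ht'
    · rw [CComp_erase_z, Finsupp.add_apply, single_eq_same]
      exact hup _ _ h2
    · rw [CComp_erase_ne _ (hzt t ht'), Finsupp.add_apply, single_eq_of_ne (hzt t ht'), add_zero]
      exact (hN _).mul _ h2 t ht'
  · intro μ hμ hb
    refine ⟨hμ, ?_⟩
    by_cases hk : a z ≤ μ z
    · exact htop _ hk _ (erase_mem_AS hμ)
    · refine (hN _).pow _ (erase_mem_AS hμ) fun h => hb fun i => ?_
      by_cases hi : i = z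
      · rw [hi]; exact not_le.1 hk
      · have := h i
        rwa [erase_ne hi] at this
  · rintro ν ⟨h1, h2⟩ hk t ht
    refine ⟨AS_mul ν (AS_add.1 h1).1 t (Finset.mem_insert_of_mem ht), ?_⟩
    rw [CComp_erase_z, Finsupp.add_apply, single_eq_same] at h2
    rw [CComp_erase_ne _ (hzt t ht), Finsupp.add_apply, single_eq_of_ne (hzt t ht), add_zero]
    exact hst _ hk _ h2 t ht
  · rintro μ ⟨h1, h2⟩ hb ν hν hd he hle
    refine ⟨hν, ?_⟩
    have e1 : μ.erase z + single z (μ z) = μ := erase_add_single z μ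
    have e2 : ν.erase z + single z (μ z) = ν := he ▸ erase_add_single z ν
    rw [he]
    refine hNl _ _ h2 (fun i => ?_) _ (erase_mem_AS hν) ?_ ?_
    · by_cases hi : i = z
      · rw [hi, erase_same]; exact lt_of_le_of_lt (Nat.zero_le _) (hb z)
      · rw [erase_ne hi]; exact hb i
    · rw [← e1, ← e2, degree_add_single, degree_add_single] at hd
      omega
    · rw [← e1, ← e2, toLex_add, toLex_add] at hle
      exact le_of_add_le_add_right hle
  · intro d
    rw [hf_eq_sum_comp hz (fun _ h => h.1), hf_eq_sum_comp hz hI.sub]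
    exact Finset.sum_congr rfl fun k _ => by rw [hcomp, hNh]
  · intro k d
    rw [hcomp, hNh]
  · intro k p j
    rw [hcomp]
    exact hNb k p j

end Crest.Agent.R181
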