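import Crest.Agent.R181.KosBasic

/-! # Row 181: (noncommutative) change of Koszul operators.
Let `ι j` be the signed contraction `(ι j c) U = if j ∈ U then 0 else (-1)^#{u∈U,u<j} • c (insert j U)`
(so `kd z = ∑ t, z t ∘ ι t`, `ι` anticommute, `ι j ι j = 0`, `ι` commutes with every operator
applied pointwise).  Put `κ i = ∑_{j∈S} M i j ∘ ι j` (pointwise `M`), so `kd z' = ∑_{i∈S} z i κ i`
on chains supported in `S`.
`h2` gives `κ i κ k + κ k κ i = 0` and `h2'` gives `κ i κ i = 0`; `h3` gives
`κ k (z i) κ i = z i κ k κ i`, hence `κ_I z_i κ_i = z_i κ_I κ_i` for products `κ_I` (move `κ i` to the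
left by anticommutation).  Define `Φ w T = (κ_{T} w) ∅` for `T ⊆ S` (and `0` otherwise) with `κ_T` the
ordered product over `T.sort` (choose the order so that `Φ (kd z' w) = kd z (Φ w)`; it is easiest to
define `κ_l` for lists `l` and show `κ_{l ++ [i]} = ± κ_{sort (insert i T)}`).  `Φ` maps `Ch S V p j` to
itself (`V = U, L`), and is injective on chains supported on `p`-subsets of `S` (induction on `p`:
if all `(κ_l w) ∅ = 0` for `l` of length `p` then all `κ i w = 0`, so `ι j w = ∑ M' j i κ i w = 0`).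
Hence `Φ` is bijective on `Ch S U p j`, `Ch S L p j` (finite dimension), maps `Zc z'` onto `Zc z`
and `Bd z'` onto `Bd z`. -/

set_option autoImplicit false

namespace Crest.Agent.R181

variable {D : Type*} [DivisionRing D] {X : Type*} [AddCommGroup X] [Module D X] {n : ℕ}

section ring
variable {E : Type*} [Ring E] {κ : Fin n → E}

/-- the sign `(-1)^#{u ∈ T, u < i}` -/
def coS (T : Finset (Fin n)) (i : Fin n) : ℤ := (-1 : ℤ) ^ (T.filter (· < i)).card

theorem coS_mul_self (T : Finset (Fin n)) (i : Fin n) : coS T i * coS T i = 1 := by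
  rw [coS, ← mul_pow]; simp

theorem coS_insert_lt {T : Finset (Fin n)} {i j : Fin n} (hj : j ∉ T) (h : j < i) :
    coS (insert j T) i = -coS T i := by
  rw [coS, coS, Finset.filter_insert, if_pos h,
    Finset.card_insert_of_notMem (fun h' => hj (Finset.mem_filter.1 h').1), pow_succ, mul_neg_one]

theorem coS_insert_ge (T : Finset (Fin n)) {i j : Fin n} (h : ¬ j < i) :
    coS (insert j T) i = coS T i := by
  rw [coS, coS, Finset.filter_insert, if_neg h]

/-- product over `T` in decreasing order -/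
def coK (κ : Fin n → E) (T : Finset (Fin n)) : E := ((T.sort (· ≥ ·)).map κ).prod

theorem coK_empty : coK κ ∅ = 1 := by simp [coK]

theorem coK_insert {T : Finset (Fin n)} {a : Fin n} (h : ∀ b ∈ T, b < a) :
    coK κ (insert a T) = κ a * coK κ T := by
  rw [coK, Finset.sort_insert _ (fun b hb => (h b hb).le) (fun ha => lt_irrefl _ (h a ha)),
    List.map_cons, List.prod_cons, coK]

theorem coK_comm (hκ : ∀ i k, κ i * κ k = -(κ k * κ i)) (T : Finset (Fin n)) (i : Fin n) :
    coK κ T * κ i = (-1 : ℤ) ^ T.card • (κ i * coK κ T) := by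
  induction T using Finset.induction_on_max with
  | empty => simp [coK_empty]
  | insert a T h ih =>
    rw [coK_insert h, mul_assoc, ih, Finset.card_insert_of_notMem (fun ha => lt_irrefl _ (h a ha)),
      mul_smul_comm, ← mul_assoc, hκ a i, pow_succ, mul_neg_one, neg_smul, neg_mul, smul_neg,
      mul_assoc]

theorem coK_mul (hκ : ∀ i k, κ i * κ k = -(κ k * κ i)) {T : Finset (Fin n)} {i : Fin n}
    (hi : i ∉ T) : coK κ T * κ i = coS T i • coK κ (insert i T) := by
  induction T using Finset.induction_on_max with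
  | empty => simp [coK, coS]
  | insert a T h ih =>
    have hia : i ≠ a := fun h' => hi (by simp [h'])
    rcases lt_or_gt_of_ne hia with hlt | hlt
    · have h1 : ∀ b ∈ insert i T, b < a := fun b hb => by
        rcases Finset.mem_insert.1 hb with rfl | hb
        · exact hlt
        · exact h b hb
      rw [coK_insert h, mul_assoc, ih (fun h' => hi (by simp [h'])), Finset.insert_comm,
        coK_insert h1, mul_smul_comm, coS_insert_ge T hlt.not_gt]
    · have h1 : ∀ b ∈ insert a T, b < i := fun b hb => by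
        rcases Finset.mem_insert.1 hb with rfl | hb
        · exact hlt
        · exact (h b hb).trans hlt
      rw [coK_comm hκ, coK_insert h1, coS, Finset.filter_true_of_mem h1]

theorem coK_eq (hκ : ∀ i k, κ i * κ k = -(κ k * κ i)) {T : Finset (Fin n)} {i : Fin n}
    (hi : i ∈ T) : coK κ T = coS (T.erase i) i • (coK κ (T.erase i) * κ i) := by
  rw [coK_mul hκ (Finset.notMem_erase i T), smul_smul, coS_mul_self, one_smul,
    Finset.insert_erase hi]

theorem coK_mul_mem (hκ : ∀ i k, κ i * κ k = -(κ k * κ i)) (hκ' : ∀ i, κ i * κ i = 0)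
    {T : Finset (Fin n)} {i : Fin n} (hi : i ∈ T) : coK κ T * κ i = 0 := by
  rw [coK_eq hκ hi, smul_mul_assoc, mul_assoc, hκ', mul_zero, smul_zero]

theorem coK_Z (hκ : ∀ i k, κ i * κ k = -(κ k * κ i)) {Z : E} {i : Fin n}
    (hZ : ∀ k, κ k * Z * κ i = Z * κ k * κ i) (T : Finset (Fin n)) :
    coK κ T * (Z * κ i) = Z * (coK κ T * κ i) := by
  induction T using Finset.induction_on_max with
  | empty => simp [coK_empty]
  | insert a T h ih =>
    rw [coK_insert h, mul_assoc, ih, mul_assoc (κ a), coK_comm hκ]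
    simp only [mul_smul_comm, ← mul_assoc, hZ]

end ring

/-- pointwise operators -/
def coP : Module.End D X →+* Module.End D (Finset (Fin n) → X) where
  toFun f := LinearMap.pi fun U => f ∘ₗ LinearMap.proj U
  map_one' := rfl
  map_mul' _ _ := rfl
  map_zero' := rfl
  map_add' _ _ := rfl

theorem coP_apply (f : Module.End D X) (c : Finset (Fin n) → X) (U : Finset (Fin n)) :
    coP f c U = f (c U) := rfl

/-- signed contraction -/
def coI (D : Type*) [DivisionRing D] (X : Type*) [AddCommGroup X] [Module D X] (j : Fin n) :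
    Module.End D (Finset (Fin n) → X) :=
  LinearMap.pi fun U => if j ∈ U then 0 else coS U j • LinearMap.proj (insert j U)

theorem coI_apply (j : Fin n) (c : Finset (Fin n) → X) (U : Finset (Fin n)) :
    coI D X j c U = if j ∈ U then 0 else coS U j • c (insert j U) := by
  rw [coI, LinearMap.pi_apply]
  split_ifs <;> rfl

theorem coI_coP (j : Fin n) (f : Module.End D X) : coI D X j * coP f = coP f * coI D X j := by
  refine LinearMap.ext fun c => funext fun U => ?_
  rw [Module.End.mul_apply, Module.End.mul_apply, coI_apply, coP_apply, coP_apply, coI_apply]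
  split_ifs
  · rw [map_zero]
  · rw [map_zsmul]

theorem coI_self (j : Fin n) : coI D X j * coI D X j = 0 := by
  refine LinearMap.ext fun c => funext fun U => ?_
  rw [Module.End.mul_apply, coI_apply, coI_apply, if_pos (Finset.mem_insert_self j U), smul_zero,
    ite_self]
  rfl

theorem coI_anti (j l : Fin n) : coI D X j * coI D X l = -(coI D X l * coI D X j) := by
  wlog h : j < l generalizing j l
  · rcases (not_lt.1 h).lt_or_eq with h | h
    · rw [this l j h, neg_neg]
    · rw [h, coI_self, neg_zero]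
  refine LinearMap.ext fun c => funext fun U => ?_
  rw [LinearMap.neg_apply, Pi.neg_apply, Module.End.mul_apply, Module.End.mul_apply]
  simp only [coI_apply, Finset.mem_insert, h.ne, h.ne', false_or]
  by_cases hj : j ∈ U
  · simp [hj]
  · by_cases hl : l ∈ U
    · simp [hl]
    · rw [if_neg hj, if_neg hl, if_neg hl, if_neg hj, coS_insert_lt hj h,
        coS_insert_ge U h.not_gt, Finset.insert_comm, smul_comm, neg_smul]

theorem co_sym {S : Finset (Fin n)} (A : Fin n → Fin n → Module.End D X)
    (hA : ∀ j ∈ S, ∀ l ∈ S, j ≠ l → A j l = A l j) :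
    ∑ j ∈ S, ∑ l ∈ S, coP (A j l) * (coI D X j * coI D X l) = 0 := by
  rw [← Finset.sum_product']
  refine Finset.sum_involution (fun x _ => x.swap) ?_ ?_ ?_ fun _ _ => rfl
  · rintro ⟨j, l⟩ hx
    obtain ⟨hj, hl⟩ := Finset.mem_product.1 hx
    by_cases h : j = l
    · subst h
      simp [coI_self]
    · simp only [Prod.fst_swap, Prod.snd_swap]
      rw [hA j hj l hl h, ← mul_add, coI_anti j l, neg_add_cancel, mul_zero]
  · rintro ⟨j, l⟩ _ h1 h2
    obtain rfl : l = j := congrArg Prod.fst h2
    exact h1 (by simp [coI_self])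
  · rintro ⟨j, l⟩ hx
    obtain ⟨hj, hl⟩ := Finset.mem_product.1 hx
    exact Finset.mem_product.2 ⟨hl, hj⟩

theorem co_kd (z : Fin n → Module.End D X) : kd z = ∑ t, coP (z t) * coI D X t := by
  refine LinearMap.ext fun c => funext fun U => ?_
  rw [kd_apply, LinearMap.sum_apply, Finset.sum_apply,
    ← Finset.sum_subset (Finset.subset_univ Uᶜ)]
  · refine Finset.sum_congr rfl fun t ht => ?_
    rw [Module.End.mul_apply, coP_apply, coI_apply, if_neg (Finset.mem_compl.1 ht), map_zsmul, coS]
  · intro t _ ht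
    rw [Module.End.mul_apply, coP_apply, coI_apply, if_pos (by simpa using ht), map_zero]

/-- `κ i = ∑_{j ∈ S} M i j ι j` -/
def coKa (S : Finset (Fin n)) (M : Fin n → Fin n → Module.End D X) (i : Fin n) :
    Module.End D (Finset (Fin n) → X) :=
  if i ∈ S then ∑ j ∈ S, coP (M i j) * coI D X j else 0

theorem co_mul (S : Finset (Fin n)) (A B : Fin n → Module.End D X) :
    (∑ j ∈ S, coP (A j) * coI D X j) * (∑ l ∈ S, coP (B l) * coI D X l) =
      ∑ j ∈ S, ∑ l ∈ S, coP (A j * B l) * (coI D X j * coI D X l) := by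
  rw [Finset.sum_mul_sum]
  refine Finset.sum_congr rfl fun j _ => Finset.sum_congr rfl fun l _ => ?_
  rw [map_mul, mul_assoc, ← mul_assoc (coI D X j), coI_coP, mul_assoc, mul_assoc]

/-- chains supported on `p`-subsets of `S` -/
def coSp (S : Finset (Fin n)) (p : ℕ) (c : Finset (Fin n) → X) : Prop :=
  ∀ T, c T ≠ 0 → T ⊆ S ∧ T.card = p

theorem coSp_of_Ch {S : Finset (Fin n)} {V : ℤ → Submodule D X} {p : ℕ} {j : ℤ}
    {c : Finset (Fin n) → X} (h : c ∈ Ch S V p j) : coSp S p c := fun T hT => by
  by_contra h'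
  exact hT ((mem_Ch.1 h).2 T h')

theorem coSp.sub {S : Finset (Fin n)} {p : ℕ} {c c' : Finset (Fin n) → X} (h : coSp S p c)
    (h' : coSp S p c') : coSp S p (c - c') := fun T hT => by
  by_cases h0 : c T = 0
  · exact h' T fun h1 => hT (by simp [h0, h1])
  · exact h T h0

theorem coSp.add {S : Finset (Fin n)} {p : ℕ} {c c' : Finset (Fin n) → X} (h : coSp S p c)
    (h' : coSp S p c') : coSp S p (c + c') := fun T hT => by
  by_cases h0 : c T = 0
  · exact h' T fun h1 => hT (by simp [h0, h1])
  · exact h T h0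

theorem co_sum_ne_zero {R : Finset (Fin n)} {A : Fin n → Module.End D X} {c : Finset (Fin n) → X}
    {T : Finset (Fin n)} 
    (h : (∑ j ∈ R, coP (A j) * coI D X j : Module.End D (Finset (Fin n) → X)) c T ≠ 0) :
    ∃ j, j ∉ T ∧ c (insert j T) ≠ 0 := by
  rw [LinearMap.sum_apply, Finset.sum_apply] at h
  obtain ⟨j, -, hj⟩ := Finset.exists_ne_zero_of_sum_ne_zero h
  rw [Module.End.mul_apply, coP_apply, coI_apply] at hj
  refine ⟨j, fun h1 => hj (by simp [h1]), fun h1 => hj (by simp [h1])⟩

theorem coSp.sum {S R : Finset (Fin n)} {p : ℕ} {c : Finset (Fin n) → X} (h : coSp S p c)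
    (A : Fin n → Module.End D X) :
    coSp S (p - 1) ((∑ j ∈ R, coP (A j) * coI D X j : Module.End D (Finset (Fin n) → X)) c) := by
  intro T hT
  obtain ⟨j, h1, h2⟩ := co_sum_ne_zero hT
  obtain ⟨h3, h4⟩ := h _ h2
  rw [Finset.card_insert_of_notMem h1] at h4
  exact ⟨(Finset.subset_insert _ _).trans h3, by omega⟩

theorem coKa_ne_zero {S : Finset (Fin n)} {M : Fin n → Fin n → Module.End D X} {i : Fin n}
    {c : Finset (Fin n) → X} {T : Finset (Fin n)} (h : coKa S M i c T ≠ 0) :
    ∃ j, j ∉ T ∧ c (insert j T) ≠ 0 := by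
  unfold coKa at h
  split_ifs at h
  · exact co_sum_ne_zero h
  · exact absurd rfl h

theorem coK_card {S : Finset (Fin n)} {M : Fin n → Fin n → Module.End D X} {p : ℕ}
    {c : Finset (Fin n) → X} (hc : ∀ T, c T ≠ 0 → T.card = p) (R T : Finset (Fin n))
    (h : coK (coKa S M) R c T ≠ 0) : T.card + R.card = p := by
  induction R using Finset.induction_on_max generalizing T with
  | empty => simpa [coK_empty] using hc T (by simpa [coK_empty] using h)
  | insert a R ha ih =>
    rw [coK_insert ha, Module.End.mul_apply] at h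
    obtain ⟨j, h1, h2⟩ := coKa_ne_zero h
    have := ih _ h2
    rw [Finset.card_insert_of_notMem h1] at this
    rw [Finset.card_insert_of_notMem (fun h' => lt_irrefl _ (ha a h'))]
    omega

theorem coK_mem {S : Finset (Fin n)} {M : Fin n → Fin n → Module.End D X} {V : Submodule D X}
    (hM : ∀ i ∈ S, ∀ j ∈ S, ∀ x ∈ V, M i j x ∈ V) {c : Finset (Fin n) → X} (hc : ∀ T, c T ∈ V)
    (R T : Finset (Fin n)) : coK (coKa S M) R c T ∈ V := by
  induction R using Finset.induction_on_max generalizing T with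
  | empty => simpa [coK_empty] using hc T
  | insert a R ha ih =>
    rw [coK_insert ha, Module.End.mul_apply, coKa]
    split_ifs with h
    · rw [LinearMap.sum_apply, Finset.sum_apply]
      refine V.sum_mem fun j hj => ?_
      rw [Module.End.mul_apply, coP_apply, coI_apply]
      refine hM a h j hj _ ?_
      split_ifs
      · exact V.zero_mem
      · exact V.smul_of_tower_mem _ (ih _)
    · exact V.zero_mem

/-- the comparison map -/
def coPhi (κ : Fin n → Module.End D (Finset (Fin n) → X)) : Module.End D (Finset (Fin n) → X) :=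
  LinearMap.pi fun T => LinearMap.proj ∅ ∘ₗ coK κ T

theorem coPhi_apply (κ : Fin n → Module.End D (Finset (Fin n) → X)) (c : Finset (Fin n) → X)
    (T : Finset (Fin n)) : coPhi κ c T = coK κ T c ∅ := rfl

theorem co_finrank_map {Y : Type*} [AddCommGroup Y] [Module D Y] (Φ : Y →ₗ[D] Y)
    {W : Submodule D Y} (h : ∀ w ∈ W, Φ w = 0 → w = 0) :
    Module.finrank D (W.map Φ) = Module.finrank D W := by
  rw [← LinearMap.range_domRestrict, LinearMap.finrank_range_of_inj]
  rw [injective_iff_map_eq_zero]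
  exact fun w hw => Subtype.ext (h w w.2 hw)

theorem beta_co (z z' : Fin n → Module.End D X) (S : Finset (Fin n))
    (M M' : Fin n → Fin n → Module.End D X) (U L : ℤ → Submodule D X)
    (hLU : ∀ k, L k ≤ U k) (hfd : FD U)
    (h1 : ∀ j ∈ S, z' j = ∑ i ∈ S, z i * M i j)
    (h2 : ∀ i ∈ S, ∀ k ∈ S, ∀ j ∈ S, ∀ l ∈ S, j ≠ l →
      M i j * M k l - M k l * M i j = M i l * M k j - M k j * M i l)
    (h2' : ∀ i ∈ S, ∀ j ∈ S, ∀ l ∈ S, M i j * M i l = M i l * M i j)
    (h3 : ∀ i ∈ S, ∀ k ∈ S, ∀ j ∈ S, ∀ l ∈ S, j ≠ l →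
      (M k l * z i - z i * M k l) * M i j = (M k j * z i - z i * M k j) * M i l)
    (h4 : ∀ j ∈ S, ∀ l ∈ S, ∑ i ∈ S, M' j i * M i l = if j = l then 1 else 0)
    (hMU : ∀ i ∈ S, ∀ j ∈ S, ∀ k, ∀ x ∈ U k, M i j x ∈ U k)
    (hML : ∀ i ∈ S, ∀ j ∈ S, ∀ k, ∀ x ∈ L k, M i j x ∈ L k)
    (p : ℕ) (j : ℤ) : beta z' S U L p j = beta z S U L p j := by
  set κ := coKa S M with hκdef
  have hκ : ∀ i k, κ i * κ k = -(κ k * κ i) := by
    intro i k
    rw [eq_neg_iff_add_eq_zero, hκdef]
    unfold coKa
    split_ifs with hi hk hk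
    · rw [co_mul, co_mul, ← co_sym (fun j l => M i j * M k l - M k l * M i j) (h2 i hi k hk)]
      rw [Finset.sum_comm (f := fun j l => coP (M k j * M i l) * (coI D X j * coI D X l)),
        ← Finset.sum_add_distrib]
      refine Finset.sum_congr rfl fun j _ => ?_
      rw [← Finset.sum_add_distrib]
      refine Finset.sum_congr rfl fun l _ => ?_
      rw [map_sub, sub_mul, eq_sub_iff_add_eq, add_assoc, ← mul_add, coI_anti l j, neg_add_cancel,
        mul_zero, add_zero]
    all_goals simp
  have hκ' : ∀ i, κ i * κ i = 0 := by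
    intro i
    rw [hκdef]
    unfold coKa
    split_ifs with hi
    · rw [co_mul]
      exact co_sym (fun j l => M i j * M i l) fun j hj l hl _ => h2' i hi j hj l hl
    · simp
  have hZ : ∀ i k, κ k * coP (z i) * κ i = coP (z i) * κ k * κ i := by
    intro i k
    rw [← sub_eq_zero, ← sub_mul, hκdef]
    unfold coKa
    split_ifs with hk hi hi
    · have e : (∑ j ∈ S, coP (M k j) * coI D X j) * coP (z i) -
          coP (z i) * ∑ j ∈ S, coP (M k j) * coI D X j =
          ∑ j ∈ S, coP (M k j * z i - z i * M k j) * coI D X j := by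
        rw [Finset.sum_mul, Finset.mul_sum, ← Finset.sum_sub_distrib]
        refine Finset.sum_congr rfl fun j _ => ?_
        rw [map_sub, map_mul, map_mul, sub_mul, mul_assoc, coI_coP, mul_assoc, mul_assoc]
      rw [e, co_mul]
      exact co_sym (fun l j => (M k l * z i - z i * M k l) * M i j)
        fun l hl j hj hne => h3 i hi k hk j hj l hl hne.symm
    all_goals simp
  have hI : ∀ {q : ℕ} {w : Finset (Fin n) → X}, coSp S q w → ∀ t ∉ S, coI D X t w = 0 := by
    intro q w hw t ht
    funext T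
    rw [coI_apply]
    split_ifs
    · rfl
    · have : w (insert t T) = 0 := by
        by_contra h
        exact ht ((hw _ h).1 (Finset.mem_insert_self _ _))
      rw [this, smul_zero]
      rfl
  have hd : ∀ {q : ℕ} {w : Finset (Fin n) → X}, coSp S q w →
      kd z' w = (∑ i, coP (z i) * κ i : Module.End D (Finset (Fin n) → X)) w := by
    intro q w hw
    have e1 : ∑ i, coP (z i) * κ i = ∑ j ∈ S, coP (z' j) * coI D X j := by
      rw [← Finset.sum_subset (Finset.subset_univ S)
        (fun i _ hi => by rw [hκdef, coKa, if_neg hi, mul_zero])]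
      have e2 : ∀ i ∈ S, coP (z i) * κ i = ∑ j ∈ S, coP (z i * M i j) * coI D X j := by
        intro i hi
        rw [hκdef, coKa, if_pos hi, Finset.mul_sum]
        exact Finset.sum_congr rfl fun j _ => by rw [map_mul, mul_assoc]
      rw [Finset.sum_congr rfl e2, Finset.sum_comm]
      refine Finset.sum_congr rfl fun j hj => ?_
      rw [h1 j hj, map_sum, Finset.sum_mul]
    rw [e1, co_kd, LinearMap.sum_apply, LinearMap.sum_apply]
    refine (Finset.sum_subset (Finset.subset_univ S) fun t _ ht => ?_).symm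
    rw [Module.End.mul_apply, hI hw t ht, map_zero]
  set Φ := coPhi κ with hΦ
  have hΦκ : ∀ i w T, Φ (κ i w) T = if i ∈ T then 0 else coS T i • Φ w (insert i T) := by
    intro i w T
    rw [hΦ, coPhi_apply, ← Module.End.mul_apply]
    split_ifs with h
    · rw [coK_mul_mem hκ hκ' h]
      rfl
    · rw [coK_mul hκ h]
      rfl
  have hΦd : ∀ {q : ℕ} {w : Finset (Fin n) → X}, coSp S q w → Φ (kd z' w) = kd z (Φ w) := by
    intro q w hw
    funext T
    rw [hd hw, co_kd, LinearMap.sum_apply, LinearMap.sum_apply, map_sum, Finset.sum_apply,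
      Finset.sum_apply]
    refine Finset.sum_congr rfl fun i _ => ?_
    rw [Module.End.mul_apply (coP (z i)) (coI D X i), coP_apply, coI_apply, ← hΦκ, hΦ, coPhi_apply,
      coPhi_apply, ← Module.End.mul_apply, coK_Z hκ (hZ i)]
    rfl
  have hinj : ∀ (q : ℕ) (w : Finset (Fin n) → X), coSp S q w → Φ w = 0 → w = 0 := by
    intro q
    induction q with
    | zero =>
      intro w hw h0
      funext T
      by_contra hT
      obtain rfl := Finset.card_eq_zero.1 (hw T hT).2
      have := congrFun h0 ∅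
      rw [hΦ, coPhi_apply, coK_empty] at this
      exact hT this
    | succ q ih =>
      intro w hw h0
      have e1 : ∀ i ∈ S, κ i w = 0 := fun i hi => by
        refine ih _ ?_ (funext fun T => ?_)
        · rw [hκdef, coKa, if_pos hi]
          exact hw.sum _
        · rw [hΦκ, h0]
          simp
      have e2 : ∀ j ∈ S, coI D X j = ∑ i ∈ S, coP (M' j i) * κ i := fun j hj => by
        have e3 : ∀ i ∈ S, coP (M' j i) * κ i = ∑ l ∈ S, coP (M' j i * M i l) * coI D X l := by
          intro i hi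
          rw [hκdef, coKa, if_pos hi, Finset.mul_sum]
          exact Finset.sum_congr rfl fun j _ => by rw [map_mul, mul_assoc]
        rw [Finset.sum_congr rfl e3, Finset.sum_comm, Finset.sum_eq_single j]
        · rw [← Finset.sum_mul, ← map_sum, h4 j hj j hj, if_pos rfl, map_one, one_mul]
        · intro l hl hne
          rw [← Finset.sum_mul, ← map_sum, h4 j hj l hl, if_neg hne.symm, map_zero, zero_mul]
        · exact fun h => absurd hj h
      funext T
      by_contra hT
      obtain ⟨h5, h6⟩ := hw T hT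
      obtain ⟨t, ht⟩ := Finset.card_pos.1 (show 0 < T.card by omega)
      have h7 : coI D X t w = 0 := by
        rw [e2 t (h5 ht), LinearMap.sum_apply]
        exact Finset.sum_eq_zero fun i hi => by rw [Module.End.mul_apply, e1 i hi, map_zero]
      have h8 := congrFun h7 (T.erase t)
      rw [coI_apply, if_neg (Finset.notMem_erase t T), Finset.insert_erase ht] at h8
      apply hT
      rw [← one_smul ℤ (w T), ← coS_mul_self (T.erase t) t, mul_smul, h8]
      exact smul_zero _
  have hCh : ∀ (V : ℤ → Submodule D X), FD V →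
      (∀ i ∈ S, ∀ j ∈ S, ∀ k, ∀ x ∈ V k, M i j x ∈ V k) →
      ∀ q, (Ch S V q j).map Φ = Ch S V q j := by
    intro V hV hM q
    haveI := Ch_finite (S := S) hV q j
    refine Submodule.eq_of_le_of_finrank_eq ?_
      (co_finrank_map Φ fun w hw => hinj q w (coSp_of_Ch hw))
    rintro _ ⟨w, hw, rfl⟩
    refine mem_Ch.2 ⟨fun T _ _ => ?_, fun T hT => ?_⟩
    · refine coK_mem (fun i hi l hl => hM i hi l hl _) (fun R => ?_) T ∅
      by_cases hR : R ⊆ S ∧ R.card = q
      · exact (mem_Ch.1 hw).1 R hR.1 hR.2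
      · rw [(mem_Ch.1 hw).2 R hR]
        exact Submodule.zero_mem _
    · by_contra h0
      refine hT ⟨fun i hi => ?_, ?_⟩
      · by_contra hiS
        apply h0
        rw [hΦ, coPhi_apply, coK_eq hκ hi, hκdef, coKa, if_neg hiS, mul_zero, smul_zero]
        rfl
      · simpa using coK_card (fun R hR => (coSp_of_Ch hw R hR).2) T ∅ h0
  have hU := hCh U hfd hMU
  have hL := hCh L (hfd.mono hLU) hML
  have hkd : ∀ {q : ℕ} {w : Finset (Fin n) → X}, coSp S q w → coSp S (q - 1) (kd z' w) := by
    intro q w hw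
    rw [co_kd]
    exact hw.sum _
  have hZc : (Zc z' S U L p j).map Φ = Zc z S U L p j := by
    apply le_antisymm
    · rintro _ ⟨w, ⟨hw1, hw2⟩, rfl⟩
      refine ⟨hU p ▸ Submodule.mem_map_of_mem hw1, ?_⟩
      show kd z (Φ w) ∈ Ch S L (p - 1) j
      rw [← hΦd (coSp_of_Ch hw1), ← hL (p - 1)]
      exact Submodule.mem_map_of_mem hw2
    · rintro v ⟨hv1, hv2⟩
      rw [← hU p] at hv1
      obtain ⟨w, hw, rfl⟩ := hv1
      refine Submodule.mem_map_of_mem ⟨hw, ?_⟩
      have hv3 : kd z (Φ w) ∈ Ch S L (p - 1) j := hv2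
      rw [← hΦd (coSp_of_Ch hw), ← hL (p - 1)] at hv3
      obtain ⟨u, hu, hu'⟩ := hv3
      have := hinj (p - 1) _ ((coSp_of_Ch hu).sub (hkd (coSp_of_Ch hw)))
        (by rw [map_sub, hu', sub_self])
      show kd z' w ∈ Ch S L (p - 1) j
      rw [← sub_eq_zero.1 this]
      exact hu
  have hBd : (Bd z' S U L p j).map Φ = Bd z S U L p j := by
    unfold Bd
    rw [Submodule.map_sup, hL p]
    congr 1
    conv_rhs => rw [← hU (p + 1)]
    apply le_antisymm
    · rintro _ ⟨_, ⟨w, hw, rfl⟩, rfl⟩
      exact ⟨Φ w, ⟨w, hw, rfl⟩, (hΦd (coSp_of_Ch hw)).symm⟩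
    · rintro _ ⟨_, ⟨w, hw, rfl⟩, rfl⟩
      exact ⟨kd z' w, ⟨w, hw, rfl⟩, hΦd (coSp_of_Ch hw)⟩
  unfold beta
  rw [← hZc, ← hBd, 
    co_finrank_map Φ (W := Zc z' S U L p j) fun w hw => hinj p w (coSp_of_Ch hw.1),
    co_finrank_map Φ (W := Bd z' S U L p j) fun w hw => hinj p w ?_]
  obtain ⟨_, ⟨u, hu, rfl⟩, v, hv, rfl⟩ := Submodule.mem_sup.1 hw
  exact (hkd (coSp_of_Ch hu)).add (coSp_of_Ch hv)

end Crest.Agent.R181
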