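import Crest.Agent.R181.KosBasic

/-! # Row 181: Gröbner semicontinuity over a division ring.
General lemma to prove first: for a finite-dimensional subspace `V` of `ι →₀ D` (or `ι → D`…) and a
weight `ω : ι → W` into a linear order, the span `inV` of the initial forms (the part of `v ≠ 0` of top
weight) has `finrank inV = finrank V` (filtration `V_{≤ w}`, induction on the finite set of weights).
Apply it to chains `c : Finset (Fin n) → PX D n` with weight of the term `(T, μ)` equal to
`w (μ + ∑_{t ∈ T} single t 1)`; `kd (sh D n)` preserves this weight, so initial forms of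
`Zc (A / V)` lie in `Zc (A / lead V)`; finish with `beta_formula`.  (Only `finrank V ≤ finrank inV`
is needed for the cycles.) -/

set_option autoImplicit false

namespace Crest.Agent.R181

variable {D : Type*} [DivisionRing D] {n : ℕ}
  {W : Type*} [AddCommMonoid W] [LinearOrder W] [IsOrderedCancelAddMonoid W]

section grobaux

theorem grob_rank {E E' : Type*} [AddCommGroup E] [Module D E] [AddCommGroup E'] [Module D E']
    (φ : E →ₗ[D] E') (V : Submodule D E) [Module.Finite D V] :
    Module.finrank D (V.map φ) + Module.finrank D ↥(V ⊓ LinearMap.ker φ) = Module.finrank D V := by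
  have h := LinearMap.finrank_range_add_finrank_ker (φ.domRestrict V)
  rw [LinearMap.range_domRestrict, LinearMap.ker_domRestrict] at h
  rw [← h, ← Submodule.finrank_map_subtype_eq V ((LinearMap.ker φ).comap V.subtype),
    Submodule.map_comap_subtype]

/-- comparison of dimensions through the weight filtration -/
theorem grob_filt {E E' Ω : Type*} [AddCommGroup E] [Module D E] [AddCommGroup E'] [Module D E']
    [LinearOrder Ω] (π : Ω → E →ₗ[D] E') (hsep : ∀ v, (∀ ω, π ω v = 0) → v = 0) (s : Finset Ω) :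
    ∀ (V I : Submodule D E) [Module.Finite D V] [Module.Finite D I],
      (∀ v ∈ V, ∀ ω, ω ∉ s → π ω v = 0) →
      (∀ ω, ∀ v ∈ V, (∀ ω', ω < ω' → π ω' v = 0) →
        ∃ x ∈ I, π ω x = π ω v ∧ ∀ ω', ω < ω' → π ω' x = 0) →
      Module.finrank D V ≤ Module.finrank D I := by
  induction s using Finset.induction_on_max with
  | empty =>
    intro V I _ _ h1 _
    have : V = ⊥ := by
      rw [eq_bot_iff]
      intro v hv
      exact hsep v fun ω => h1 v hv ω (by simp)
    rw [this]; simp
  | insert a s ha ih =>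
    intro V I _ _ h1 h2
    have hbig : ∀ v ∈ V, ∀ ω', a < ω' → π ω' v = 0 := by
      intro v hv ω' h
      refine h1 v hv ω' ?_
      simp only [Finset.mem_insert, not_or]
      exact ⟨h.ne', fun hs => lt_asymm h (ha _ hs)⟩
    have : Module.Finite D ↥(V ⊓ LinearMap.ker (π a)) :=
      Submodule.finiteDimensional_of_le inf_le_left
    have : Module.Finite D ↥(I ⊓ LinearMap.ker (π a)) :=
      Submodule.finiteDimensional_of_le inf_le_left
    have e1 := ih (V ⊓ LinearMap.ker (π a)) (I ⊓ LinearMap.ker (π a)) ?_ ?_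
    · have e2 : Module.finrank D (V.map (π a)) ≤ Module.finrank D (I.map (π a)) := by
        refine Submodule.finrank_mono ?_
        rintro _ ⟨v, hv, rfl⟩
        obtain ⟨x, hx, hx1, _⟩ := h2 a v hv (hbig v hv)
        exact ⟨x, hx, hx1⟩
      have := grob_rank (π a) V
      have := grob_rank (π a) I
      omega
    · rintro v ⟨hv, hv'⟩ ω hω
      by_cases h : ω = a
      · rw [h]; exact hv'
      · exact h1 v hv ω (by simp [h, hω])
    · rintro ω v ⟨hv, hv'⟩ hω
      rcases lt_trichotomy ω a with h | h | h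
      · obtain ⟨x, hx, hx1, hx2⟩ := h2 ω v hv hω
        exact ⟨x, ⟨hx, hx2 a h⟩, hx1, hx2⟩
      · refine ⟨0, Submodule.zero_mem _, ?_, fun _ _ => map_zero _⟩
        rw [map_zero, h]; exact (LinearMap.mem_ker.1 hv').symm
      · exact ⟨0, Submodule.zero_mem _, by rw [map_zero, hbig v hv ω h], fun _ _ => map_zero _⟩

open Classical in
/-- the part supported on `P` -/
noncomputable def grobF (D : Type*) [DivisionRing D] (P : (Fin n →₀ ℕ) → Prop) :
    PX D n →ₗ[D] PX D n where
  toFun v := v.filter P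
  map_add' _ _ := Finsupp.filter_add
  map_smul' _ _ := Finsupp.filter_smul

open Classical in
theorem grobF_apply (P : (Fin n →₀ ℕ) → Prop) (v : PX D n) (μ : Fin n →₀ ℕ) :
    grobF D P v μ = if P μ then v μ else 0 := rfl

theorem grob_mem_monF {M : Set (Fin n →₀ ℕ)} {k : ℤ} {v : PX D n} :
    v ∈ monF D M k ↔ ∀ μ, v μ ≠ 0 → μ ∈ M ∧ (μ.degree : ℤ) = k := by
  unfold monF
  rw [Finsupp.mem_supported]
  constructor
  · intro h μ hμ
    exact h (by simpa using hμ)
  · intro h μ hμ
    exact h μ (by simpa using hμ)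

theorem grob_sh_apply (t : Fin n) (v : PX D n) (μ : Fin n →₀ ℕ) :
    sh D n t v (μ + Finsupp.single t 1) = v μ :=
  Finsupp.mapDomain_apply (f := fun μ : Fin n →₀ ℕ => μ + Finsupp.single t 1)
    (add_left_injective _) v μ

theorem grob_sh_ne (t : Fin n) (v : PX D n) (ν : Fin n →₀ ℕ) (h : sh D n t v ν ≠ 0) :
    ∃ μ, ν = μ + Finsupp.single t 1 := by
  by_contra hc
  apply h
  refine Finsupp.mapDomain_of_notMem_range (f := fun μ : Fin n →₀ ℕ => μ + Finsupp.single t 1) v ν ?_
  rintro ⟨μ, hμ⟩
  exact hc ⟨μ, hμ.symm⟩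

theorem grobF_sh (P : (Fin n →₀ ℕ) → Prop) (t : Fin n) (v : PX D n) :
    grobF D P (sh D n t v) = sh D n t (grobF D (fun μ => P (μ + Finsupp.single t 1)) v) := by
  ext ν
  by_cases h : ∃ μ, ν = μ + Finsupp.single t 1
  · obtain ⟨μ, rfl⟩ := h
    rw [grobF_apply, grob_sh_apply, grob_sh_apply, grobF_apply]
  · have h1 : ∀ y : PX D n, sh D n t y ν = 0 := fun y => by
      by_contra hy
      exact h (grob_sh_ne t y ν hy)
    rw [grobF_apply, h1, h1, ite_self]

/-- the squarefree monomial of `T` -/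
noncomputable def grobE (T : Finset (Fin n)) : Fin n →₀ ℕ := ∑ t ∈ T, Finsupp.single t 1

theorem grobE_degree (T : Finset (Fin n)) : (grobE T).degree = T.card := by
  simp [grobE, map_sum]

/-- weight components of chains -/
noncomputable def grobP (D : Type*) [DivisionRing D] (w : (Fin n →₀ ℕ) →+ W) (ω : W) :
    (Finset (Fin n) → PX D n) →ₗ[D] (Finset (Fin n) → PX D n) :=
  LinearMap.pi fun T => grobF D (fun μ => w (μ + grobE T) = ω) ∘ₗ LinearMap.proj T

theorem grobP_apply (w : (Fin n →₀ ℕ) →+ W) (ω : W) (c : Finset (Fin n) → PX D n)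
    (T : Finset (Fin n)) : grobP D w ω c T = grobF D (fun μ => w (μ + grobE T) = ω) (c T) := rfl

theorem grobP_kd (w : (Fin n →₀ ℕ) →+ W) (ω : W) (c : Finset (Fin n) → PX D n) :
    grobP D w ω (kd (sh D n) c) = kd (sh D n) (grobP D w ω c) := by
  funext U
  rw [grobP_apply, kd_apply, kd_apply, map_sum]
  refine Finset.sum_congr rfl fun t ht => ?_
  rw [map_zsmul, grobF_sh, grobP_apply]
  have ht' : t ∉ U := Finset.mem_compl.1 ht
  simp only [grobE, Finset.sum_insert ht', add_assoc]

theorem grobP_eq_zero_iff (w : (Fin n →₀ ℕ) →+ W) (ω : W) (c : Finset (Fin n) → PX D n) :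
    grobP D w ω c = 0 ↔ ∀ T μ, c T μ ≠ 0 → w (μ + grobE T) ≠ ω := by
  constructor
  · intro h T μ hμ e
    have := congrArg (fun y : Finset (Fin n) → PX D n => y T μ) h
    simp only [grobP_apply, grobF_apply, e, if_true] at this
    exact hμ this
  · intro h
    funext T
    ext μ
    rw [grobP_apply, grobF_apply]
    split_ifs with e
    · by_contra hc
      exact h T μ hc e
    · rfl

theorem grobF_eq_zero_iff (P : (Fin n →₀ ℕ) → Prop) (v : PX D n) :
    grobF D P v = 0 ↔ ∀ μ, v μ ≠ 0 → ¬ P μ := by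
  constructor
  · intro h μ hμ e
    have := congrArg (fun y : PX D n => y μ) h
    simp only [grobF_apply, e, if_true] at this
    exact hμ this
  · intro h
    ext μ
    rw [grobF_apply]
    split_ifs with e
    · by_contra hc
      exact h μ hc e
    · rfl

end grobaux

theorem lead_subset (w : (Fin n →₀ ℕ) →+ W) {A : Set (Fin n →₀ ℕ)}
    {V : ℤ → Submodule D (PX D n)} (hV : ∀ k, V k ≤ monF D A k) : lead w V ⊆ A := by
  rintro μ ⟨v, hv, h1, _⟩
  exact (grob_mem_monF.1 (hV _ hv) μ h1).1

theorem lead_add (w : (Fin n →₀ ℕ) →+ W) {S : Finset (Fin n)}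
    {V : ℤ → Submodule D (PX D n)} (hS : Stable (sh D n) S V) :
    ∀ μ ∈ lead w V, ∀ t ∈ S, μ + Finsupp.single t 1 ∈ lead w V := by
  rintro μ ⟨v, hv, h1, h2⟩ t ht
  refine ⟨sh D n t v, ?_, by rwa [grob_sh_apply], fun ν hν => ?_⟩
  · have := hS t ht _ v hv
    simpa [map_add] using this
  · obtain ⟨ν', rfl⟩ := grob_sh_ne t v ν hν
    rw [grob_sh_apply] at hν
    rw [map_add, map_add]
    exact add_le_add_left (h2 ν' hν) _

theorem finrank_lead (w : (Fin n →₀ ℕ) →+ W) (hw : Function.Injective w)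
    {V : ℤ → Submodule D (PX D n)} (hV : ∀ k, V k ≤ monF D Set.univ k) (k : ℤ) :
    Module.finrank D (monF D (lead w V) k) = Module.finrank D (V k) := by
  classical
  have : Module.Finite D (monF D (lead w V) k) := monF_fd _ k
  have : Module.Finite D (V k) := (monF_fd (D := D) Set.univ).mono hV k
  have hsep : ∀ v : PX D n, (∀ ω, grobF D (fun μ => w μ = ω) v = 0) → v = 0 := by
    intro v h
    ext μ
    by_contra hμ
    exact (grobF_eq_zero_iff _ _).1 (h (w μ)) μ hμ rfl
  have hs : ∀ v ∈ monF D Set.univ k, ∀ ω,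
      ω ∉ (Finsupp.finite_of_degree_eq (σ := Fin n) k.toNat).toFinset.image w →
      grobF D (fun μ => w μ = ω) v = 0 := by
    intro v hv ω hω
    rw [grobF_eq_zero_iff]
    intro μ hμ e
    apply hω
    have := (grob_mem_monF.1 hv μ hμ).2
    refine Finset.mem_image.2 ⟨μ, ?_, e⟩
    simp only [Set.Finite.mem_toFinset, Set.mem_ofPred_eq]
    omega
  apply le_antisymm
  · refine grob_filt (fun ω => grobF D (fun μ => w μ = ω)) hsep _ _ _
      (fun v hv => hs v (monF_mono (Set.subset_univ _) k hv)) ?_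
    intro ω x hx _
    by_cases h : ∃ μ, x μ ≠ 0 ∧ w μ = ω
    · obtain ⟨μ, hμ, rfl⟩ := h
      obtain ⟨⟨v, hv, h1, h2⟩, hd⟩ := grob_mem_monF.1 hx μ hμ
      rw [hd] at hv
      refine ⟨(x μ * (v μ)⁻¹) • v, Submodule.smul_mem _ _ hv, ?_, fun ω' hω' => ?_⟩
      · ext ν
        rw [grobF_apply, grobF_apply]
        split_ifs with e
        · rw [hw e]
          simp [h1]
        · rfl
      · rw [map_smul, (grobF_eq_zero_iff _ v).2, smul_zero]
        intro ν hν e
        exact absurd (h2 ν hν) (by rw [e]; exact not_le.2 hω')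
    · refine ⟨0, Submodule.zero_mem _, ?_, fun _ _ => map_zero _⟩
      rw [map_zero, (grobF_eq_zero_iff _ x).2]
      intro μ hμ e
      exact h ⟨μ, hμ, e⟩
  · refine grob_filt (fun ω => grobF D (fun μ => w μ = ω)) hsep _ _ _
      (fun v hv => hs v (hV k hv)) ?_
    intro ω v hv htop
    refine ⟨grobF D (fun μ => w μ = ω) v, ?_, ?_, fun ω' hω' => ?_⟩
    · rw [grob_mem_monF]
      intro μ hμ
      rw [grobF_apply] at hμ
      split_ifs at hμ with e
      · have hd := (grob_mem_monF.1 (hV k hv) μ hμ).2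
        refine ⟨⟨v, by rwa [hd], hμ, fun ν hν => ?_⟩, hd⟩
        by_contra hc
        exact (grobF_eq_zero_iff _ v).1 (htop (w ν) (by rw [← e]; exact not_le.1 hc)) ν hν rfl
      · exact absurd rfl hμ
    · ext ν
      simp only [grobF_apply]
      split_ifs <;> rfl
    · rw [grobF_eq_zero_iff]
      intro ν hν e
      rw [grobF_apply] at hν
      split_ifs at hν with e'
      · exact hω'.ne (e'.symm.trans e)
      · exact hν rfl

theorem grob_Zc (w : (Fin n →₀ ℕ) →+ W) {S : Finset (Fin n)}
    {A : Set (Fin n →₀ ℕ)} {V : ℤ → Submodule D (PX D n)} (hV : ∀ k, V k ≤ monF D A k)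
    (p : ℕ) (j : ℤ) :
    Module.finrank D (Zc (sh D n) S (monF D A) V p j) ≤
      Module.finrank D (Zc (sh D n) S (monF D A) (monF D (lead w V)) p j) := by
  classical
  have := Ch_finite (S := S) (monF_fd (D := D) A) p j
  have : Module.Finite D (Zc (sh D n) S (monF D A) V p j) :=
    Submodule.finiteDimensional_of_le (S₂ := Ch S (monF D A) p j) inf_le_left
  have : Module.Finite D (Zc (sh D n) S (monF D A) (monF D (lead w V)) p j) :=
    Submodule.finiteDimensional_of_le (S₂ := Ch S (monF D A) p j) inf_le_left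
  refine grob_filt (grobP D w) ?_
    ((Finsupp.finite_of_degree_eq (σ := Fin n) j.toNat).toFinset.image w) _ _ ?_ ?_
  · intro c h
    funext T
    ext μ
    by_contra hμ
    exact (grobP_eq_zero_iff _ _ _).1 (h _) T μ hμ rfl
  · rintro c ⟨hc, _⟩ ω hω
    rw [grobP_eq_zero_iff]
    intro T μ hμ e
    apply hω
    obtain ⟨h1, h2⟩ := mem_Ch.1 hc
    have hT : T ⊆ S ∧ T.card = p := by
      by_contra hT
      rw [h2 T hT] at hμ
      exact hμ rfl
    have := (grob_mem_monF.1 (h1 T hT.1 hT.2) μ hμ).2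
    refine Finset.mem_image.2 ⟨μ + grobE T, ?_, e⟩
    simp only [Set.Finite.mem_toFinset, Set.mem_ofPred_eq, map_add, grobE_degree, hT.2]
    omega
  · rintro ω c ⟨hc, hc'⟩ htop
    obtain ⟨h1, h2⟩ := mem_Ch.1 hc
    obtain ⟨h3, h4⟩ := mem_Ch.1 (Submodule.mem_comap.1 hc')
    refine ⟨grobP D w ω c, ⟨mem_Ch.2 ⟨fun T hT hT' => ?_, fun T hT => ?_⟩, ?_⟩, ?_,
      fun ω' hω' => ?_⟩
    · rw [grob_mem_monF]
      intro μ hμ
      rw [grobP_apply, grobF_apply] at hμ
      split_ifs at hμ with e
      · exact grob_mem_monF.1 (h1 T hT hT') μ hμ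
      · exact absurd rfl hμ
    · rw [grobP_apply, h2 T hT, map_zero]
    · refine Submodule.mem_comap.2 ?_
      rw [← grobP_kd]
      refine mem_Ch.2 ⟨fun U hU hU' => ?_, fun U hU => ?_⟩
      · rw [grob_mem_monF]
        intro μ hμ
        rw [grobP_apply, grobF_apply] at hμ
        split_ifs at hμ with e
        · have hv := h3 U hU hU'
          have hd := (grob_mem_monF.1 (hV _ hv) μ hμ).2
          refine ⟨⟨kd (sh D n) c U, by rwa [hd], hμ, fun ν hν => ?_⟩, hd⟩
          by_contra hlt
          have hlt' : ω < w (ν + grobE U) := by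
            rw [← e, map_add, map_add]
            exact add_lt_add_left (not_le.1 hlt) _
          have h0 : grobP D w (w (ν + grobE U)) (kd (sh D n) c) = 0 := by
            rw [grobP_kd, htop _ hlt', map_zero]
          exact (grobP_eq_zero_iff _ _ _).1 h0 U ν hν rfl
        · exact absurd rfl hμ
      · rw [grobP_apply, h4 U hU, map_zero]
    · funext T
      ext ν
      simp only [grobP_apply, grobF_apply]
      split_ifs <;> rfl
    · rw [grobP_eq_zero_iff]
      intro T ν hν e
      rw [grobP_apply, grobF_apply] at hν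
      split_ifs at hν with e'
      · exact hω'.ne (e'.symm.trans e)
      · exact hν rfl

theorem beta_le_lead (w : (Fin n →₀ ℕ) →+ W) (hw : Function.Injective w) {S : Finset (Fin n)}
    {A : Set (Fin n →₀ ℕ)} {V : ℤ → Submodule D (PX D n)} (hV : ∀ k, V k ≤ monF D A k)
    (p : ℕ) (j : ℤ) :
    beta (sh D n) S (monF D A) V p j ≤ beta (sh D n) S (monF D A) (monF D (lead w V)) p j := by
  have hfd : FD (monF D A) := monF_fd A
  have hL : ∀ k, monF D (lead w V) k ≤ monF D A k := fun k => monF_mono (lead_subset w hV) k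
  have hV' : ∀ k, V k ≤ monF D Set.univ k := fun k => (hV k).trans (monF_mono (Set.subset_univ _) k)
  rw [beta_formula hV hfd, beta_formula hL hfd, finrank_Ch (hfd.mono hV), finrank_Ch (hfd.mono hL),
    finrank_lead w hw hV']
  have h1 := grob_Zc (S := S) w hV p j
  have h2 := grob_Zc (S := S) w hV (p + 1) j
  omega

/-- reverse lexicographic weight: on monomials, larger = smaller exponent at the last variable where
they differ.  Take `W = Lex (Fin n → ℤ)`, `w μ = toLex fun i => -(μ (Fin.rev i) : ℤ)`. -/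
noncomputable def rlw (n : ℕ) : (Fin n →₀ ℕ) →+ Lex (Fin n → ℤ) where
  toFun μ := toLex fun i => -(μ (Fin.rev i) : ℤ)
  map_zero' := by
    change _ = toLex (0 : Fin n → ℤ)
    congr 1
  map_add' μ ν := by
    change _ = toLex ((fun i => -(μ (Fin.rev i) : ℤ)) + fun i => -(ν (Fin.rev i) : ℤ))
    congr 1; ext; simp [add_comm]

theorem rlw_injective : Function.Injective (rlw n) := by
  intro μ ν h
  ext i
  have := congrFun (toLex.injective h) (Fin.rev i)
  simpa using this

theorem rlw_lt_iff (μ ν : Fin n →₀ ℕ) :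
    rlw n ν < rlw n μ ↔ ∃ i, (∀ j, i < j → μ j = ν j) ∧ μ i < ν i := by
  change Pi.Lex (· < ·) (· < ·) (fun i => -(ν (Fin.rev i) : ℤ)) (fun i => -(μ (Fin.rev i) : ℤ)) ↔ _
  constructor
  · rintro ⟨i, h1, h2⟩
    refine ⟨Fin.rev i, fun j hj => ?_, by simpa using h2⟩
    have := h1 (Fin.rev j) (Fin.rev_lt_iff.2 hj)
    simpa [eq_comm] using this
  · rintro ⟨i, h1, h2⟩
    refine ⟨Fin.rev i, fun j hj => ?_, by simpa using h2⟩
    have := h1 (Fin.rev j) (Fin.lt_rev_iff.1 hj)
    simp [this]

example : IsOrderedCancelAddMonoid (Lex (Fin n → ℤ)) := inferInstance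

end Crest.Agent.R181
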