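import Crest.Agent.R181.KosLES
import Crest.Agent.R181.KosCO
import Crest.Agent.R181.KosGrob

/-! # Row 181, part C (sub-lead helper65): definitions and basic counting lemmas.
Induction over the finite set `S` of variables (`Finset.induction_on_max`): `z` is a new variable larger
than all of `S`, `AS S` are the monomials in the variables `S`. -/

set_option autoImplicit false

namespace Crest.Agent.R181

open Finsupp

variable {n : ℕ}

/-- monomials in the variables `S` -/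
def AS (S : Finset (Fin n)) : Set (Fin n →₀ ℕ) := {μ | ∀ t, t ∉ S → μ t = 0}

/-- monomials not divisible by any `x_i ^ a_i` -/
def Box (a : Fin n → ℕ) : Set (Fin n →₀ ℕ) := {μ | ∀ i, μ i < a i}

/-- a monomial ideal of `ℂ[x_t, t ∈ S]` containing the pure powers -/
structure Good (a : Fin n → ℕ) (S : Finset (Fin n)) (M : Set (Fin n →₀ ℕ)) : Prop where
  sub : M ⊆ AS S
  mul : ∀ μ ∈ M, ∀ t ∈ S, μ + single t 1 ∈ M
  pow : ∀ μ ∈ AS S, μ ∉ Box a → μ ∈ M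

/-- lex-plus-powers inside `AS S` -/
def IsLexS (a : Fin n → ℕ) (S : Finset (Fin n)) (L : Set (Fin n →₀ ℕ)) : Prop :=
  ∀ μ ∈ L, μ ∈ Box a → ∀ ν ∈ AS S, ν.degree = μ.degree → toLex μ ≤ toLex ν → ν ∈ L

/-- the component `M_k = {w ∈ ℂ[S] | w z^k ∈ M}` -/
def comp (S : Finset (Fin n)) (z : Fin n) (M : Set (Fin n →₀ ℕ)) (k : ℕ) : Set (Fin n →₀ ℕ) :=
  {w | w ∈ AS S ∧ w + single z k ∈ M}

/-- the colon ideal `M : z` -/
def colon (z : Fin n) (M : Set (Fin n →₀ ℕ)) : Set (Fin n →₀ ℕ) := {μ | μ + single z 1 ∈ M}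

/-- `x_t M_k ⊆ M_{k-1}` for `1 ≤ k < a z` -/
def ZStable (a : Fin n → ℕ) (S : Finset (Fin n)) (z : Fin n) (M : Set (Fin n →₀ ℕ)) : Prop :=
  ∀ ν : Fin n →₀ ℕ, ν + single z 1 ∈ M → ν z + 1 < a z → ∀ t ∈ S, ν + single t 1 ∈ M

/-- the components are lex-plus-powers -/
def ZComp (a : Fin n → ℕ) (S : Finset (Fin n)) (z : Fin n) (V : Set (Fin n →₀ ℕ)) : Prop :=
  ∀ μ ∈ V, μ ∈ Box a → ∀ ν ∈ AS (insert z S), ν.degree = μ.degree → ν z = μ z →
    toLex μ ≤ toLex ν → ν ∈ V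

/-- number of monomials of `M` of degree `k : ℤ` -/
noncomputable def fr (M : Set (Fin n →₀ ℕ)) (k : ℤ) : ℤ :=
  ({μ | μ ∈ M ∧ (μ.degree : ℤ) = k}.ncard : ℕ)

/-- Betti numbers of `ℂ[S] / M` -/
noncomputable def bq (S : Finset (Fin n)) (M : Set (Fin n →₀ ℕ)) (p : ℕ) (j : ℤ) : ℤ :=
  beta (sh ℂ n) S (monF ℂ (AS S)) (monF ℂ M) p j

/-- the statement proved by induction on `S` -/
def Claim (a : Fin n → ℕ) (S : Finset (Fin n)) : Prop :=
  ∀ M, Good a S M → ∃ L, Good a S L ∧ IsLexS a S L ∧ (∀ d, hf L d = hf M d) ∧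
    ∀ p j, bq S M p j ≤ bq S L p j

/-- `∏_{r<k} (z - c_r x_t)` as an operator -/
noncomputable def Gop (c : ℕ → ℂ) (z t : Fin n) : ℕ → Module.End ℂ (PX ℂ n)
  | 0 => 1
  | k + 1 => (sh ℂ n z - c k • sh ℂ n t) * Gop c z t k

/-- `w z^k ↦ w ∏_{r<k} (z - c_r x_t)` -/
noncomputable def Top (c : ℕ → ℂ) (z t : Fin n) : Module.End ℂ (PX ℂ n) :=
  Finsupp.linearCombination ℂ fun μ : Fin n →₀ ℕ => Gop c z t (μ z) (single (μ.erase z) 1)

/-- `w z^k ↦ c_k w z^k` -/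
noncomputable def Cop (c : ℕ → ℂ) (z : Fin n) : Module.End ℂ (PX ℂ n) :=
  Finsupp.linearCombination ℂ fun μ : Fin n →₀ ℕ => (single μ (c (μ z)) : PX ℂ n)

/-- the image of the monomial ideal `M` under `Top` -/
noncomputable def TF (c : ℕ → ℂ) (z t : Fin n) (M : Set (Fin n →₀ ℕ)) (k : ℤ) :
    Submodule ℂ (PX ℂ n) := (monF ℂ M k).map (Top c z t)

/-! ## basic lemmas -/

theorem AS_add {S : Finset (Fin n)} {μ ν : Fin n →₀ ℕ} : μ + ν ∈ AS S ↔ μ ∈ AS S ∧ ν ∈ AS S := by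
  simp only [AS, Set.mem_ofPred_eq, Finsupp.add_apply, Nat.add_eq_zero_iff]
  exact ⟨fun h => ⟨fun t ht => (h t ht).1, fun t ht => (h t ht).2⟩,
    fun h t ht => ⟨h.1 t ht, h.2 t ht⟩⟩

theorem single_mem_AS {S : Finset (Fin n)} {t : Fin n} (ht : t ∈ S) (k : ℕ) :
    single t k ∈ AS S := by
  intro s hs
  have : t ≠ s := fun h => hs (h ▸ ht)
  simp [this]

theorem AS_mono {S S' : Finset (Fin n)} (h : S ⊆ S') : AS S ⊆ AS S' :=
  fun _ hμ t ht => hμ t fun h' => ht (h h')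

theorem AS_univ : AS (Finset.univ : Finset (Fin n)) = Set.univ := by
  ext μ; simp [AS]

theorem mem_AS_iff {S : Finset (Fin n)} {z : Fin n} (hz : z ∉ S) {μ : Fin n →₀ ℕ} :
    μ ∈ AS S ↔ μ ∈ AS (insert z S) ∧ μ z = 0 := by
  refine ⟨fun h => ⟨AS_mono (Finset.subset_insert _ _) h, h z hz⟩, fun h t ht => ?_⟩
  by_cases htz : t = z
  · exact htz ▸ h.2
  · exact h.1 t (by simp [htz, ht])

theorem erase_mem_AS {S : Finset (Fin n)} {z : Fin n} {μ : Fin n →₀ ℕ}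
    (h : μ ∈ AS (insert z S)) : μ.erase z ∈ AS S := by
  intro t ht
  by_cases htz : t = z
  · simp [htz]
  · rw [erase_ne htz]; exact h t (by simp [htz, ht])

theorem AS_mul {S : Finset (Fin n)} : ∀ μ ∈ AS S, ∀ t ∈ S, μ + single t 1 ∈ AS S :=
  fun _ hμ _ ht => AS_add.2 ⟨hμ, single_mem_AS ht 1⟩

theorem not_mem_Box_add {a : Fin n → ℕ} {μ : Fin n →₀ ℕ} (h : μ ∉ Box a) (ν : Fin n →₀ ℕ) :
    μ + ν ∉ Box a :=
  fun h' => h fun i => lt_of_le_of_lt (by simp) (h' i)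

theorem good_AS (a : Fin n → ℕ) (S : Finset (Fin n)) : Good a S (AS S) :=
  ⟨le_rfl, AS_mul, fun _ h _ => h⟩

theorem exists_eq_add_single {ν : Fin n →₀ ℕ} {t : Fin n} (h : 1 ≤ ν t) :
    ∃ ν' : Fin n →₀ ℕ, ν = ν' + single t 1 :=
  ⟨ν - single t 1, (tsub_add_cancel_of_le (by simpa [single_le_iff] using h)).symm⟩

theorem degree_add_single (μ : Fin n →₀ ℕ) (t : Fin n) (k : ℕ) :
    (μ + single t k).degree = μ.degree + k := by
  rw [map_add, degree_single]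

/-- closure under multiplication by any monomial in the variables `S` -/
theorem add_mem_of_mul {S : Finset (Fin n)} {M : Set (Fin n →₀ ℕ)}
    (hM : ∀ μ ∈ M, ∀ t ∈ S, μ + single t 1 ∈ M) {μ : Fin n →₀ ℕ} (hμ : μ ∈ M) :
    ∀ ν ∈ AS S, μ + ν ∈ M := by
  intro ν
  induction hd : ν.degree generalizing ν with
  | zero => intro _; rw [(degree_eq_zero_iff ν).1 hd]; simpa using hμ
  | succ d ih =>
    intro h
    have hne : ν ≠ 0 := by rintro rfl; simp at hd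
    obtain ⟨t, ht⟩ : ∃ t, ν t ≠ 0 := by
      by_contra hc; push Not at hc; exact hne (Finsupp.ext hc)
    obtain ⟨ν', rfl⟩ := exists_eq_add_single (Nat.one_le_iff_ne_zero.2 ht)
    rw [← add_assoc]
    refine hM _ (ih ν' ?_ (AS_add.1 h).1) t (by by_contra hc; exact ht (h t hc))
    rw [degree_add_single] at hd; omega

theorem Good.add_mem {a : Fin n → ℕ} {S : Finset (Fin n)} {M : Set (Fin n →₀ ℕ)} (hM : Good a S M)
    {μ ν : Fin n →₀ ℕ} (hμ : μ ∈ M) (hν : ν ∈ AS S) : μ + ν ∈ M :=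
  add_mem_of_mul hM.mul hμ ν hν

/-- it suffices that the pure powers lie in `M` -/
theorem good_of_pow {a : Fin n → ℕ} (ha : ∀ i, 0 < a i) {S : Finset (Fin n)}
    {M : Set (Fin n →₀ ℕ)} (hsub : M ⊆ AS S) (hmul : ∀ μ ∈ M, ∀ t ∈ S, μ + single t 1 ∈ M)
    (hP : ∀ t ∈ S, single t (a t) ∈ M) : Good a S M := by
  refine ⟨hsub, hmul, fun μ hμ hb => ?_⟩
  obtain ⟨i, hi⟩ : ∃ i, a i ≤ μ i := by
    by_contra hc; push Not at hc; exact hb hc
  have hiS : i ∈ S := by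
    by_contra hc; have := hμ i hc; have := ha i; omega
  have he : μ = single i (a i) + (μ - single i (a i)) :=
    (add_tsub_cancel_of_le (by simpa [single_le_iff] using hi)).symm
  rw [he]
  exact add_mem_of_mul hmul (hP i hiS) _ (AS_add.1 (he ▸ hμ)).2

theorem Good.single_mem {a : Fin n → ℕ} {S : Finset (Fin n)} {M : Set (Fin n →₀ ℕ)}
    (hM : Good a S M) {t : Fin n} (ht : t ∈ S) : single t (a t) ∈ M :=
  hM.pow _ (single_mem_AS ht _) fun h => by simpa using h t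

theorem Good.comp {a : Fin n → ℕ} {S : Finset (Fin n)} {z : Fin n} {M : Set (Fin n →₀ ℕ)}
    (hM : Good a (insert z S) M) (k : ℕ) : Good a S (comp S z M k) := by
  refine ⟨fun _ h => h.1, fun μ hμ t ht => ⟨AS_mul μ hμ.1 t ht, ?_⟩, fun μ hμ hb => ⟨hμ, ?_⟩⟩
  · rw [add_right_comm]; exact hM.mul _ hμ.2 t (Finset.mem_insert_of_mem ht)
  · exact hM.pow _ (AS_add.2 ⟨AS_mono (Finset.subset_insert _ _) hμ,
      single_mem_AS (Finset.mem_insert_self _ _) _⟩) (not_mem_Box_add hb _)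

theorem finite_degree_eq (M : Set (Fin n →₀ ℕ)) (d : ℕ) : {μ | μ ∈ M ∧ μ.degree = d}.Finite :=
  (Finsupp.finite_of_degree_le d).subset fun _ h => h.2.le

theorem finite_degree_eq' (M : Set (Fin n →₀ ℕ)) (k : ℤ) :
    {μ | μ ∈ M ∧ (μ.degree : ℤ) = k}.Finite :=
  (Finsupp.finite_of_degree_le k.toNat).subset fun μ h => by
    have := h.2; change μ.degree ≤ _; omega

theorem fr_nat (M : Set (Fin n →₀ ℕ)) (d : ℕ) : fr M d = hf M d := by
  simp [fr, hf]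

theorem fr_neg (M : Set (Fin n →₀ ℕ)) {k : ℤ} (hk : k < 0) : fr M k = 0 := by
  have : {μ | μ ∈ M ∧ (μ.degree : ℤ) = k} = ∅ := by
    ext μ; simp only [Set.mem_empty_iff_false, iff_false]; intro h; have := h.2; omega
  simp [fr, this]

theorem finrank_monF_eq_fr (M : Set (Fin n →₀ ℕ)) (k : ℤ) :
    (Module.finrank ℂ (monF ℂ M k) : ℤ) = fr M k := by
  rcases lt_or_ge k 0 with h | h
  · rw [monF_neg M h, fr_neg M h]; simp
  · obtain ⟨d, rfl⟩ := Int.eq_ofNat_of_zero_le h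
    rw [finrank_monF, fr_nat]

theorem fr_congr {M N : Set (Fin n →₀ ℕ)} (h : ∀ d, hf M d = hf N d) (k : ℤ) : fr M k = fr N k := by
  rcases lt_or_ge k 0 with hk | hk
  · rw [fr_neg M hk, fr_neg N hk]
  · obtain ⟨d, rfl⟩ := Int.eq_ofNat_of_zero_le hk
    rw [fr_nat, fr_nat, h]

theorem fr_split (M P : Set (Fin n →₀ ℕ)) (k : ℤ) : fr M k = fr (M ∩ P) k + fr (M \ P) k := by
  unfold fr
  rw [← Nat.cast_add, ← Set.ncard_union_eq ?_ (finite_degree_eq' _ _) (finite_degree_eq' _ _)]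
  · congr 2; ext μ; simp only [Set.mem_ofPred_eq, Set.mem_union, Set.mem_inter_iff, Set.mem_sdiff]; tauto
  · rw [Set.disjoint_left]; intro μ h h'; exact h'.1.2 h.1.2

theorem hf_split (M P : Set (Fin n →₀ ℕ)) (d : ℕ) : hf M d = hf (M ∩ P) d + hf (M \ P) d := by
  have := fr_split M P d
  rw [fr_nat, fr_nat, fr_nat] at this
  exact_mod_cast this

/-- shifting by a monomial: `N = ν · M` -/
theorem fr_shift {M N : Set (Fin n →₀ ℕ)} (ν : Fin n →₀ ℕ) (h1 : ∀ μ, μ ∈ M ↔ μ + ν ∈ N)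
    (h2 : ∀ μ ∈ N, ν ≤ μ) (k : ℤ) : fr N k = fr M (k - ν.degree) := by
  unfold fr
  rw [← Set.ncard_image_of_injective {μ | μ ∈ M ∧ (μ.degree : ℤ) = k - ν.degree}
    (add_left_injective ν)]
  congr 2
  ext μ
  simp only [Set.mem_ofPred_eq, Set.mem_image]
  constructor
  · rintro ⟨hμ, hd⟩
    obtain ⟨w, rfl⟩ : ∃ w, μ = w + ν := ⟨μ - ν, (tsub_add_cancel_of_le (h2 μ hμ)).symm⟩
    refine ⟨w, ⟨(h1 w).2 hμ, ?_⟩, rfl⟩
    rw [map_add] at hd; push_cast at hd; omega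
  · rintro ⟨w, ⟨hw, hd⟩, rfl⟩
    refine ⟨(h1 w).1 hw, ?_⟩
    rw [map_add]; push_cast; omega

theorem hf_mono {M N : Set (Fin n →₀ ℕ)} {d : ℕ} (h : ∀ μ ∈ M, μ.degree = d → μ ∈ N) :
    hf M d ≤ hf N d :=
  Set.ncard_le_ncard (fun μ hμ => ⟨h μ hμ.1 hμ.2, hμ.2⟩) (finite_degree_eq _ _)

theorem hf_lt {M N : Set (Fin n →₀ ℕ)} {d : ℕ} (h : ∀ μ ∈ M, μ.degree = d → μ ∈ N)
    {ν : Fin n →₀ ℕ} (hν : ν ∈ N) (hν' : ν ∉ M) (hd : ν.degree = d) : hf M d < hf N d :=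
  Set.ncard_lt_ncard ⟨fun μ hμ => ⟨h μ hμ.1 hμ.2, hμ.2⟩, fun hc => hν' (hc ⟨hν, hd⟩).1⟩
    (finite_degree_eq _ _)

/-- lex-plus-powers sets are nested by size, degree by degree (no closure needed) -/
theorem lex_nested' {a : Fin n → ℕ} {S : Finset (Fin n)} {L L' : Set (Fin n →₀ ℕ)}
    (hL : L ⊆ AS S) (hLp : ∀ μ ∈ AS S, μ ∉ Box a → μ ∈ L) (hl : IsLexS a S L)
    (hL' : L' ⊆ AS S) (hLp' : ∀ μ ∈ AS S, μ ∉ Box a → μ ∈ L') (hl' : IsLexS a S L') {d : ℕ}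
    (h : hf L d ≤ hf L' d) : ∀ μ ∈ L, μ.degree = d → μ ∈ L' := by
  intro μ hμ hd
  by_contra hc
  have hb : μ ∈ Box a := by by_contra hb; exact hc (hLp' μ (hL hμ) hb)
  refine absurd h (not_le.2 (hf_lt (fun ν hν hνd => ?_) hμ hc hd))
  by_cases hνb : ν ∈ Box a
  · rcases le_total (toLex μ) (toLex ν) with hle | hle
    · exact hl μ hμ hb ν (hL' hν) (by rw [hνd, hd]) hle
    · exact absurd (hl' ν hν hνb μ (hL hμ) (by rw [hνd, hd]) hle) hc
  · exact hLp ν (hL' hν) hνb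

theorem lex_nested {a : Fin n → ℕ} {S : Finset (Fin n)} {L L' : Set (Fin n →₀ ℕ)}
    (hL : Good a S L) (hl : IsLexS a S L) (hL' : Good a S L') (hl' : IsLexS a S L') {d : ℕ}
    (h : hf L d ≤ hf L' d) : ∀ μ ∈ L, μ.degree = d → μ ∈ L' :=
  lex_nested' hL.sub hL.pow hl hL'.sub hL'.pow hl' h

/-- the layer of `z`-exponent `k` is counted by the component -/
theorem fr_layer {S : Finset (Fin n)} {z : Fin n} (hz : z ∉ S) {M : Set (Fin n →₀ ℕ)}
    (hM : M ⊆ AS (insert z S)) (k : ℕ) (e : ℤ) :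
    fr (M ∩ {μ | μ z = k}) e = fr (comp S z M k) (e - k) := by
  have := fr_shift (M := comp S z M k) (N := M ∩ {μ | μ z = k}) (single z k) (fun μ => ?_)
    (fun μ hμ => by simpa [single_le_iff] using hμ.2.ge) e
  · rwa [degree_single] at this
  · constructor
    · rintro ⟨h1, h2⟩
      exact ⟨h2, by simp [h1 z hz]⟩
    · rintro ⟨h1, h2⟩
      exact ⟨(mem_AS_iff hz).2 ⟨(AS_add.1 (hM h1)).1, by simpa using h2⟩, h1⟩

/-- `M_k = (M_0)_k ⊕ z (M : z)_{k-1}` -/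
theorem fr_colon {S : Finset (Fin n)} {z : Fin n} (hz : z ∉ S) {M : Set (Fin n →₀ ℕ)}
    (hM : M ⊆ AS (insert z S)) (k : ℤ) :
    fr M k = fr (comp S z M 0) k + fr (colon z M) (k - 1) := by
  rw [fr_split M {μ | μ z = 0}, fr_layer hz hM 0 k]
  have := fr_shift (M := colon z M) (N := M \ {μ | μ z = 0}) (single z 1) (fun μ => ?_)
    (fun μ hμ => by simpa [single_le_iff] using Nat.one_le_iff_ne_zero.2 hμ.2) k
  · rw [this, degree_single]; simp
  · simp [colon]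

theorem comp_AS {S : Finset (Fin n)} (z : Fin n) (k : ℕ) : comp S z (AS (insert z S)) k = AS S := by
  ext μ
  exact ⟨fun h => h.1, fun h => ⟨h, AS_add.2 ⟨AS_mono (Finset.subset_insert _ _) h,
    single_mem_AS (Finset.mem_insert_self _ _) _⟩⟩⟩

theorem colon_AS {S : Finset (Fin n)} {z : Fin n} (hz : z ∈ S) : colon z (AS S) = AS S := by
  ext μ
  exact ⟨fun h => (AS_add.1 h).1, fun h => AS_add.2 ⟨h, single_mem_AS hz _⟩⟩

end Crest.Agent.R181
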