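import Crest.Agent.R181.CDefs

/-! # Row 181, part C: lex combinatorics, I.
`toLex μ < toLex ν ↔ ∃ i, (∀ j < i, μ j = ν j) ∧ μ i < ν i` (`Finsupp.Lex.lt_iff`); degrees as
`∑ i, μ i` (`Finsupp.degree_eq_sum`).
* `lex_step`: write `v = v' + single z 1`; `v ≠ u`; let `s` be the first index with `v s ≠ u s` (`v s < u s`, so
  `s ≠ z`, `s ∈ S`).  If some `t ∈ S`, `s < t`, has `v t + 1 < a t` take it.  Otherwise `t = s`: if
  `v s + 1 < u s` still `<`; if `v s + 1 = u s` then `u ≤ v' + single s 1` coordinatewise with equal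
  degrees, so equality.
* `lex_last`: if `ν < u` with first difference `r` (`ν r < u r`): `s ≤ r` contradicts the degrees
  (`ν` vanishes after `s`, so `ν ≤ u` coordinatewise with strict inequality at `r`); `r < s` gives
  `ν + single s 1 < u + single t 1` (cases `t < r`, `r ≤ t`).
* `zcomp_mem`: induction on `v z - u z` with `lex_step`, `ZStable`, `ZComp`.
* `exists_lex`: per degree `d`, the finite set `B = AS S ∩ Box a ∩ {degree = d}` in the linear order `toLex` has an
  upper subset of every size `≤ |B|` (induction on the size: add the maximum of the complement);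
  `E = {μ ∈ AS S | μ ∉ Box a ∨ μ ∈ L (degree μ)}`; `hf_split` with `P = Box a`. -/

set_option autoImplicit false

namespace Crest.Agent.R181

open Finsupp

variable {n : ℕ} {a : Fin n → ℕ} {S : Finset (Fin n)} {z : Fin n}

theorem cl1_lex_lt_iff {μ ν : Fin n →₀ ℕ} :
    toLex μ < toLex ν ↔ ∃ i, (∀ j < i, μ j = ν j) ∧ μ i < ν i := Finsupp.Lex.lt_iff

theorem cl1_eq_of_le_of_degree {μ ν : Fin n →₀ ℕ} (h : ∀ i, μ i ≤ ν i) (hd : μ.degree = ν.degree) :
    μ = ν := by
  have hle : μ ≤ ν := fun i => h i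
  have he : ν = μ + (ν - μ) := (add_tsub_cancel_of_le hle).symm
  have h0 : (ν - μ).degree = 0 := by
    have := congrArg Finsupp.degree he
    rw [map_add] at this; omega
  rw [he, (degree_eq_zero_iff _).1 h0, add_zero]

/-- a finite set has an upper subset of every size -/
theorem cl1_exists_upper_subset {α β : Type*} [LinearOrder β] (f : α → β) (hf : Function.Injective f)
    {B : Set α} (hB : B.Finite) : ∀ k, k ≤ B.ncard →
      ∃ L : Set α, L ⊆ B ∧ L.ncard = k ∧ ∀ x ∈ L, ∀ y ∈ B, f x ≤ f y → y ∈ L := by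
  intro k
  induction k with
  | zero => exact fun _ => ⟨∅, Set.empty_subset _, by simp, by simp⟩
  | succ k ih =>
    intro hk
    obtain ⟨L, hLB, hLk, hL⟩ := ih (by omega)
    have hne : (B \ L).Nonempty := by
      by_contra hc
      have hBL : B ⊆ L := by
        intro x hx; by_contra hx'; exact hc ⟨x, hx, hx'⟩
      have := Set.ncard_le_ncard hBL (hB.subset hLB)
      omega
    obtain ⟨m, hm, hmax⟩ := Set.exists_max_image (B \ L) f (hB.subset Set.sdiff_subset) hne
    refine ⟨insert m L, Set.insert_subset hm.1 hLB, ?_, ?_⟩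
    · rw [Set.ncard_insert_of_notMem hm.2 (hB.subset hLB), hLk]
    · intro x hx y hy hxy
      rcases hx with rfl | hx
      · by_cases hyL : y ∈ L
        · exact Or.inr hyL
        · exact Or.inl (hf (le_antisymm (hmax y ⟨hy, hyL⟩) hxy))
      · exact Or.inr (hL x hx y hy hxy)

theorem lex_step (hz : ∀ t ∈ S, t < z) {u v : Fin n →₀ ℕ} (hu : u ∈ AS (insert z S))
    (hv : v ∈ AS (insert z S)) (hub : u ∈ Box a) (hvb : v ∈ Box a) (hd : u.degree = v.degree)
    (hlt : u z < v z) (hle : toLex v ≤ toLex u) :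
    ∃ t ∈ S, ∃ v' : Fin n →₀ ℕ, v = v' + single z 1 ∧ v' + single t 1 ∈ Box a ∧
      toLex (v' + single t 1) ≤ toLex u := by
  obtain ⟨v', rfl⟩ := exists_eq_add_single (ν := v) (t := z) (by omega)
  have hne : toLex (v' + single z 1) ≠ toLex u := by
    intro h
    have h' : v' + single z 1 = u := toLex.injective h
    rw [h'] at hlt; exact lt_irrefl _ hlt
  obtain ⟨s, hs1, hs2⟩ := cl1_lex_lt_iff.1 (lt_of_le_of_ne hle hne)
  have hsz : s ≠ z := by rintro rfl; omega
  have hsS : s ∈ S := by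
    by_contra hc
    have := hu s (by simp [hsz, hc]); omega
  have hsz' : s < z := hz s hsS
  have hv' : ∀ j, j ≠ z → (v' + single z 1 : Fin n →₀ ℕ) j = v' j := by
    intro j hj; simp [hj]
  have hvz : (v' + single z 1 : Fin n →₀ ℕ) z = v' z + 1 := by simp
  have hle' : ∀ j, v' j ≤ (v' + single z 1 : Fin n →₀ ℕ) j := by intro j; simp
  have hbox : ∀ t, v' t + 1 < a t → v' + single t 1 ∈ Box a := by
    intro t ht i
    by_cases hi : i = t
    · subst hi; simpa using ht
    · have := hvb i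
      have := hle' i
      have : (v' + single t 1 : Fin n →₀ ℕ) i = v' i := by simp [hi]
      omega
  rw [hv' s hsz] at hs2
  have hs1' : ∀ j < s, v' j = u j := fun j hj => by
    rw [← hs1 j hj, hv' j (ne_of_lt (hj.trans hsz'))]
  by_cases hA : ∃ t ∈ S, s < t ∧ v' t + 1 < a t
  · obtain ⟨t, htS, hst, ht⟩ := hA
    refine ⟨t, htS, v', rfl, hbox t ht, le_of_lt (cl1_lex_lt_iff.2 ⟨s, fun j hj => ?_, ?_⟩)⟩
    · have : j ≠ t := ne_of_lt (hj.trans hst)
      simp [this, hs1' j hj]
    · have : s ≠ t := ne_of_lt hst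
      simpa [this] using hs2
  · push Not at hA
    have hus := hub s
    refine ⟨s, hsS, v', rfl, hbox s (by omega), ?_⟩
    rcases lt_or_ge (v' s + 1) (u s) with h | h
    · refine le_of_lt (cl1_lex_lt_iff.2 ⟨s, fun j hj => ?_, by simpa using h⟩)
      have : j ≠ s := ne_of_lt hj
      simp [this, hs1' j hj]
    · have : u = v' + single s 1 := by
        refine cl1_eq_of_le_of_degree (fun j => ?_) ?_
        · rcases lt_trichotomy j s with hj | rfl | hj
          · have : j ≠ s := ne_of_lt hj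
            simp [this, hs1' j hj]
          · simpa using h
          · have hjs : j ≠ s := ne_of_gt hj
            have e : (v' + single s 1 : Fin n →₀ ℕ) j = v' j := by simp [hjs]
            rw [e]
            by_cases hjS : j ∈ S
            · have := hA j hjS hj
              have := hub j
              omega
            · by_cases hjz : j = z
              · subst hjz; omega
              · have := hu j (by simp [hjz, hjS]); omega
        · rw [hd, degree_add_single, degree_add_single]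
      rw [this]

theorem lex_last {u ν : Fin n →₀ ℕ} {s t : Fin n} (hd : ν.degree = u.degree)
    (hs : ∀ r, s < r → ν r = 0) (hle : toLex (u + single t 1) ≤ toLex (ν + single s 1)) :
    toLex u ≤ toLex ν := by
  by_contra hc
  obtain ⟨r, hr1, hr2⟩ := cl1_lex_lt_iff.1 (not_le.1 hc)
  rcases le_or_gt s r with hsr | hrs
  · have : ν = u := by
      refine cl1_eq_of_le_of_degree (fun j => ?_) hd
      rcases lt_trichotomy j r with hj | rfl | hj
      · exact (hr1 j hj).le
      · exact hr2.le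
      · rw [hs j (lt_of_le_of_lt hsr hj)]; exact Nat.zero_le _
    rw [this] at hr2; exact lt_irrefl _ hr2
  · refine absurd hle (not_le.2 (cl1_lex_lt_iff.2 ?_))
    rcases lt_or_ge t r with htr | hrt
    · refine ⟨t, fun j hj => ?_, ?_⟩
      · have h1 : j ≠ t := ne_of_lt hj
        have h2 : j ≠ s := ne_of_lt (hj.trans (htr.trans hrs))
        simp [h1, h2, hr1 j (hj.trans htr)]
      · have h2 : t ≠ s := ne_of_lt (htr.trans hrs)
        simp [h2, hr1 t htr]
    · refine ⟨r, fun j hj => ?_, ?_⟩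
      · have h1 : j ≠ t := ne_of_lt (lt_of_lt_of_le hj hrt)
        have h2 : j ≠ s := ne_of_lt (hj.trans hrs)
        simp [h1, h2, hr1 j hj]
      · have h2 : r ≠ s := ne_of_lt hrs
        have e : (ν + single s 1 : Fin n →₀ ℕ) r = ν r := by simp [h2]
        have e' : u r ≤ (u + single t 1 : Fin n →₀ ℕ) r := by simp
        omega

theorem zcomp_mem (hz : ∀ t ∈ S, t < z) {V : Set (Fin n →₀ ℕ)} (hV : V ⊆ AS (insert z S))
    (hs : ZStable a S z V) (hc : ZComp a S z V) {u v : Fin n →₀ ℕ} (hv : v ∈ V) (hvb : v ∈ Box a)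
    (hu : u ∈ AS (insert z S)) (hub : u ∈ Box a) (hd : u.degree = v.degree) (hle : u z ≤ v z)
    (hlex : toLex v ≤ toLex u) : u ∈ V := by
  induction hm : v z - u z generalizing v with
  | zero => exact hc v hv hvb u hu hd (by omega) hlex
  | succ m ih =>
    obtain ⟨t, htS, v', rfl, hb, hl⟩ := lex_step hz hu (hV hv) hub hvb hd (by omega) hlex
    have htz : z ≠ t := ne_of_gt (hz t htS)
    have hvz : (v' + single z 1 : Fin n →₀ ℕ) z = v' z + 1 := by simp
    have hvz' : (v' + single t 1 : Fin n →₀ ℕ) z = v' z := by simp [htz]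
    have hbz := hvb z
    refine ih (hs v' hv (by omega) t htS) hb ?_ (by omega) hl (by omega)
    rw [hd, degree_add_single, degree_add_single]

theorem exists_lex {V : Set (Fin n →₀ ℕ)} (hV : Good a S V) :
    ∃ E : Set (Fin n →₀ ℕ), E ⊆ AS S ∧ (∀ μ ∈ AS S, μ ∉ Box a → μ ∈ E) ∧ IsLexS a S E ∧
      ∀ d, hf E d = hf V d := by
  have key : ∀ d : ℕ, ∃ L : Set (Fin n →₀ ℕ), L ⊆ {μ | μ ∈ AS S ∩ Box a ∧ μ.degree = d} ∧
      L.ncard = hf (V ∩ Box a) d ∧ ∀ x ∈ L, ∀ y ∈ {μ | μ ∈ AS S ∩ Box a ∧ μ.degree = d},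
        toLex x ≤ toLex y → y ∈ L := fun d =>
    cl1_exists_upper_subset (fun μ : Fin n →₀ ℕ => toLex μ) toLex.injective (finite_degree_eq _ d) _
      (hf_mono (M := V ∩ Box a) (N := AS S ∩ Box a) fun μ hμ _ => ⟨hV.sub hμ.1, hμ.2⟩)
  choose L hL1 hL2 hL3 using key
  refine ⟨{μ | μ ∈ AS S ∧ (μ ∉ Box a ∨ μ ∈ L μ.degree)}, fun μ h => h.1,
    fun μ h h' => ⟨h, Or.inl h'⟩, ?_, fun d => ?_⟩
  · intro μ hμ hb ν hν hd hle
    refine ⟨hν, ?_⟩
    by_cases hνb : ν ∈ Box a
    · right
      rw [hd]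
      exact hL3 _ μ (hμ.2.resolve_left (not_not.2 hb)) ν ⟨⟨hν, hνb⟩, hd⟩ hle
    · exact Or.inl hνb
  · rw [hf_split _ (Box a), hf_split V (Box a), ← hL2 d]
    congr 1
    · unfold hf
      congr 1
      ext μ
      simp only [Set.mem_ofPred_eq, Set.mem_inter_iff]
      constructor
      · rintro ⟨⟨⟨_, h⟩, hb⟩, rfl⟩
        exact h.resolve_left (not_not.2 hb)
      · intro h
        obtain ⟨⟨h1, h2⟩, rfl⟩ := hL1 d h
        exact ⟨⟨⟨h1, Or.inr h⟩, h2⟩, rfl⟩
    · congr 1
      ext μ
      simp only [Set.mem_ofPred_eq, Set.mem_sdiff]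
      exact ⟨fun h => ⟨hV.pow μ h.1.1 h.2, h.2⟩, fun h => ⟨⟨hV.sub h.1, Or.inl h.2⟩, h.2⟩⟩

/-- `ν + z ∈ E`: if it is outside the box then so is `ν + t` (as `ν z + 1 < a z`); otherwise
`ν + z < ν + t` in lex. -/
theorem IsLexS.zstable (hz : ∀ t ∈ S, t < z) {E : Set (Fin n →₀ ℕ)} (hE : E ⊆ AS (insert z S))
    (hp : ∀ μ ∈ AS (insert z S), μ ∉ Box a → μ ∈ E) (hl : IsLexS a (insert z S) E) :
    ZStable a S z E := by
  intro ν hν hνz t ht
  have htz : t < z := hz t ht
  have hA : ν + single t 1 ∈ AS (insert z S) :=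
    AS_mul ν (AS_add.1 (hE hν)).1 t (Finset.mem_insert_of_mem ht)
  by_cases hb : ν + single z 1 ∈ Box a
  · refine hl _ hν hb _ hA (by rw [degree_add_single, degree_add_single])
      (le_of_lt (cl1_lex_lt_iff.2 ⟨t, fun j hj => ?_, ?_⟩))
    · have h1 : j ≠ t := ne_of_lt hj
      have h2 : j ≠ z := ne_of_lt (hj.trans htz)
      simp [h1, h2]
    · have h2 : t ≠ z := ne_of_lt htz
      simp [h2]
  · refine hp _ hA fun hc => hb fun i => ?_
    by_cases hi : i = z
    · subst hi; simpa using hνz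
    · have e : (ν + single z 1 : Fin n →₀ ℕ) i = ν i := by simp [hi]
      have e' : ν i ≤ (ν + single t 1 : Fin n →₀ ℕ) i := by simp
      have := hc i
      omega

theorem IsLexS.zcomp {E : Set (Fin n →₀ ℕ)} (hl : IsLexS a (insert z S) E) : ZComp a S z E :=
  fun μ hμ hb ν hν hd _ hle => hl μ hμ hb ν hν hd hle

/-- `toLex` is translation invariant (`Finsupp.Lex` is an ordered cancel monoid: `add_le_add_left`) -/
theorem ZComp.isLexS_comp (hz : z ∉ S) {V : Set (Fin n →₀ ℕ)} (hc : ZComp a S z V) {k : ℕ}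
    (hk : k < a z) : IsLexS a S (comp S z V k) := by
  intro μ hμ hb ν hν hd hle
  refine ⟨hν, hc _ hμ.2 (fun i => ?_) _ (AS_add.2 ⟨AS_mono (Finset.subset_insert _ _) hν,
    single_mem_AS (Finset.mem_insert_self _ _) _⟩) ?_ ?_ ?_⟩
  · by_cases hi : i = z
    · subst hi; simpa [hμ.1 i hz] using hk
    · simpa [hi] using hb i
  · rw [degree_add_single, degree_add_single, hd]
  · simp [hμ.1 z hz, hν z hz]
  · rw [toLex_add, toLex_add]; gcongr

end Crest.Agent.R181
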