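import Crest.Agent.R181.CLex1

/-! # Row 181, part C: lex combinatorics, II (Clements–Lindström step).
* `lemmaG`: either every `u ∈ E` of degree `d` with `u z ≤ i` is in `V` (`hf_mono`), or some such `u ∉ V`; it is in
  the box, and every `v ∈ V` of degree `d` with `i < v z` is in `E` (outside the box: `hp`; inside: `v ≤ u` in lex is
  impossible by `zcomp_mem`, so `hl` applies).  Then `hf_split` with `P = {μ | μ z ≤ i}`.
* `lexify`: `E` from `exists_lex`.  `comp E 0 ⊆ comp V 0`: `lemmaG` with `i = 0`, `fr_layer`, `fr_nat`,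
  `lex_nested'` with `ZComp.isLexS_comp`.  `comp V (a-1) ⊆ comp E (a-1)`: `lemmaG` with `i = a - 2`; both sets contain all of
  `AS` with `a ≤ μ z`, so the layer `a - 1` of `E` is at least as big.
  Closure: `u ∈ E` of degree `d`, `ν = u + single t 1` in the box (so `u` too).
  `F = {ν' ∈ AS (insert z S) | ν' ∉ Box a ∨ toLex ν ≤ toLex ν'}` is lex; show `hf F (d+1) ≤ hf V (d+1)`, then
  `lex_nested'` gives `ν ∈ E`.  By `fr_colon` it suffices: (i) `comp F 0 ⊆ comp V 0` in degree `d+1`: for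
  `ν'` in the box remove its last variable `s` (`lex_last` gives `ν' - s ∈ E`, so `∈ comp V 0`, multiply back);
  (ii) `hf (colon z F) d ≤ hf (colon z V) d`: split by `P = {μ | μ z ≤ a z - 2}`; off `P` everything is in `colon z V`;
  `colon z F ∩ P ⊆ E ∩ P` in degree `d` (`lex_last` with `s = z`), `lemmaG`, `V ⊆ colon z V`. -/

set_option autoImplicit false

namespace Crest.Agent.R181

open Finsupp

variable {n : ℕ} {a : Fin n → ℕ} {S : Finset (Fin n)} {z : Fin n}

theorem lemmaG (hz : ∀ t ∈ S, t < z) {V E : Set (Fin n →₀ ℕ)} (hV : Good a (insert z S) V)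
    (hs : ZStable a S z V) (hc : ZComp a S z V) (hE : E ⊆ AS (insert z S))
    (hp : ∀ μ ∈ AS (insert z S), μ ∉ Box a → μ ∈ E) (hl : IsLexS a (insert z S) E) {d : ℕ}
    (hd : hf E d ≤ hf V d) (i : ℕ) :
    hf (E ∩ {μ | μ z ≤ i}) d ≤ hf (V ∩ {μ | μ z ≤ i}) d := by
  by_cases h : ∀ u ∈ E ∩ {μ | μ z ≤ i}, u.degree = d → u ∈ V
  · exact hf_mono fun u hu hud => ⟨h u hu hud, hu.2⟩
  push Not at h
  obtain ⟨u, ⟨hu, hui⟩, hud, huV⟩ := h
  have hub : u ∈ Box a := by_contra fun hb => huV (hV.pow u (hE hu) hb)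
  have h1 : hf (V \ {μ | μ z ≤ i}) d ≤ hf (E \ {μ | μ z ≤ i}) d := by
    refine hf_mono fun v hv hvd => ⟨?_, hv.2⟩
    by_cases hvb : v ∈ Box a
    · rcases le_total (toLex v) (toLex u) with hle | hle
      · exact (huV (zcomp_mem hz hV.sub hs hc hv.1 hvb (hE hu) hub (hud.trans hvd.symm)
          (le_trans hui (not_le.1 hv.2).le) hle)).elim
      · exact hl u hu hub v (hV.sub hv.1) (hvd.trans hud.symm) hle
    · exact hp v (hV.sub hv.1) hvb
  have h2 := hf_split E {μ | μ z ≤ i} d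
  have h3 := hf_split V {μ | μ z ≤ i} d
  omega

theorem cl2_layer (hz : z ∉ S) {M : Set (Fin n →₀ ℕ)} (hM : M ⊆ AS (insert z S)) (k d : ℕ) :
    hf (M ∩ {μ | μ z = k}) (d + k) = hf (comp S z M k) d := by
  have := fr_layer hz hM k (d + k : ℕ)
  rw [fr_nat, Nat.cast_add, add_sub_cancel_right, fr_nat] at this
  exact_mod_cast this

theorem cl2_three (ha : 2 ≤ a z) {M : Set (Fin n →₀ ℕ)} (hM : M ⊆ AS (insert z S))
    (hp : ∀ μ ∈ AS (insert z S), μ ∉ Box a → μ ∈ M) (d : ℕ) :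
    hf M d = hf (M ∩ {μ | μ z ≤ a z - 2}) d + (hf (M ∩ {μ | μ z = a z - 1}) d +
      hf (AS (insert z S) ∩ {μ | a z ≤ μ z}) d) := by
  rw [hf_split M {μ | μ z ≤ a z - 2}, hf_split (M \ {μ | μ z ≤ a z - 2}) {μ | μ z = a z - 1}]
  congr 3
  · ext μ
    simp only [Set.mem_inter_iff, Set.mem_sdiff, Set.mem_ofPred_eq]
    exact ⟨fun h => ⟨h.1.1, h.2⟩, fun h => ⟨⟨h.1, by omega⟩, h.2⟩⟩
  · ext μ
    simp only [Set.mem_inter_iff, Set.mem_sdiff, Set.mem_ofPred_eq]
    exact ⟨fun h => ⟨hM h.1.1, by omega⟩,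
      fun h => ⟨⟨hp μ h.1 fun hb => absurd (hb z) (not_lt.2 h.2), by omega⟩, by omega⟩⟩

theorem cl2_box {μ ν : Fin n →₀ ℕ} (h : μ + ν ∈ Box a) : μ ∈ Box a :=
  by_contra fun hb => not_mem_Box_add hb ν h

theorem lexify (hz : ∀ t ∈ S, t < z) (ha : 2 ≤ a z) {V : Set (Fin n →₀ ℕ)}
    (hV : Good a (insert z S) V) (hs : ZStable a S z V) (hc : ZComp a S z V) :
    ∃ E, Good a (insert z S) E ∧ IsLexS a (insert z S) E ∧ (∀ d, hf E d = hf V d) ∧
      comp S z E 0 ⊆ comp S z V 0 ∧ comp S z V (a z - 1) ⊆ comp S z E (a z - 1) := by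
  obtain ⟨E, hE, hp, hl, hh⟩ := exists_lex hV
  have hzS : z ∉ S := fun h => lt_irrefl z (hz z h)
  have G := fun d i => lemmaG hz hV hs hc hE hp hl (hh d).le i
  have cp : ∀ k, ∀ μ ∈ AS S, μ ∉ Box a → μ ∈ comp S z E k := fun k μ hμ hb =>
    ⟨hμ, hp _ (AS_add.2 ⟨AS_mono (Finset.subset_insert _ _) hμ,
      single_mem_AS (Finset.mem_insert_self _ _) _⟩) (not_mem_Box_add hb _)⟩
  have h0 : comp S z E 0 ⊆ comp S z V 0 := fun μ hμ => by
    refine lex_nested' (fun _ h => h.1) (cp 0) (hl.zcomp.isLexS_comp hzS (by omega)) (hV.comp 0).sub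
      (hV.comp 0).pow (hc.isLexS_comp hzS (by omega)) ?_ μ hμ rfl
    rw [← cl2_layer hzS hE, ← cl2_layer hzS hV.sub]
    simpa only [Nat.le_zero] using G (μ.degree + 0) 0
  have h1 : comp S z V (a z - 1) ⊆ comp S z E (a z - 1) := fun μ hμ => by
    refine lex_nested' (hV.comp _).sub (hV.comp _).pow (hc.isLexS_comp hzS (by omega))
      (fun _ h => h.1) (cp _) (hl.zcomp.isLexS_comp hzS (by omega)) ?_ μ hμ rfl
    rw [← cl2_layer hzS hE, ← cl2_layer hzS hV.sub]
    have a1 := G (μ.degree + (a z - 1)) (a z - 2)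
    have a2 := cl2_three ha hE hp (μ.degree + (a z - 1))
    have a3 := cl2_three ha hV.sub hV.pow (μ.degree + (a z - 1))
    have a4 := hh (μ.degree + (a z - 1))
    omega
  refine ⟨E, ⟨hE, fun u hu t ht => ?_, hp⟩, hl, hh, h0, h1⟩
  have hν : u + single t 1 ∈ AS (insert z S) := AS_mul u (hE hu) t ht
  by_cases hb : u + single t 1 ∈ Box a
  swap
  · exact hp _ hν hb
  have hub := cl2_box hb
  set F : Set (Fin n →₀ ℕ) := {ν | ν ∈ AS (insert z S) ∧ (ν ∉ Box a ∨ toLex (u + single t 1) ≤ toLex ν)}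
  have hF : F ⊆ AS (insert z S) := fun _ h => h.1
  refine lex_nested' hF (fun μ h1 h2 => ⟨h1, Or.inl h2⟩)
    (fun μ h1 h2 ν h3 _ h4 => ⟨h3, Or.inr ((h1.2.resolve_left fun h => h h2).trans h4)⟩) hE hp hl ?_ _
    ⟨hν, Or.inr le_rfl⟩ (degree_add_single u t 1)
  have a1 : hf (comp S z F 0) (u.degree + 1) ≤ hf (comp S z V 0) (u.degree + 1) := by
    refine hf_mono fun w hw hwd => ?_
    by_cases hwb : w ∈ Box a
    swap
    · exact (hV.comp 0).pow w hw.1 hwb
    have hw2 := hw.2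
    rw [single_zero, add_zero] at hw2
    have hne : w.support.Nonempty := support_nonempty_iff.2 (by rintro rfl; simp at hwd)
    have hs1 := mem_support_iff.1 (w.support.max'_mem hne)
    have hs2 : ∀ r, w.support.max' hne < r → w r = 0 := fun r hr =>
      by_contra fun h => not_le.2 hr (w.support.le_max' r (mem_support_iff.2 h))
    have hs3 : w.support.max' hne ∈ S := by_contra fun h => hs1 (hw.1 _ h)
    generalize w.support.max' hne = s at hs1 hs2 hs3
    obtain ⟨w', rfl⟩ := exists_eq_add_single (Nat.one_le_iff_ne_zero.2 hs1)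
    have hd : w'.degree = u.degree := by
      rw [degree_add_single] at hwd
      omega
    have hw' := (AS_add.1 hw.1).1
    refine (hV.comp 0).mul w' (h0 ⟨hw', ?_⟩) s hs3
    rw [single_zero, add_zero]
    exact hl u hu hub w' (AS_mono (Finset.subset_insert _ _) hw') hd (lex_last hd
      (fun r hr => (Nat.add_eq_zero_iff.1 (hs2 r hr)).1) (hw2.2.resolve_left fun h => h hwb))
  have a2 : hf (colon z F \ {μ | μ z ≤ a z - 2}) u.degree ≤
      hf (colon z V \ {μ | μ z ≤ a z - 2}) u.degree := by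
    refine hf_mono fun μ hμ _ => ⟨hV.pow _ hμ.1.1 fun h => ?_, hμ.2⟩
    have b1 := h z
    have b2 : ¬ μ z ≤ a z - 2 := hμ.2
    simp at b1
    omega
  have a3 : hf (colon z F ∩ {μ | μ z ≤ a z - 2}) u.degree ≤ hf (E ∩ {μ | μ z ≤ a z - 2}) u.degree := by
    refine hf_mono fun μ hμ hd => ⟨?_, hμ.2⟩
    have hμA := (AS_add.1 hμ.1.1).1
    by_cases hμb : μ ∈ Box a
    swap
    · exact hp μ hμA hμb
    refine hl u hu hub μ hμA hd (lex_last hd (fun r hr => hμA r ?_) (hμ.1.2.resolve_left fun h => h fun i => ?_))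
    · rw [Finset.mem_insert, not_or]
      exact ⟨hr.ne', fun h => lt_asymm hr (hz r h)⟩
    · by_cases hi : i = z
      · have b2 : μ z ≤ a z - 2 := hμ.2
        subst hi
        simp
        omega
      · simpa [single_apply, Ne.symm hi] using hμb i
  have a4 : hf (V ∩ {μ | μ z ≤ a z - 2}) u.degree ≤ hf (colon z V ∩ {μ | μ z ≤ a z - 2}) u.degree :=
    hf_mono fun μ hμ _ => ⟨hV.mul μ hμ.1 z (Finset.mem_insert_self _ _), hμ.2⟩
  have a5 := G u.degree (a z - 2)
  have a6 := hf_split (colon z F) {μ | μ z ≤ a z - 2} u.degree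
  have a7 := hf_split (colon z V) {μ | μ z ≤ a z - 2} u.degree
  have a8 := fr_colon hzS hF (u.degree + 1 : ℕ)
  have a9 := fr_colon hzS hV.sub (u.degree + 1 : ℕ)
  rw [fr_nat, fr_nat, Nat.cast_add_one, add_sub_cancel_right, fr_nat] at a8 a9
  rw [hh]
  omega

end Crest.Agent.R181
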