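import Crest.Agent.R181.CDefs

/-! # Row 181, part C: the Koszul homology of `(W : z) / W` for a `z`-stable `W`.
* `beta_split`: `x ↦ x.filter (· ∈ P)` commutes with `sh t` (`t ∈ S`), hence (pointwise) with `kd` on chains
  supported on subsets of `S`.  So `Zc (U, L) = Zc (U ∩ P, L ∩ P) ⊔ Zc (U \\ P, L \\ P)` with the two
  summands disjoint; finish with `beta_formula`, `finrank_Ch`, `finrank_monF_eq_fr`, `fr_split`.
* `beta_triv`: `kd` maps `Ch U (p+1) j` into `Ch L p j` (cf. `kd_mem_Ch`), so `Zc = Ch U p j`, `Bd = Ch L p j`.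
* `beta_layer`: `beta_map` with `e = lmapDomain (· + single z k)` and `beta_shift`.
* `zd_colon`: split by `P = {μ | μ z + 1 < a z}` (`beta_triv` by `ZStable`), then split the rest by
  `{μ | μ z = a z - 1}` (`beta_layer`; `comp S z (colon z W \\ P) (a z - 1) = AS S` by `Good.pow`,
  `comp S z (W \\ P) (a z - 1) = comp S z W (a z - 1)`); on `a z ≤ μ z` both sets are equal (`beta_triv` gives
  `0`).  Counting with `fr_split`, `fr_shift`, `fr_layer`:
  `fr (colon z W ∩ P) (e-1) = fr W e - fr W_0 e - fr Z e` and `fr (W ∩ P) (e-1) = fr W (e-1) - fr W_{a-1} (e-a) - fr Z (e-1)`. -/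

set_option autoImplicit false

namespace Crest.Agent.R181

open Finsupp

variable {n : ℕ} {S : Finset (Fin n)} {z : Fin n}

section aux

variable {D : Type*} [DivisionRing D] {X : Type*} [AddCommGroup X] [Module D X]

theorem cs_kd_mem_Ch {y : Fin n → X →ₗ[D] X} {U L : ℤ → Submodule D X}
    (hU : ∀ t ∈ S, ∀ k, ∀ x ∈ U k, y t x ∈ L (k + 1)) {p : ℕ} {j : ℤ} {c : Finset (Fin n) → X}
    (hc : c ∈ Ch S U (p + 1) j) : kd y c ∈ Ch S L p j := by
  classical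
  rw [mem_Ch] at hc ⊢
  obtain ⟨h1, h2⟩ := hc
  constructor
  · intro T hT hp
    rw [kd_apply]
    refine Submodule.sum_mem _ fun t ht => ?_
    refine zsmul_mem ?_ _
    have htT : t ∉ T := Finset.mem_compl.1 ht
    by_cases hts : t ∈ S
    · have := hU t hts _ _ (h1 (insert t T) (Finset.insert_subset hts hT)
        (by rw [Finset.card_insert_of_notMem htT, hp]))
      have e : j - ((p + 1 : ℕ) : ℤ) + 1 = j - p := by push_cast; ring
      rwa [e] at this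
    · rw [h2 (insert t T) (fun h => hts (h.1 (Finset.mem_insert_self _ _))), map_zero]
      exact Submodule.zero_mem _
  · intro T hT
    rw [kd_apply]
    refine Finset.sum_eq_zero fun t ht => ?_
    have htT : t ∉ T := Finset.mem_compl.1 ht
    rw [h2 (insert t T), map_zero, smul_zero]
    rintro ⟨h3, h4⟩
    rw [Finset.card_insert_of_notMem htT] at h4
    exact hT ⟨(Finset.subset_insert _ _).trans h3, by omega⟩

theorem cs_mem_Ch_fix (e : X →ₗ[D] X) {U U₁ : ℤ → Submodule D X}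
    (h : ∀ k x, x ∈ U₁ k ↔ x ∈ U k ∧ e x = x) {p : ℕ} {j : ℤ} {c : Finset (Fin n) → X} :
    c ∈ Ch S U₁ p j ↔ c ∈ Ch S U p j ∧ e.compLeft (Finset (Fin n)) c = c := by
  rw [mem_Ch, mem_Ch]
  constructor
  · rintro ⟨h1, h2⟩
    refine ⟨⟨fun T hT hp => ((h _ _).1 (h1 T hT hp)).1, h2⟩, ?_⟩
    funext T
    by_cases hT : T ⊆ S ∧ T.card = p
    · exact ((h _ _).1 (h1 T hT.1 hT.2)).2
    · change e (c T) = c T
      rw [h2 T hT, map_zero]
  · rintro ⟨⟨h1, h2⟩, h3⟩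
    exact ⟨fun T hT hp => (h _ _).2 ⟨h1 T hT hp, congrFun h3 T⟩, h2⟩

theorem cs_mem_Ch_ker (e : X →ₗ[D] X) {U U₂ : ℤ → Submodule D X}
    (h : ∀ k x, x ∈ U₂ k ↔ x ∈ U k ∧ e x = 0) {p : ℕ} {j : ℤ} {c : Finset (Fin n) → X} :
    c ∈ Ch S U₂ p j ↔ c ∈ Ch S U p j ∧ e.compLeft (Finset (Fin n)) c = 0 := by
  rw [mem_Ch, mem_Ch]
  constructor
  · rintro ⟨h1, h2⟩
    refine ⟨⟨fun T hT hp => ((h _ _).1 (h1 T hT hp)).1, h2⟩, ?_⟩
    funext T
    by_cases hT : T ⊆ S ∧ T.card = p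
    · exact ((h _ _).1 (h1 T hT.1 hT.2)).2
    · change e (c T) = 0
      rw [h2 T hT, map_zero]
  · rintro ⟨⟨h1, h2⟩, h3⟩
    exact ⟨fun T hT hp => (h _ _).2 ⟨h1 T hT hp, congrFun h3 T⟩, h2⟩

theorem cs_map_mem_Ch (e : X →ₗ[D] X) {U : ℤ → Submodule D X}
    (h : ∀ k x, x ∈ U k → e x ∈ U k) {p : ℕ} {j : ℤ} {c : Finset (Fin n) → X}
    (hc : c ∈ Ch S U p j) : e.compLeft (Finset (Fin n)) c ∈ Ch S U p j := by
  rw [mem_Ch] at hc ⊢
  refine ⟨fun T hT hp => h _ _ (hc.1 T hT hp), fun T hT => ?_⟩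
  change e (c T) = 0
  rw [hc.2 T hT, map_zero]

theorem cs_finrank_Zc (e : X →ₗ[D] X) {y : Fin n → X →ₗ[D] X}
    (he : ∀ t ∈ S, ∀ x, e (y t x) = y t (e x)) (hee : ∀ x, e (e x) = e x)
    {U U₁ U₂ L L₁ L₂ : ℤ → Submodule D X} (hfd : FD U)
    (hU : ∀ k x, x ∈ U k → e x ∈ U k) (hL : ∀ k x, x ∈ L k → e x ∈ L k)
    (hU₁ : ∀ k x, x ∈ U₁ k ↔ x ∈ U k ∧ e x = x) (hU₂ : ∀ k x, x ∈ U₂ k ↔ x ∈ U k ∧ e x = 0)
    (hL₁ : ∀ k x, x ∈ L₁ k ↔ x ∈ L k ∧ e x = x) (hL₂ : ∀ k x, x ∈ L₂ k ↔ x ∈ L k ∧ e x = 0)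
    (p : ℕ) (j : ℤ) :
    Module.finrank D (Zc y S U L p j) =
      Module.finrank D (Zc y S U₁ L₁ p j) + Module.finrank D (Zc y S U₂ L₂ p j) := by
  have := Ch_finite (S := S) hfd p j
  have : Module.Finite D (Zc y S U L p j) :=
    Submodule.finiteDimensional_of_le (inf_le_left : Zc y S U L p j ≤ Ch S U p j)
  have hmem : ∀ (A B : ℤ → Submodule D X) (c : Finset (Fin n) → X),
      c ∈ Zc y S A B p j ↔ c ∈ Ch S A p j ∧ kd y c ∈ Ch S B (p - 1) j := fun A B c => Iff.rfl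
  have h1 : (Zc y S U L p j).map (e.compLeft (Finset (Fin n))) = Zc y S U₁ L₁ p j := by
    ext c
    rw [Submodule.mem_map, hmem, cs_mem_Ch_fix e hU₁, cs_mem_Ch_fix e hL₁]
    constructor
    · rintro ⟨c', hc', rfl⟩
      rw [hmem] at hc'
      have hE : ∀ d : Finset (Fin n) → X, e.compLeft (Finset (Fin n))
          (e.compLeft (Finset (Fin n)) d) = e.compLeft (Finset (Fin n)) d :=
        fun d => funext fun T => hee _
      rw [kb2_kd_map e he hc'.1]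
      exact ⟨⟨cs_map_mem_Ch e hU hc'.1, hE _⟩, cs_map_mem_Ch e hL hc'.2, hE _⟩
    · rintro ⟨⟨a1, a2⟩, a3, _⟩
      exact ⟨c, (hmem _ _ _).2 ⟨a1, a3⟩, a2⟩
  have h2 : Zc y S U L p j ⊓ LinearMap.ker (e.compLeft (Finset (Fin n))) = Zc y S U₂ L₂ p j := by
    ext c
    rw [Submodule.mem_inf, LinearMap.mem_ker, hmem, hmem, cs_mem_Ch_ker e hU₂, cs_mem_Ch_ker e hL₂]
    constructor
    · rintro ⟨⟨a1, a2⟩, a3⟩
      refine ⟨⟨a1, a3⟩, a2, ?_⟩
      rw [← kb2_kd_map e he a1, a3, map_zero]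
    · rintro ⟨⟨a1, a2⟩, a3, _⟩
      exact ⟨⟨a1, a3⟩, a2⟩
  rw [← h1, ← h2, kb1_rank_aux]

end aux

open Classical in
/-- the projection onto the monomials in `P` -/
noncomputable def csFlt (P : Set (Fin n →₀ ℕ)) : PX ℂ n →ₗ[ℂ] PX ℂ n where
  toFun x := x.filter (· ∈ P)
  map_add' _ _ := Finsupp.filter_add
  map_smul' _ _ := Finsupp.filter_smul

open Classical in
theorem csFlt_apply (P : Set (Fin n →₀ ℕ)) (x : PX ℂ n) (μ : Fin n →₀ ℕ) :
    csFlt P x μ = if μ ∈ P then x μ else 0 := Finsupp.filter_apply _ _ _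

open Classical in
theorem csFlt_single (P : Set (Fin n →₀ ℕ)) (μ : Fin n →₀ ℕ) (c : ℂ) :
    csFlt P (single μ c) = if μ ∈ P then single μ c else 0 := by
  ext ν
  rw [csFlt_apply]
  by_cases h : μ = ν
  · subst h; split_ifs <;> simp
  · split_ifs <;> simp [h]

theorem csFlt_sh {P : Set (Fin n →₀ ℕ)} (hP : ∀ μ, ∀ t ∈ S, μ + single t 1 ∈ P ↔ μ ∈ P) :
    ∀ t ∈ S, ∀ x, csFlt P (sh ℂ n t x) = sh ℂ n t (csFlt P x) := by
  intro t ht x
  induction x using Finsupp.induction_linear with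
  | zero => simp
  | add f g hf hg => simp only [map_add, hf, hg]
  | single μ c =>
    rw [sh_single, csFlt_single, csFlt_single]
    by_cases h : μ ∈ P
    · rw [if_pos h, if_pos ((hP μ t ht).2 h), sh_single]
    · rw [if_neg h, if_neg (fun h' => h ((hP μ t ht).1 h')), map_zero]

theorem cs_mem_monF {M : Set (Fin n →₀ ℕ)} {k : ℤ} {x : PX ℂ n} :
    x ∈ monF ℂ M k ↔ ∀ μ, x μ ≠ 0 → μ ∈ M ∧ (μ.degree : ℤ) = k := by
  rw [monF, Finsupp.mem_supported']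
  exact ⟨fun h μ hμ => by by_contra hc; exact hμ (h μ hc),
    fun h μ hμ => by by_contra hc; exact hμ (h μ hc)⟩

theorem csFlt_mem (P M : Set (Fin n →₀ ℕ)) (k : ℤ) (x : PX ℂ n) (h : x ∈ monF ℂ M k) :
    csFlt P x ∈ monF ℂ M k := by
  rw [cs_mem_monF] at h ⊢
  intro μ hμ
  refine h μ fun h0 => hμ ?_
  rw [csFlt_apply, h0, ite_self]

theorem cs_mem_inter (P M : Set (Fin n →₀ ℕ)) (k : ℤ) (x : PX ℂ n) :
    x ∈ monF ℂ (M ∩ P) k ↔ x ∈ monF ℂ M k ∧ csFlt P x = x := by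
  rw [cs_mem_monF, cs_mem_monF]
  constructor
  · intro h
    refine ⟨fun μ hμ => ⟨(h μ hμ).1.1, (h μ hμ).2⟩, ?_⟩
    ext μ
    rw [csFlt_apply]
    split_ifs with hp
    · rfl
    · by_contra hc
      exact hp (h μ (Ne.symm hc)).1.2
  · rintro ⟨h1, h2⟩ μ hμ
    refine ⟨⟨(h1 μ hμ).1, ?_⟩, (h1 μ hμ).2⟩
    by_contra hc
    apply hμ
    rw [← h2, csFlt_apply, if_neg hc]

theorem cs_mem_diff (P M : Set (Fin n →₀ ℕ)) (k : ℤ) (x : PX ℂ n) :
    x ∈ monF ℂ (M \ P) k ↔ x ∈ monF ℂ M k ∧ csFlt P x = 0 := by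
  rw [cs_mem_monF, cs_mem_monF]
  constructor
  · intro h
    refine ⟨fun μ hμ => ⟨(h μ hμ).1.1, (h μ hμ).2⟩, ?_⟩
    ext μ
    rw [csFlt_apply]
    split_ifs with hp
    · by_contra hc
      exact (h μ hc).1.2 hp
    · rfl
  · rintro ⟨h1, h2⟩ μ hμ
    refine ⟨⟨(h1 μ hμ).1, fun hc => hμ ?_⟩, (h1 μ hμ).2⟩
    have := DFunLike.congr_fun h2 μ
    rwa [csFlt_apply, if_pos hc] at this

theorem cs_finrank_Ch (M : Set (Fin n →₀ ℕ)) (p : ℕ) (j : ℤ) :
    (Module.finrank ℂ (Ch S (monF ℂ M) p j) : ℤ) = (S.card.choose p : ℤ) * fr M (j - p) := by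
  rw [finrank_Ch (monF_fd M), Nat.cast_mul, finrank_monF_eq_fr]

theorem cs_monF_layer (hz : z ∉ S) {U : Set (Fin n →₀ ℕ)} (hU : U ⊆ AS (insert z S)) (k : ℕ) :
    monF ℂ (U ∩ {μ | μ z = k}) = fun d => (monF ℂ (comp S z U k) (d + -(k : ℤ))).map
      (Finsupp.lmapDomain ℂ ℂ fun μ : Fin n →₀ ℕ => μ + single z k) := by
  funext d
  rw [monF, monF, Finsupp.lmapDomain_supported]
  congr 1
  ext μ
  simp only [Set.mem_ofPred_eq, Set.mem_image, Set.mem_inter_iff]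
  constructor
  · rintro ⟨⟨h1, h2⟩, h3⟩
    obtain ⟨w, rfl⟩ : ∃ w, μ = w + single z k :=
      ⟨μ - single z k, (tsub_add_cancel_of_le (by simpa [single_le_iff] using h2.ge)).symm⟩
    refine ⟨w, ⟨⟨(mem_AS_iff hz).2 ⟨(AS_add.1 (hU h1)).1, by simpa using h2⟩, h1⟩, ?_⟩, rfl⟩
    rw [degree_add_single] at h3
    push_cast at h3
    omega
  · rintro ⟨w, ⟨⟨h1, h2⟩, h3⟩, rfl⟩
    refine ⟨⟨h2, by simp [h1 z hz]⟩, ?_⟩
    rw [degree_add_single]
    push_cast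
    omega

theorem beta_split {U L : Set (Fin n →₀ ℕ)} (hLU : L ⊆ U) (P : Set (Fin n →₀ ℕ))
    (hP : ∀ μ, ∀ t ∈ S, μ + single t 1 ∈ P ↔ μ ∈ P) (p : ℕ) (j : ℤ) :
    beta (sh ℂ n) S (monF ℂ U) (monF ℂ L) p j =
      beta (sh ℂ n) S (monF ℂ (U ∩ P)) (monF ℂ (L ∩ P)) p j +
      beta (sh ℂ n) S (monF ℂ (U \ P)) (monF ℂ (L \ P)) p j := by
  have hee : ∀ x, csFlt P (csFlt P x) = csFlt P x := fun x => by
    ext μ
    rw [csFlt_apply, csFlt_apply]
    split_ifs <;> rfl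
  have hZ := fun p => cs_finrank_Zc (S := S) (csFlt P) (csFlt_sh hP) hee (monF_fd U)
    (csFlt_mem P U) (csFlt_mem P L) (cs_mem_inter P U) (cs_mem_diff P U) (cs_mem_inter P L)
    (cs_mem_diff P L) p j
  rw [beta_formula (monF_mono hLU) (monF_fd U),
    beta_formula (monF_mono (Set.inter_subset_inter_left P hLU)) (monF_fd _),
    beta_formula (monF_mono (Set.sdiff_subset_sdiff_left hLU)) (monF_fd _), hZ p, hZ (p + 1)]
  simp only [cs_finrank_Ch]
  rw [fr_split L P, fr_split U P]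
  push_cast
  ring

theorem beta_triv {U L : Set (Fin n →₀ ℕ)} (hLU : L ⊆ U)
    (h : ∀ μ ∈ U, ∀ t ∈ S, μ + single t 1 ∈ L) (p : ℕ) (j : ℤ) :
    beta (sh ℂ n) S (monF ℂ U) (monF ℂ L) p j =
      (S.card.choose p : ℤ) * (fr U (j - p) - fr L (j - p)) := by
  classical
  have hs : ∀ t ∈ S, ∀ k, ∀ x ∈ monF ℂ U k, sh ℂ n t x ∈ monF ℂ L (k + 1) := by
    intro t ht k x hx
    rw [monF, Finsupp.mem_supported] at hx ⊢
    intro ν hν
    have := Finsupp.mapDomain_support hν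
    obtain ⟨μ, hμ, rfl⟩ := Finset.mem_image.1 this
    obtain ⟨h1, h2⟩ := hx hμ
    refine ⟨h μ h1 t ht, ?_⟩
    rw [map_add, Finsupp.degree_single, ← h2]
    push_cast
    rfl
  have h1 : Zc (sh ℂ n) S (monF ℂ U) (monF ℂ L) p j = Ch S (monF ℂ U) p j := by
    refine inf_eq_left.2 fun c hc => ?_
    rw [Submodule.mem_comap]
    rcases p with _ | p
    · rw [kd_eq_zero_of_mem_Ch_zero _ hc]
      exact Submodule.zero_mem _
    · exact cs_kd_mem_Ch hs hc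
  have h2 : Bd (sh ℂ n) S (monF ℂ U) (monF ℂ L) p j = Ch S (monF ℂ L) p j := by
    refine sup_eq_right.2 ?_
    rintro _ ⟨c, hc, rfl⟩
    exact cs_kd_mem_Ch hs hc
  rw [beta, h1, h2, cs_finrank_Ch, cs_finrank_Ch]
  ring

theorem beta_layer (hz : z ∉ S) {U L : Set (Fin n →₀ ℕ)} (hU : U ⊆ AS (insert z S))
    (hL : L ⊆ AS (insert z S)) (k p : ℕ) (j : ℤ) :
    beta (sh ℂ n) S (monF ℂ (U ∩ {μ | μ z = k})) (monF ℂ (L ∩ {μ | μ z = k})) p j =
      beta (sh ℂ n) S (monF ℂ (comp S z U k)) (monF ℂ (comp S z L k)) p (j - k) := by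
  rw [cs_monF_layer hz hU, cs_monF_layer hz hL,
    beta_map (z := sh ℂ n) _ (Finsupp.mapDomain_injective (add_left_injective _)) ?_
      (fun d => monF ℂ (comp S z U k) (d + -(k : ℤ))) (fun d => monF ℂ (comp S z L k) (d + -(k : ℤ))),
    beta_shift, ← sub_eq_add_neg]
  intro t _ x
  induction x using Finsupp.induction_linear with
  | zero => simp
  | add f g hf hg => simp only [map_add, hf, hg]
  | single μ c =>
    rw [sh_single, Finsupp.lmapDomain_apply, Finsupp.lmapDomain_apply, Finsupp.mapDomain_single,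
      Finsupp.mapDomain_single, sh_single, add_right_comm]

theorem zd_colon {a : Fin n → ℕ} (hz : z ∉ S) (ha : 1 ≤ a z) {W : Set (Fin n →₀ ℕ)}
    (hW : Good a (insert z S) W) (hs : ZStable a S z W) (p : ℕ) (j : ℤ) :
    beta (sh ℂ n) S (monF ℂ (colon z W)) (monF ℂ W) p (j - 1) =
      bq S (comp S z W (a z - 1)) p (j - a z) + (S.card.choose p : ℤ) *
        (fr W (j - p) - fr W (j - p - 1) - fr (comp S z W 0) (j - p)
          + fr (comp S z W (a z - 1)) (j - p - a z)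
          - (fr (AS (insert z S) ∩ {μ | a z ≤ μ z}) (j - p)
            - fr (AS (insert z S) ∩ {μ | a z ≤ μ z}) (j - p - 1))) := by
  have hzi : z ∈ insert z S := Finset.mem_insert_self _ _
  have hne : ∀ t ∈ S, ∀ μ : Fin n →₀ ℕ, (μ + single t 1 : Fin n →₀ ℕ) z = μ z := by
    intro t ht μ
    have : t ≠ z := fun h => hz (h ▸ ht)
    simp [this]
  have hWc : W ⊆ colon z W := fun μ hμ => hW.mul μ hμ z hzi
  have hcA : colon z W ⊆ AS (insert z S) := fun μ hμ => (AS_add.1 (hW.sub hμ)).1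
  have hbig : ∀ μ ∈ AS (insert z S), a z ≤ μ z → μ ∈ W := fun μ hμ h =>
    hW.pow μ hμ fun hb => absurd (hb z) (not_lt.2 h)
  set P : Set (Fin n →₀ ℕ) := {μ | μ z + 1 < a z} with hPdef
  set Q : Set (Fin n →₀ ℕ) := {μ | μ z = a z - 1} with hQdef
  set Z : Set (Fin n →₀ ℕ) := AS (insert z S) ∩ {μ | a z ≤ μ z} with hZdef
  have hP : ∀ μ, ∀ t ∈ S, μ + single t 1 ∈ P ↔ μ ∈ P := fun μ t ht => by
    simp only [hPdef, Set.mem_ofPred_eq, hne t ht]
  have hQ : ∀ μ, ∀ t ∈ S, μ + single t 1 ∈ Q ↔ μ ∈ Q := fun μ t ht => by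
    simp only [hQdef, Set.mem_ofPred_eq, hne t ht]
  have e1 : (colon z W \ P) \ Q = Z := by
    ext μ
    simp only [hPdef, hQdef, hZdef, Set.mem_sdiff, Set.mem_inter_iff, Set.mem_ofPred_eq]
    constructor
    · rintro ⟨⟨h1, h2⟩, h3⟩
      exact ⟨hcA h1, by omega⟩
    · rintro ⟨h1, h2⟩
      exact ⟨⟨hWc (hbig μ h1 h2), by omega⟩, by omega⟩
  have e2 : (W \ P) \ Q = Z := by
    ext μ
    simp only [hPdef, hQdef, hZdef, Set.mem_sdiff, Set.mem_inter_iff, Set.mem_ofPred_eq]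
    constructor
    · rintro ⟨⟨h1, h2⟩, h3⟩
      exact ⟨hW.sub h1, by omega⟩
    · rintro ⟨h1, h2⟩
      exact ⟨⟨hbig μ h1 h2, by omega⟩, by omega⟩
  have e3 : comp S z (colon z W \ P) (a z - 1) = AS S := by
    ext w
    refine ⟨fun h => h.1, fun h => ⟨h, ?_, ?_⟩⟩
    · refine hbig _ (AS_add.2 ⟨AS_add.2 ⟨AS_mono (Finset.subset_insert _ _) h,
        single_mem_AS hzi _⟩, single_mem_AS hzi _⟩) ?_
      simp only [Finsupp.add_apply, single_eq_same]
      omega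
    · simp only [hPdef, Set.mem_ofPred_eq, Finsupp.add_apply, single_eq_same]
      omega
  have e4 : comp S z (W \ P) (a z - 1) = comp S z W (a z - 1) := by
    ext w
    refine ⟨fun h => ⟨h.1, h.2.1⟩, fun h => ⟨h.1, h.2, ?_⟩⟩
    simp only [hPdef, Set.mem_ofPred_eq, Finsupp.add_apply, single_eq_same]
    omega
  have hcast : ((a z - 1 : ℕ) : ℤ) = a z - 1 := by omega
  have c1 : ∀ e : ℤ, fr Z e = fr (colon z W \ P) (e - 1) := by
    intro e
    have := fr_shift (M := colon z W \ P) (N := Z) (single z 1) (fun μ => ?_)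
      (fun μ hμ => by
        have : a z ≤ μ z := hμ.2
        simpa [single_le_iff] using ha.trans this) e
    · rw [this, degree_single]; simp
    · simp only [hPdef, hZdef, Set.mem_sdiff, Set.mem_inter_iff, Set.mem_ofPred_eq,
        Finsupp.add_apply, single_eq_same]
      constructor
      · rintro ⟨h1, h2⟩
        exact ⟨hW.sub h1, by omega⟩
      · rintro ⟨h1, h2⟩
        refine ⟨hbig _ h1 ?_, by omega⟩
        simpa only [Finsupp.add_apply, single_eq_same] using h2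
  have c2 := fr_colon hz hW.sub (j - p)
  have c3 := fr_split (colon z W) P (j - p - 1)
  have c4 := fr_split W P (j - p - 1)
  have c5 := fr_split (W \ P) Q (j - p - 1)
  have c6 := fr_layer hz (M := W \ P) (fun μ hμ => hW.sub hμ.1) (a z - 1) (j - p - 1)
  have c7 := c1 (j - p)
  rw [e2] at c5
  rw [e4, hcast, show j - p - 1 - ((a z : ℤ) - 1) = j - p - a z by ring] at c6
  rw [beta_split hWc P hP, beta_split (Set.sdiff_subset_sdiff_left hWc) Q hQ, e1, e2,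
    beta_triv (Set.inter_subset_inter_left P hWc)
      (fun μ hμ t ht => ⟨hs μ hμ.1 hμ.2 t ht, (hP μ t ht).2 hμ.2⟩),
    beta_triv (U := Z) (L := Z) le_rfl (fun μ hμ t ht =>
      ⟨AS_mul μ hμ.1 t (Finset.mem_insert_of_mem ht), by
        have : a z ≤ μ z := hμ.2
        simpa only [Set.mem_ofPred_eq, hne t ht] using this⟩),
    beta_layer hz (fun μ hμ => hcA hμ.1) (fun μ hμ => hW.sub hμ.1), e3, e4, hcast,
    show j - 1 - ((a z : ℤ) - 1) = j - a z by ring, show j - 1 - (p : ℤ) = j - p - 1 by ring]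
  have c8 : fr (colon z W ∩ P) (j - p - 1) - fr (W ∩ P) (j - p - 1) =
      fr W (j - p) - fr W (j - p - 1) - fr (comp S z W 0) (j - p)
          + fr (comp S z W (a z - 1)) (j - p - a z) - (fr Z (j - p) - fr Z (j - p - 1)) := by
    change fr ((W \ P) ∩ Q) _ = _ at c6
    omega
  rw [c8, bq]
  ring

end Crest.Agent.R181
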