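import Crest.Agent.R181.CT3

/-! # Row 181, part C: `z`-stabilisation (potential argument). -/

set_option autoImplicit false

namespace Crest.Agent.R181

open Finsupp

variable {n : ℕ} {a : Fin n → ℕ} {S : Finset (Fin n)} {z : Fin n}

/-- the potential -/
noncomputable def pot (a : Fin n → ℕ) (z : Fin n) (M : Set (Fin n →₀ ℕ)) : ℕ :=
  ∑ i ∈ Finset.range (a z), ∑ d ∈ Finset.range (∑ s, a s + 1), hf (M ∩ {μ | i < μ z}) d

theorem degree_le_of_Box {μ : Fin n →₀ ℕ} (h : μ ∈ Box a) : μ.degree ≤ ∑ s, a s := by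
  rw [Finsupp.degree_eq_sum]
  exact Finset.sum_le_sum fun s _ => (h s).le

theorem stab_step (ha : Monotone a) (ha2 : ∀ i, 2 ≤ a i) (hz : ∀ t ∈ S, t < z)
    {M : Set (Fin n →₀ ℕ)} (hM : Good a (insert z S) M) (hs : ¬ ZStable a S z M) :
    ∃ M', Good a (insert z S) M' ∧ (∀ d, hf M' d = hf M d) ∧
      (∀ p j, bq (insert z S) M p j ≤ bq (insert z S) M' p j) ∧ pot a z M' < pot a z M := by
  unfold ZStable at hs
  push Not at hs
  obtain ⟨ν, h1, hlt, t, ht, h2⟩ := hs
  have htz : t ≠ z := (hz t ht).ne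
  have hzS : z ∈ insert z S := Finset.mem_insert_self _ _
  have htS : t ∈ insert z S := Finset.mem_insert_of_mem ht
  have hle : a t ≤ a z := ha (hz t ht).le
  have hmax : ∀ s ∈ insert z S, s ≤ z := by
    intro s hs
    rcases Finset.mem_insert.1 hs with rfl | hs
    · exact le_rfl
    · exact (hz s hs).le
  obtain ⟨c, hc, hG⟩ := exists_c z t (ha2 t) hle
  refine ⟨lead (rlw n) (TF c z t M), good_lead c (fun i => by have := ha2 i; omega) hzS htS htz hM hle
    (hG 0), fun d => ?_, fun p j => ?_, ?_⟩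
  · rw [← finrank_monF (D := ℂ), ← finrank_monF (D := ℂ), finrank_lead _ rlw_injective
      (fun k => (TF_le c hzS htS hM.sub k).trans (monF_mono (Set.subset_univ _) k)), finrank_TF c htz]
  · rw [← beta_TF c hzS htS htz hM.sub]
    exact beta_le_lead _ rlw_injective (TF_le c hzS htS hM.sub) p j
  · have hb : ν + single t 1 ∈ Box a := by
      by_contra hb
      exact h2 (hM.pow _ (AS_add.2 ⟨(AS_add.1 (hM.sub h1)).1, single_mem_AS htS 1⟩) hb)
    have hd : ν.degree + 1 ≤ ∑ s, a s := by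
      have := degree_le_of_Box hb
      rwa [degree_add_single] at this
    refine Finset.sum_lt_sum (fun i _ => Finset.sum_le_sum fun d _ =>
      count_le c hzS hmax htS htz hM.sub i d) ⟨ν z, Finset.mem_range.2 (by omega), ?_⟩
    refine Finset.sum_lt_sum (fun d _ => count_le c hzS hmax htS htz hM.sub _ d)
      ⟨ν.degree + 1, Finset.mem_range.2 (by omega), ?_⟩
    exact count_lt c hzS hmax htS htz hM.sub h1 h2 (hc _ (by omega) hlt)

theorem stabilise (ha : Monotone a) (ha2 : ∀ i, 2 ≤ a i) (hz : ∀ t ∈ S, t < z)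
    {M : Set (Fin n →₀ ℕ)} (hM : Good a (insert z S) M) :
    ∃ I, Good a (insert z S) I ∧ ZStable a S z I ∧ (∀ d, hf I d = hf M d) ∧
      ∀ p j, bq (insert z S) M p j ≤ bq (insert z S) I p j := by
  induction hN : pot a z M using Nat.strong_induction_on generalizing M with
  | _ N ih =>
    by_cases hs : ZStable a S z M
    · exact ⟨M, hM, hs, fun _ => rfl, fun _ _ => le_rfl⟩
    · obtain ⟨M', hM', h1, h2, h3⟩ := stab_step ha ha2 hz hM hs
      obtain ⟨I, hI, hIs, h4, h5⟩ := ih _ (hN ▸ h3) hM' rfl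
      exact ⟨I, hI, hIs, fun d => (h4 d).trans (h1 d), fun p j => (h2 p j).trans (h5 p j)⟩

end Crest.Agent.R181
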