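import Crest.Agent.R181.CZD
import Crest.Agent.R181.CSplit
import Crest.Agent.R181.CStab
import Crest.Agent.R181.CLex2
import Crest.Agent.R181.CComp

/-! # Row 181, part C: the induction step and the induction. -/

set_option autoImplicit false

namespace Crest.Agent.R181

open Finsupp

variable {n : ℕ} {a : Fin n → ℕ} {S : Finset (Fin n)} {z : Fin n}

/-- a smaller ideal: the Betti numbers go down by at most the Koszul bound, one step lower -/
theorem bq_le_of_subset_succ {E V : Set (Fin n →₀ ℕ)} (hE : Good a S E) (hV : Good a S V) (h : E ⊆ V)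
    (p : ℕ) (j : ℤ) :
    bq S V (p + 1) j ≤ bq S E (p + 1) j + (S.card.choose p : ℤ) * (fr V (j - p) - fr E (j - p)) := by
  have h1 := les2 (z := sh ℂ n) (S := S) sh_comm (monF_stable AS_mul) (monF_stable hV.mul)
    (monF_stable hE.mul) (monF_mono h) (monF_mono hV.sub) (monF_fd _) p j
  have h2 := beta_le_choose (z := sh ℂ n) (S := S) (monF_mono (D := ℂ) h) (monF_fd _) p j
  rw [finrank_monF_eq_fr, finrank_monF_eq_fr] at h2
  unfold bq
  linarith

theorem bq_le_of_subset_zero {E V : Set (Fin n →₀ ℕ)} (hV : Good a S V) (h : E ⊆ V) (j : ℤ) :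
    bq S V 0 j ≤ bq S E 0 j :=
  les2_zero (monF_mono h) (monF_mono hV.sub) (monF_stable AS_mul) (monF_fd _) j

/-- a larger ideal -/
theorem bq_le_of_superset {E V : Set (Fin n →₀ ℕ)} (hE : Good a S E) (hV : Good a S V) (h : V ⊆ E)
    (p : ℕ) (j : ℤ) :
    bq S V p j ≤ bq S E p j + (S.card.choose p : ℤ) * (fr E (j - p) - fr V (j - p)) := by
  have h1 := les1 (z := sh ℂ n) (S := S) sh_comm (monF_stable AS_mul) (monF_stable hE.mul)
    (monF_stable hV.mul) (monF_mono h) (monF_mono hE.sub) (monF_fd _) p j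
  have h2 := beta_le_choose (z := sh ℂ n) (S := S) (monF_mono (D := ℂ) h) (monF_fd _) p j
  rw [finrank_monF_eq_fr, finrank_monF_eq_fr] at h2
  unfold bq
  linarith

theorem claim_insert (ha : Monotone a) (ha2 : ∀ i, 2 ≤ a i) (hz : ∀ t ∈ S, t < z) (hC : Claim a S) :
    Claim a (insert z S) := by
  intro M hM
  have hzS : z ∉ S := fun h => lt_irrefl _ (hz z h)
  have hz1 : 1 ≤ a z := by have := ha2 z; omega
  obtain ⟨I, hI, hIs, hfI, hbI⟩ := stabilise ha ha2 hz hM
  obtain ⟨V, hV, hVs, hVc, hfV, hfVk, hbV⟩ := compress hzS hC hI hIs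
  obtain ⟨E, hE, hEl, hfE, h0, h1⟩ := lexify hz (ha2 z) hV hVs hVc
  have hEs : ZStable a S z E := hEl.zstable hz hE.sub hE.pow
  refine ⟨E, hE, hEl, fun d => by rw [hfE, hfV, hfI], fun p j => (hbI p j).trans ?_⟩
  rcases p with _ | p
  · rw [zd_zero hz hI.sub, zd_zero hz hE.sub]
    exact (hbV 0 0 j).trans (bq_le_of_subset_zero (hV.comp 0) h0 j)
  · rw [zd_succ hz hI.sub (fun μ hμ => hI.mul μ hμ z (Finset.mem_insert_self _ _)),
      zd_succ hz hE.sub (fun μ hμ => hE.mul μ hμ z (Finset.mem_insert_self _ _)),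
      zd_colon hzS hz1 hI hIs, zd_colon hzS hz1 hE hEs]
    have e1 := hbV 0 (p + 1) j
    have e2 := hbV (a z - 1) p (j - a z)
    have e3 := bq_le_of_subset_succ (hE.comp 0) (hV.comp 0) h0 p j
    have e4 := bq_le_of_superset (hE.comp (a z - 1)) (hV.comp (a z - 1)) h1 p (j - a z)
    have f1 : ∀ k, fr E k = fr I k := fr_congr fun d => by rw [hfE, hfV]
    have f2 : ∀ k e, fr (comp S z V k) e = fr (comp S z I k) e := fun k => fr_congr (hfVk k)
    rw [f2] at e3 e4
    rw [f1, f1]
    have f3 : j - a z - p = j - p - a z := by ring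
    rw [f3] at e4
    linarith

theorem claim_empty : Claim a (∅ : Finset (Fin n)) := by
  intro M hM
  refine ⟨M, hM, fun μ hμ _ ν hν _ _ => ?_, fun _ => rfl, fun _ _ => le_rfl⟩
  have : ν = μ := Finsupp.ext fun t => by
    rw [hν t (Finset.notMem_empty t), hM.sub hμ t (Finset.notMem_empty t)]
  exact this ▸ hμ

theorem claim_all (ha : Monotone a) (ha2 : ∀ i, 2 ≤ a i) (S : Finset (Fin n)) : Claim a S := by
  induction S using Finset.induction_on_max with
  | empty => exact claim_empty
  | insert z S hz ih => exact claim_insert ha ha2 hz ih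

end Crest.Agent.R181
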