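import Crest.Agent.R181.CDefs

/-! # Row 181, part C: the triangular operator `Top : w z^k ↦ w ∏_{r<k} (z - c_r x_t)`.
All `sh` commute (`sh_comm`), hence commute with `Gop`.  Prove identities on `single μ 1`
(`Finsupp.induction_linear` / `Finsupp.lhom_ext'`).  Triangularity: first for
`Gop c z t k (single w 1)` with `w z = 0` by induction on `k` (support in `ν z ≤ k`, degree `deg w + k`,
in `AS S`; coefficient at `ν z = k` is `[ν = w + single z k]`; at `ν z + 1 = k` it is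
`-(∑ r<k, c r) [ν = w + single t 1 + single z (k-1)]`); `(sh s y) ν` is `y ν'` if `ν = ν' + single s 1`
(`Finsupp.mapDomain_apply`), `0` if `ν s = 0`.  `Top_injective`: look at a monomial of the support with
maximal `z`-exponent and use `Top_top`.  `Top_map_AS`: injective endomorphism of a finite-dimensional
space (`monF_fd`, `Submodule.eq_of_le_of_finrank_eq`, `LinearEquiv.finrank_eq (Submodule.equivMapOfInjective ..)`). -/

set_option autoImplicit false

namespace Crest.Agent.R181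

open Finsupp

variable {n : ℕ} {S : Finset (Fin n)} {z t : Fin n} (c : ℕ → ℂ)

theorem Top_single (μ : Fin n →₀ ℕ) :
    Top c z t (single μ 1) = Gop c z t (μ z) (single (μ.erase z) 1) := by
  simp [Top]

theorem CT1_Gop_succ (k : ℕ) (x : PX ℂ n) :
    Gop c z t (k + 1) x = sh ℂ n z (Gop c z t k x) - c k • sh ℂ n t (Gop c z t k x) := rfl

theorem CT1_Gop_sh (s : Fin n) (k : ℕ) (x : PX ℂ n) :
    Gop c z t k (sh ℂ n s x) = sh ℂ n s (Gop c z t k x) := by
  induction k with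
  | zero => rfl
  | succ k ih =>
    rw [CT1_Gop_succ, CT1_Gop_succ, ih, map_sub, map_smul, sh_comm z s, sh_comm t s]

theorem CT1_ext {f g : PX ℂ n →ₗ[ℂ] PX ℂ n} (h : ∀ μ, f (single μ 1) = g (single μ 1))
    (x : PX ℂ n) : f x = g x := by
  have : f = g := Finsupp.lhom_ext' fun μ => LinearMap.ext_ring (h μ)
  rw [this]

theorem CT1_map {A : Set (Fin n →₀ ℕ)} {V : Submodule ℂ (PX ℂ n)} (f : PX ℂ n →ₗ[ℂ] PX ℂ n)
    (h : ∀ μ ∈ A, f (single μ 1) ∈ V) {x : PX ℂ n} (hx : x ∈ supported ℂ ℂ A) : f x ∈ V := by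
  rw [supported_eq_span_single] at hx
  refine (Submodule.span_le (p := V.comap f)).2 ?_ hx
  rintro _ ⟨μ, hμ, rfl⟩
  exact h μ hμ

/-- polynomials of `z`-degree `< k` -/
noncomputable def CT1_P (z : Fin n) (k : ℕ) : Submodule ℂ (PX ℂ n) := supported ℂ ℂ {ν | ν z < k}

theorem CT1_mem_P {k : ℕ} {x : PX ℂ n} : x ∈ CT1_P z k ↔ ∀ μ, x μ ≠ 0 → μ z < k := by
  rw [CT1_P, mem_supported]
  exact ⟨fun h μ hμ => h (mem_support_iff.2 hμ), fun h μ hμ => h μ (mem_support_iff.1 hμ)⟩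

theorem CT1_single_P {k : ℕ} {μ : Fin n →₀ ℕ} (h : μ z < k) :
    (single μ 1 : PX ℂ n) ∈ CT1_P z k := single_mem_supported ℂ _ h

theorem CT1_P_succ {k : ℕ} {x : PX ℂ n} (h : x ∈ CT1_P z k) : x ∈ CT1_P z (k + 1) :=
  CT1_mem_P.2 fun μ hμ => (CT1_mem_P.1 h μ hμ).trans (Nat.lt_succ_self k)

theorem CT1_shz_P {k : ℕ} {x : PX ℂ n} (h : x ∈ CT1_P z k) : sh ℂ n z x ∈ CT1_P z (k + 1) :=
  CT1_map _ (fun μ hμ => by
    rw [sh_single]
    exact CT1_single_P (by simpa using hμ)) h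

theorem CT1_sht_P (htz : t ≠ z) {k : ℕ} {x : PX ℂ n} (h : x ∈ CT1_P z k) :
    sh ℂ n t x ∈ CT1_P z k :=
  CT1_map _ (fun μ hμ => by
    rw [sh_single]
    exact CT1_single_P (by simpa [htz] using hμ)) h

theorem CT1_shz (w : Fin n →₀ ℕ) (k : ℕ) :
    sh ℂ n z (single (w + single z k) 1) = single (w + single z (k + 1)) 1 := by
  rw [sh_single, add_assoc, ← single_add]

theorem CT1_mono_P {w : Fin n →₀ ℕ} (hw : w z = 0) (k : ℕ) :
    (single (w + single z k) 1 : PX ℂ n) ∈ CT1_P z (k + 1) :=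
  CT1_single_P (by simp [hw])

theorem CT1_lead (htz : t ≠ z) {w : Fin n →₀ ℕ} (hw : w z = 0) (k : ℕ) :
    Gop c z t k (single w 1) - single (w + single z k) 1 ∈ CT1_P z k := by
  induction k with
  | zero => simp [Gop]
  | succ k ih =>
    obtain ⟨p, hp⟩ : ∃ p, p = Gop c z t k (single w 1) - single (w + single z k) 1 := ⟨_, rfl⟩
    rw [← hp] at ih
    have e : Gop c z t (k + 1) (single w 1) - single (w + single z (k + 1)) 1 =
        sh ℂ n z p - c k • sh ℂ n t (single (w + single z k) 1 + p) := by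
      rw [CT1_Gop_succ, ← CT1_shz, hp, add_sub_cancel, map_sub]
      abel
    rw [e]
    exact sub_mem (CT1_shz_P ih) (Submodule.smul_mem _ _
      (CT1_sht_P htz (add_mem (CT1_mono_P hw k) (CT1_P_succ ih))))

theorem CT1_sublead (htz : t ≠ z) {w : Fin n →₀ ℕ} (hw : w z = 0) (k : ℕ) :
    Gop c z t (k + 1) (single w 1) - single (w + single z (k + 1)) 1 +
      (∑ r ∈ Finset.range (k + 1), c r) • sh ℂ n t (single (w + single z k) 1) ∈ CT1_P z k := by
  induction k with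
  | zero =>
    rw [CT1_Gop_succ, ← CT1_shz]
    simp [Gop]
  | succ k ih =>
    obtain ⟨σ, hσ⟩ : ∃ σ, σ = ∑ r ∈ Finset.range (k + 1), c r := ⟨_, rfl⟩
    rw [← hσ] at ih
    rw [Finset.sum_range_succ _ (k + 1), ← hσ]
    obtain ⟨p, hp⟩ : ∃ p, p = Gop c z t (k + 1) (single w 1) - single (w + single z (k + 1)) 1 +
      σ • sh ℂ n t (single (w + single z k) 1) := ⟨_, rfl⟩
    rw [← hp] at ih
    have e : Gop c z t (k + 1 + 1) (single w 1) - single (w + single z (k + 1 + 1)) 1 +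
        (σ + c (k + 1)) • sh ℂ n t (single (w + single z (k + 1)) 1) =
        sh ℂ n z p - c (k + 1) • sh ℂ n t (p - σ • sh ℂ n t (single (w + single z k) 1)) := by
      rw [CT1_Gop_succ c (k + 1), ← CT1_shz w (k + 1), hp, add_sub_cancel_right, map_add, map_sub,
        map_sub, map_smul, sh_comm z t, CT1_shz w k, add_smul, smul_sub]
      abel
    rw [e]
    exact sub_mem (CT1_shz_P ih) (Submodule.smul_mem _ _ (CT1_sht_P htz (sub_mem (CT1_P_succ ih)
      (Submodule.smul_mem _ _ (CT1_sht_P htz (CT1_mono_P hw k))))))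

theorem CT1_Top_sub (htz : t ≠ z) {i : ℕ} {x : PX ℂ n} (hx : x ∈ CT1_P z (i + 1)) :
    Top c z t x - x ∈ CT1_P z i := by
  refine CT1_map (Top c z t - LinearMap.id) (fun μ hμ => ?_) hx
  have h := CT1_lead c htz (w := μ.erase z) (by simp) (μ z)
  rw [erase_add_single, ← Top_single] at h
  exact CT1_mem_P.2 fun ν hν => (CT1_mem_P.1 h ν hν).trans_le (Nat.lt_succ_iff.1 hμ)

theorem Top_single_of_zero {μ : Fin n →₀ ℕ} (h : μ z = 0) :
    Top c z t (single μ 1) = single μ 1 := by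
  rw [Top_single, h, erase_of_notMem_support (notMem_support_iff.2 h)]
  rfl

theorem Top_sh {s : Fin n} (hs : s ≠ z) (x : PX ℂ n) :
    Top c z t (sh ℂ n s x) = sh ℂ n s (Top c z t x) := by
  refine CT1_ext (f := Top c z t ∘ₗ sh ℂ n s) (g := sh ℂ n s ∘ₗ Top c z t) (fun μ => ?_) x
  rw [LinearMap.comp_apply, LinearMap.comp_apply, sh_single, Top_single, Top_single,
    ← CT1_Gop_sh, sh_single, erase_add, erase_single_ne hs.symm]
  simp [hs]

theorem sh_Top (htz : t ≠ z) (x : PX ℂ n) :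
    sh ℂ n z (Top c z t x) = Top c z t (sh ℂ n z x + sh ℂ n t (Cop c z x)) := by
  refine CT1_ext (f := sh ℂ n z ∘ₗ Top c z t)
    (g := Top c z t ∘ₗ (sh ℂ n z + sh ℂ n t ∘ₗ Cop c z)) (fun μ => ?_) x
  have h1 : Cop c z (single μ 1) = c (μ z) • (single μ 1 : PX ℂ n) := by simp [Cop]
  have h2 : (μ + single z 1 : Fin n →₀ ℕ) z = μ z + 1 := by simp
  rw [LinearMap.comp_apply, LinearMap.comp_apply, LinearMap.add_apply, LinearMap.comp_apply, h1,
    map_add, Top_sh c htz, map_smul, map_smul, sh_single, Top_single, Top_single, h2, erase_add,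
    erase_single, add_zero, CT1_Gop_succ, sub_add_cancel]

theorem Top_mem_AS (hz : z ∈ S) (ht : t ∈ S) {k : ℤ} {x : PX ℂ n} (hx : x ∈ monF ℂ (AS S) k) :
    Top c z t x ∈ monF ℂ (AS S) k := by
  have hs : Stable (sh ℂ n) S (monF ℂ (AS S)) := monF_stable AS_mul
  have hG : ∀ (m : ℕ) (j : ℤ), ∀ y ∈ monF ℂ (AS S) j, Gop c z t m y ∈ monF ℂ (AS S) (j + m) := by
    intro m j y hy
    induction m with
    | zero => simpa [Gop] using hy
    | succ m ih =>
      rw [CT1_Gop_succ, Nat.cast_succ, ← add_assoc]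
      exact sub_mem (hs z hz _ _ ih) (Submodule.smul_mem _ _ (hs t ht _ _ ih))
  refine CT1_map _ (fun μ hμ => ?_) hx
  have e := erase_add_single z μ
  have hd := degree_add_single (μ.erase z) z (μ z)
  rw [e] at hd
  have hk : k = ((μ.erase z).degree : ℤ) + μ z := by rw [← hμ.2, hd]; push_cast; rfl
  rw [Top_single, hk]
  exact hG _ _ _ (single_mem_supported ℂ _ ⟨(AS_add.1 (e.symm ▸ hμ.1)).1, rfl⟩)

theorem Top_le (htz : t ≠ z) {i : ℕ} {x : PX ℂ n} (hx : ∀ μ, x μ ≠ 0 → μ z ≤ i) :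
    ∀ ν, Top c z t x ν ≠ 0 → ν z ≤ i := by
  have h : x ∈ CT1_P z (i + 1) := CT1_mem_P.2 fun μ hμ => Nat.lt_succ_iff.2 (hx μ hμ)
  have h' := add_mem (CT1_P_succ (CT1_Top_sub c htz h)) h
  rw [sub_add_cancel] at h'
  exact fun ν hν => Nat.lt_succ_iff.1 (CT1_mem_P.1 h' ν hν)

theorem Top_top (htz : t ≠ z) {i : ℕ} {x : PX ℂ n} (hx : ∀ μ, x μ ≠ 0 → μ z ≤ i)
    {ν : Fin n →₀ ℕ} (hν : ν z = i) : Top c z t x ν = x ν := by
  have h : x ∈ CT1_P z (i + 1) := CT1_mem_P.2 fun μ hμ => Nat.lt_succ_iff.2 (hx μ hμ)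
  by_contra hne
  exact (CT1_mem_P.1 (CT1_Top_sub c htz h) ν (by rwa [Finsupp.sub_apply, sub_ne_zero])).ne hν

theorem Top_sub (htz : t ≠ z) (ν : Fin n →₀ ℕ) :
    Top c z t (single (ν + single z 1) 1) (ν + single t 1) = -∑ r ∈ Finset.range (ν z + 1), c r := by
  have h2 : (ν + single z 1 : Fin n →₀ ℕ) z = ν z + 1 := by simp
  have h := CT1_mem_P.1 (CT1_sublead c htz (w := ν.erase z) (by simp) (ν z)) (ν + single t 1)
  have h3 : ¬ (ν + single t 1 : Fin n →₀ ℕ) z < ν z := by simp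
  have h4 : ν + single t 1 ≠ ν + single z 1 := fun e =>
    htz (single_left_injective one_ne_zero (add_left_cancel e))
  rw [← CT1_shz, erase_add_single, sh_single, sh_single, Finsupp.add_apply, Finsupp.sub_apply,
    Finsupp.smul_apply, single_eq_same, single_eq_of_ne h4, sub_zero, smul_eq_mul, mul_one] at h
  rw [Top_single, h2, erase_add, erase_single, add_zero]
  exact eq_neg_of_add_eq_zero_left (by_contra fun hne => h3 (h hne))

theorem Top_injective (htz : t ≠ z) : Function.Injective (Top c z t) := by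
  rw [injective_iff_map_eq_zero]
  intro x hx
  have key : ∀ i, x ∈ CT1_P z i → x = 0 := by
    intro i
    induction i with
    | zero =>
      intro h
      ext μ
      by_contra hne
      exact Nat.not_lt_zero _ (CT1_mem_P.1 h μ hne)
    | succ i ih =>
      intro h
      have := CT1_Top_sub c htz h
      rw [hx, zero_sub, neg_mem_iff] at this
      exact ih this
  exact key (x.support.sup (fun μ => μ z) + 1) (CT1_mem_P.2 fun μ hμ =>
    Nat.lt_succ_iff.2 (Finset.le_sup (f := fun μ : Fin n →₀ ℕ => μ z) (mem_support_iff.2 hμ)))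

theorem Top_map_AS (hz : z ∈ S) (ht : t ∈ S) (htz : t ≠ z) (k : ℤ) :
    (monF ℂ (AS S) k).map (Top c z t) = monF ℂ (AS S) k := by
  have := monF_fd (D := ℂ) (AS S) k
  refine Submodule.eq_of_le_of_finrank_eq ?_ (kb2_finrank_map _ (Top_injective c htz) _)
  rintro _ ⟨x, hx, rfl⟩
  exact Top_mem_AS c hz ht hx

end Crest.Agent.R181
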