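import Crest.Agent.R181.CT1

/-! # Row 181, part C: `TF M = Top (M)` is an ideal with the same Betti numbers containing the powers.
* `beta_TF`: let `z' s = if s = z then sh z + sh t ∘ Cop else sh s`.  `beta_map` with `e = Top` (`Top_sh`,
  `sh_Top`, `Top_injective`, `Top_map_AS`) gives `beta sh S (monF (AS S)) (TF M) = beta z' S (monF (AS S)) (monF M)`,
  and `beta_co` with `M i j = (if i = j then 1 else 0) + (if i = t ∧ j = z then Cop else 0)`, `M'` the same with
  `-Cop`, gives `beta z' = beta sh`.  All `M i j` commute with each other; `Cop` commutes with `sh s` for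
  `s ≠ z`; in `h3` the commutator `[M k l, sh i]` vanishes unless `(k, l, i) = (t, z, z)`, and then
  `M z j = 0` for `j ≠ z`.  `Cop` preserves every `monF N k` (diagonal).
* `exists_c`: `ζ = exp (2πi/b)` (`Complex.isPrimitiveRoot_exp`), `c 0 = 1`, `c r = 0` for `1 ≤ r ≤ a - b`,
  `c (a - b + s) = ζ^s` for `1 ≤ s`.  Partial sums are `1 + ζ + … + ζ^s`, `s ≤ b - 2`, nonzero by
  `mul_geom_sum`/`IsPrimitiveRoot.pow_ne_one_of_pos_of_lt`.  For the product map the identity
  `∏_{s<b} (X - ζ^s Y) = X^b - Y^b` (`IsPrimitiveRoot.pow_sub_pow_eq_prod_sub_mul`,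
  `X_pow_sub_C_eq_prod`, or homogenise) into `Module.End` via the algebra map `ℂ[monomials] → End`,
  `single μ r ↦ r • lmapDomain (· + μ)` (`MonoidAlgebra/AddMonoidAlgebra.lift`), or work with `Commute`.
* `good_lead`: `good_of_pow`, `lead_subset`, `lead_add`; a monomial `single μ 1 ∈ TF M (deg μ)` is in `lead`;
  `x_s^{a s} = Top (x_s^{a s})` for `s ≠ z`, `z^a = Top (z^a) + z^{a-b} x_t^b` and `TF_stable`. -/

set_option autoImplicit false

namespace Crest.Agent.R181

open Finsupp

variable {n : ℕ} {S : Finset (Fin n)} {z t : Fin n} {M : Set (Fin n →₀ ℕ)} (c : ℕ → ℂ)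

theorem TF_le (hz : z ∈ S) (ht : t ∈ S) (hM : M ⊆ AS S) (k : ℤ) :
    TF c z t M k ≤ monF ℂ (AS S) k := by
  rintro _ ⟨x, hx, rfl⟩
  exact Top_mem_AS c hz ht (monF_mono hM k hx)

theorem finrank_TF (htz : t ≠ z) (k : ℤ) :
    Module.finrank ℂ (TF c z t M k) = Module.finrank ℂ (monF ℂ M k) :=
  (LinearEquiv.finrank_eq (Submodule.equivMapOfInjective _ (Top_injective c htz) _)).symm

theorem CT2_Cop_single (μ : Fin n →₀ ℕ) (r : ℂ) :
    Cop c z (single μ r) = single μ (r * c (μ z)) := by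
  simp [Cop]

theorem CT2_Cop_apply (x : PX ℂ n) (ν : Fin n →₀ ℕ) : Cop c z x ν = x ν * c (ν z) := by
  classical
  induction x using Finsupp.induction_linear with
  | zero => simp
  | add x y hx hy => rw [map_add, Finsupp.add_apply, Finsupp.add_apply, hx, hy, add_mul]
  | single μ r =>
    rw [CT2_Cop_single, single_apply, single_apply]
    split_ifs with h
    · rw [h]
    · rw [zero_mul]

theorem CT2_Cop_mem {N : Set (Fin n →₀ ℕ)} {k : ℤ} {x : PX ℂ n} (hx : x ∈ monF ℂ N k) :
    Cop c z x ∈ monF ℂ N k := by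
  rw [grob_mem_monF] at hx ⊢
  intro μ hμ
  rw [CT2_Cop_apply] at hμ
  exact hx μ (left_ne_zero_of_mul hμ)

theorem CT2_Cop_sh {s : Fin n} (hs : s ≠ z) :
    Cop c z * (sh ℂ n s : Module.End ℂ (PX ℂ n)) = (sh ℂ n s : Module.End ℂ (PX ℂ n)) * Cop c z := by
  refine Finsupp.lhom_ext fun μ r => ?_
  rw [Module.End.mul_apply, Module.End.mul_apply, sh_single, CT2_Cop_single, CT2_Cop_single,
    sh_single, Finsupp.add_apply, single_eq_of_ne hs.symm, add_zero]

theorem TF_stable (ht : t ∈ S) (htz : t ≠ z) (hmul : ∀ μ ∈ M, ∀ s ∈ S, μ + single s 1 ∈ M) :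
    Stable (sh ℂ n) S (TF c z t M) := by
  rintro s hs k _ ⟨x, hx, rfl⟩
  by_cases hsz : s = z
  · subst hsz
    exact ⟨_, Submodule.add_mem _ (monF_stable hmul s hs k x hx)
      (monF_stable hmul t ht k _ (CT2_Cop_mem c hx)), (sh_Top c htz x).symm⟩
  · exact ⟨_, monF_stable hmul s hs k x hx, Top_sh c hsz x⟩

/-- the matrix of the change of operators -/
noncomputable def CT2_M (C : Module.End ℂ (PX ℂ n)) (z t i j : Fin n) : Module.End ℂ (PX ℂ n) :=
  (if i = j then 1 else 0) + (if i = t ∧ j = z then C else 0)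

theorem CT2_M_comm (C : Module.End ℂ (PX ℂ n)) (i j k l : Fin n) :
    CT2_M C z t i j * CT2_M C z t k l = CT2_M C z t k l * CT2_M C z t i j := by
  unfold CT2_M
  split_ifs <;> noncomm_ring

theorem CT2_M_br (htz : t ≠ z) {i k j l : Fin n} (hjl : j ≠ l) :
    (CT2_M (Cop c z) z t k l * (sh ℂ n i : Module.End ℂ (PX ℂ n)) -
      (sh ℂ n i : Module.End ℂ (PX ℂ n)) * CT2_M (Cop c z) z t k l) *
      CT2_M (Cop c z) z t i j = 0 := by
  by_cases h : (k = t ∧ l = z) ∧ i = z
  · obtain ⟨⟨-, hl⟩, hi⟩ := h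
    have : CT2_M (Cop c z) z t i j = 0 := by
      unfold CT2_M
      rw [if_neg (fun e => hjl (e.symm.trans (hi.trans hl.symm))),
        if_neg (fun e => htz (e.1.symm.trans hi)), add_zero]
    rw [this, mul_zero]
  · have : CT2_M (Cop c z) z t k l * (sh ℂ n i : Module.End ℂ (PX ℂ n)) =
        (sh ℂ n i : Module.End ℂ (PX ℂ n)) * CT2_M (Cop c z) z t k l := by
      unfold CT2_M
      rw [add_mul, mul_add]
      congr 1
      · split_ifs <;> simp
      · split_ifs with h'
        · exact CT2_Cop_sh c fun e => h ⟨h', e⟩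
        · simp
    rw [this, sub_self, zero_mul]

theorem CT2_M_mem {N : Set (Fin n →₀ ℕ)} (i j : Fin n) {k : ℤ} {x : PX ℂ n}
    (hx : x ∈ monF ℂ N k) : CT2_M (Cop c z) z t i j x ∈ monF ℂ N k := by
  unfold CT2_M
  rw [LinearMap.add_apply]
  refine Submodule.add_mem _ ?_ ?_
  · split_ifs
    · exact hx
    · exact Submodule.zero_mem _
  · split_ifs
    · exact CT2_Cop_mem c hx
    · exact Submodule.zero_mem _

theorem CT2_sum (ht : t ∈ S) (C : Module.End ℂ (PX ℂ n)) (A : Fin n → Module.End ℂ (PX ℂ n))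
    {j : Fin n} (hj : j ∈ S) :
    ∑ i ∈ S, A i * CT2_M C z t i j = A j + if j = z then A t * C else 0 := by
  unfold CT2_M
  simp only [mul_add, Finset.sum_add_distrib, mul_ite, mul_one, mul_zero]
  rw [Finset.sum_ite_eq' S j, if_pos hj]
  congr 1
  by_cases h : j = z
  · simp only [h, and_true, if_true]
    rw [Finset.sum_ite_eq' S t fun i => A i * C, if_pos ht]
  · simp [h]

theorem beta_TF (hz : z ∈ S) (ht : t ∈ S) (htz : t ≠ z) (hM : M ⊆ AS S) (p : ℕ) (j : ℤ) :
    beta (sh ℂ n) S (monF ℂ (AS S)) (TF c z t M) p j = bq S M p j := by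
  have h1 := beta_map (Top c z t) (Top_injective c htz)
    (z := fun s => (sh ℂ n s : Module.End ℂ (PX ℂ n)) +
      if s = z then (sh ℂ n t : Module.End ℂ (PX ℂ n)) * Cop c z else 0)
    (z' := sh ℂ n) (S := S) (fun s _ x => by
      by_cases h : s = z
      · rw [if_pos h, h, sh_Top c htz]
        rfl
      · rw [if_neg h, add_zero, Top_sh c h]) (monF ℂ (AS S)) (monF ℂ M) p j
  have e : (fun k => (monF ℂ (AS S) k).map (Top c z t)) = monF ℂ (AS S) :=
    funext fun k => Top_map_AS c hz ht htz k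
  rw [e] at h1
  refine h1.trans ?_
  refine beta_co (sh ℂ n) _ S (CT2_M (Cop c z) z t) (CT2_M (-Cop c z) z t) _ _ (monF_mono hM)
    (monF_fd _) (fun j hj => (CT2_sum ht _ _ hj).symm) (fun i _ k _ j _ l _ _ => ?_)
    (fun i _ j _ l _ => CT2_M_comm _ _ _ _ _) (fun i _ k _ j _ l _ hjl => ?_)
    (fun j _ l hl => ?_) (fun i _ j _ k x hx => CT2_M_mem c i j hx)
    (fun i _ j _ k x hx => CT2_M_mem c i j hx) p j
  · rw [CT2_M_comm _ i j, CT2_M_comm _ i l, sub_self, sub_self]
  · rw [CT2_M_br c htz hjl, CT2_M_br c htz hjl.symm]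
  · rw [CT2_sum ht _ _ hl]
    unfold CT2_M
    by_cases h : l = z
    · by_cases h' : j = t
      · simp [h, h', htz]
      · simp [h, h']
    · simp [h]

/-- the coefficient identification -/
noncomputable def CT2_cl (n : ℕ) : MvPolynomial (Fin n) ℂ ≃ₗ[ℂ] PX ℂ n :=
  AddMonoidAlgebra.coeffLinearEquiv ℂ

theorem CT2_cl_monomial (m : Fin n →₀ ℕ) (a : ℂ) :
    CT2_cl n (MvPolynomial.monomial m a) = single m a := by
  classical
  ext ν
  change MvPolynomial.coeff ν (MvPolynomial.monomial m a) = _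
  rw [MvPolynomial.coeff_monomial, Finsupp.single_apply]

theorem CT2_cl_X_mul (s : Fin n) (p : MvPolynomial (Fin n) ℂ) :
    CT2_cl n (MvPolynomial.X s * p) = sh ℂ n s (CT2_cl n p) := by
  induction p using MvPolynomial.induction_on' with
  | monomial m a =>
    rw [CT2_cl_monomial, sh_single, MvPolynomial.X, MvPolynomial.monomial_mul, CT2_cl_monomial,
      one_mul, add_comm]
  | add p q hp hq => rw [mul_add, map_add, map_add, map_add, hp, hq]

theorem CT2_Gop (k : ℕ) (p : MvPolynomial (Fin n) ℂ) :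
    Gop c z t k (CT2_cl n p) = CT2_cl n ((∏ r ∈ Finset.range k,
      (MvPolynomial.X z - MvPolynomial.C (c r) * MvPolynomial.X t)) * p) := by
  induction k with
  | zero => simp [Gop]
  | succ k ih =>
    rw [Gop, Module.End.mul_apply, ih, Finset.prod_range_succ_comm, mul_assoc, sub_mul, map_sub,
      CT2_cl_X_mul, mul_assoc, MvPolynomial.C_mul', map_smul, CT2_cl_X_mul]
    rfl

/-- the sequence `1, 0, …, 0, ζ, ζ², …` -/
noncomputable def CT2_c (ζ : ℂ) (d r : ℕ) : ℂ := if r = 0 then 1 else if r ≤ d then 0 else ζ ^ (r - d)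

@[to_additive CT2_sum_lo]
theorem CT2_prod_lo {R : Type*} [CommMonoid R] (f : ℂ → R) (ζ : ℂ) {d k : ℕ} (hk : k ≤ d) :
    ∏ r ∈ Finset.range (k + 1), f (CT2_c ζ d r) = f 0 ^ k * f 1 := by
  induction k with
  | zero => simp [CT2_c]
  | succ k ih =>
    rw [Finset.prod_range_succ, ih (by omega), pow_succ, CT2_c, if_neg (by omega), if_pos hk,
      mul_right_comm]

@[to_additive CT2_sum_hi]
theorem CT2_prod_hi {R : Type*} [CommMonoid R] (f : ℂ → R) (ζ : ℂ) (d s : ℕ) :
    ∏ r ∈ Finset.range (d + s + 1), f (CT2_c ζ d r) =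
      f 0 ^ d * ∏ i ∈ Finset.range (s + 1), f (ζ ^ i) := by
  induction s with
  | zero => rw [Nat.add_zero, CT2_prod_lo f ζ le_rfl, Finset.prod_range_one, pow_zero]
  | succ s ih =>
    rw [← Nat.add_assoc, Finset.prod_range_succ, ih, Finset.prod_range_succ _ (s + 1), CT2_c,
      if_neg (by omega), if_neg (by omega), show d + s + 1 - d = s + 1 by omega, mul_assoc]

theorem exists_c (z t : Fin n) {a b : ℕ} (hb : 2 ≤ b) (hba : b ≤ a) :
    ∃ c : ℕ → ℂ, (∀ k, 1 ≤ k → k < a → ∑ r ∈ Finset.range k, c r ≠ 0) ∧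
      ∀ μ : Fin n →₀ ℕ, Gop c z t a (single μ 1) =
        single (μ + single z a) 1 - single (μ + single z (a - b) + single t b) 1 := by
  have hζ := Complex.isPrimitiveRoot_exp b (by omega)
  set ζ := Complex.exp (2 * Real.pi * Complex.I / b)
  refine ⟨CT2_c ζ (a - b), fun k hk hka => ?_, fun μ => ?_⟩
  · obtain ⟨k, rfl⟩ : ∃ k', k = k' + 1 := ⟨k - 1, by omega⟩
    by_cases h : k ≤ a - b
    · have := CT2_sum_lo id ζ h
      simp only [id, nsmul_zero, zero_add] at this
      rw [this]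
      exact one_ne_zero
    · obtain ⟨s, rfl⟩ : ∃ s, k = a - b + s := ⟨k - (a - b), by omega⟩
      have := CT2_sum_hi id ζ (a - b) s
      simp only [id, nsmul_zero, zero_add] at this
      rw [this]
      intro h0
      have h1 := mul_geom_sum ζ (s + 1)
      rw [h0, mul_zero] at h1
      exact hζ.pow_ne_one_of_pos_of_lt (l := s + 1) (by omega) (by omega) (sub_eq_zero.1 h1.symm)
  · have h1 := X_pow_sub_C_eq_prod (R := MvPolynomial (Fin n) ℂ)
      (hζ.map_of_injective (f := MvPolynomial.C) (MvPolynomial.C_injective _ _))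
      (α := MvPolynomial.X t) (by omega) rfl
    have h2 := congrArg (Polynomial.eval (MvPolynomial.X z)) h1
    simp only [Polynomial.eval_sub, Polynomial.eval_pow, Polynomial.eval_X, Polynomial.eval_C,
      Polynomial.eval_prod, ← map_pow] at h2
    have h3 := CT2_prod_hi (fun w : ℂ => (MvPolynomial.X z - MvPolynomial.C w * MvPolynomial.X t :
      MvPolynomial (Fin n) ℂ)) ζ (a - b) (b - 1)
    rw [show a - b + (b - 1) + 1 = a by omega, show b - 1 + 1 = b by omega, ← h2, map_zero,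
      zero_mul, sub_zero, mul_sub, ← pow_add, show a - b + b = a by omega] at h3
    rw [← CT2_cl_monomial, CT2_Gop, h3, sub_mul, map_sub, MvPolynomial.X_pow_eq_monomial,
      MvPolynomial.X_pow_eq_monomial, MvPolynomial.X_pow_eq_monomial, MvPolynomial.monomial_mul,
      MvPolynomial.monomial_mul, MvPolynomial.monomial_mul, CT2_cl_monomial, CT2_cl_monomial,
      one_mul, one_mul, add_comm _ μ, add_comm _ μ, add_assoc]

theorem CT2_lead {V : ℤ → Submodule ℂ (PX ℂ n)} {μ : Fin n →₀ ℕ}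
    (h : single μ 1 ∈ V (μ.degree : ℤ)) : μ ∈ lead (rlw n) V := by
  classical
  refine ⟨_, h, by simp, fun ν hν => ?_⟩
  rw [single_apply] at hν
  split_ifs at hν with e
  · rw [e]
  · exact absurd rfl hν

theorem CT2_mul_pow {V : ℤ → Submodule ℂ (PX ℂ n)} (hV : Stable (sh ℂ n) S V) (hz : z ∈ S)
    {μ : Fin n →₀ ℕ} (h : single μ 1 ∈ V (μ.degree : ℤ)) (k : ℕ) :
    single (μ + single z k) 1 ∈ V ((μ + single z k).degree : ℤ) := by
  induction k with
  | zero => simpa using h
  | succ k ih =>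
    have := hV z hz _ _ ih
    rw [sh_single] at this
    rw [single_add, ← add_assoc, degree_add_single]
    exact_mod_cast this

theorem good_lead {a : Fin n → ℕ} (ha : ∀ i, 0 < a i) (hz : z ∈ S) (ht : t ∈ S) (htz : t ≠ z)
    (hM : Good a S M) (hle : a t ≤ a z)
    (hG : Gop c z t (a z) (single 0 1) =
      single (0 + single z (a z)) 1 - single (0 + single z (a z - a t) + single t (a t)) 1) :
    Good a S (lead (rlw n) (TF c z t M)) := by
  have hst := TF_stable c ht htz hM.mul
  have hmem : ∀ s ∈ S, (single (single s (a s)) 1 : PX ℂ n) ∈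
      monF ℂ M ((single s (a s)).degree : ℤ) := fun s hs =>
    single_mem_supported ℂ 1 ⟨hM.single_mem hs, rfl⟩
  have hne : ∀ s ∈ S, s ≠ z → (single (single s (a s)) 1 : PX ℂ n) ∈
      TF c z t M ((single s (a s)).degree : ℤ) := fun s hs hsz =>
    ⟨_, hmem s hs, Top_single_of_zero c (single_eq_of_ne hsz.symm)⟩
  refine good_of_pow ha (lead_subset _ (TF_le c hz ht hM.sub)) (lead_add _ hst)
    fun s hs => CT2_lead ?_
  by_cases hsz : s = z
  · subst hsz
    have h1 : Top c s t (single (single s (a s)) 1) ∈ TF c s t M ((single s (a s)).degree : ℤ) :=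
      ⟨_, hmem s hs, rfl⟩
    rw [Top_single, single_eq_same, erase_single, hG, zero_add, zero_add] at h1
    have h2 := CT2_mul_pow hst hs (hne t ht htz) (a s - a t)
    have e : (single t (a t) + single s (a s - a t)).degree = (single s (a s)).degree := by
      rw [degree_add_single, degree_single, degree_single]
      omega
    rw [e, add_comm] at h2
    simpa using Submodule.add_mem _ h1 h2
  · exact hne s hs hsz

end Crest.Agent.R181
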