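import Crest.Agent.R181.CT2

/-! # Row 181, part C: the initial ideal of `TF M` has fewer monomials of large `z`-exponent.
Let `Q = {μ | i < μ z}`, `V' k = TF M k ⊓ supported Q`.  As `z` is the largest variable, the `rlw`-leading
monomial of `v ∈ monF (AS S)` has the least `z`-exponent in the support (`rlw_lt_iff`), so
`lead V' = lead (TF M) ∩ Q` and (`finrank_lead`, `finrank_monF`) the left sides are `finrank (V' d)`.
`V' d = map Top W'` with `W' = monF M d ⊓ comap Top (supported Q)`.  The map `u ↦ u.filter (· ∈ Q)` sends `W'` to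
`monF (M ∩ Q) d` injectively (if the filter vanishes, `Top u` has `z`-exponents `≤ i` by `Top_le` and `> i`,
so `Top u = 0`).  If it were onto in `count_lt`, some `u = single (ν + z) 1 + u' ∈ W'` has `u'` supported in
`M ∩ {μ z ≤ ν z}`, and `0 = Top u (ν + t) = -∑ c r + u' (ν + t) = -∑ c r` (`Top_sub`, `Top_top`). -/

set_option autoImplicit false

namespace Crest.Agent.R181

open Finsupp

variable {n : ℕ} {S : Finset (Fin n)} {z t : Fin n} {M : Set (Fin n →₀ ℕ)} (c : ℕ → ℂ)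

/-- `W'` of the recipe -/
noncomputable def ct3W (z t : Fin n) (M : Set (Fin n →₀ ℕ)) (i : ℕ) (k : ℤ) :
    Submodule ℂ (PX ℂ n) :=
  monF ℂ M k ⊓ (Finsupp.supported ℂ ℂ {μ : Fin n →₀ ℕ | i < μ z}).comap (Top c z t)

open Classical in
/-- the filter map -/
noncomputable def ct3F (z t : Fin n) (M : Set (Fin n →₀ ℕ)) (i : ℕ) (k : ℤ) :
    ct3W c z t M i k →ₗ[ℂ] monF ℂ (M ∩ {μ | i < μ z}) k :=
  Finsupp.restrictDom ℂ ℂ {μ | μ ∈ M ∩ {μ | i < μ z} ∧ (μ.degree : ℤ) = k} ∘ₗ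
    (ct3W c z t M i k).subtype

open Classical in
theorem ct3_apply {i : ℕ} {k : ℤ} (u : ct3W c z t M i k) {μ : Fin n →₀ ℕ} (hμ : i < μ z) :
    (ct3F c z t M i k u).1 μ = u.1 μ := by
  have e : (ct3F c z t M i k u).1 =
      u.1.filter (· ∈ {μ | μ ∈ M ∩ {μ | i < μ z} ∧ (μ.degree : ℤ) = k}) :=
    Finsupp.restrictDom_apply _ _
  rw [e, Finsupp.filter_apply]
  split_ifs with h
  · rfl
  · by_contra hne
    have h1 := (Finsupp.mem_supported ℂ _).1 u.2.1 (Finsupp.mem_support_iff.2 (Ne.symm hne))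
    exact h ⟨⟨h1.1, hμ⟩, h1.2⟩

theorem ct3_fin (z t : Fin n) (M : Set (Fin n →₀ ℕ)) (i : ℕ) (k : ℤ) :
    Module.Finite ℂ (ct3W c z t M i k) := by
  have := monF_fd (D := ℂ) M k
  exact Submodule.finiteDimensional_of_le (inf_le_left : ct3W c z t M i k ≤ monF ℂ M k)

theorem ct3_inj (htz : t ≠ z) (M : Set (Fin n →₀ ℕ)) (i : ℕ) (k : ℤ) :
    Function.Injective (ct3F c z t M i k) := by
  rw [injective_iff_map_eq_zero]
  intro u hu
  have h1 : ∀ μ, u.1 μ ≠ 0 → μ z ≤ i := by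
    intro μ hμ
    by_contra hlt
    apply hμ
    rw [← ct3_apply c u (not_le.1 hlt), hu]
    rfl
  have h2 : Top c z t u.1 = 0 := by
    ext ν
    by_contra hne
    have h3 : i < ν z := (Finsupp.mem_supported ℂ _).1 u.2.2 (Finsupp.mem_support_iff.2 hne)
    exact absurd (Top_le c htz h1 ν hne) (not_le.2 h3)
  exact Subtype.ext ((injective_iff_map_eq_zero _).1 (Top_injective c htz) _ h2)

theorem ct3_le_W (hz : z ∈ S) (hmax : ∀ s ∈ S, s ≤ z) (ht : t ∈ S) (hM : M ⊆ AS S) (i d : ℕ) :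
    hf (lead (rlw n) (TF c z t M) ∩ {μ | i < μ z}) d ≤ Module.finrank ℂ (ct3W c z t M i d) := by
  let V : ℤ → Submodule ℂ (PX ℂ n) := fun k =>
    TF c z t M k ⊓ Finsupp.supported ℂ ℂ {μ : Fin n →₀ ℕ | i < μ z}
  have hV : ∀ k, V k ≤ monF ℂ Set.univ k := fun k =>
    inf_le_left.trans ((TF_le c hz ht hM k).trans (monF_mono (Set.subset_univ _) k))
  have h1 : hf (lead (rlw n) (TF c z t M) ∩ {μ | i < μ z}) d ≤ hf (lead (rlw n) V) d := by
    refine hf_mono ?_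
    rintro μ ⟨⟨v, hv, hμ, hl⟩, hi⟩ -
    refine ⟨v, ⟨hv, (Finsupp.mem_supported ℂ _).2 fun ν hν => ?_⟩, hμ, hl⟩
    have hν' : v ν ≠ 0 := Finsupp.mem_support_iff.1 hν
    have hAS : ∀ κ, v κ ≠ 0 → κ ∈ AS S := fun κ hκ =>
      ((Finsupp.mem_supported ℂ _).1 (TF_le c hz ht hM _ hv) (Finsupp.mem_support_iff.2 hκ)).1
    have h2 : μ z ≤ ν z := by
      by_contra hlt
      refine absurd (hl ν hν') (not_le.2 ((rlw_lt_iff ν μ).2 ⟨z, fun j hj => ?_, not_le.1 hlt⟩))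
      have hj' : j ∉ S := fun hjS => absurd (hmax j hjS) (not_le.2 hj)
      rw [hAS ν hν' j hj', hAS μ hμ j hj']
    exact lt_of_lt_of_le hi h2
  refine h1.trans ?_
  rw [← finrank_monF (D := ℂ), finrank_lead _ rlw_injective hV]
  have := ct3_fin c z t M i d
  have e : V d = (ct3W c z t M i d).map (Top c z t) := Submodule.map_inf_eq_map_inf_comap
  rw [e]
  exact Submodule.finrank_map_le _ _

theorem count_le (hz : z ∈ S) (hmax : ∀ s ∈ S, s ≤ z) (ht : t ∈ S) (htz : t ≠ z) (hM : M ⊆ AS S)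
    (i d : ℕ) :
    hf (lead (rlw n) (TF c z t M) ∩ {μ | i < μ z}) d ≤ hf (M ∩ {μ | i < μ z}) d := by
  refine (ct3_le_W c hz hmax ht hM i d).trans ?_
  rw [← finrank_monF (D := ℂ)]
  have := monF_fd (D := ℂ) (M ∩ {μ | i < μ z}) d
  exact LinearMap.finrank_le_finrank_of_injective (ct3_inj c htz M i d)

theorem count_lt (hz : z ∈ S) (hmax : ∀ s ∈ S, s ≤ z) (ht : t ∈ S) (htz : t ≠ z) (hM : M ⊆ AS S)
    {ν : Fin n →₀ ℕ} (h1 : ν + single z 1 ∈ M) (h2 : ν + single t 1 ∉ M)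
    (hc : ∑ r ∈ Finset.range (ν z + 1), c r ≠ 0) :
    hf (lead (rlw n) (TF c z t M) ∩ {μ | ν z < μ z}) (ν.degree + 1) <
      hf (M ∩ {μ | ν z < μ z}) (ν.degree + 1) := by
  refine (ct3_le_W c hz hmax ht hM (ν z) (ν.degree + 1)).trans_lt ?_
  rw [← finrank_monF (D := ℂ)]
  have := monF_fd (D := ℂ) (M ∩ {μ | ν z < μ z}) ((ν.degree + 1 : ℕ) : ℤ)
  have := ct3_fin c z t M (ν z) ((ν.degree + 1 : ℕ) : ℤ)
  have hinj := ct3_inj c htz M (ν z) ((ν.degree + 1 : ℕ) : ℤ)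
  refine lt_of_le_of_ne (LinearMap.finrank_le_finrank_of_injective hinj) fun he => hc ?_
  have hmem : (single (ν + single z 1) 1 : PX ℂ n) ∈
      monF ℂ (M ∩ {μ | ν z < μ z}) ((ν.degree + 1 : ℕ) : ℤ) :=
    Finsupp.single_mem_supported ℂ _ ⟨⟨h1, by simp⟩, by rw [degree_add_single]⟩
  obtain ⟨u, hu⟩ := (LinearMap.injective_iff_surjective_of_finrank_eq_finrank he).1 hinj ⟨_, hmem⟩
  have htz' : (ν + single t 1 : Fin n →₀ ℕ) z = ν z := by simp [htz.symm]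
  have hu' : ∀ μ, (u.1 - single (ν + single z 1) 1 : PX ℂ n) μ ≠ 0 → μ z ≤ ν z := by
    intro μ hμ
    by_contra hlt
    apply hμ
    rw [Finsupp.sub_apply, ← ct3_apply c u (not_le.1 hlt), hu, sub_self]
  have e1 := Top_top c htz hu' htz'
  have e2 : Top c z t u.1 (ν + single t 1) = 0 := by
    by_contra hne
    have h3 : ν z < (ν + single t 1 : Fin n →₀ ℕ) z :=
      (Finsupp.mem_supported ℂ _).1 u.2.2 (Finsupp.mem_support_iff.2 hne)
    omega
  have e3 : u.1 (ν + single t 1) = 0 := by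
    by_contra hne
    exact h2 ((Finsupp.mem_supported ℂ _).1 u.2.1 (Finsupp.mem_support_iff.2 hne)).1
  have e4 : (single (ν + single z 1) 1 : PX ℂ n) (ν + single t 1) = 0 :=
    Finsupp.single_eq_of_ne fun e => h2 (e ▸ h1)
  rw [map_sub, Finsupp.sub_apply, Finsupp.sub_apply, e2, e3, e4, Top_sub c htz] at e1
  simpa using e1

end Crest.Agent.R181
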