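import Crest.Agent.R181.CDefs

/-! # Row 181, part C: removing the last variable `z` from the Koszul complex.
Recipe for `finrank_Zc_insert` (`S' = insert z S`, `A' = AS S'`).  For a chain `c` put
`c⁰ T = if z ∈ T then 0 else c T`, `c¹ T = if z ∈ T then 0 else c (insert z T)`.  As `z` is larger than
all of `S`: for `U ⊆ S`, `kd c U = kd c⁰ U + (-1)^|U| • sh z (c¹ U)` and `kd c (insert z U) = kd c¹ U`.
Let `π x = x.filter (· z = 0)` and `δ x = comapDomain (· + single z 1) x` (linear: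
`Finsupp.lcomapDomain`); both commute with `sh t`, `t ≠ z`, `x = π x + sh z (δ x)`, `π (sh z y) = 0`,
`δ (sh z y) = y`, `δ (π x) = 0`, and `x ∈ monF M k ↔ π x ∈ monF (comp S z M 0) k ∧ δ x ∈ monF (colon z M) (k-1)`.
The map `c ↦ (π ∘ c⁰, δ ∘ c⁰, kd (δ ∘ c⁰) + (-1)^q • c¹)` is a linear equivalence from the left `Zc` onto
the product of the three spaces on the right (use `kd_kd sh_comm`, `kd_mem_Ch`; `kd` only sees `t ∈ S`
on chains supported on subsets of `S`).  Build it with `LinearEquiv.ofBijective` of a `codRestrict`, or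
prove two `finrank` inequalities with injective maps.
`zd_zero`, `zd_succ`: `beta_formula` three times, `finrank_Ch`, `finrank_monF_eq_fr`, `fr_colon` (for `M`
and for `A'`, with `comp_AS`, `colon_AS`), Pascal `Nat.choose_succ_succ`, `Finset.card_insert_of_notMem`;
`Zc … 0 j = Ch … 0 j` by `kd_eq_zero_of_mem_Ch_zero`. -/

set_option autoImplicit false

namespace Crest.Agent.R181

open Finsupp

variable {n : ℕ} {S : Finset (Fin n)} {z : Fin n} {M : Set (Fin n →₀ ℕ)}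

section chains

variable {X : Type*} [AddCommGroup X] [Module ℂ X]

/-- chains supported on subsets of `S` -/
def CZD_Sup (S : Finset (Fin n)) (c : Finset (Fin n) → X) : Prop := ∀ T, ¬ T ⊆ S → c T = 0

/-- `v ↦ e_z ∧ v` -/
noncomputable def CZD_G (X : Type*) [AddCommGroup X] [Module ℂ X] (z : Fin n) :
    (Finset (Fin n) → X) →ₗ[ℂ] (Finset (Fin n) → X) :=
  LinearMap.pi fun T => if z ∈ T then LinearMap.proj (T.erase z) else 0

theorem CZD_G_apply (v : Finset (Fin n) → X) (T : Finset (Fin n)) :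
    CZD_G X z v T = if z ∈ T then v (T.erase z) else 0 := by
  unfold CZD_G
  rw [LinearMap.pi_apply]
  split_ifs <;> rfl

theorem CZD_Sup_of_mem {F : ℤ → Submodule ℂ X} {p : ℕ} {j : ℤ} {c : Finset (Fin n) → X}
    (h : c ∈ Ch S F p j) : CZD_Sup S c := fun T hT => (mem_Ch.1 h).2 T fun h' => hT h'.1

theorem CZD_not (hz : z ∉ S) {T : Finset (Fin n)} (hT : z ∈ T) : ¬ T ⊆ S := fun h => hz (h hT)

theorem CZD_glue_not {u v : Finset (Fin n) → X} {T : Finset (Fin n)} (hT : z ∉ T) :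
    (u + CZD_G X z v) T = u T := by
  rw [Pi.add_apply, CZD_G_apply, if_neg hT, add_zero]

theorem CZD_glue_mem (hz : z ∉ S) {u v : Finset (Fin n) → X} (hu : CZD_Sup S u)
    {T : Finset (Fin n)} (hT : z ∈ T) : (u + CZD_G X z v) T = v (T.erase z) := by
  rw [Pi.add_apply, CZD_G_apply, if_pos hT, hu T (CZD_not hz hT), zero_add]

theorem CZD_glue_insert (hz : z ∉ S) {u v : Finset (Fin n) → X} (hu : CZD_Sup S u)
    {T : Finset (Fin n)} (hT : z ∉ T) : (u + CZD_G X z v) (insert z T) = v T := by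
  rw [CZD_glue_mem hz hu (Finset.mem_insert_self _ _), Finset.erase_insert hT]

theorem CZD_glue_eq_zero (hz : z ∉ S) {u v : Finset (Fin n) → X} (hu : CZD_Sup S u)
    (hv : CZD_Sup S v) (h : u + CZD_G X z v = 0) : u = 0 ∧ v = 0 := by
  refine ⟨funext fun T => ?_, funext fun T => ?_⟩
  · by_cases hT : z ∈ T
    · exact hu T (CZD_not hz hT)
    · rw [← CZD_glue_not (u := u) (v := v) hT, h]
  · by_cases hT : z ∈ T
    · exact hv T (CZD_not hz hT)
    · rw [← CZD_glue_insert (v := v) hz hu hT, h]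
      rfl

theorem CZD_exists_glue {c : Finset (Fin n) → X} (hc : CZD_Sup (insert z S) c) :
    ∃ u v, CZD_Sup S u ∧ CZD_Sup S v ∧ c = u + CZD_G X z v := by
  refine ⟨fun T => if z ∈ T then 0 else c T, fun T => if z ∈ T then 0 else c (insert z T),
    fun T hT => ?_, fun T hT => ?_, funext fun T => ?_⟩
  · dsimp only
    split_ifs with h
    · rfl
    · exact hc T fun h' => hT ((Finset.subset_insert_iff_of_notMem h).1 h')
  · dsimp only
    split_ifs with h
    · rfl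
    · exact hc _ fun h' => hT ((Finset.subset_insert_iff_of_notMem h).1
        ((Finset.subset_insert _ _).trans h'))
  · rw [Pi.add_apply, CZD_G_apply]
    by_cases h : z ∈ T
    · simp [h, Finset.insert_erase h]
    · simp [h]

theorem CZD_glue_left (hz : z ∉ S) {u v : Finset (Fin n) → X} (hu : CZD_Sup S u)
    {F : ℤ → Submodule ℂ X} {p : ℕ} {j : ℤ} (h : u + CZD_G X z v ∈ Ch (insert z S) F p j) :
    u ∈ Ch S F p j := by
  rw [mem_Ch] at h ⊢
  refine ⟨fun T h1 h2 => ?_, fun T h1 => ?_⟩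
  · rw [← CZD_glue_not (u := u) (v := v) fun hT => hz (h1 hT)]
    exact h.1 T (h1.trans (Finset.subset_insert _ _)) h2
  · by_cases hT : T ⊆ S
    · rw [← CZD_glue_not (u := u) (v := v) fun hT' => hz (hT hT')]
      exact h.2 T fun h2 => h1 ⟨hT, h2.2⟩
    · exact hu T hT

theorem CZD_glue_right (hz : z ∉ S) {u v : Finset (Fin n) → X} (hu : CZD_Sup S u)
    (hv : CZD_Sup S v) {F : ℤ → Submodule ℂ X} {p : ℕ} {j : ℤ}
    (h : u + CZD_G X z v ∈ Ch (insert z S) F (p + 1) j) : v ∈ Ch S F p (j - 1) := by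
  rw [mem_Ch] at h ⊢
  refine ⟨fun T h1 h2 => ?_, fun T h1 => ?_⟩
  · have hT : z ∉ T := fun hT => hz (h1 hT)
    have := h.1 (insert z T) (Finset.insert_subset_insert _ h1)
      (by rw [Finset.card_insert_of_notMem hT, h2])
    rw [CZD_glue_insert hz hu hT] at this
    convert this using 2
    push_cast
    ring
  · by_cases hT : T ⊆ S
    · have hT' : z ∉ T := fun hT' => hz (hT hT')
      rw [← CZD_glue_insert (v := v) hz hu hT']
      refine h.2 _ fun h2 => h1 ⟨hT, ?_⟩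
      have := h2.2
      rw [Finset.card_insert_of_notMem hT'] at this
      omega
    · exact hv T hT

theorem CZD_Ch_insert {F : ℤ → Submodule ℂ X} {p : ℕ} {j : ℤ} {u : Finset (Fin n) → X}
    (hu : u ∈ Ch S F p j) : u ∈ Ch (insert z S) F p j := by
  rw [mem_Ch] at hu ⊢
  refine ⟨fun T _ h2 => ?_, fun T h1 => hu.2 T fun h2 =>
    h1 ⟨h2.1.trans (Finset.subset_insert _ _), h2.2⟩⟩
  by_cases hT : T ⊆ S
  · exact hu.1 T hT h2
  · rw [hu.2 T fun h => hT h.1]
    exact zero_mem _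

theorem CZD_G_mem {F : ℤ → Submodule ℂ X} {p : ℕ} {j : ℤ} {v : Finset (Fin n) → X}
    (hv : v ∈ Ch S F p (j - 1)) : CZD_G X z v ∈ Ch (insert z S) F (p + 1) j := by
  rw [mem_Ch] at hv ⊢
  refine ⟨fun T h1 h2 => ?_, fun T h1 => ?_⟩
  · rw [CZD_G_apply]
    split_ifs with hT
    · have := hv.1 (T.erase z) (Finset.subset_insert_iff.1 h1)
        (by rw [Finset.card_erase_of_mem hT, h2]; rfl)
      convert this using 2
      push_cast
      ring
    · exact zero_mem _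
  · rw [CZD_G_apply]
    split_ifs with hT
    · refine hv.2 _ fun h2 => h1 ⟨Finset.subset_insert_iff.2 h2.1, ?_⟩
      rw [← h2.2, Finset.card_erase_add_one hT]
    · rfl

theorem CZD_kd_G (hz : ∀ t ∈ S, t < z) (y : Fin n → X →ₗ[ℂ] X) {F : ℤ → Submodule ℂ X} {q : ℕ}
    {j : ℤ} {v : Finset (Fin n) → X} (hv : v ∈ Ch S F q j) :
    kd y (CZD_G X z v) =
      ((-1 : ℤ) ^ q) • (y z).compLeft (Finset (Fin n)) v + CZD_G X z (kd y v) := by
  have hzS : z ∉ S := fun h => lt_irrefl _ (hz z h)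
  have hs := CZD_Sup_of_mem hv
  funext U
  have e0 : (((-1 : ℤ) ^ q) • (y z).compLeft (Finset (Fin n)) v) U =
    ((-1 : ℤ) ^ q) • y z (v U) := rfl
  rw [Pi.add_apply, e0, CZD_G_apply, kd_apply]
  by_cases hU : z ∈ U
  · rw [if_pos hU, hs U (CZD_not hzS hU), map_zero, smul_zero, zero_add, kd_apply,
      Finset.compl_erase, Finset.sum_insert (by simpa using hU), Finset.insert_erase hU,
      hs U (CZD_not hzS hU), map_zero, smul_zero, zero_add]
    refine Finset.sum_congr rfl fun t ht => ?_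
    have htz : t ≠ z := fun h => (Finset.mem_compl.1 ht) (h ▸ hU)
    rw [CZD_G_apply, if_pos (Finset.mem_insert_of_mem hU), Finset.erase_insert_of_ne htz]
    by_cases htS : t ∈ S
    · congr 3
      ext s
      simp only [Finset.mem_filter, Finset.mem_erase]
      exact ⟨fun h => ⟨⟨(h.2.trans (hz t htS)).ne, h.1⟩, h.2⟩, fun h => ⟨h.1.2, h.2⟩⟩
    · rw [hs _ fun h => htS (h (Finset.mem_insert_self _ _)), map_zero, smul_zero, smul_zero]
  · rw [if_neg hU, add_zero, Finset.sum_eq_single z]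
    · rw [CZD_G_apply, if_pos (Finset.mem_insert_self _ _), Finset.erase_insert hU]
      by_cases h1 : U ⊆ S ∧ U.card = q
      · rw [Finset.filter_true_of_mem fun s hs => hz s (h1.1 hs), h1.2]
      · rw [(mem_Ch.1 hv).2 U h1, map_zero, smul_zero, smul_zero]
    · intro t _ htz
      rw [CZD_G_apply, if_neg (by simp [hU, htz.symm]), map_zero, smul_zero]
    · intro h
      exact absurd (Finset.mem_compl.2 hU) h

end chains

theorem CZD_sh_apply (y : PX ℂ n) (ν : Fin n →₀ ℕ) : sh ℂ n z y (ν + single z 1) = y ν :=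
  Finsupp.mapDomain_apply (add_left_injective _) y ν

theorem CZD_sh_zero (y : PX ℂ n) {μ : Fin n →₀ ℕ} (h : μ z = 0) : sh ℂ n z y μ = 0 := by
  refine Finsupp.mapDomain_of_notMem_range y μ ?_
  rintro ⟨ν, rfl⟩
  simp at h

/-- polynomials not involving `z` -/
def CZD_Free (z : Fin n) (x : PX ℂ n) : Prop := ∀ μ : Fin n →₀ ℕ, μ z ≠ 0 → x μ = 0

theorem CZD_mem_monF {M : Set (Fin n →₀ ℕ)} {k : ℤ} {x : PX ℂ n} :
    x ∈ monF ℂ M k ↔ ∀ μ, x μ ≠ 0 → μ ∈ M ∧ (μ.degree : ℤ) = k := by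
  unfold monF
  rw [Finsupp.mem_supported']
  exact forall_congr' fun μ => not_imp_comm

theorem CZD_exists (z : Fin n) (x : PX ℂ n) : ∃ a y, CZD_Free z a ∧ x = a + sh ℂ n z y := by
  induction x using Finsupp.induction_linear with
  | zero => exact ⟨0, 0, fun _ _ => rfl, by simp⟩
  | add f g hf hg =>
    obtain ⟨a, y, h1, rfl⟩ := hf
    obtain ⟨a', y', h2, rfl⟩ := hg
    refine ⟨a + a', y + y', fun μ hμ => ?_, by rw [map_add]; abel⟩
    rw [Finsupp.add_apply, h1 μ hμ, h2 μ hμ, add_zero]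
  | single μ c =>
    by_cases h : μ z = 0
    · refine ⟨single μ c, 0, fun ν hν => Finsupp.single_eq_of_ne ?_, by simp⟩
      rintro rfl
      exact hν h
    · obtain ⟨ν, rfl⟩ := exists_eq_add_single (Nat.one_le_iff_ne_zero.2 h)
      exact ⟨0, single ν c, fun _ _ => rfl, by rw [sh_single, zero_add]⟩

theorem CZD_add_free {a y : PX ℂ n} {μ : Fin n →₀ ℕ} (h : μ z = 0) :
    (a + sh ℂ n z y) μ = a μ := by
  rw [Finsupp.add_apply, CZD_sh_zero y h, add_zero]

theorem CZD_add_sh {a y : PX ℂ n} (ha : CZD_Free z a) (ν : Fin n →₀ ℕ) :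
    (a + sh ℂ n z y) (ν + single z 1) = y ν := by
  rw [Finsupp.add_apply, CZD_sh_apply, ha _ (by simp), zero_add]

theorem CZD_eq_zero {a y : PX ℂ n} (ha : CZD_Free z a) (h : a + sh ℂ n z y = 0) :
    a = 0 ∧ y = 0 := by
  refine ⟨Finsupp.ext fun μ => ?_, Finsupp.ext fun ν => ?_⟩
  · by_cases hμ : μ z = 0
    · rw [← CZD_add_free (y := y) hμ, h]
    · exact ha μ hμ
  · rw [← CZD_add_sh ha ν, h]
    rfl

theorem CZD_mem_iff (hz : z ∉ S) (hsub : M ⊆ AS (insert z S)) {a y : PX ℂ n} (ha : CZD_Free z a)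
    {k : ℤ} : a + sh ℂ n z y ∈ monF ℂ M k ↔
      a ∈ monF ℂ (comp S z M 0) k ∧ y ∈ monF ℂ (colon z M) (k - 1) := by
  simp only [CZD_mem_monF]
  constructor
  · refine fun h => ⟨fun μ hμ => ?_, fun ν hν => ?_⟩
    · have h0 : μ z = 0 := by_contra fun h0 => hμ (ha μ h0)
      have := h μ (by rwa [CZD_add_free h0])
      exact ⟨⟨(mem_AS_iff hz).2 ⟨hsub this.1, h0⟩, by simpa using this.1⟩, this.2⟩
    · have := h _ (by rwa [CZD_add_sh ha])
      rw [degree_add_single] at this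
      refine ⟨this.1, ?_⟩
      have := this.2
      omega
  · rintro ⟨h1, h2⟩ μ hμ
    by_cases h0 : μ z = 0
    · rw [CZD_add_free h0] at hμ
      exact ⟨by simpa using (h1 μ hμ).1.2, (h1 μ hμ).2⟩
    · obtain ⟨ν, rfl⟩ := exists_eq_add_single (Nat.one_le_iff_ne_zero.2 h0)
      rw [CZD_add_sh ha] at hμ
      refine ⟨(h2 ν hμ).1, ?_⟩
      have := (h2 ν hμ).2
      rw [degree_add_single]
      omega

theorem CZD_Ch_iff (hz : z ∉ S) (hsub : M ⊆ AS (insert z S)) {a y : Finset (Fin n) → PX ℂ n}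
    (ha : ∀ T, CZD_Free z (a T)) {p : ℕ} {j : ℤ} :
    a + (sh ℂ n z).compLeft (Finset (Fin n)) y ∈ Ch S (monF ℂ M) p j ↔
      a ∈ Ch S (monF ℂ (comp S z M 0)) p j ∧ y ∈ Ch S (monF ℂ (colon z M)) p (j - 1) := by
  have e : ∀ T, (a + (sh ℂ n z).compLeft (Finset (Fin n)) y) T = a T + sh ℂ n z (y T) :=
    fun _ => rfl
  simp only [mem_Ch, e, CZD_mem_iff hz hsub (ha _), sub_right_comm j 1]
  constructor
  · exact fun h => ⟨⟨fun T h1 h2 => (h.1 T h1 h2).1, fun T h1 => (CZD_eq_zero (ha T) (h.2 T h1)).1⟩,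
      fun T h1 h2 => (h.1 T h1 h2).2, fun T h1 => (CZD_eq_zero (ha T) (h.2 T h1)).2⟩
  · refine fun h => ⟨fun T h1 h2 => ⟨h.1.1 T h1 h2, h.2.1 T h1 h2⟩, fun T h1 => ?_⟩
    rw [h.1.2 T h1, h.2.2 T h1, map_zero, add_zero]

theorem CZD_free_of_mem (hz : z ∉ S) {a : Finset (Fin n) → PX ℂ n} {p : ℕ} {j : ℤ}
    (ha : a ∈ Ch S (monF ℂ (AS S)) p j) (T : Finset (Fin n)) : CZD_Free z (a T) := by
  intro μ hμ
  by_cases h : T ⊆ S ∧ T.card = p
  · by_contra h1
    exact hμ ((CZD_mem_monF.1 ((mem_Ch.1 ha).1 T h.1 h.2) μ h1).1 z hz)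
  · rw [(mem_Ch.1 ha).2 T h]
    rfl

theorem CZD_stable' : Stable (sh ℂ n) S (monF ℂ (AS (insert z S))) :=
  monF_stable fun μ hμ t ht => AS_mul μ hμ t (Finset.mem_insert_of_mem ht)

theorem CZD_colon_le (hsub : M ⊆ AS (insert z S)) : colon z M ⊆ AS (insert z S) :=
  fun _ h => (AS_add.1 (hsub h)).1

theorem CZD_sign (q : ℕ) {Y : Type*} [AddCommGroup Y] (y : Y) :
    ((-1 : ℤ) ^ q) • ((-1 : ℤ) ^ q) • y = y := by
  rw [smul_smul, ← mul_pow]
  simp

/-- the differential of a glued chain -/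
theorem CZD_kd_glue (hz : ∀ t ∈ S, t < z) {q : ℕ} {j : ℤ} (a : Finset (Fin n) → PX ℂ n)
    {b e : Finset (Fin n) → PX ℂ n} (hb : b ∈ Ch S (monF ℂ (AS (insert z S))) (q + 1) j)
    (he : e ∈ Ch S (monF ℂ (AS (insert z S))) q j) :
    kd (sh ℂ n) (a + (sh ℂ n z).compLeft (Finset (Fin n)) b +
        CZD_G _ z (((-1 : ℤ) ^ q) • (e - kd (sh ℂ n) b))) =
      kd (sh ℂ n) a + (sh ℂ n z).compLeft (Finset (Fin n)) e +
        CZD_G _ z (((-1 : ℤ) ^ q) • kd (sh ℂ n) e) := by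
  rw [map_add, map_add, CZD_kd_G hz _ (zsmul_mem (sub_mem he (kd_mem_Ch CZD_stable' hb)) _),
    kb2_kd_map (sh ℂ n z) (z := sh ℂ n) (fun t _ x => sh_comm z t x) hb, map_zsmul, CZD_sign,
    map_zsmul, map_sub, map_sub, kd_kd sh_comm, sub_zero]
  abel

theorem CZD_Zc_zero {X : Type*} [AddCommGroup X] [Module ℂ X] (y : Fin n → X →ₗ[ℂ] X)
    (S : Finset (Fin n)) (U L : ℤ → Submodule ℂ X) (j : ℤ) : Zc y S U L 0 j = Ch S U 0 j :=
  inf_eq_left.2 fun c hc => by
    rw [Submodule.mem_comap, kd_eq_zero_of_mem_Ch_zero y hc]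
    exact zero_mem _

theorem CZD_finrank_Ch (S : Finset (Fin n)) (M : Set (Fin n →₀ ℕ)) (p : ℕ) (j : ℤ) :
    (Module.finrank ℂ (Ch S (monF ℂ M) p j) : ℤ) = S.card.choose p * fr M (j - p) := by
  rw [finrank_Ch (monF_fd M), Nat.cast_mul, finrank_monF_eq_fr]

theorem finrank_Zc_insert (hz : ∀ t ∈ S, t < z) (hsub : M ⊆ AS (insert z S)) (q : ℕ) (j : ℤ) :
    Module.finrank ℂ
        (Zc (sh ℂ n) (insert z S) (monF ℂ (AS (insert z S))) (monF ℂ M) (q + 1) j) =
      Module.finrank ℂ (Zc (sh ℂ n) S (monF ℂ (AS S)) (monF ℂ (comp S z M 0)) (q + 1) j) +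
      Module.finrank ℂ (Ch S (monF ℂ (AS (insert z S))) (q + 1) (j - 1)) +
      Module.finrank ℂ (Zc (sh ℂ n) S (monF ℂ (colon z M)) (monF ℂ M) q (j - 1)) := by
  have hzS : z ∉ S := fun h => lt_irrefl _ (hz z h)
  have hA := @CZD_Ch_iff n S z _ hzS le_rfl
  rw [comp_AS, colon_AS (Finset.mem_insert_self _ _)] at hA
  have hcol : ∀ p i, Ch S (monF ℂ (colon z M)) p i ≤ Ch S (monF ℂ (AS (insert z S))) p i :=
    fun _ _ => Ch_mono (monF_mono (CZD_colon_le hsub) _)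
  set Z1 := Zc (sh ℂ n) S (monF ℂ (AS S)) (monF ℂ (comp S z M 0)) (q + 1) j with hZ1
  set C2 := Ch S (monF ℂ (AS (insert z S))) (q + 1) (j - 1) with hC2
  set Z3 := Zc (sh ℂ n) S (monF ℂ (colon z M)) (monF ℂ M) q (j - 1) with hZ3
  have f1 : Module.Finite ℂ Z1 :=
    have := Ch_finite (S := S) (monF_fd (D := ℂ) (AS S)) (q + 1) j
    Submodule.finiteDimensional_of_le (S₂ := Ch S (monF ℂ (AS S)) (q + 1) j) inf_le_left
  have f2 : Module.Finite ℂ C2 := Ch_finite (monF_fd _) _ _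
  have f3 : Module.Finite ℂ Z3 :=
    have := Ch_finite (S := S) (monF_fd (D := ℂ) (colon z M)) q (j - 1)
    Submodule.finiteDimensional_of_le (S₂ := Ch S (monF ℂ (colon z M)) q (j - 1)) inf_le_left
  let Φ : ((Z1 × C2) × Z3) →ₗ[ℂ] (Finset (Fin n) → PX ℂ n) :=
    Z1.subtype ∘ₗ LinearMap.fst ℂ _ _ ∘ₗ LinearMap.fst ℂ _ _ +
      (sh ℂ n z).compLeft (Finset (Fin n)) ∘ₗ C2.subtype ∘ₗ LinearMap.snd ℂ _ _ ∘ₗ
        LinearMap.fst ℂ _ _ +
      CZD_G _ z ∘ₗ (((-1 : ℤ) ^ q) • (Z3.subtype ∘ₗ LinearMap.snd ℂ _ _ -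
        kd (sh ℂ n) ∘ₗ C2.subtype ∘ₗ LinearMap.snd ℂ _ _ ∘ₗ LinearMap.fst ℂ _ _))
  have hΦ : ∀ (a : Z1) (b : C2) (e : Z3), Φ ((a, b), e) =
      a.1 + (sh ℂ n z).compLeft (Finset (Fin n)) b.1 +
        CZD_G _ z (((-1 : ℤ) ^ q) • (e.1 - kd (sh ℂ n) b.1)) := fun _ _ _ => rfl
  have hu : ∀ (a : Z1) (b : C2), a.1 + (sh ℂ n z).compLeft (Finset (Fin n)) b.1 ∈
      Ch S (monF ℂ (AS (insert z S))) (q + 1) j := fun a b =>
    (hA (CZD_free_of_mem hzS a.2.1)).2 ⟨a.2.1, b.2⟩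
  have hv : ∀ (b : C2) (e : Z3), ((-1 : ℤ) ^ q) • (e.1 - kd (sh ℂ n) b.1) ∈
      Ch S (monF ℂ (AS (insert z S))) q (j - 1) := fun b e =>
    zsmul_mem (sub_mem (hcol _ _ e.2.1) (kd_mem_Ch CZD_stable' b.2)) _
  have hinj : Function.Injective Φ := by
    rw [injective_iff_map_eq_zero]
    rintro ⟨⟨a, b⟩, e⟩ h
    rw [hΦ] at h
    obtain ⟨h1, h2⟩ := CZD_glue_eq_zero hzS (CZD_Sup_of_mem (hu a b)) (CZD_Sup_of_mem (hv b e)) h
    have h3 := fun T => CZD_eq_zero (CZD_free_of_mem hzS a.2.1 T) (congrFun h1 T)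
    have ha : a = 0 := Subtype.ext (funext fun T => (h3 T).1)
    have hb : b = 0 := Subtype.ext (funext fun T => (h3 T).2)
    have h4 := congrArg (fun y => ((-1 : ℤ) ^ q) • y) h2
    simp only [CZD_sign, hb, ZeroMemClass.coe_zero, map_zero, sub_zero, smul_zero] at h4
    rw [ha, hb, show e = 0 from Subtype.ext h4]
    rfl
  have hrange : LinearMap.range Φ =
      Zc (sh ℂ n) (insert z S) (monF ℂ (AS (insert z S))) (monF ℂ M) (q + 1) j := by
    apply le_antisymm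
    · rintro _ ⟨⟨⟨a, b⟩, e⟩, rfl⟩
      rw [hΦ]
      refine ⟨add_mem (CZD_Ch_insert (hu a b)) (CZD_G_mem (hv b e)), ?_⟩
      change kd (sh ℂ n) _ ∈ Ch (insert z S) (monF ℂ M) q j
      rw [CZD_kd_glue hz a.1 b.2 (hcol _ _ e.2.1)]
      refine add_mem (CZD_Ch_insert ((CZD_Ch_iff hzS hsub (CZD_free_of_mem hzS
        (kd_mem_Ch (monF_stable AS_mul) a.2.1))).2 ⟨a.2.2, e.2.1⟩)) ?_
      cases q with
      | zero =>
        rw [kd_eq_zero_of_mem_Ch_zero _ e.2.1, smul_zero, map_zero]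
        exact zero_mem _
      | succ q => exact CZD_G_mem (zsmul_mem (show _ ∈ Ch S (monF ℂ M) q (j - 1) from e.2.2) _)
    · rintro c ⟨h1, h2⟩
      obtain ⟨u, v, su, sv, rfl⟩ := CZD_exists_glue (CZD_Sup_of_mem h1)
      have h3 := CZD_glue_left hzS su h1
      have h4 := CZD_glue_right hzS su sv h1
      choose a b ha hab using fun T => CZD_exists z (u T)
      obtain rfl : u = a + (sh ℂ n z).compLeft (Finset (Fin n)) b := funext hab
      obtain ⟨h5, h6⟩ := (hA ha).1 h3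
      obtain ⟨e, rfl⟩ : ∃ e, v = ((-1 : ℤ) ^ q) • (e - kd (sh ℂ n) b) :=
        ⟨((-1 : ℤ) ^ q) • v + kd (sh ℂ n) b, by rw [add_sub_cancel_right, CZD_sign]⟩
      have h7 : e ∈ Ch S (monF ℂ (AS (insert z S))) q (j - 1) := by
        have := add_mem (zsmul_mem h4 ((-1 : ℤ) ^ q)) (kd_mem_Ch CZD_stable' h6)
        rwa [CZD_sign, sub_add_cancel] at this
      change kd (sh ℂ n) _ ∈ Ch (insert z S) (monF ℂ M) q j at h2
      rw [CZD_kd_glue hz a h6 h7] at h2
      have h8 := kd_mem_Ch (monF_stable AS_mul) h5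
      have h9 : CZD_Sup S (kd (sh ℂ n) a + (sh ℂ n z).compLeft (Finset (Fin n)) e) := by
        intro T hT
        change kd (sh ℂ n) a T + sh ℂ n z (e T) = 0
        rw [CZD_Sup_of_mem h8 T hT, CZD_Sup_of_mem h7 T hT, map_zero, add_zero]
      obtain ⟨h10, h11⟩ := (CZD_Ch_iff hzS hsub (CZD_free_of_mem hzS h8)).1
        (CZD_glue_left hzS h9 h2)
      refine ⟨((⟨a, h5, h10⟩, ⟨b, h6⟩), ⟨e, h11, ?_⟩), hΦ _ _ _⟩
      cases q with
      | zero =>
        change kd (sh ℂ n) e ∈ Ch S (monF ℂ M) 0 (j - 1)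
        rw [kd_eq_zero_of_mem_Ch_zero _ h7]
        exact zero_mem _
      | succ q =>
        have := zsmul_mem (CZD_glue_right hzS h9
          (CZD_Sup_of_mem (zsmul_mem (kd_mem_Ch CZD_stable' h7) _)) h2) ((-1 : ℤ) ^ (q + 1))
        rwa [CZD_sign] at this
  rw [← hrange, LinearMap.finrank_range_of_inj hinj, Module.finrank_prod, Module.finrank_prod]

theorem zd_zero (hz : ∀ t ∈ S, t < z) (hsub : M ⊆ AS (insert z S)) (j : ℤ) :
    bq (insert z S) M 0 j = bq S (comp S z M 0) 0 j := by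
  have hzS : z ∉ S := fun h => lt_irrefl _ (hz z h)
  have hA := fr_colon hzS (le_refl (AS (insert z S)))
  rw [comp_AS, colon_AS (Finset.mem_insert_self _ _)] at hA
  unfold bq
  rw [beta_formula (monF_mono hsub) (monF_fd _), beta_formula (monF_mono fun _ h => h.1)
    (monF_fd _), finrank_Zc_insert hz hsub, CZD_Zc_zero, CZD_Zc_zero, CZD_Zc_zero]
  push_cast
  simp only [CZD_finrank_Ch, Finset.card_insert_of_notMem hzS, Nat.choose_zero_right,
    Nat.choose_one_right, Nat.cast_zero, sub_zero, Nat.cast_one]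
  push_cast
  linear_combination hA j - fr_colon hzS hsub j - (S.card : ℤ) * hA (j - 1)

theorem zd_succ (hz : ∀ t ∈ S, t < z) (hsub : M ⊆ AS (insert z S))
    (hmul : ∀ μ ∈ M, μ + single z 1 ∈ M) (p : ℕ) (j : ℤ) :
    bq (insert z S) M (p + 1) j = bq S (comp S z M 0) (p + 1) j +
      beta (sh ℂ n) S (monF ℂ (colon z M)) (monF ℂ M) p (j - 1) := by
  have hzS : z ∉ S := fun h => lt_irrefl _ (hz z h)
  have hA := fr_colon hzS (le_refl (AS (insert z S)))
  rw [comp_AS, colon_AS (Finset.mem_insert_self _ _)] at hA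
  unfold bq
  rw [beta_formula (monF_mono hsub) (monF_fd _), beta_formula (monF_mono fun _ h => h.1)
    (monF_fd _), beta_formula (monF_mono (M' := colon z M) hmul) (monF_fd _),
    finrank_Zc_insert hz hsub, finrank_Zc_insert hz hsub]
  push_cast
  simp only [CZD_finrank_Ch, Finset.card_insert_of_notMem hzS, Nat.choose_succ_succ']
  have h1 := hA (j - (p + 1 + 1))
  have h2 := fr_colon hzS hsub (j - (p + 1))
  push_cast
  rw [show j - 1 - ((p : ℤ) + 1) = j - (p + 1 + 1) by ring,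
    show j - 1 - ((p : ℤ) + 1 + 1) = j - (p + 1 + 1) - 1 by ring,
    show j - 1 - (p : ℤ) = j - (p + 1) by ring]
  rw [show j - ((p : ℤ) + 1) - 1 = j - (p + 1 + 1) by ring] at h2
  linear_combination (-(S.card.choose (p + 1 + 1) : ℤ)) * h1 - (S.card.choose (p + 1) : ℤ) * h2

end Crest.Agent.R181
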