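import Crest.Agent.R181.KosBasic

/-! # Row 181: bridge between `beta` and the Prelude's `gradedBetti`.
The pointwise quotient map `π : (Finset → PX ℂ n) → (Finset → S ⧸ I)` maps `Ch univ (monF univ) p j`
onto `strandChains I p j` with kernel `Ch univ (idF I) p j`, and intertwines `kd (sh ℂ n)` with
`koszulD I`.  So `ker ⊓ strandChains = π (Zc)`, `map koszulD (strandChains (p+1)) = π (Bd)`, both
`Zc, Bd ⊇ Ch (idF I)`. -/

set_option autoImplicit false

namespace Crest.Agent.R181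

open Crest.AlgebraR.LPP

variable {n : ℕ}

theorem idF_le (I : Ideal (MvPolynomial (Fin n) ℂ)) (k : ℤ) : idF I k ≤ monF ℂ Set.univ k :=
  inf_le_left

namespace Bridge

/-- the coefficient identification -/
noncomputable def cl (n : ℕ) : MvPolynomial (Fin n) ℂ ≃ₗ[ℂ] PX ℂ n :=
  AddMonoidAlgebra.coeffLinearEquiv ℂ

theorem cl_apply (p : MvPolynomial (Fin n) ℂ) (m : Fin n →₀ ℕ) :
    cl n p m = MvPolynomial.coeff m p := rfl

theorem cl_monomial (m : Fin n →₀ ℕ) (a : ℂ) :
    cl n (MvPolynomial.monomial m a) = Finsupp.single m a := by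
  classical
  ext ν
  rw [cl_apply, MvPolynomial.coeff_monomial, Finsupp.single_apply]

theorem mem_monF {M : Set (Fin n →₀ ℕ)} {k : ℤ} {v : PX ℂ n} :
    v ∈ monF ℂ M k ↔ ∀ μ, v μ ≠ 0 → μ ∈ M ∧ (μ.degree : ℤ) = k := by
  unfold monF
  rw [Finsupp.mem_supported]
  constructor
  · intro h μ hμ
    exact h (Finset.mem_coe.2 (Finsupp.mem_support_iff.2 hμ))
  · intro h μ hμ
    exact h μ (Finsupp.mem_support_iff.1 (Finset.mem_coe.1 hμ))

theorem cl_X_mul (t : Fin n) (p : MvPolynomial (Fin n) ℂ) :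
    cl n (MvPolynomial.X t * p) = sh ℂ n t (cl n p) := by
  induction p using MvPolynomial.induction_on' with
  | monomial m a =>
    rw [cl_monomial, sh_single, MvPolynomial.X, MvPolynomial.monomial_mul, cl_monomial, one_mul,
      add_comm]
  | add p q hp hq => rw [mul_add, map_add, map_add, map_add, hp, hq]

theorem symm_sh (t : Fin n) (v : PX ℂ n) :
    (cl n).symm (sh ℂ n t v) = MvPolynomial.X t * (cl n).symm v := by
  apply (cl n).injective
  rw [cl_X_mul, LinearEquiv.apply_symm_apply, LinearEquiv.apply_symm_apply]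

theorem isHomog_iff (p : MvPolynomial (Fin n) ℂ) (d : ℕ) :
    p.IsHomogeneous d ↔ cl n p ∈ monF ℂ Set.univ (d : ℤ) := by
  rw [mem_monF]
  constructor
  · intro h μ hμ
    refine ⟨trivial, ?_⟩
    by_contra hne
    exact hμ (h.coeff_eq_zero fun h' => hne (by exact_mod_cast h'))
  · intro h μ hμ
    have := (h μ hμ).2
    have h2 : μ.degree = d := by exact_mod_cast this
    rw [← h2, Finsupp.degree_eq_weight_one]
    rfl

theorem mem_idF {I : Ideal (MvPolynomial (Fin n) ℂ)} {k : ℤ} {v : PX ℂ n} :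
    v ∈ idF I k ↔ v ∈ monF ℂ Set.univ k ∧ (cl n).symm v ∈ I := by
  unfold idF
  rw [Submodule.mem_inf]
  refine and_congr_right fun _ => ?_
  constructor
  · rintro ⟨p, hp, rfl⟩
    have : (cl n).symm (cl n p) = p := (cl n).symm_apply_apply p
    exact this.symm ▸ hp
  · intro h
    exact ⟨(cl n).symm v, h, (cl n).apply_symm_apply v⟩

theorem finrank_map_add_inf_ker {V W : Type*} [AddCommGroup V] [Module ℂ V] [AddCommGroup W]
    [Module ℂ W] (f : V →ₗ[ℂ] W) (A : Submodule ℂ V) [Module.Finite ℂ A] :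
    Module.finrank ℂ (A.map f) + Module.finrank ℂ ↥(A ⊓ LinearMap.ker f) = Module.finrank ℂ A := by
  have h := (f.domRestrict A).finrank_range_add_finrank_ker
  rw [LinearMap.range_domRestrict, LinearMap.ker_domRestrict] at h
  rw [← h]
  congr 1
  have h2 : Submodule.comap A.subtype (LinearMap.ker f) =
      Submodule.comap A.subtype (A ⊓ LinearMap.ker f) := by
    ext x
    simp
  rw [h2]
  exact (Submodule.comapSubtypeEquivOfLe (inf_le_left : A ⊓ LinearMap.ker f ≤ A)).finrank_eq.symm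

/-- the quotient map on coefficient vectors -/
noncomputable def qm (I : Ideal (MvPolynomial (Fin n) ℂ)) :
    PX ℂ n →ₗ[ℂ] MvPolynomial (Fin n) ℂ ⧸ I :=
  (Ideal.Quotient.mkₐ ℂ I).toLinearMap ∘ₗ (cl n).symm.toLinearMap

theorem qm_apply (I : Ideal (MvPolynomial (Fin n) ℂ)) (v : PX ℂ n) :
    qm I v = Ideal.Quotient.mk I ((cl n).symm v) := rfl

theorem qm_eq_zero {I : Ideal (MvPolynomial (Fin n) ℂ)} {v : PX ℂ n} :
    qm I v = 0 ↔ (cl n).symm v ∈ I := by
  rw [qm_apply, Ideal.Quotient.eq_zero_iff_mem]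

theorem qm_sh (I : Ideal (MvPolynomial (Fin n) ℂ)) (t : Fin n) (v : PX ℂ n) :
    qm I (sh ℂ n t v) = Ideal.Quotient.mk I (MvPolynomial.X t) * qm I v := by
  rw [qm_apply, qm_apply, symm_sh, map_mul]

/-- the pointwise quotient map -/
noncomputable def pm (I : Ideal (MvPolynomial (Fin n) ℂ)) :
    (Finset (Fin n) → PX ℂ n) →ₗ[ℂ] (Finset (Fin n) → MvPolynomial (Fin n) ℂ ⧸ I) :=
  LinearMap.pi fun T => qm I ∘ₗ LinearMap.proj T

theorem pm_apply (I : Ideal (MvPolynomial (Fin n) ℂ)) (c : Finset (Fin n) → PX ℂ n)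
    (T : Finset (Fin n)) : pm I c T = qm I (c T) := rfl

theorem koszulD_pm (I : Ideal (MvPolynomial (Fin n) ℂ)) (c : Finset (Fin n) → PX ℂ n) :
    koszulD I (pm I c) = pm I (kd (sh ℂ n) c) := by
  funext U
  rw [pm_apply, kd_apply, map_sum]
  simp only [koszulD, LinearMap.pi_apply, LinearMap.sum_apply, LinearMap.smul_apply,
    LinearMap.comp_apply, LinearMap.proj_apply, LinearMap.mulLeft_apply]
  refine Finset.sum_congr rfl fun t _ => ?_
  rw [map_zsmul, qm_sh, pm_apply, ← Int.cast_smul_eq_zsmul ℂ]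
  push_cast
  rfl

theorem mem_strand {I : Ideal (MvPolynomial (Fin n) ℂ)} {p j : ℕ}
    {c : Finset (Fin n) → MvPolynomial (Fin n) ℂ ⧸ I} :
    c ∈ strandChains I p j ↔
      ∀ T : Finset (Fin n), c T ∈ (if T.card = p ∧ p ≤ j then quotPiece I (j - p) else ⊥) := by
  simp only [strandChains, Submodule.mem_iInf, Submodule.mem_comap, LinearMap.proj_apply]

theorem map_pm_Ch (I : Ideal (MvPolynomial (Fin n) ℂ)) (p j : ℕ) :
    (Ch Finset.univ (monF ℂ Set.univ) p (j : ℤ)).map (pm I) = strandChains I p j := by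
  apply le_antisymm
  · rintro _ ⟨c, hc, rfl⟩
    rw [SetLike.mem_coe, mem_Ch] at hc
    rw [mem_strand]
    intro T
    rw [pm_apply]
    split_ifs with h
    · have h1 := hc.1 T (Finset.subset_univ _) h.1
      have h2 : (j : ℤ) - p = ((j - p : ℕ) : ℤ) := by
        have := h.2
        omega
      rw [h2] at h1
      refine ⟨(cl n).symm (c T), ?_, rfl⟩
      rw [SetLike.mem_coe, MvPolynomial.mem_homogeneousSubmodule, isHomog_iff,
        LinearEquiv.apply_symm_apply]
      exact h1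
    · rw [Submodule.mem_bot]
      by_cases hT : T.card = p
      · have h1 := hc.1 T (Finset.subset_univ _) hT
        have h2 : (j : ℤ) - p < 0 := by
          have : ¬ p ≤ j := fun h' => h ⟨hT, h'⟩
          omega
        rw [monF_neg _ h2, Submodule.mem_bot] at h1
        rw [h1, map_zero]
      · rw [hc.2 T fun h' => hT h'.2, map_zero]
  · intro c hc
    rw [mem_strand] at hc
    have key : ∀ T : Finset (Fin n), ∃ v : PX ℂ n, qm I v = c T ∧
        (T.card = p → v ∈ monF ℂ Set.univ ((j : ℤ) - p)) ∧ (T.card ≠ p → v = 0) := by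
      intro T
      have h1 := hc T
      split_ifs at h1 with h
      · obtain ⟨q, hq, hq'⟩ := h1
        refine ⟨cl n q, ?_, fun _ => ?_, fun h' => absurd h.1 h'⟩
        · rw [qm_apply, LinearEquiv.symm_apply_apply]
          exact hq'
        · have h2 : (j : ℤ) - p = ((j - p : ℕ) : ℤ) := by
            have := h.2
            omega
          rw [h2, ← isHomog_iff]
          exact hq
      · rw [Submodule.mem_bot] at h1
        exact ⟨0, by rw [map_zero, h1], fun _ => Submodule.zero_mem _, fun _ => rfl⟩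
    choose v hv using key
    refine ⟨v, ?_, funext fun T => (hv T).1⟩
    rw [SetLike.mem_coe, mem_Ch]
    exact ⟨fun T _ hT => (hv T).2.1 hT,
      fun T hT => (hv T).2.2 fun h' => hT ⟨Finset.subset_univ _, h'⟩⟩

theorem mem_Ch_idF {I : Ideal (MvPolynomial (Fin n) ℂ)} {p : ℕ} {j : ℤ}
    {c : Finset (Fin n) → PX ℂ n} :
    c ∈ Ch Finset.univ (idF I) p j ↔ c ∈ Ch Finset.univ (monF ℂ Set.univ) p j ∧ pm I c = 0 := by
  rw [mem_Ch, mem_Ch]
  constructor
  · rintro ⟨h1, h2⟩
    refine ⟨⟨fun T hT hT' => (mem_idF.1 (h1 T hT hT')).1, h2⟩, funext fun T => ?_⟩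
    rw [pm_apply, Pi.zero_apply]
    by_cases hT : T.card = p
    · exact qm_eq_zero.2 (mem_idF.1 (h1 T (Finset.subset_univ _) hT)).2
    · rw [h2 T fun h' => hT h'.2, map_zero]
  · rintro ⟨⟨h1, h2⟩, h3⟩
    refine ⟨fun T hT hT' => mem_idF.2 ⟨h1 T hT hT', qm_eq_zero.1 ?_⟩, h2⟩
    exact congrFun h3 T

end Bridge

open Bridge

theorem idF_stable (I : Ideal (MvPolynomial (Fin n) ℂ)) (S : Finset (Fin n)) :
    Stable (sh ℂ n) S (idF I) := by
  intro t ht k x hx
  rw [mem_idF] at hx ⊢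
  refine ⟨monF_stable (D := ℂ) (M := Set.univ) (S := S) (fun _ _ _ _ => trivial) t ht k x hx.1, ?_⟩
  rw [symm_sh]
  exact I.mul_mem_left _ hx.2

theorem idF_eq_map (I : Ideal (MvPolynomial (Fin n) ℂ)) (d : ℕ) :
    idF I (d : ℤ) = (degreePiece I d).map (AddMonoidAlgebra.coeffLinearEquiv ℂ).toLinearMap := by
  ext v
  rw [mem_idF]
  constructor
  · rintro ⟨h1, h2⟩
    refine ⟨(cl n).symm v, ⟨?_, h2⟩, (cl n).apply_symm_apply v⟩
    rw [SetLike.mem_coe, MvPolynomial.mem_homogeneousSubmodule, isHomog_iff,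
      LinearEquiv.apply_symm_apply]
    exact h1
  · rintro ⟨p, ⟨hp1, hp2⟩, rfl⟩
    refine ⟨(isHomog_iff p d).1 hp1, ?_⟩
    have : (cl n).symm (cl n p) = p := (cl n).symm_apply_apply p
    exact this.symm ▸ hp2

theorem finrank_idF (I : Ideal (MvPolynomial (Fin n) ℂ)) (d : ℕ) :
    Module.finrank ℂ (idF I (d : ℤ)) = Module.finrank ℂ (degreePiece I d) := by
  rw [idF_eq_map]
  exact LinearEquiv.finrank_map_eq _ _

theorem gradedBetti_eq_beta (I : Ideal (MvPolynomial (Fin n) ℂ)) (p j : ℕ) :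
    (gradedBetti I p j : ℤ) =
      beta (sh ℂ n) Finset.univ (monF ℂ Set.univ) (idF I) p (j : ℤ) := by
  have hU : Stable (sh ℂ n) Finset.univ (monF ℂ (Set.univ : Set (Fin n →₀ ℕ))) :=
    monF_stable fun _ _ _ _ => trivial
  have hBZ := Bd_le_Zc sh_comm hU (idF_stable I Finset.univ) (idF_le I) p (j : ℤ)
  set Z := Zc (sh ℂ n) Finset.univ (monF ℂ Set.univ) (idF I) p (j : ℤ) with hZ
  set B := Bd (sh ℂ n) Finset.univ (monF ℂ Set.univ) (idF I) p (j : ℤ) with hB
  have hZU : Z ≤ Ch Finset.univ (monF ℂ Set.univ) p (j : ℤ) := inf_le_left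
  have hLB : Ch Finset.univ (idF I) p (j : ℤ) ≤ B := le_sup_right
  have : Module.Finite ℂ (Ch (Finset.univ : Finset (Fin n))
      (monF ℂ (Set.univ : Set (Fin n →₀ ℕ))) p (j : ℤ)) :=
    Ch_finite (monF_fd _) p j
  have : Module.Finite ℂ Z := Submodule.finiteDimensional_of_le hZU
  have : Module.Finite ℂ B := Submodule.finiteDimensional_of_le hBZ
  have hK : Z.map (pm I) = LinearMap.ker (koszulD I) ⊓ strandChains I p j := by
    apply le_antisymm
    · rintro _ ⟨c, hc, rfl⟩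
      refine ⟨?_, ?_⟩
      · rw [SetLike.mem_coe, LinearMap.mem_ker, koszulD_pm]
        exact (mem_Ch_idF.1 hc.2).2
      · rw [SetLike.mem_coe, ← map_pm_Ch]
        exact Submodule.mem_map_of_mem hc.1
    · rintro c ⟨hc1, hc2⟩
      rw [SetLike.mem_coe, ← map_pm_Ch] at hc2
      obtain ⟨c', hc', rfl⟩ := hc2
      rw [SetLike.mem_coe, LinearMap.mem_ker, koszulD_pm] at hc1
      refine ⟨c', ⟨hc', ?_⟩, rfl⟩
      rw [SetLike.mem_coe, Submodule.mem_comap]
      rcases Nat.eq_zero_or_pos p with rfl | hp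
      · rw [kd_eq_zero_of_mem_Ch_zero _ hc']
        exact Submodule.zero_mem _
      · refine mem_Ch_idF.2 ⟨kd_mem_Ch hU ?_, hc1⟩
        rwa [Nat.sub_add_cancel hp]
  have hBm : B.map (pm I) = (strandChains I (p + 1) j).map (koszulD I) := by
    rw [← map_pm_Ch]
    apply le_antisymm
    · rintro _ ⟨c, hc, rfl⟩
      obtain ⟨_, ⟨c1, hc1, rfl⟩, c2, hc2, rfl⟩ := Submodule.mem_sup.1 hc
      rw [map_add, (mem_Ch_idF.1 hc2).2, add_zero, ← koszulD_pm]
      exact Submodule.mem_map_of_mem (Submodule.mem_map_of_mem hc1)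
    · rintro _ ⟨_, ⟨c, hc, rfl⟩, rfl⟩
      rw [koszulD_pm]
      exact Submodule.mem_map_of_mem (Submodule.mem_sup_left (Submodule.mem_map_of_mem hc))
  have hkZ : Z ⊓ LinearMap.ker (pm I) = Ch Finset.univ (idF I) p (j : ℤ) := by
    apply le_antisymm
    · rintro c ⟨hc1, hc2⟩
      exact mem_Ch_idF.2 ⟨hZU hc1, hc2⟩
    · intro c hc
      exact ⟨hBZ (hLB hc), (mem_Ch_idF.1 hc).2⟩
  have hkB : B ⊓ LinearMap.ker (pm I) = Ch Finset.univ (idF I) p (j : ℤ) := by
    apply le_antisymm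
    · rw [← hkZ]
      exact inf_le_inf_right _ hBZ
    · intro c hc
      exact ⟨hLB hc, (mem_Ch_idF.1 hc).2⟩
  have e1 := finrank_map_add_inf_ker (pm I) Z
  have e2 := finrank_map_add_inf_ker (pm I) B
  rw [hkZ] at e1
  rw [hkB] at e2
  have hle : B.map (pm I) ≤ Z.map (pm I) := Submodule.map_mono hBZ
  have e3 := Submodule.finrank_quotient_add_finrank
    (Submodule.comap (Z.map (pm I)).subtype (B.map (pm I)))
  rw [(Submodule.comapSubtypeEquivOfLe hle).finrank_eq] at e3
  have e4 : gradedBetti I p j = Module.finrank ℂ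
      (↥(Z.map (pm I)) ⧸ Submodule.comap (Z.map (pm I)).subtype (B.map (pm I))) := by
    unfold gradedBetti
    rw [hBm, hK]
  unfold beta
  rw [← hZ, ← hB, e4]
  omega

end Crest.Agent.R181
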