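import Crest.Agent.R181.PartC
import Crest.Agent.R181.KosBridge

/-! # Row 181: from a lex-plus-powers monomial set to the statement's data.
`U d := {m | m.degree = d ∧ ∃ m' ∈ L, (∀ i, m' i < a i) ∧ m'.degree = d ∧ toLex m' ≤ toLex m}`,
`J := Ideal.span ((monomial · 1) '' L)`; `degreePiece J d = lppPiece a (U d) d` = span of the
monomials of `L` of degree `d` (`MvPolynomial.mem_ideal_span_monomial_image`), so `idF J = monF ℂ L`. -/

set_option autoImplicit false

namespace Crest.Agent.R181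

open Crest.AlgebraR.LPP

theorem IsMonId.mem_add {n : ℕ} {L : Set (Fin n →₀ ℕ)} (hL : IsMonId L) (δ : Fin n →₀ ℕ) :
    ∀ μ ∈ L, μ + δ ∈ L := by
  induction δ using Finsupp.induction_linear with
  | zero => intro μ hμ; simpa using hμ
  | add f g hf hg => intro μ hμ; rw [← add_assoc]; exact hg _ (hf _ hμ)
  | single t k =>
    intro μ hμ
    induction k with
    | zero => simpa using hμ
    | succ k ih => rw [Finsupp.single_add, ← add_assoc]; exact hL _ ih t

theorem IsMonId.mem_of_le {n : ℕ} {L : Set (Fin n →₀ ℕ)} (hL : IsMonId L) {μ ν : Fin n →₀ ℕ}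
    (hμ : μ ∈ L) (h : μ ≤ ν) : ν ∈ L := by
  obtain ⟨δ, rfl⟩ := le_iff_exists_add.1 h
  exact hL.mem_add δ μ hμ

theorem mem_span_monId {n : ℕ} {L : Set (Fin n →₀ ℕ)} (hL : IsMonId L)
    (x : MvPolynomial (Fin n) ℂ) :
    x ∈ Ideal.span ((fun s => MvPolynomial.monomial s (1 : ℂ)) '' L) ↔
      ∀ μ, MvPolynomial.coeff μ x ≠ 0 → μ ∈ L := by
  rw [MvPolynomial.mem_ideal_span_monomial_image]
  constructor
  · intro h μ hμ
    obtain ⟨s, hs, hle⟩ := h μ (MvPolynomial.mem_support_iff.2 hμ)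
    exact hL.mem_of_le hs hle
  · intro h μ hμ
    exact ⟨μ, h μ (MvPolynomial.mem_support_iff.1 hμ), le_rfl⟩

theorem final_of_lpp {n : ℕ} (a : Fin n → ℕ) (L : Set (Fin n →₀ ℕ)) (hL : IsMonId L)
    (hP : ∀ i, Finsupp.single i (a i) ∈ L) (hlpp : IsLPP a L) :
    ∃ U : ℕ → Set (Fin n →₀ ℕ), (∀ d, IsLexSegment n d (U d)) ∧
      (∀ d, Module.finrank ℂ (lppPiece a (U d) d) = hf L d) ∧
      ∃ J : Ideal (MvPolynomial (Fin n) ℂ),
        (∀ g ∈ J, ∀ d : ℕ, MvPolynomial.homogeneousComponent d g ∈ J) ∧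
        (∀ d, degreePiece J d = lppPiece a (U d) d) ∧ ∀ k, idF J k = monF ℂ L k := by
  classical
  set U : ℕ → Set (Fin n →₀ ℕ) := fun d =>
    {m | m.degree = d ∧ ∃ m' ∈ L, (∀ i, m' i < a i) ∧ m'.degree = d ∧ toLex m' ≤ toLex m} with hU
  set J : Ideal (MvPolynomial (Fin n) ℂ) :=
    Ideal.span ((fun s => MvPolynomial.monomial s (1 : ℂ)) '' L) with hJ
  have hmem : ∀ x, x ∈ J ↔ ∀ μ, MvPolynomial.coeff μ x ≠ 0 → μ ∈ L := mem_span_monId hL
  have hPJ : purePowers a ≤ J := by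
    unfold purePowers
    rw [Ideal.span_le]
    rintro _ ⟨i, rfl⟩
    refine Ideal.subset_span ⟨Finsupp.single i (a i), hP i, ?_⟩
    exact (MvPolynomial.X_pow_eq_monomial).symm
  have hpiece : ∀ d, degreePiece J d = lppPiece a (U d) d := by
    intro d
    apply le_antisymm
    · rintro x ⟨hx1, hx2⟩
      have hx1' : x.IsHomogeneous d := hx1
      have hx2' : ∀ μ, MvPolynomial.coeff μ x ≠ 0 → μ ∈ L := (hmem x).1 hx2
      rw [x.as_sum]
      refine Submodule.sum_mem _ fun μ hμ => ?_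
      have hμ' := MvPolynomial.mem_support_iff.1 hμ
      have hdeg : μ.degree = d := by
        by_contra hne
        exact hμ' (hx1'.coeff_eq_zero hne)
      have e : MvPolynomial.monomial μ (MvPolynomial.coeff μ x) =
          MvPolynomial.coeff μ x • MvPolynomial.monomial μ (1 : ℂ) := by
        rw [MvPolynomial.smul_monomial, smul_eq_mul, mul_one]
      rw [e]
      refine Submodule.smul_mem _ _ ?_
      by_cases h : ∀ i, μ i < a i
      · refine Submodule.mem_sup_left (Submodule.subset_span ⟨μ, ?_, rfl⟩)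
        exact ⟨hdeg, μ, hx2' μ hμ', h, hdeg, le_rfl⟩
      · push Not at h
        obtain ⟨i, hi⟩ := h
        refine Submodule.mem_sup_right ⟨MvPolynomial.isHomogeneous_monomial _ hdeg, ?_⟩
        obtain ⟨δ, hδ⟩ := le_iff_exists_add.1 (Finsupp.single_le_iff.2 hi)
        have e2 : MvPolynomial.monomial μ (1 : ℂ) =
            MvPolynomial.X i ^ a i * MvPolynomial.monomial δ (1 : ℂ) := by
          rw [MvPolynomial.X_pow_eq_monomial, MvPolynomial.monomial_mul, one_mul, ← hδ]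
        change MvPolynomial.monomial μ (1 : ℂ) ∈ purePowers a
        rw [e2]
        exact Ideal.mul_mem_right _ _ (Ideal.subset_span ⟨i, rfl⟩)
    · refine sup_le ?_ ?_
      · rw [Submodule.span_le]
        rintro _ ⟨m, ⟨hm, m', hm', hlt, hd, hle⟩, rfl⟩
        refine ⟨MvPolynomial.isHomogeneous_monomial _ hm, ?_⟩
        exact Ideal.subset_span ⟨m, hlpp m' hm' hlt m (hm.trans hd.symm) hle, rfl⟩
      · rintro x ⟨hx1, hx2⟩
        exact ⟨hx1, hPJ hx2⟩
  have hid : ∀ k, idF J k = monF ℂ L k := by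
    intro k
    ext v
    rw [Bridge.mem_idF, hmem, Bridge.mem_monF, Bridge.mem_monF]
    have e : ∀ μ, MvPolynomial.coeff μ ((Bridge.cl n).symm v) = v μ := fun μ => by
      rw [← Bridge.cl_apply, LinearEquiv.apply_symm_apply]
    simp only [e]
    exact ⟨fun h μ hμ => ⟨h.2 μ hμ, (h.1 μ hμ).2⟩,
      fun h => ⟨fun μ hμ => ⟨trivial, (h μ hμ).2⟩, fun μ hμ => (h μ hμ).1⟩⟩
  refine ⟨U, fun d => ⟨fun m hm => hm.1, ?_⟩, fun d => ?_, J, ?_, hpiece, hid⟩
  · rintro m ⟨_, m', hm', hlt, hd, hle⟩ m'' hd'' hle''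
    exact ⟨hd'', m', hm', hlt, hd, hle.trans hle''⟩
  · rw [← hpiece, ← finrank_idF, hid, finrank_monF]
  · intro g hg d
    rw [hmem] at hg ⊢
    intro μ hμ
    rw [MvPolynomial.coeff_homogeneousComponent] at hμ
    split_ifs at hμ with h
    · exact hg μ hμ
    · exact absurd rfl hμ

end Crest.Agent.R181
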