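import Mathlib
import Crest.Prelude.Def_LexPlusPowers

/-!
# Row 181, Koszul framework: DEFINITIONS ONLY (owner helper27; do not edit, add new files)

`D` division ring, `X` a left `D`-module, `z : Fin n → X →ₗ[D] X` commuting operators,
`U L : ℤ → Submodule D X` graded families (`L ≤ U`, stable under the `z t`).
`beta z S U L p j` is the dimension of the Koszul homology `H_p(z_t, t ∈ S; U/L)_j`.
-/

set_option autoImplicit false

namespace Crest.Agent.R181

section Kos

variable {D : Type*} [DivisionRing D] {X : Type*} [AddCommGroup X] [Module D X] {n : ℕ}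

/-- Koszul differential (same shape as `LPP.koszulD`). -/
noncomputable def kd (z : Fin n → X →ₗ[D] X) : (Finset (Fin n) → X) →ₗ[D] (Finset (Fin n) → X) :=
  LinearMap.pi fun U : Finset (Fin n) =>
    ∑ t ∈ Uᶜ, ((-1 : ℤ) ^ (U.filter (· < t)).card) • (z t ∘ₗ LinearMap.proj (insert t U))

/-- chains of bidegree `(p, j)` in the variables `S` with values in the family `U`. -/
def Ch (S : Finset (Fin n)) (U : ℤ → Submodule D X) (p : ℕ) (j : ℤ) :
    Submodule D (Finset (Fin n) → X) :=
  Submodule.pi Set.univ fun T => if T ⊆ S ∧ T.card = p then U (j - p) else ⊥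

/-- chains of `U` that are cycles modulo `L`. -/
noncomputable def Zc (z : Fin n → X →ₗ[D] X) (S : Finset (Fin n)) (U L : ℤ → Submodule D X)
    (p : ℕ) (j : ℤ) : Submodule D (Finset (Fin n) → X) :=
  Ch S U p j ⊓ (Ch S L (p - 1) j).comap (kd z)

/-- chains of `U` that are boundaries modulo `L`. -/
noncomputable def Bd (z : Fin n → X →ₗ[D] X) (S : Finset (Fin n)) (U L : ℤ → Submodule D X)
    (p : ℕ) (j : ℤ) : Submodule D (Finset (Fin n) → X) :=
  (Ch S U (p + 1) j).map (kd z) ⊔ Ch S L p j

/-- Koszul Betti number of the subquotient `U/L` in the variables `S`. -/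
noncomputable def beta (z : Fin n → X →ₗ[D] X) (S : Finset (Fin n)) (U L : ℤ → Submodule D X)
    (p : ℕ) (j : ℤ) : ℤ :=
  (Module.finrank D (Zc z S U L p j) : ℤ) - Module.finrank D (Bd z S U L p j)

/-- the operators commute -/
def Comm (z : Fin n → X →ₗ[D] X) : Prop := ∀ s t x, z s (z t x) = z t (z s x)

/-- the family is stable under the operators in `S`, each raising the degree by one -/
def Stable (z : Fin n → X →ₗ[D] X) (S : Finset (Fin n)) (U : ℤ → Submodule D X) : Prop :=
  ∀ t ∈ S, ∀ k, ∀ x ∈ U k, z t x ∈ U (k + 1)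

/-- all pieces finite dimensional -/
def FD (U : ℤ → Submodule D X) : Prop := ∀ k, Module.Finite D (U k)

end Kos

section Poly

variable (D : Type*) [DivisionRing D] (n : ℕ)

/-- polynomials in `n` central variables over `D`, as a left `D`-module -/
abbrev PX := (Fin n →₀ ℕ) →₀ D

/-- multiplication by the variable `t` -/
noncomputable def sh (t : Fin n) : PX D n →ₗ[D] PX D n :=
  Finsupp.lmapDomain D D fun μ => μ + Finsupp.single t 1

variable {n}

/-- the graded family spanned by a set of monomials -/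
noncomputable def monF (M : Set (Fin n →₀ ℕ)) (k : ℤ) : Submodule D (PX D n) :=
  Finsupp.supported D D {μ | μ ∈ M ∧ (μ.degree : ℤ) = k}

variable {D}

/-- leading monomials (for the weight `w`) of the elements of the pieces of a family -/
def lead {W : Type*} [AddCommMonoid W] [LinearOrder W] (w : (Fin n →₀ ℕ) →+ W)
    (V : ℤ → Submodule D (PX D n)) : Set (Fin n →₀ ℕ) :=
  {μ | ∃ v ∈ V (μ.degree : ℤ), v μ ≠ 0 ∧ ∀ ν, v ν ≠ 0 → w ν ≤ w μ}

/-- extension of scalars `ℂ → D` of a subspace of `PX ℂ n` -/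
noncomputable def extS (D : Type*) [DivisionRing D] [Algebra ℂ D] (V : Submodule ℂ (PX ℂ n)) :
    Submodule D (PX D n) :=
  Submodule.span D ((fun v : PX ℂ n => v.mapRange (algebraMap ℂ D) (map_zero _)) '' V)

/-- the graded family of a homogeneous ideal of `ℂ[x]` -/
noncomputable def idF (I : Ideal (MvPolynomial (Fin n) ℂ)) (k : ℤ) : Submodule ℂ (PX ℂ n) :=
  monF ℂ Set.univ k ⊓
    (I.restrictScalars ℂ).map (AddMonoidAlgebra.coeffLinearEquiv ℂ).toLinearMap

end Poly

/-- a set of monomials closed under multiplication by variables -/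
def IsMonId {n : ℕ} (M : Set (Fin n →₀ ℕ)) : Prop :=
  ∀ μ ∈ M, ∀ t, μ + Finsupp.single t 1 ∈ M

/-- number of monomials of degree `d` in `M` -/
noncomputable def hf {n : ℕ} (M : Set (Fin n →₀ ℕ)) (d : ℕ) : ℕ :=
  {μ | μ ∈ M ∧ μ.degree = d}.ncard

/-- polynomial ring in central variables `σ` over a (noncommutative) ring -/
abbrev DP (D : Type*) [Ring D] (σ : Type*) := AddMonoidAlgebra D (σ →₀ ℕ)

/-- the linear form `∑ i, d i * x i` -/
noncomputable def lin {D : Type*} [Ring D] {n : ℕ} (d : Fin n → D) : DP D (Fin n) :=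
  ∑ i, AddMonoidAlgebra.single (Finsupp.single i 1) (d i)

/-- the inclusion `ℂ[x] → D[x]` -/
noncomputable def incl (D : Type*) [Ring D] [Algebra ℂ D] (σ : Type*) :
    MvPolynomial σ ℂ →+* DP D σ :=
  AddMonoidAlgebra.mapRingHom _ (algebraMap ℂ D)

/-- Output of part A: commuting linear forms `α j = lin (d j)` over a division ring `D ⊇ ℂ`,
spanning the linear forms on the left, with `α_m ^ a_m ∈ (f) + ∑_{j > m} D[x] α_j`. -/
structure AlphaData (D : Type*) [DivisionRing D] [Algebra ℂ D] {n : ℕ} (a : Fin n → ℕ)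
    (f : Fin n → MvPolynomial (Fin n) ℂ) where
  d : Fin n → Fin n → D
  e : Fin n → Fin n → D
  comm : ∀ j l, Commute (lin (d j)) (lin (d l))
  inv : ∀ i l, ∑ j, e i j * d j l = if i = l then 1 else 0
  rel : ∀ m, ∃ g γ : Fin n → DP D (Fin n), lin (d m) ^ a m =
    ∑ i, g i * incl D (Fin n) (f i) + ∑ j ∈ Finset.univ.filter (m < ·), γ j * lin (d j)

end Crest.Agent.R181
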