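import Crest.Agent.R181.KosBasic

/-! # Row 181: base change `ℂ → D` and the bridge to `LPP.gradedBetti`.
Base change recipe: for a finite or infinite index type `ι`, a `ℂ`-subspace `V ≤ (ι →₀ ℂ)` extends to
`ext V = span_D (V) = {z | ∀ φ : D →ₗ[ℂ] ℂ, φ ∘ z ∈ V}` (use a `ℂ`-basis of `D`); `ext` preserves
`finrank`, `⊓`, `⊔`, and commutes with `map`/`comap` along maps defined over `ℂ` (here `kd (sh · n)`).
Chains `Finset (Fin n) → PX D n` can be handled pointwise or through `(Finset (Fin n) × _) →₀ D`.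
With `beta_formula` only `finrank Zc` and `finrank Ch` have to be compared. -/

set_option autoImplicit false

namespace Crest.Agent.R181

open Crest.AlgebraR.LPP

/-- base change data: `Y = D ⊗ X` -/
structure BC (D : Type*) [DivisionRing D] [Algebra ℂ D] (X Y : Type*) [AddCommGroup X] [Module ℂ X]
    [AddCommGroup Y] [Module D Y] where
  /-- the inclusion -/
  ι : X →+ Y
  /-- `φ ⊗ 1` -/
  π : (D →ₗ[ℂ] ℂ) → Y →+ X
  ι_smul : ∀ (c : ℂ) x, ι (c • x) = algebraMap ℂ D c • ι x
  π_smul : ∀ φ (d : D) y, π φ (d • y) = π (φ ∘ₗ LinearMap.mulLeft ℂ d) y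
  π_ι : ∀ φ x, π φ (ι x) = φ 1 • x
  sum : ∀ y, ∀ᶠ s in Filter.atTop, y = ∑ i ∈ s, Module.Basis.ofVectorSpace ℂ D i •
    ι (π ((Module.Basis.ofVectorSpace ℂ D).coord i) y)

namespace BC

variable {D : Type*} [DivisionRing D] [Algebra ℂ D] {X Y : Type*} [AddCommGroup X] [Module ℂ X]
  [AddCommGroup Y] [Module D Y] (B : BC D X Y)

theorem mem_span (V : Submodule ℂ X) (y : Y) :
    y ∈ Submodule.span D (B.ι '' V) ↔ ∀ φ, B.π φ y ∈ V := by
  refine ⟨fun hy => ?_, fun h => ?_⟩
  · induction hy using Submodule.span_induction with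
    | mem x hx =>
      obtain ⟨v, hv, rfl⟩ := hx
      exact fun φ => B.π_ι φ v ▸ V.smul_mem _ hv
    | zero => simp
    | add x y _ _ hx hy => exact fun φ => map_add (B.π φ) x y ▸ V.add_mem (hx φ) (hy φ)
    | smul d x _ hx => exact fun φ => B.π_smul φ d x ▸ hx _
  · obtain ⟨s, hs⟩ := (B.sum y).exists
    rw [hs]
    exact Submodule.sum_mem _ fun i _ => Submodule.smul_mem _ _ (Submodule.subset_span ⟨_, h _, rfl⟩)

theorem finrank_span (V : Submodule ℂ X) [Module.Finite ℂ V] :
    Module.finrank D (Submodule.span D (B.ι '' V)) = Module.finrank ℂ V ∧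
      Module.Finite D (Submodule.span D (B.ι '' V)) := by
  let v := Module.finBasis ℂ V
  have h1 : LinearIndependent D fun i => B.ι (v i) := by
    refine Fintype.linearIndependent_iff.2 fun d hd i => ?_
    refine (Module.forall_dual_apply_eq_zero_iff ℂ _).1 fun φ => ?_
    refine Fintype.linearIndependent_iff.1 v.linearIndependent (fun i => φ (d i)) (Subtype.ext ?_) i
    simpa [B.π_smul, B.π_ι] using congrArg (B.π φ) hd
  have h2 : Submodule.span D (B.ι '' V) = Submodule.span D (Set.range fun i => B.ι (v i)) := by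
    refine le_antisymm (Submodule.span_le.2 ?_) (Submodule.span_mono ?_)
    · rintro _ ⟨x, hx, rfl⟩
      have := congrArg (fun z : V => B.ι z) (v.sum_repr ⟨x, hx⟩)
      simp only [Submodule.coe_sum, Submodule.coe_smul, map_sum, B.ι_smul] at this
      rw [← this]
      exact Submodule.sum_mem _ fun i _ => Submodule.smul_mem _ _ (Submodule.subset_span ⟨i, rfl⟩)
    · rintro _ ⟨i, rfl⟩
      exact ⟨_, (v i).2, rfl⟩
  rw [h2, finrank_span_eq_card h1, Fintype.card_fin]
  exact ⟨rfl, Module.Finite.span_of_finite D (Set.finite_range _)⟩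

/-- finite products -/
def pi (T : Type*) [Finite T] : BC D (T → X) (T → Y) where
  ι := B.ι.compLeft T
  π φ := (B.π φ).compLeft T
  ι_smul c x := funext fun t => B.ι_smul c (x t)
  π_smul φ d y := funext fun t => B.π_smul φ d (y t)
  π_ι φ x := funext fun t => B.π_ι φ (x t)
  sum y := (Filter.eventually_all.2 fun t => B.sum (y t)).mono fun s hs => funext fun t => by
    rw [Finset.sum_apply]
    exact hs t

end BC

/-- finitely supported functions -/
noncomputable def bcF (D : Type*) [DivisionRing D] [Algebra ℂ D] (T : Type*) :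
    BC D (T →₀ ℂ) (T →₀ D) where
  ι := Finsupp.mapRange.addMonoidHom (algebraMap ℂ D).toAddMonoidHom
  π φ := Finsupp.mapRange.addMonoidHom φ.toAddMonoidHom
  ι_smul c x := by ext t; simp [Algebra.smul_def]
  π_smul φ d y := by ext t; simp
  π_ι φ x := by
    ext t
    simp [Algebra.algebraMap_eq_smul_one, mul_comm]
  sum y := by
    classical
    filter_upwards [Filter.eventually_ge_atTop (y.support.biUnion fun t =>
      ((Module.Basis.ofVectorSpace ℂ D).repr (y t)).support)] with s hs
    ext t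
    have h1 : ((Module.Basis.ofVectorSpace ℂ D).repr (y t)).support ⊆ s := by
      by_cases h : y t = 0
      · simp [h]
      · exact (Finset.subset_biUnion_of_mem (fun t =>
          ((Module.Basis.ofVectorSpace ℂ D).repr (y t)).support) (Finsupp.mem_support_iff.2 h)).trans hs
    conv_lhs => rw [← (Module.Basis.ofVectorSpace ℂ D).linearCombination_repr (y t),
      Finsupp.linearCombination_apply, Finsupp.sum_of_support_subset _ h1 _ (by simp)]
    rw [Finsupp.finsetSum_apply]
    refine Finset.sum_congr rfl fun i _ => ?_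
    rw [Algebra.smul_def, Algebra.commutes]
    rfl

variable {n : ℕ} (D : Type*) [DivisionRing D] [Algebra ℂ D]

theorem mem_extS_iff (V : Submodule ℂ (PX ℂ n)) (x : PX D n) :
    x ∈ extS D V ↔ ∀ φ : D →ₗ[ℂ] ℂ, x.mapRange φ (map_zero _) ∈ V := by
  exact (bcF D _).mem_span V x

theorem finrank_extS (V : Submodule ℂ (PX ℂ n)) [Module.Finite ℂ V] :
    Module.finrank D (extS D V) = Module.finrank ℂ V := by
  exact ((bcF D _).finrank_span V).1

theorem extS_monF (M : Set (Fin n →₀ ℕ)) (k : ℤ) : extS D (monF ℂ M k) = monF D M k := by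
  ext x
  simp only [mem_extS_iff, monF, Finsupp.mem_supported', Finsupp.mapRange_apply]
  exact ⟨fun h μ hμ => (Module.forall_dual_apply_eq_zero_iff ℂ _).1 fun φ => h φ μ hμ,
    fun h φ μ hμ => by rw [h μ hμ, map_zero]⟩

theorem extS_mono {V V' : Submodule ℂ (PX ℂ n)} (h : V ≤ V') : extS D V ≤ extS D V' := by
  exact Submodule.span_mono (Set.image_mono h)

theorem beta_extS (S : Finset (Fin n)) (U L : ℤ → Submodule ℂ (PX ℂ n)) (hLU : ∀ k, L k ≤ U k)
    (hfd : FD U) (p : ℕ) (j : ℤ) :
    beta (sh D n) S (fun k => extS D (U k)) (fun k => extS D (L k)) p j =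
      beta (sh ℂ n) S U L p j := by
  let B := (bcF D (Fin n →₀ ℕ)).pi (Finset (Fin n))
  have hC : ∀ (V : ℤ → Submodule ℂ (PX ℂ n)) (q : ℕ) c,
      c ∈ Ch S (fun k => extS D (V k)) q j ↔ ∀ φ, B.π φ c ∈ Ch S V q j := fun V q c => by
    simp only [Ch, Submodule.mem_pi, Set.mem_univ, true_imp_iff]
    refine Iff.trans (forall_congr' fun T => ?_) forall_comm
    refine Iff.trans ?_ (mem_extS_iff D _ (c T))
    split_ifs
    · rfl
    · simp [extS]
  have hk : ∀ φ c, B.π φ (kd (sh D n) c) = kd (sh ℂ n) (B.π φ c) := fun φ c => funext fun T => by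
    refine Eq.trans (congrArg ((bcF D _).π φ) (kd_apply _ c T)) ?_
    rw [kd_apply, map_sum]
    refine Finset.sum_congr rfl fun t _ => ?_
    rw [map_zsmul]
    exact congrArg _ (Finsupp.mapDomain_mapRange _ _ _ (map_zero φ) (map_add φ)).symm
  have h1 : ∀ (V : ℤ → Submodule ℂ (PX ℂ n)) (q : ℕ), FD V →
      Module.finrank D (Ch S (fun k => extS D (V k)) q j) = Module.finrank ℂ (Ch S V q j) :=
    fun V q hV => by
      have := Ch_finite (S := S) hV q j
      rw [← (B.finrank_span _).1, Submodule.ext fun c => (hC V q c).trans (B.mem_span _ c).symm]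
  have h2 : ∀ q : ℕ, Module.finrank D (Zc (sh D n) S (fun k => extS D (U k))
      (fun k => extS D (L k)) q j) = Module.finrank ℂ (Zc (sh ℂ n) S U L q j) := fun q => by
    have := Ch_finite (S := S) hfd q j
    have : Module.Finite ℂ (Zc (sh ℂ n) S U L q j) := Submodule.finiteDimensional_inf_left _ _
    rw [← (B.finrank_span _).1]
    refine congrArg (fun W : Submodule D _ => Module.finrank D W) (Submodule.ext fun c => ?_)
    simp only [B.mem_span, Zc, Submodule.mem_inf, Submodule.mem_comap, hC, hk, forall_and]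
  rw [beta_formula (fun k => extS_mono D (hLU k)) fun k =>
      have := hfd k
      ((bcF D _).finrank_span (U k)).2,
    beta_formula hLU hfd, h2, h2, h1 _ _ hfd, h1 _ _ (hfd.mono hLU)]

end Crest.Agent.R181
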