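import Crest.Agent.R181.KosBasic

/-! # Row 181: long exact sequence inequalities, for `L ≤ M ≤ U`.
Recipe (no homology objects): write `β(U/L) = dim Zc - dim Bd`. Exactness of
`H(M/L) → H(U/L) → H(U/M) → H(M/L)[-1]` in the middle gives each inequality:
for `A → B → C` exact at `B`, `dim B ≤ dim A + dim C`.  Concretely e.g. for `les1`:
`Zc(U/L) ≤ Zc(U/M)`, `Zc(U/L) ⊓ Bd(U/M) = Zc(M/L) ⊔ Bd(U/L)` and `Bd(M/L) ≤ Zc(M/L) ⊓ Bd(U/L)`,
then `Submodule.finrank_sup_add_finrank_inf_eq`.  For `les2` use the map `c ↦ kd z c` from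
`Zc(U/M)_{p+1}` to `Zc(M/L)_p / Bd(M/L)_p`, with kernel `Zc(U/L)_{p+1} ⊔ Ch M (p+1)`. -/

set_option autoImplicit false

namespace Crest.Agent.R181

variable {D : Type*} [DivisionRing D] {X : Type*} [AddCommGroup X] [Module D X] {n : ℕ}
  {z : Fin n → X →ₗ[D] X} {S : Finset (Fin n)} {U M L : ℤ → Submodule D X}

open Module Submodule

theorem les_rank {E : Type*} [AddCommGroup E] [Module D E] (f : E →ₗ[D] E) (A : Submodule D E)
    [Module.Finite D A] :
    finrank D (A.map f) + finrank D ↥(A ⊓ LinearMap.ker f) = finrank D A := by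
  rw [← LinearMap.finrank_range_add_finrank_ker (f.domRestrict A), LinearMap.range_domRestrict,
    LinearMap.ker_domRestrict, ← map_comap_subtype, finrank_map_subtype_eq]

/-- rank-nullity modulo `B` -/
theorem les_rn {E : Type*} [AddCommGroup E] [Module D E] (f : E →ₗ[D] E) (A B : Submodule D E)
    [Module.Finite D A] [Module.Finite D B] :
    finrank D ↥(A ⊓ B.comap f) + finrank D ↥(A.map f ⊔ B) = finrank D A + finrank D B := by
  have h1 := finrank_sup_add_finrank_inf_eq (A.map f) B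
  have h2 := les_rank f A
  have h3 := les_rank f (A ⊓ B.comap f)
  rw [← map_inf_eq_map_inf_comap, inf_assoc,
    inf_eq_right.2 (LinearMap.ker_le_comap (p := B) f)] at h3
  omega

theorem les_finZ (hfd : FD U) (p : ℕ) (j : ℤ) : Module.Finite D (Zc z S U L p j) :=
  have := Ch_finite (S := S) hfd p j
  finiteDimensional_inf_left _ _

theorem les_finB (hfd : FD U) (hfd' : FD L) (p : ℕ) (j : ℤ) : Module.Finite D (Bd z S U L p j) :=
  have := Ch_finite (S := S) hfd (p + 1) j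
  have := Ch_finite (S := S) hfd' p j
  finiteDimensional_sup _ _

theorem les_Z_mono {U' L' : ℤ → Submodule D X} (h : ∀ k, U k ≤ U' k) (h' : ∀ k, L k ≤ L' k)
    (p : ℕ) (j : ℤ) : Zc z S U L p j ≤ Zc z S U' L' p j :=
  inf_le_inf (Ch_mono (h _)) (comap_mono (Ch_mono (h' _)))

theorem les_B_mono {U' L' : ℤ → Submodule D X} (h : ∀ k, U k ≤ U' k) (h' : ∀ k, L k ≤ L' k)
    (p : ℕ) (j : ℤ) : Bd z S U L p j ≤ Bd z S U' L' p j :=
  sup_le_sup (map_mono (Ch_mono (h _))) (Ch_mono (h' _))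

theorem les1 (hz : Comm z) (hU : Stable z S U) (hM : Stable z S M) (hL : Stable z S L)
    (hLM : ∀ k, L k ≤ M k) (hMU : ∀ k, M k ≤ U k) (hfd : FD U) (p : ℕ) (j : ℤ) :
    beta z S U L p j ≤ beta z S M L p j + beta z S U M p j := by
  have fM := hfd.mono hMU
  have fL := fM.mono hLM
  have hLU : ∀ k, L k ≤ U k := fun k => (hLM k).trans (hMU k)
  have := les_finZ (z := z) (S := S) (L := L) hfd p j
  have := les_finZ (z := z) (S := S) (L := M) hfd p j
  have := les_finZ (z := z) (S := S) (L := L) fM p j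
  have := les_finB (z := z) (S := S) hfd fL p j
  have := les_finB (z := z) (S := S) hfd fM p j
  have h1 := finrank_sup_add_finrank_inf_eq (Zc z S U L p j) (Bd z S U M p j)
  have h2 := finrank_sup_add_finrank_inf_eq (Zc z S M L p j) (Bd z S U L p j)
  have h3 := finrank_mono
    (sup_le (les_Z_mono (fun _ => le_rfl) hLM p j) (Bd_le_Zc hz hU hM hMU p j))
  have h4 := finrank_mono
    (le_inf (Bd_le_Zc hz hM hL hLM p j) (les_B_mono hMU (fun _ => le_rfl) p j))
  have h5 := finrank_mono (show Zc z S U L p j ⊓ Bd z S U M p j ≤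
      Zc z S M L p j ⊔ Bd z S U L p j by
    rintro x ⟨⟨-, a1⟩, a2⟩
    obtain ⟨_, ⟨u, hu, rfl⟩, m, hm, rfl⟩ := mem_sup.1 a2
    rw [SetLike.mem_coe, mem_comap, map_add, kd_kd hz, zero_add] at a1
    rw [add_comm]
    exact add_mem_sup ⟨hm, a1⟩ (mem_sup_left (mem_map_of_mem hu)))
  unfold beta
  omega

theorem les2 (hz : Comm z) (hU : Stable z S U) (hM : Stable z S M) (hL : Stable z S L)
    (hLM : ∀ k, L k ≤ M k) (hMU : ∀ k, M k ≤ U k) (hfd : FD U) (p : ℕ) (j : ℤ) :
    beta z S U M (p + 1) j ≤ beta z S U L (p + 1) j + beta z S M L p j := by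
  have fM := hfd.mono hMU
  have fL := fM.mono hLM
  have hLU : ∀ k, L k ≤ U k := fun k => (hLM k).trans (hMU k)
  have := les_finZ (z := z) (S := S) (L := L) hfd (p + 1) j
  have := les_finZ (z := z) (S := S) (L := M) hfd (p + 1) j
  have := les_finZ (z := z) (S := S) (L := L) fM p j
  have := les_finB (z := z) (S := S) fM fL p j
  have := les_finB (z := z) (S := S) hfd fM (p + 1) j
  have h1 := les_rn (kd z) (Zc z S U M (p + 1) j) (Bd z S M L p j)
  have h2 := finrank_sup_add_finrank_inf_eq (Zc z S U L (p + 1) j) (Bd z S U M (p + 1) j)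
  have h3 := finrank_mono
    (le_inf (Bd_le_Zc hz hU hL hLU (p + 1) j) (les_B_mono (fun _ => le_rfl) hLM (p + 1) j))
  have h4 := finrank_mono (show (Zc z S U M (p + 1) j).map (kd z) ⊔ Bd z S M L p j ≤
      Zc z S M L p j by
    refine sup_le ?_ (Bd_le_Zc hz hM hL hLM p j)
    rintro _ ⟨x, ⟨-, a1⟩, rfl⟩
    refine ⟨a1, ?_⟩
    rw [SetLike.mem_coe, mem_comap, kd_kd hz]
    exact zero_mem _)
  have h5 := finrank_mono (show Zc z S U M (p + 1) j ⊓ (Bd z S M L p j).comap (kd z) ≤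
      Zc z S U L (p + 1) j ⊔ Bd z S U M (p + 1) j by
    rintro x ⟨⟨a1, -⟩, a2⟩
    obtain ⟨_, ⟨m, hm, rfl⟩, l, hl, e⟩ := mem_sup.1 a2
    rw [← sub_add_cancel x m]
    refine add_mem_sup ⟨sub_mem a1 (Ch_mono (hMU _) hm), ?_⟩ (mem_sup_right hm)
    rw [SetLike.mem_coe, mem_comap, map_sub, ← e, add_sub_cancel_left]
    exact hl)
  unfold beta
  omega

theorem les2_zero (hLM : ∀ k, L k ≤ M k) (hMU : ∀ k, M k ≤ U k) (hU : Stable z S U)
    (hfd : FD U) (j : ℤ) : beta z S U M 0 j ≤ beta z S U L 0 j := by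
  have := les_finZ (z := z) (S := S) (L := L) hfd 0 j
  have := les_finB (z := z) (S := S) hfd (hfd.mono hMU) 0 j
  have h1 := finrank_mono (les_B_mono (z := z) (S := S) (U := U) (fun _ => le_rfl) hLM 0 j)
  have h2 := finrank_mono (show Zc z S U M 0 j ≤ Zc z S U L 0 j by
    rintro x ⟨a1, -⟩
    refine ⟨a1, ?_⟩
    rw [SetLike.mem_coe, mem_comap, kd_eq_zero_of_mem_Ch_zero z a1]
    exact zero_mem _)
  unfold beta
  omega

theorem les3 (hz : Comm z) (hU : Stable z S U) (hM : Stable z S M) (hL : Stable z S L)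
    (hLM : ∀ k, L k ≤ M k) (hMU : ∀ k, M k ≤ U k) (hfd : FD U) (p : ℕ) (j : ℤ) :
    beta z S M L p j ≤ beta z S U L p j + beta z S U M (p + 1) j := by
  have fM := hfd.mono hMU
  have fL := fM.mono hLM
  have hLU : ∀ k, L k ≤ U k := fun k => (hLM k).trans (hMU k)
  have := les_finZ (z := z) (S := S) (L := L) hfd p j
  have := les_finZ (z := z) (S := S) (L := M) hfd (p + 1) j
  have := les_finZ (z := z) (S := S) (L := L) fM p j
  have := les_finB (z := z) (S := S) fM fL p j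
  have := les_finB (z := z) (S := S) hfd fL p j
  have h1 := les_rn (kd z) (Zc z S U M (p + 1) j) (Bd z S M L p j)
  have h2 := finrank_sup_add_finrank_inf_eq (Zc z S M L p j) (Bd z S U L p j)
  have h3 := finrank_mono
    (sup_le (les_Z_mono hMU (fun _ => le_rfl) p j) (Bd_le_Zc hz hU hL hLU p j))
  have h4 := finrank_mono (show Zc z S M L p j ⊓ Bd z S U L p j ≤
      (Zc z S U M (p + 1) j).map (kd z) ⊔ Bd z S M L p j by
    rintro x ⟨⟨a1, -⟩, a2⟩
    obtain ⟨_, ⟨u, hu, rfl⟩, l, hl, rfl⟩ := mem_sup.1 a2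
    exact add_mem_sup (mem_map_of_mem
      ⟨hu, (Submodule.add_mem_iff_left _ (Ch_mono (hLM _) hl)).1 a1⟩) (mem_sup_right hl))
  have h5 := finrank_mono (show Bd z S U M (p + 1) j ≤
      Zc z S U M (p + 1) j ⊓ (Bd z S M L p j).comap (kd z) by
    refine le_inf (Bd_le_Zc hz hU hM hMU (p + 1) j) (sup_le ?_ fun m hm => ?_)
    · rintro _ ⟨u, -, rfl⟩
      rw [mem_comap, kd_kd hz]
      exact zero_mem _
    · exact mem_sup_left (mem_map_of_mem hm))
  unfold beta
  omega

end Crest.Agent.R181
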