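import Crest.Agent.R181.KosCO
import Crest.Agent.R181.KosGrob
import Crest.Agent.R181.KosExt
import Crest.Agent.R181.KosBridge

/-! # Row 181, part B: from the noncommutative coordinates to a monomial ideal.
Recipe.  Identify `PX D n` with `DP D (Fin n)` through `AddMonoidAlgebra.coeffLinearEquiv D`.
`V k := extS D (idF I k)` is stable under `sh` and under right multiplication `R c` of the coefficients
by `c : D` (left `D`-linear, commutes with `sh`; use `mem_extS_iff` or `span_induction`), hence under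
right multiplication by `α j = lin (d j)`, which is `z' j = ∑ i, sh i * R (d j i)`.
* `beta_co` with `M i j = R (d j i)`, `M' j i = R (e i j)` (`d * e = 1` follows from `e * d = 1`,
  square matrices over a division ring; `h2, h2'` are the coefficients of `α j * α l = α l * α j`;
  `h3` is trivial as `R c` commutes with `sh`):  `beta z' = beta sh`.
* `Θ : PX D n →ₗ[D] PX D n`, `single μ c ↦ c • ∏ α^μ` (`Finsupp.linearCombination`, `noncommProd` or a
  commutative subring) satisfies `Θ (sh t x) = z' t (Θ x)`, maps `monF univ k` into itself and onto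
  (induction on `k`, `x_i = ∑ e i j α j`), hence bijectively; so `Θ` is injective (graded pieces).
  `V' k := comap Θ (V k) ⊓ monF univ k`, `beta_map`.
* `M := lead (rlw n) V'`; `beta_le_lead`, `finrank_lead`, `lead_add`; the degree-`a m` component of
  `α_m^{a m} - ∑_{j>m} γ_j α_j` lies in `V (a m)` (`I` homogeneous) and its `Θ`-preimage is
  `single (single m (a m)) 1 - ∑_{j>m} sh j (..)`, whose `rlw`-leading monomial is `single m (a m)`.
* come back to `ℂ` with `beta_extS`, `extS_monF`, `finrank_extS`, `gradedBetti_eq_beta`. -/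

set_option autoImplicit false

namespace Crest.Agent.R181

open Crest.AlgebraR.LPP

section Aux

variable {D : Type*} [DivisionRing D] {n : ℕ}

/-- coefficient identification `D[x] ≃ PX D n` -/
noncomputable abbrev pbE (D : Type*) [DivisionRing D] (n : ℕ) : DP D (Fin n) ≃ₗ[D] PX D n :=
  AddMonoidAlgebra.coeffLinearEquiv D

theorem pbE_single (μ : Fin n →₀ ℕ) (c : D) :
    pbE D n (AddMonoidAlgebra.single μ c) = Finsupp.single μ c := rfl

/-- right multiplication by `y ∈ D[x]` -/
noncomputable def mR (y : DP D (Fin n)) : Module.End D (PX D n) :=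
  (pbE D n).toLinearMap ∘ₗ LinearMap.mulRight D y ∘ₗ (pbE D n).symm.toLinearMap

theorem mR_E (y x : DP D (Fin n)) : mR y (pbE D n x) = pbE D n (x * y) := by
  simp only [mR, LinearMap.comp_apply, LinearEquiv.coe_coe, LinearEquiv.symm_apply_apply,
    LinearMap.mulRight_apply]

/-- right multiplication of the coefficients -/
noncomputable def cR (n : ℕ) (c : D) : Module.End D (PX D n) :=
  Finsupp.mapRange.linearMap (LinearMap.mulRight D c)

theorem cR_apply (c : D) (x : PX D n) (μ : Fin n →₀ ℕ) : cR n c x μ = x μ * c := by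
  simp [cR]

theorem cR_single (c : D) (μ : Fin n →₀ ℕ) (b : D) :
    cR n c (Finsupp.single μ b) = Finsupp.single μ (b * c) := by
  simp [cR]

theorem cR_mul (a b : D) : cR n a * cR n b = cR n (b * a) := by
  refine LinearMap.ext fun x => Finsupp.ext fun μ => ?_
  simp [cR_apply, mul_assoc]

theorem cR_sub (a b : D) : cR n (a - b) = cR n a - cR n b := by
  refine LinearMap.ext fun x => Finsupp.ext fun μ => ?_
  simp [cR_apply, mul_sub]

theorem cR_sum {ι : Type*} (s : Finset ι) (a : ι → D) :
    cR n (∑ i ∈ s, a i) = ∑ i ∈ s, cR n (a i) := by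
  refine LinearMap.ext fun x => Finsupp.ext fun μ => ?_
  simp [cR_apply, Finset.mul_sum, LinearMap.sum_apply, Finsupp.finsetSum_apply]

theorem cR_one : cR n (1 : D) = 1 := by
  refine LinearMap.ext fun x => Finsupp.ext fun μ => ?_
  simp [cR_apply]

theorem cR_zero : cR n (0 : D) = 0 := by
  refine LinearMap.ext fun x => Finsupp.ext fun μ => ?_
  simp [cR_apply]

theorem pb_end_ext {Y : Type*} [AddCommGroup Y] [Module D Y] {F G : PX D n →ₗ[D] Y}
    (h : ∀ μ c, F (Finsupp.single μ c) = G (Finsupp.single μ c)) : F = G :=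
  Finsupp.lhom_ext h

theorem cR_sh (c : D) (t : Fin n) :
    cR n c * (sh D n t : Module.End D (PX D n)) = (sh D n t : Module.End D (PX D n)) * cR n c :=
  pb_end_ext fun μ b => by
    simp only [Module.End.mul_apply, sh_single, cR_single]

theorem mR_lin (d : Fin n → D) :
    mR (lin d) = ∑ i, (sh D n i : Module.End D (PX D n)) * cR n (d i) :=
  pb_end_ext fun μ b => by
    rw [← pbE_single, mR_E, lin, Finset.mul_sum, map_sum, LinearMap.sum_apply]
    refine Finset.sum_congr rfl fun i _ => ?_
    rw [AddMonoidAlgebra.single_mul_single, pbE_single, pbE_single, Module.End.mul_apply,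
      cR_single, sh_single]

theorem pb_coef (c c' : Fin n → D) (i k : Fin n) :
    pbE D n (lin c * lin c') (Finsupp.single i 1 + Finsupp.single k 1) =
      if i = k then c i * c' i else c i * c' k + c k * c' i := by
  classical
  have h : ∀ a b : Fin n, (Finsupp.single a 1 + Finsupp.single b 1 : Fin n →₀ ℕ) =
      Finsupp.single i 1 + Finsupp.single k 1 ↔ (a = i ∧ b = k) ∨ (a = k ∧ b = i) := by
    intro a b
    rw [Finsupp.single_add_single_eq_single_add_single one_ne_zero one_ne_zero]
    simp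
  simp only [lin, Finset.sum_mul_sum, AddMonoidAlgebra.single_mul_single, map_sum, pbE_single,
    Finsupp.finsetSum_apply, Finsupp.single_apply (b := _ * _), h]
  split_ifs with hik
  · subst hik
    simp [ite_and]
  · have e : ∀ a b : Fin n, (if (a = i ∧ b = k) ∨ (a = k ∧ b = i) then c a * c' b else 0) =
        (if a = i ∧ b = k then c a * c' b else 0) + (if a = k ∧ b = i then c a * c' b else 0) := by
      intro a b
      by_cases h1 : a = i ∧ b = k
      · have h2 : ¬ (a = k ∧ b = i) := fun h2 => hik (h1.1.symm.trans h2.1)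
        simp [h1, hik]
      · by_cases h2 : a = k ∧ b = i
        · rw [if_pos (Or.inr h2), if_neg h1, if_pos h2, zero_add]
        · rw [if_neg (by tauto), if_neg h1, if_neg h2, add_zero]
    simp [e, Finset.sum_add_distrib, ite_and]

theorem pb_induction {Q : (Fin n →₀ ℕ) → Prop} (h0 : Q 0)
    (hs : ∀ μ t, Q μ → Q (μ + Finsupp.single t 1)) (μ : Fin n →₀ ℕ) : Q μ := by
  induction μ using Finsupp.induction with
  | zero => exact h0
  | single_add a b f _ _ ih =>
    rw [add_comm]
    clear * - ih hs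
    induction b with
    | zero => simpa using ih
    | succ b ih' => rw [Finsupp.single_add, ← add_assoc]; exact hs _ _ ih'

theorem pb_exists_P {R : Type*} [Monoid R] (α : Fin n → R) (h : ∀ i j, Commute (α i) (α j)) :
    ∃ P : (Fin n →₀ ℕ) → R, P 0 = 1 ∧ ∀ μ t, P (μ + Finsupp.single t 1) = P μ * α t := by
  classical
  have hc : ∀ (μ : Fin n →₀ ℕ) (s : Finset (Fin n)), (s : Set (Fin n)).Pairwise
      (Function.onFun Commute fun i => α i ^ μ i) := fun μ s i _ j _ _ => (h i j).pow_pow _ _
  refine ⟨fun μ => Finset.univ.noncommProd (fun i => α i ^ μ i) (hc μ _), ?_, fun μ t => ?_⟩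
  · exact (Finset.noncommProd_eq_pow_card _ _ _ 1 fun i _ => by simp).trans (one_pow _)
  beta_reduce
  rw [← Finset.noncommProd_erase_mul _ (Finset.mem_univ t),
    ← Finset.noncommProd_erase_mul _ (Finset.mem_univ t) (fun i => α i ^ μ i), mul_assoc]
  congr 1
  · refine Finset.noncommProd_congr rfl (fun i hi => ?_) _
    simp [(Finset.ne_of_mem_erase hi).symm]
  · simp [pow_succ]

theorem mem_monF_univ {k : ℤ} {x : PX D n} :
    x ∈ monF D Set.univ k ↔ ∀ μ, x μ ≠ 0 → (μ.degree : ℤ) = k := by
  simp [monF, Finsupp.mem_supported, Set.subset_def]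

theorem single_mem_monF (μ : Fin n →₀ ℕ) (c : D) :
    Finsupp.single μ c ∈ monF D (n := n) Set.univ (μ.degree : ℤ) :=
  Finsupp.single_mem_supported D c ⟨Set.mem_univ _, rfl⟩

theorem cR_monF (c : D) {k : ℤ} {x : PX D n} (hx : x ∈ monF D Set.univ k) :
    cR n c x ∈ monF D Set.univ k :=
  mem_monF_univ.2 fun μ hμ => mem_monF_univ.1 hx μ fun h => hμ (by rw [cR_apply, h, zero_mul])

theorem sh_monF (t : Fin n) {k : ℤ} {x : PX D n} (hx : x ∈ monF D Set.univ k) :
    sh D n t x ∈ monF D Set.univ (k + 1) :=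
  monF_stable (S := Finset.univ) (fun _ _ _ _ => Set.mem_univ _) t (Finset.mem_univ _) k x hx

/-- homogeneous component -/
noncomputable def cmp (D : Type*) [DivisionRing D] (n : ℕ) (k : ℤ) : PX D n →ₗ[D] PX D n where
  toFun x := x.filter fun μ => (μ.degree : ℤ) = k
  map_add' _ _ := Finsupp.filter_add
  map_smul' _ _ := Finsupp.filter_smul

theorem cmp_apply (k : ℤ) (x : PX D n) (μ : Fin n →₀ ℕ) :
    cmp D n k x μ = if (μ.degree : ℤ) = k then x μ else 0 := Finsupp.filter_apply _ _ _

theorem cmp_mem (k : ℤ) (x : PX D n) : cmp D n k x ∈ monF D Set.univ k :=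
  mem_monF_univ.2 fun μ hμ => by
    by_contra h
    exact hμ (by rw [cmp_apply, if_neg h])

theorem cmp_of_mem {k l : ℤ} {x : PX D n} (hx : x ∈ monF D Set.univ l) :
    cmp D n k x = if l = k then x else 0 := by
  ext μ
  rw [cmp_apply]
  by_cases h0 : x μ = 0
  · split_ifs <;> simp [h0]
  · rw [mem_monF_univ.1 hx μ h0]
    split_ifs <;> simp

/-- a graded linear map commutes with the homogeneous components -/
theorem cmp_comm {Θ : PX D n →ₗ[D] PX D n}
    (h : ∀ k, ∀ x ∈ monF D Set.univ k, Θ x ∈ monF D Set.univ k) (k : ℤ) (x : PX D n) :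
    cmp D n k (Θ x) = Θ (cmp D n k x) := by
  have : cmp D n k ∘ₗ Θ = Θ ∘ₗ cmp D n k := pb_end_ext fun μ c => by
    rw [LinearMap.comp_apply, LinearMap.comp_apply, cmp_of_mem (single_mem_monF μ c),
      cmp_of_mem (h _ _ (single_mem_monF μ c))]
    split_ifs <;> simp
  exact LinearMap.congr_fun this x

theorem pb_injective {Θ : PX D n →ₗ[D] PX D n}
    (h : ∀ k, (monF D Set.univ k).map Θ = monF D Set.univ k) : Function.Injective Θ := by
  have h1 : ∀ k, ∀ x ∈ monF D Set.univ k, Θ x ∈ monF D Set.univ k := fun k x hx =>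
    (h k).le (Submodule.mem_map_of_mem hx)
  rw [injective_iff_map_eq_zero]
  intro x hx
  ext μ
  set k : ℤ := (μ.degree : ℤ)
  have := monF_fd (D := D) (Set.univ : Set (Fin n →₀ ℕ)) k
  have hinj : Function.Injective (Θ.restrict (h1 k)) := by
    refine (LinearMap.injective_iff_surjective (K := D) (V := monF D Set.univ k)).2 ?_
    rintro ⟨y, hy⟩
    obtain ⟨z, hz, rfl⟩ := Submodule.mem_map.1 ((h k).ge hy)
    exact ⟨⟨z, hz⟩, rfl⟩
  have h2 : Θ.restrict (h1 k) ⟨cmp D n k x, cmp_mem k x⟩ = 0 := by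
    apply Subtype.ext
    change Θ (cmp D n k x) = 0
    rw [← cmp_comm h1, hx, map_zero]
  have h3 : cmp D n k x = 0 :=
    congrArg Subtype.val ((injective_iff_map_eq_zero _).1 hinj _ h2)
  have h4 := cmp_apply k x μ
  rw [h3, if_pos rfl] at h4
  exact h4.symm

theorem sh_apply_ne_zero {t : Fin n} {x : PX D n} {ν : Fin n →₀ ℕ} (h : sh D n t x ν ≠ 0) :
    0 < ν t := by
  classical
  have h1 : ν ∈ (Finsupp.mapDomain (fun μ => μ + Finsupp.single t 1) x).support :=
    Finsupp.mem_support_iff.2 h
  obtain ⟨μ, -, rfl⟩ := Finset.mem_image.1 (Finsupp.mapDomain_support h1)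
  simp

/-- the change of coordinates `x^μ ↦ α^μ` -/
theorem pb_theta (d e : Fin n → Fin n → D) (hc : ∀ j l, Commute (lin (d j)) (lin (d l)))
    (hinv : ∀ i l, ∑ j, e i j * d j l = if i = l then 1 else 0) :
    ∃ Θ : PX D n →ₗ[D] PX D n, (∀ t x, Θ (sh D n t x) = mR (lin (d t)) (Θ x)) ∧
      (∀ k, (monF D Set.univ k).map Θ = monF D Set.univ k) ∧
      ∀ m (b : ℕ), Θ (Finsupp.single (Finsupp.single m b) 1) = pbE D n (lin (d m) ^ b) := by
  obtain ⟨P, hP0, hP⟩ := pb_exists_P (fun j => lin (d j)) hc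
  set Θ : PX D n →ₗ[D] PX D n := Finsupp.linearCombination D fun μ => pbE D n (P μ) with hΘ
  have hs : ∀ μ c, Θ (Finsupp.single μ c) = c • pbE D n (P μ) := fun μ c =>
    Finsupp.linearCombination_single _ _ _
  have h1 : ∀ t x, Θ (sh D n t x) = mR (lin (d t)) (Θ x) := fun t x => by
    have : Θ ∘ₗ sh D n t = mR (lin (d t)) ∘ₗ Θ := pb_end_ext fun μ c => by
      rw [LinearMap.comp_apply, LinearMap.comp_apply, sh_single, hs, hs, map_smul, mR_E, hP]
    exact LinearMap.congr_fun this x
  have h2 : ∀ μ, pbE D n (P μ) ∈ monF D Set.univ (μ.degree : ℤ) := by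
    refine pb_induction ?_ fun μ t ih => ?_
    · rw [hP0]; exact single_mem_monF 0 1
    · rw [hP, ← mR_E, mR_lin, LinearMap.sum_apply, map_add, Finsupp.degree_single]
      push_cast
      exact Submodule.sum_mem _ fun i _ => sh_monF i (cR_monF _ ih)
  have h3 : ∀ t, (sh D n t : Module.End D (PX D n)) = ∑ j, mR (lin (d j)) * cR n (e t j) := by
    intro t
    simp only [mR_lin, Finset.sum_mul, mul_assoc, cR_mul]
    rw [Finset.sum_comm]
    simp only [← Finset.mul_sum, ← cR_sum, hinv]
    rw [Finset.sum_eq_single t]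
    · rw [if_pos rfl, cR_one, mul_one]
    · intro i _ hi
      rw [if_neg (Ne.symm hi), cR_zero, mul_zero]
    · simp
  have h4 : ∀ μ : Fin n →₀ ℕ,
      Finsupp.single μ (1 : D) ∈ (monF D Set.univ (μ.degree : ℤ)).map Θ := by
    refine pb_induction ?_ fun μ t ih => ?_
    · refine ⟨Finsupp.single 0 1, single_mem_monF 0 1, ?_⟩
      rw [hs, hP0, one_smul]; rfl
    · obtain ⟨y, hy, hy'⟩ := ih
      rw [← sh_single, h3, LinearMap.sum_apply, map_add, Finsupp.degree_single]
      push_cast
      refine Submodule.sum_mem _ fun j _ => ?_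
      have e1 : cR n (e t j) (Finsupp.single μ 1) = e t j • Finsupp.single μ (1 : D) := by
        rw [cR_single, Finsupp.smul_single, one_mul, smul_eq_mul, mul_one]
      rw [Module.End.mul_apply, e1, map_smul, ← hy', ← h1]
      exact Submodule.smul_mem _ _ (Submodule.mem_map_of_mem (sh_monF j hy))
  refine ⟨Θ, h1, fun k => le_antisymm ?_ ?_, fun m b => ?_⟩
  · rw [Submodule.map_le_iff_le_comap]
    conv_lhs => rw [monF, Finsupp.supported_eq_span_single]
    rw [Submodule.span_le]
    rintro _ ⟨μ, ⟨-, rfl⟩, rfl⟩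
    change Θ (Finsupp.single μ 1) ∈ monF D Set.univ (μ.degree : ℤ)
    rw [hs, one_smul]
    exact h2 μ
  · conv_lhs => rw [monF, Finsupp.supported_eq_span_single]
    rw [Submodule.span_le]
    rintro _ ⟨μ, ⟨-, rfl⟩, rfl⟩
    exact h4 μ
  · rw [hs, one_smul]
    congr 1
    induction b with
    | zero => simp [hP0]
    | succ b ih => rw [Finsupp.single_add, hP, ih, pow_succ]

variable [Algebra ℂ D]

theorem cR_extS (c : D) {V : Submodule ℂ (PX ℂ n)} {x : PX D n} (hx : x ∈ extS D V) :
    cR n c x ∈ extS D V := by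
  rw [mem_extS_iff] at hx ⊢
  intro φ
  convert hx (φ ∘ₗ LinearMap.mulRight ℂ c) using 1
  ext μ
  simp [cR_apply]

theorem sh_extS (t : Fin n) {V V' : Submodule ℂ (PX ℂ n)} (h : ∀ v ∈ V, sh ℂ n t v ∈ V')
    {x : PX D n} (hx : x ∈ extS D V) : sh D n t x ∈ extS D V' := by
  rw [mem_extS_iff] at hx ⊢
  intro φ
  convert h _ (hx φ) using 1
  simp only [sh, Finsupp.lmapDomain_apply]
  exact (Finsupp.mapDomain_mapRange _ _ _ _ (map_add φ)).symm

theorem pb_ideal (I : Ideal (MvPolynomial (Fin n) ℂ))
    (hI : ∀ g ∈ I, ∀ d : ℕ, MvPolynomial.homogeneousComponent d g ∈ I)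
    {f : MvPolynomial (Fin n) ℂ} (hf : f ∈ I) (g : DP D (Fin n)) (k : ℕ) :
    cmp D n k (pbE D n (g * incl D (Fin n) f)) ∈ extS D (idF I k) := by
  induction g using AddMonoidAlgebra.induction_linear with
  | zero => simp
  | add g g' h h' =>
    rw [add_mul, map_add, map_add]
    exact Submodule.add_mem _ h h'
  | single μ c =>
    have e1 : AddMonoidAlgebra.single μ c * incl D (Fin n) f =
        c • incl D (Fin n) (MvPolynomial.monomial μ 1 * f) := by
      have : incl D (Fin n) (MvPolynomial.monomial μ 1) = AddMonoidAlgebra.single μ 1 := by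
        rw [← map_one (algebraMap ℂ D)]
        exact AddMonoidAlgebra.mapRingHom_single _ _ _
      rw [map_mul, this, ← smul_mul_assoc, AddMonoidAlgebra.smul_single, smul_eq_mul, mul_one]
    rw [e1, map_smul, map_smul]
    refine Submodule.smul_mem _ _ (Submodule.subset_span ?_)
    set h := MvPolynomial.monomial μ 1 * f
    have hh : h ∈ I := I.mul_mem_left _ hf
    refine ⟨pbE ℂ n (MvPolynomial.homogeneousComponent k h), ?_, ?_⟩
    · rw [SetLike.mem_coe, idF_eq_map]
      exact Submodule.mem_map_of_mem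
        ⟨MvPolynomial.homogeneousComponent_isHomogeneous k h, hI h hh k⟩
    · ext ν
      rw [Finsupp.mapRange_apply, cmp_apply]
      change algebraMap ℂ D (MvPolynomial.coeff ν (MvPolynomial.homogeneousComponent k h)) =
        if _ then (AddMonoidAlgebra.mapRingHom _ (algebraMap ℂ D) h).coeff ν else 0
      rw [MvPolynomial.coeff_homogeneousComponent, AddMonoidAlgebra.coeff_mapRingHom]
      simp only [Nat.cast_inj]
      split_ifs
      · rfl
      · exact map_zero _

end Aux

theorem partB {n : ℕ} (a : Fin n → ℕ) (I : Ideal (MvPolynomial (Fin n) ℂ))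
    (hI : ∀ g ∈ I, ∀ d : ℕ, MvPolynomial.homogeneousComponent d g ∈ I)
    (f : Fin n → MvPolynomial (Fin n) ℂ) (hfI : ∀ i, f i ∈ I)
    (D : Type) [DivisionRing D] [Algebra ℂ D] (A : AlphaData D a f) :
    ∃ M : Set (Fin n →₀ ℕ), IsMonId M ∧ (∀ i, Finsupp.single i (a i) ∈ M) ∧
      (∀ d, hf M d = Module.finrank ℂ (degreePiece I d)) ∧
      ∀ p j : ℕ, (gradedBetti I p j : ℤ) ≤
        beta (sh ℂ n) Finset.univ (monF ℂ Set.univ) (monF ℂ M) p (j : ℤ) := by
  classical
  obtain ⟨Θ, hΘ1, hΘ2, hΘ3⟩ := pb_theta A.d A.e A.comm A.inv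
  have hinj := pb_injective hΘ2
  have hΘU : ∀ k, ∀ x ∈ monF D Set.univ k, Θ x ∈ monF D Set.univ k := fun k x hx =>
    (hΘ2 k).le (Submodule.mem_map_of_mem hx)
  set V : ℤ → Submodule D (PX D n) := fun k => extS D (idF I k) with hV
  have hVU : ∀ k, V k ≤ monF D Set.univ k := fun k => by
    rw [← extS_monF]; exact extS_mono D (idF_le I k)
  have hVz : ∀ t k, ∀ x ∈ V k, mR (lin (A.d t)) x ∈ V (k + 1) := fun t k x hx => by
    rw [mR_lin, LinearMap.sum_apply]
    exact Submodule.sum_mem _ fun i _ => sh_extS i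
      (idF_stable I Finset.univ i (Finset.mem_univ _) k) (cR_extS _ hx)
  set V' : ℤ → Submodule D (PX D n) := fun k => (V k).comap Θ ⊓ monF D Set.univ k with hV'
  have hV'U : ∀ k, V' k ≤ monF D Set.univ k := fun k => inf_le_right
  have hmap : ∀ k, (V' k).map Θ = V k := fun k => by
    refine le_antisymm (Submodule.map_le_iff_le_comap.2 inf_le_left) fun x hx => ?_
    obtain ⟨y, hy, rfl⟩ := Submodule.mem_map.1 ((hΘ2 k).ge (hVU k hx))
    exact Submodule.mem_map_of_mem ⟨hx, hy⟩
  have hst : Stable (sh D n) Finset.univ V' := fun t _ k x hx =>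
    ⟨show Θ (sh D n t x) ∈ V (k + 1) by rw [hΘ1]; exact hVz t k _ hx.1, sh_monF t hx.2⟩
  have hsurj : ∀ y, ∃ u, Θ u = y := fun y => by
    induction y using Finsupp.induction_linear with
    | zero => exact ⟨0, map_zero _⟩
    | add y y' h h' =>
      obtain ⟨u, rfl⟩ := h
      obtain ⟨u', rfl⟩ := h'
      exact ⟨u + u', map_add _ _ _⟩
    | single μ c =>
      obtain ⟨u, -, hu⟩ := Submodule.mem_map.1 ((hΘ2 _).ge (single_mem_monF μ c))
      exact ⟨u, hu⟩
  refine ⟨lead (rlw n) V', fun μ hμ t => lead_add (rlw n) hst μ hμ t (Finset.mem_univ _),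
    fun m => ?_, fun d => ?_, fun p j => ?_⟩
  · obtain ⟨g, γ, hrel⟩ := A.rel m
    choose u hu using fun j => hsurj (pbE D n (γ j))
    set v₀ : PX D n := Finsupp.single (Finsupp.single m (a m)) 1 -
      ∑ j ∈ Finset.univ.filter (m < ·), sh D n j (u j) with hv₀
    have h1 : Θ v₀ = ∑ i, pbE D n (g i * incl D (Fin n) (f i)) := by
      rw [hv₀, map_sub, hΘ3, hrel, map_add, map_sum, map_sum, map_sum]
      simp only [hΘ1, hu, mR_E, add_sub_cancel_right]
    have h2 : ∀ ν, v₀ ν ≠ 0 → ν = Finsupp.single m (a m) ∨ ∃ j, m < j ∧ 0 < ν j := by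
      intro ν hν
      by_contra hc
      push Not at hc
      apply hν
      rw [hv₀, Finsupp.sub_apply, Finsupp.single_eq_of_ne hc.1, Finsupp.finsetSum_apply,
        Finset.sum_eq_zero, sub_zero]
      intro j hj
      by_contra h0
      exact absurd (sh_apply_ne_zero h0) (not_lt.2 (hc.2 j (Finset.mem_filter.1 hj).2))
    have h3 : v₀ (Finsupp.single m (a m)) = 1 := by
      rw [hv₀, Finsupp.sub_apply, Finsupp.single_eq_same, Finsupp.finsetSum_apply,
        Finset.sum_eq_zero, sub_zero]
      intro j hj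
      by_contra h0
      have := sh_apply_ne_zero h0
      rw [Finsupp.single_eq_of_ne (Finset.mem_filter.1 hj).2.ne'] at this
      exact lt_irrefl _ this
    refine ⟨cmp D n (a m) v₀, ?_, ?_, fun ν hν => ?_⟩
    · rw [Finsupp.degree_single]
      refine ⟨?_, cmp_mem _ _⟩
      change Θ (cmp D n (a m) v₀) ∈ V (a m)
      rw [← cmp_comm hΘU, h1, map_sum]
      exact Submodule.sum_mem _ fun i _ => pb_ideal I hI (hfI i) _ _
    · rw [cmp_apply, Finsupp.degree_single, if_pos rfl, h3]
      exact one_ne_zero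
    · have hν' : v₀ ν ≠ 0 := fun h => hν (by rw [cmp_apply, h, ite_self])
      rcases h2 ν hν' with rfl | ⟨j, hj, hνj⟩
      · exact le_rfl
      · obtain ⟨i, hi, hmax⟩ := ν.support.exists_max_image id
          ⟨j, Finsupp.mem_support_iff.2 hνj.ne'⟩
        have hji : j ≤ i := hmax j (Finsupp.mem_support_iff.2 hνj.ne')
        refine ((rlw_lt_iff _ _).2 ⟨i, fun l hl => ?_, ?_⟩).le
        · rw [Finsupp.single_eq_of_ne (hj.trans (hji.trans_lt hl)).ne']
          by_contra h0
          exact absurd (hmax l (Finsupp.mem_support_iff.2 (Ne.symm h0))) (not_le.2 hl)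
        · rw [Finsupp.single_eq_of_ne (hj.trans_le hji).ne']
          exact Nat.pos_of_ne_zero (Finsupp.mem_support_iff.1 hi)
  · have := (monF_fd (D := ℂ) (Set.univ : Set (Fin n →₀ ℕ))).mono (idF_le I) d
    rw [← finrank_monF (D := D), finrank_lead (rlw n) rlw_injective hV'U,
      (Submodule.equivMapOfInjective Θ hinj (V' d)).finrank_eq, hmap, hV]
    simp only
    rw [finrank_extS, finrank_idF]
  · have hde : ∀ j l, ∑ i, A.d l i * A.e i j = if j = l then 1 else 0 := by
      have h1 : Matrix.of A.e * Matrix.of A.d = 1 := by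
        ext i l
        rw [Matrix.mul_apply, Matrix.one_apply]
        exact A.inv i l
      have h2 := mul_eq_one_comm.1 h1
      intro j l
      have h3 := congrFun (congrFun h2 l) j
      rw [Matrix.mul_apply, Matrix.one_apply] at h3
      simpa [eq_comm] using h3
    have hc1 : ∀ i j l, A.d j i * A.d l i = A.d l i * A.d j i := fun i j l => by
      have h1 := pb_coef (A.d j) (A.d l) i i
      rw [(A.comm j l).eq, pb_coef, if_pos rfl, if_pos rfl] at h1
      exact h1.symm
    have hc2 : ∀ i k j l, A.d l k * A.d j i - A.d j i * A.d l k =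
        A.d j k * A.d l i - A.d l i * A.d j k := fun i k j l => by
      by_cases hik : i = k
      · subst hik
        rw [hc1 i j l, sub_self]
      · have h1 := pb_coef (A.d j) (A.d l) i k
        rw [(A.comm j l).eq, pb_coef, if_neg hik, if_neg hik] at h1
        rw [sub_eq_sub_iff_add_eq_add, add_comm (A.d l k * _), h1, add_comm]
    have hb1 : beta (fun t => mR (lin (A.d t))) Finset.univ (monF D Set.univ) V p j =
        beta (sh D n) Finset.univ (monF D Set.univ) V p j := by
      refine beta_co (sh D n) (fun t => mR (lin (A.d t))) Finset.univ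
        (fun i j => cR n (A.d j i)) (fun j i => cR n (A.e i j)) _ _ hVU (monF_fd _)
        (fun j _ => mR_lin _) (fun i _ k _ j _ l _ _ => ?_) (fun i _ j _ l _ => ?_)
        (fun i _ k _ j _ l _ _ => ?_) (fun j _ l _ => ?_)
        (fun i _ j _ k x hx => cR_monF _ hx) (fun i _ j _ k x hx => cR_extS _ hx) p j
      · simp only [cR_mul, ← cR_sub, hc2 i k j l]
      · simp only [cR_mul, hc1 i j l]
      · have h0 : ∀ (c c' : D) (t : Fin n), (cR n c * (sh D n t : Module.End D (PX D n)) -
            (sh D n t : Module.End D (PX D n)) * cR n c) * cR n c' = 0 := fun c c' t =>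
          (congrArg (· * cR n c') (sub_eq_zero.2 (cR_sh c t))).trans (zero_mul _)
        exact (h0 _ _ _).trans (h0 _ _ _).symm
      · simp only [cR_mul, ← cR_sum, hde]
        split_ifs
        exacts [cR_one, cR_zero]
    have hb2 := beta_map Θ hinj (S := Finset.univ) (fun t _ x => hΘ1 t x)
      (monF D Set.univ) V' p j
    simp only [hΘ2, hmap] at hb2
    have hb3 := beta_le_lead (rlw n) rlw_injective (S := Finset.univ) hV'U p j
    have hb4 := beta_extS D Finset.univ (monF ℂ Set.univ) (idF I) (idF_le I) (monF_fd _) p j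
    have hb5 := beta_extS D Finset.univ (monF ℂ Set.univ) (monF ℂ (lead (rlw n) V'))
      (monF_mono (Set.subset_univ _)) (monF_fd _) p j
    simp only [extS_monF] at hb4 hb5
    rw [gradedBetti_eq_beta, ← hb4, ← hb5]
    exact (hb1.symm.trans hb2).le.trans hb3

end Crest.Agent.R181
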