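import Crest.Agent.R181.PartA
import Crest.Agent.R181.PartB
import Crest.Agent.R181.Final

set_option autoImplicit false

namespace Crest.Agent.R181

open Crest.AlgebraR.LPP

theorem main (n : ℕ) (a : Fin n → ℕ)
    (ha : Monotone a) (ha2 : ∀ i, 2 ≤ a i) (I : Ideal (MvPolynomial (Fin n) ℂ))
    (hI : ∀ g ∈ I, ∀ d : ℕ, MvPolynomial.homogeneousComponent d g ∈ I)
    (f : Fin n → MvPolynomial (Fin n) ℂ) (hf : ∀ i, (f i).IsHomogeneous (a i)) (hfI : ∀ i, f i ∈ I)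
    (hreg : RingTheory.Sequence.IsRegular (MvPolynomial (Fin n) ℂ) (List.ofFn f)) :
    ∃ U : ℕ → Set (Fin n →₀ ℕ), (∀ d, IsLexSegment n d (U d)) ∧
      (∀ d, Module.finrank ℂ (lppPiece a (U d) d) = Module.finrank ℂ (degreePiece I d)) ∧
      ∃ J : Ideal (MvPolynomial (Fin n) ℂ),
        (∀ g ∈ J, ∀ d : ℕ, MvPolynomial.homogeneousComponent d g ∈ J) ∧
        (∀ d, degreePiece J d = lppPiece a (U d) d) ∧
        ∀ p j : ℕ, gradedBetti I p j ≤ gradedBetti J p j := by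
  obtain ⟨D, _, _, ⟨A⟩⟩ := partA a ha2 ha f hf hreg
  obtain ⟨M, hM, hPM, hfM, hβM⟩ := partB a I hI f hfI D A
  obtain ⟨L, hL, hPL, hlpp, hfL, hβL⟩ := partC a ha ha2 M hM hPM
  obtain ⟨U, hU, hUf, J, hJ, hJU, hJL⟩ := final_of_lpp a L hL hPL hlpp
  refine ⟨U, hU, fun d => by rw [hUf, hfL, hfM], J, hJ, hJU, fun p j => ?_⟩
  have h1 := hβM p j
  have h2 := hβL p (j : ℤ)
  have h3 := gradedBetti_eq_beta J p j
  have h4 : idF J = monF ℂ L := funext hJL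
  rw [h4] at h3
  omega

end Crest.Agent.R181
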