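import Crest.Agent.R181.AAssemble

/-! # Row 181, part A: the division ring and the commuting linear forms. -/

set_option autoImplicit false

namespace Crest.Agent.R181

theorem partA {n : ℕ} (a : Fin n → ℕ) (ha2 : ∀ i, 2 ≤ a i) (ha : Monotone a)
    (f : Fin n → MvPolynomial (Fin n) ℂ) (hf : ∀ i, (f i).IsHomogeneous (a i))
    (hreg : RingTheory.Sequence.IsRegular (MvPolynomial (Fin n) ℂ) (List.ofFn f)) :
    ∃ (D : Type) (_ : DivisionRing D) (_ : Algebra ℂ D), Nonempty (AlphaData D a f) := by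
  have ha1 : ∀ i, 1 ≤ a i := fun i => le_trans (by norm_num) (ha2 i)
  have hpow := exists_pow_mem a ha1 f hf hreg
  obtain ⟨c⟩ := exists_config n (∑ i, a i)
  obtain ⟨s⟩ := c.exists_sys a f ha1 ha
    (fun i => Finset.single_le_sum (fun j _ => Nat.zero_le (a j)) (Finset.mem_univ i)) hf hpow
  exact alpha_of_sys s ha1 hpow

end Crest.Agent.R181
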