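import Crest.Agent.R181.KosLES
import Crest.Agent.R181.KosCO
import Crest.Agent.R181.KosGrob
import Crest.Agent.R181.CStep

/-! # Row 181, part C: Clements–Lindström + Mermin–Murai for monomial ideals containing pure powers. -/

set_option autoImplicit false

namespace Crest.Agent.R181

/-- `L` is lex-plus-powers: with a monomial not divisible by any `x_i ^ a_i` it contains all
lexicographically larger monomials of the same degree. -/
def IsLPP {n : ℕ} (a : Fin n → ℕ) (L : Set (Fin n →₀ ℕ)) : Prop :=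
  ∀ μ ∈ L, (∀ i, μ i < a i) → ∀ ν : Fin n →₀ ℕ, ν.degree = μ.degree → toLex μ ≤ toLex ν → ν ∈ L

theorem partC {n : ℕ} (a : Fin n → ℕ) (ha : Monotone a) (ha2 : ∀ i, 2 ≤ a i)
    (M : Set (Fin n →₀ ℕ)) (hM : IsMonId M) (hP : ∀ i, Finsupp.single i (a i) ∈ M) :
    ∃ L : Set (Fin n →₀ ℕ), IsMonId L ∧ (∀ i, Finsupp.single i (a i) ∈ L) ∧ IsLPP a L ∧
      (∀ d, hf L d = hf M d) ∧
      ∀ (p : ℕ) (j : ℤ), beta (sh ℂ n) Finset.univ (monF ℂ Set.univ) (monF ℂ M) p j ≤
        beta (sh ℂ n) Finset.univ (monF ℂ Set.univ) (monF ℂ L) p j := by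
  have hG : Good a Finset.univ M :=
    good_of_pow (fun i => by have := ha2 i; omega) (by rw [AS_univ]; exact Set.subset_univ _)
      (fun μ hμ t _ => hM μ hμ t) fun t _ => hP t
  obtain ⟨L, hL, hl, hf, hb⟩ := claim_all ha ha2 Finset.univ M hG
  refine ⟨L, fun μ hμ t => hL.mul μ hμ t (Finset.mem_univ t), fun i => hL.single_mem (Finset.mem_univ i),
    fun μ hμ hbox ν hd hle => hl μ hμ hbox ν (by rw [AS_univ]; trivial) hd hle, hf, fun p j => ?_⟩
  have := hb p j
  unfold bq at this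
  rwa [AS_univ] at this

end Crest.Agent.R181
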